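import Mathlib

/-! Reiter's condition inside an ambient group. -/

namespace Vale.Agent.P196.Rt

open Finset

section
variable {α : Type*}
noncomputable def N1 (f : α →₀ ℝ) : ℝ := f.sum fun _ r => |r|
lemma N1_eq (f : α →₀ ℝ) {T : Finset α} (h : f.support ⊆ T) : N1 f = ∑ a ∈ T, |f a| :=
  Finsupp.sum_of_support_subset f h _ (by simp)
lemma N1_add_le (f g : α →₀ ℝ) : N1 (f + g) ≤ N1 f + N1 g := by
  classical
  rw [N1_eq _ Finsupp.support_add, N1_eq f subset_union_left, N1_eq g subset_union_right,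
    ← sum_add_distrib]
  exact sum_le_sum fun a _ => abs_add_le _ _
lemma N1_smul (r : ℝ) (f : α →₀ ℝ) : N1 (r • f) = |r| * N1 f := by
  rw [N1_eq _ Finsupp.support_smul, N1_eq f le_rfl, mul_sum]
  simp [abs_mul]
@[simp] lemma N1_zero : N1 (0 : α →₀ ℝ) = 0 := by simp [N1]
lemma N1_sum_le {ι : Type*} (s : Finset ι) (f : ι → α →₀ ℝ) :
    N1 (∑ i ∈ s, f i) ≤ ∑ i ∈ s, N1 (f i) := by
  classical
  induction s using Finset.induction_on with
  | empty => simp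
  | insert i s hi ih => rw [sum_insert hi, sum_insert hi]; exact (N1_add_le _ _).trans (by gcongr)
noncomputable def tot : (α →₀ ℝ) →ₗ[ℝ] ℝ := Finsupp.linearCombination ℝ fun _ => 1
lemma tot_eq (f : α →₀ ℝ) {T : Finset α} (h : f.support ⊆ T) : tot f = ∑ a ∈ T, f a := by
  rw [tot, Finsupp.linearCombination_apply, Finsupp.sum_of_support_subset f h _ (by simp)]; simp
def Pr (f : α →₀ ℝ) : Prop := (∀ a, 0 ≤ f a) ∧ tot f = 1
lemma N1_of_nonneg {f : α →₀ ℝ} (h : ∀ a, 0 ≤ f a) : N1 f = tot f := by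
  rw [N1_eq f le_rfl, tot_eq f le_rfl]; exact sum_congr rfl fun a _ => abs_of_nonneg (h a)
lemma Pr.n1 {f : α →₀ ℝ} (h : Pr f) : N1 f = 1 := (N1_of_nonneg h.1).trans h.2
lemma Pr.nonempty {f : α →₀ ℝ} (h : Pr f) : f.support.Nonempty := by
  rw [Finsupp.support_nonempty_iff]; rintro rfl; simpa using h.2
end

section
variable {H Ω : Type*} [Group H] [MulAction H Ω]
noncomputable def tr (g : H) (f : Ω →₀ ℝ) : Ω →₀ ℝ := Finsupp.equivMapDomain (MulAction.toPerm g) f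
lemma tr_apply (g : H) (f : Ω →₀ ℝ) (a : Ω) : tr g f a = f (g⁻¹ • a) := rfl
lemma tr_mul (g h : H) (f : Ω →₀ ℝ) : tr (g * h) f = tr g (tr h f) := by
  ext a; simp [tr_apply, mul_smul]
@[simp] lemma tr_one (f : Ω →₀ ℝ) : tr (1 : H) f = f := by ext a; simp [tr_apply]
lemma tr_sub (g : H) (f f' : Ω →₀ ℝ) : tr g (f - f') = tr g f - tr g f' := by ext a; simp [tr_apply]
lemma N1_tr (g : H) (f : Ω →₀ ℝ) : N1 (tr g f) = N1 f := by
  simp [N1, tr, Finsupp.sum_equivMapDomain]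
lemma tot_tr (g : H) (f : Ω →₀ ℝ) : tot (tr g f) = tot f := by
  simp [tot, tr, Finsupp.linearCombination_apply, Finsupp.sum_equivMapDomain]
lemma Pr.tr {f : Ω →₀ ℝ} (h : Pr f) (g : H) : Pr (tr g f) := ⟨fun _ => h.1 _, (tot_tr g f).trans h.2⟩
end

variable {G : Type*} [Group G]

def Am (S : Set G) : Prop := ∀ K : Finset G, (∀ g ∈ K, g ∈ S) → ∀ ε : ℝ, 0 < ε →
  ∃ μ : G →₀ ℝ, Pr μ ∧ ∀ g ∈ K, N1 (tr g μ - μ) ≤ ε
lemma Am.mono {S T : Set G} (h : Am T) (e : S ⊆ T) : Am S := fun K hK => h K fun g hg => e (hK g hg)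
lemma am_one : Am ({1} : Set G) := fun K hK ε hε => by
  refine ⟨Finsupp.single 1 1, ⟨fun a => ?_, by simp [tot]⟩, fun g hg => ?_⟩
  · classical
    rw [Finsupp.single_apply]; split_ifs <;> norm_num
  · rw [show g = 1 from hK g hg]; simp [hε.le]

theorem am_act (A : Subgroup G) {Ω : Type*} [MulAction A Ω]
    (h : ∀ (K : Finset A) (ε : ℝ), 0 < ε → ∃ ν : Ω →₀ ℝ, Pr ν ∧ (∀ g ∈ K, N1 (tr g ν - ν) ≤ ε) ∧
      ∀ ω ∈ ν.support, Am {g : G | ∃ a : A, a • ω = ω ∧ (a : G) = g}) : Am (A : Set G) := by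
  classical
  intro K hK ε hε
  obtain ⟨ν, hν, h1, h2⟩ := h (K.subtype (· ∈ A)) (ε / 2) (by positivity)
  set K' := K.subtype (· ∈ A)
  set S := ν.support
  have : ∀ O : Set Ω, ∃ s, (∃ s' ∈ S, s' ∈ O) → s ∈ S ∧ s ∈ O := fun O => by
    by_cases e : ∃ s' ∈ S, s' ∈ O
    · obtain ⟨s, hs⟩ := e; exact ⟨s, fun _ => hs⟩
    · exact ⟨hν.nonempty.choose, fun q => absurd q e⟩
  choose R hR using this
  have : ∀ ω : Ω, ∃ a : A, R (MulAction.orbit A ω) ∈ MulAction.orbit A ω →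
      a • R (MulAction.orbit A ω) = ω := fun ω => by
    by_cases e : R (MulAction.orbit A ω) ∈ MulAction.orbit A ω
    · obtain ⟨a, ha⟩ := e
      exact ⟨a⁻¹, fun _ => by rw [inv_smul_eq_iff]; exact ha.symm⟩
    · exact ⟨1, fun q => absurd q e⟩
  choose a ha using this
  let r : Ω → Ω := fun ω => R (MulAction.orbit A ω)
  have r1 : ∀ (g : A) ω, r (g • ω) = r ω := fun g ω =>
    congrArg R (MulAction.orbit_eq_iff.2 (MulAction.mem_orbit ω g))
  have r2 : ∀ ω ∈ S, r ω ∈ S ∧ r ω ∈ MulAction.orbit A ω := fun ω hω =>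
    hR _ ⟨ω, hω, MulAction.mem_orbit_self ω⟩
  let c : A → Ω → A := fun g ω => (a (g • ω))⁻¹ * g * a ω
  have c1 : ∀ ω ∈ S, ∀ g : A, c g ω • r ω = r ω := fun ω hω g => by
    have e1 : a ω • r ω = ω := ha ω (r2 ω hω).2
    have e2 : a (g • ω) • r (g • ω) = g • ω := ha _ (by
      show r (g • ω) ∈ _
      rw [r1, MulAction.orbit_eq_iff.2 (MulAction.mem_orbit ω g)]; exact (r2 ω hω).2)
    rw [r1] at e2
    simp only [c, mul_smul, e1, inv_smul_eq_iff, e2]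
  have : ∀ ρ : Ω, ∃ μ : G →₀ ℝ, Pr μ ∧ ∀ ω ∈ S, r ω = ρ → ∀ g ∈ K',
      N1 (tr (c g ω : G) μ - μ) ≤ ε / 2 := fun ρ => by
    by_cases e : ρ ∈ S
    · obtain ⟨μ, m1, m2⟩ := h2 ρ e (((S ×ˢ K').filter fun p => r p.1 = ρ).image
        fun p => (c p.2 p.1 : G)) (fun g hg => by
          obtain ⟨p, hp, rfl⟩ := mem_image.1 hg
          obtain ⟨hp1, rfl⟩ := mem_filter.1 hp
          exact ⟨_, c1 _ (mem_product.1 hp1).1 _, rfl⟩) (ε / 2) (by positivity)
      exact ⟨μ, m1, fun ω hω e g hg => m2 _ (mem_image.2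
        ⟨(ω, g), mem_filter.2 ⟨mem_product.2 ⟨hω, hg⟩, e⟩, rfl⟩)⟩
    · obtain ⟨μ, m1, -⟩ := am_one (G := G) ∅ (by simp) 1 one_pos
      exact ⟨μ, m1, fun ω hω e' => absurd (e' ▸ (r2 ω hω).1) e⟩
  choose μ m1 m2 using this
  let m : Ω → G →₀ ℝ := fun ω => tr (a ω : G) (μ (r ω))
  have m3 : ∀ ω, Pr (m ω) := fun ω => (m1 _).tr _
  have m4 : ∀ ω ∈ S, ∀ g ∈ K', N1 (tr (g : G) (m ω) - m (g • ω)) ≤ ε / 2 := fun ω hω g hg => by
    have : tr (g : G) (m ω) - m (g • ω) = tr (a (g • ω) : G) (tr (c g ω : G) (μ (r ω)) - μ (r ω)) := by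
      simp only [m, r1, tr_sub, ← tr_mul, c]
      congr 2; push_cast; group
    rw [this, N1_tr]; exact m2 _ ω hω rfl g hg
  let Ψ : (Ω →₀ ℝ) →ₗ[ℝ] (G →₀ ℝ) := Finsupp.linearCombination ℝ m
  have Ψ1 : ∀ f, Ψ f = ∑ ω ∈ f.support, f ω • m ω := fun f => rfl
  have Ψ2 : ∀ f, N1 (Ψ f) ≤ N1 f := fun f => by
    rw [Ψ1, N1_eq f le_rfl]
    exact (N1_sum_le _ _).trans (sum_le_sum fun ω _ => by rw [N1_smul, (m3 ω).n1, mul_one])
  refine ⟨Ψ ν, ⟨fun x => ?_, ?_⟩, fun g hg => ?_⟩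
  · rw [Ψ1, Finsupp.finsetSum_apply]
    exact sum_nonneg fun ω _ => mul_nonneg (hν.1 ω) ((m3 ω).1 x)
  · rw [Ψ1, map_sum, ← hν.2, tot_eq ν le_rfl]
    exact sum_congr rfl fun ω _ => by rw [map_smul, (m3 ω).2]; simp
  · let g' : A := ⟨g, hK g hg⟩
    have hg' : g' ∈ K' := mem_subtype.2 hg
    have e1 : Ψ (tr g' ν) = ∑ ω ∈ S, ν ω • m (g' • ω) := by
      simp only [Ψ, Finsupp.linearCombination_apply, tr, Finsupp.sum_equivMapDomain]; rfl
    have : tr g (Ψ ν) - Ψ ν = ∑ ω ∈ S, ν ω • (tr g (m ω) - m (g' • ω)) + Ψ (tr g' ν - ν) := by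
      rw [map_sub, e1, Ψ1]
      ext x
      simp [tr_apply, Finsupp.finsetSum_apply, mul_sub, S]
    rw [this]
    refine (N1_add_le _ _).trans ?_
    have e2 : N1 (∑ ω ∈ S, ν ω • (tr g (m ω) - m (g' • ω))) ≤ ε / 2 := by
      refine (N1_sum_le _ _).trans ((sum_le_sum (g := fun ω => |ν ω| * (ε / 2)) fun ω hω => ?_).trans ?_)
      · rw [N1_smul]; gcongr; exact m4 ω hω g' hg'
      · rw [← sum_mul, ← N1_eq ν le_rfl, hν.n1, one_mul]
    linarith [(Ψ2 _).trans (h1 g' hg')]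

theorem am_fin (A : Subgroup G) {Ω : Type*} [MulAction A Ω] (S : Finset Ω) (hS : S.Nonempty)
    (h1 : ∀ (a : A), ∀ s ∈ S, a • s ∈ S)
    (h2 : ∀ ω ∈ S, Am {g : G | ∃ a : A, a • ω = ω ∧ (a : G) = g}) : Am (A : Set G) := by
  classical
  refine am_act A (Ω := Ω) fun K ε hε => ?_
  let ν : Ω →₀ ℝ := Finsupp.onFinset S (fun ω => if ω ∈ S then (S.card : ℝ)⁻¹ else 0)
    fun ω h => by by_contra e; simp [e] at h
  have e1 : ν.support ⊆ S := Finsupp.support_onFinset_subset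
  refine ⟨ν, ⟨fun ω => ?_, ?_⟩, fun g _ => ?_, fun ω hω => h2 ω (e1 hω)⟩
  · simp only [ν, Finsupp.onFinset_apply]; split_ifs <;> positivity
  · rw [tot_eq ν e1, sum_congr rfl (g := fun _ => (S.card : ℝ)⁻¹) fun ω hω => by simp [ν, hω]]
    simp [hS.ne_empty]
  · have : tr g ν = ν := by
      ext ω
      have : g⁻¹ • ω ∈ S ↔ ω ∈ S := ⟨fun e => by simpa using h1 g _ e, h1 _ _⟩
      simp [tr_apply, ν, this]
    simp [this, hε.le]

theorem am_finite (A : Subgroup G) (h : (A : Set G).Finite) : Am (A : Set G) := by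
  refine am_fin A (Ω := G) h.toFinset ⟨1, by simp⟩ (fun a s hs => ?_) fun ω _ => am_one.mono ?_
  · simp only [Set.Finite.mem_toFinset, SetLike.mem_coe] at hs ⊢
    exact A.mul_mem a.2 hs
  · rintro _ ⟨a, ha, rfl⟩
    simpa [Subgroup.smul_def] using ha

lemma layer [DecidableEq G] (K : Finset G) (ε : ℝ) : ∀ (n : ℕ) (μ : G →₀ ℝ), μ.support.card = n → (∀ a, 0 ≤ μ a) →
    ∑ g ∈ K, N1 (tr g μ - μ) < ε * N1 μ → ∃ D : Finset G, D.Nonempty ∧
      ∑ g ∈ K, ((symmDiff (D.image (g * ·)) D).card : ℝ) < ε * D.card := by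
  intro n
  induction n using Nat.strong_induction_on with
  | _ n ih =>
  intro μ hn h0 h
  set D := μ.support with hD
  have hne : D.Nonempty := by
    rw [hD, Finsupp.support_nonempty_iff]; rintro rfl
    simp [show ∀ g : G, tr g (0 : G →₀ ℝ) = 0 from fun g => by ext; simp [tr_apply]] at h
  by_contra hc
  have hb : ε * D.card ≤ ∑ g ∈ K, ((symmDiff (D.image (g * ·)) D).card : ℝ) :=
    not_lt.1 fun e => hc ⟨D, hne, e⟩
  obtain ⟨b, hb1, hb2⟩ := exists_min_image D μ hne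
  set t := μ b
  have ht : 0 < t := lt_of_le_of_ne (h0 b) (Finsupp.mem_support_iff.1 hb1).symm
  let μ' : G →₀ ℝ := Finsupp.onFinset (D.erase b) (fun x => if x ∈ D then μ x - t else 0)
    fun x hx => by
      by_cases e : x ∈ D
      · refine mem_erase.2 ⟨?_, e⟩; rintro rfl; simp [t] at hx
      · simp [e] at hx
  have e1 : μ'.support ⊆ D.erase b := Finsupp.support_onFinset_subset
  have e2 : ∀ x, μ' x = if x ∈ D then μ x - t else 0 := fun x => rfl
  have e3 : ∀ x, x ∉ D → μ x = 0 := fun x hx => Finsupp.notMem_support_iff.1 hx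
  have p' : ∀ x, 0 ≤ μ' x := fun x => by
    rw [e2]; split_ifs with e
    exacts [sub_nonneg.2 (hb2 x e), le_rfl]
  refine hc (ih _ ?_ μ' rfl p' ?_)
  · exact (card_le_card e1).trans_lt (hn ▸ card_erase_lt_of_mem hb1)
  have n1 : N1 μ = N1 μ' + t * D.card := by
    rw [N1_eq μ le_rfl, N1_eq μ' (e1.trans (erase_subset _ _)), mul_comm, ← nsmul_eq_mul, ← sum_const,
      ← sum_add_distrib]
    refine sum_congr rfl fun x hx => ?_
    rw [abs_of_nonneg (h0 x), abs_of_nonneg (p' x), e2, if_pos hx]; ring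
  have n2 : ∀ g : G, N1 (tr g μ - μ) = N1 (tr g μ' - μ') +
      t * (symmDiff (D.image (g * ·)) D).card := fun g => by
    have mi : ∀ x, x ∈ D.image (g * ·) ↔ g⁻¹ * x ∈ D := fun x => by
      rw [mem_image]
      exact ⟨by rintro ⟨y, hy, rfl⟩; simpa using hy, fun e => ⟨_, e, by simp⟩⟩
    have s1 : ∀ f : G →₀ ℝ, (∀ x, x ∉ D → f x = 0) →
        (tr g f - f).support ⊆ D.image (g * ·) ∪ D := fun f hf x hx => by
      by_contra e
      rw [mem_union, not_or, mi] at e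
      simp [tr_apply, hf _ e.1, hf _ e.2] at hx
    have s2 : (symmDiff (D.image (g * ·)) D).card =
        ∑ x ∈ D.image (g * ·) ∪ D, if x ∈ symmDiff (D.image (g * ·)) D then (1 : ℝ) else 0 := by
      rw [← sum_filter, filter_mem_eq_inter, inter_eq_right.2 symmDiff_subset_union]; simp
    rw [N1_eq _ (s1 μ e3), N1_eq _ (s1 μ' fun x hx => by rw [e2, if_neg hx]), s2, mul_sum,
      ← sum_add_distrib]
    refine sum_congr rfl fun x _ => ?_
    simp only [Finsupp.coe_sub, Pi.sub_apply, tr_apply, smul_eq_mul, e2, mem_symmDiff, mi]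
    by_cases a1 : g⁻¹ * x ∈ D <;> by_cases a2 : x ∈ D
    · simp [a1, a2]
    · have := hb2 _ a1
      simp only [a1, a2, e3 x a2, if_true, if_false, not_false_eq_true, and_self, true_or, sub_zero]
      rw [abs_of_nonneg (h0 _), abs_of_nonneg (by linarith)]; ring
    · have := hb2 _ a2
      simp only [a1, a2, e3 _ a1, if_true, if_false, not_false_eq_true, and_self, or_true, zero_sub,
        abs_neg]
      rw [abs_of_nonneg (h0 _), abs_of_nonneg (by linarith)]; ring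
    · simp [a1, a2, e3 _ a1, e3 _ a2]
  simp only [n2, sum_add_distrib, ← mul_sum, n1] at h
  nlinarith

theorem folner [DecidableEq G] (h : Am (Set.univ : Set G)) (K : Finset G) (ε : ℝ) (hε : 0 < ε) :
    ∃ D : Finset G, D.Nonempty ∧
      ∀ g ∈ K, ((symmDiff (D.image (g * ·)) D).card : ℝ) < ε * D.card := by
  obtain ⟨μ, h1, h2⟩ := h K (fun _ _ => trivial) (ε / (K.card + 1)) (by positivity)
  obtain ⟨D, hD, e⟩ := layer K ε _ μ rfl h1.1 (by
    rw [h1.n1, mul_one]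
    refine (sum_le_card_nsmul _ _ _ h2).trans_lt ?_
    rw [nsmul_eq_mul, mul_div_assoc', div_lt_iff₀ (by positivity)]; nlinarith)
  exact ⟨D, hD, fun g hg => (single_le_sum (f := fun g => ((symmDiff (D.image (g * ·)) D).card : ℝ))
    (fun _ _ => by positivity) hg).trans_lt e⟩

end Vale.Agent.P196.Rt
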