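import Vale.Agent.P196.Amen1

/-! The lamp step: a recurrent action and an integer cocycle with finite supports. -/

namespace Vale.Agent.P196.Rt

open Finset

lemma weier {ι : Type*} (s : Finset ι) (o a : ι → ℝ) (ha : ∀ i ∈ s, 0 ≤ a i)
    (h : ∀ i ∈ s, 1 - a i ≤ o i) (h1 : ∑ i ∈ s, a i ≤ 1) : 1 - ∑ i ∈ s, a i ≤ ∏ i ∈ s, o i := by
  classical
  induction s using Finset.induction_on with
  | empty => simp
  | insert i s hi ih =>
    rw [sum_insert hi] at h1 ⊢
    rw [prod_insert hi]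
    have h2 := ha i (mem_insert_self _ _)
    have h3 := h i (mem_insert_self _ _)
    have h4 : 0 ≤ ∑ i ∈ s, a i := sum_nonneg fun j hj => ha j (mem_insert_of_mem hj)
    have := ih (fun j hj => ha j (mem_insert_of_mem hj)) (fun j hj => h j (mem_insert_of_mem hj))
      (by linarith)
    calc 1 - (a i + ∑ i ∈ s, a i) ≤ (1 - a i) * (1 - ∑ i ∈ s, a i) := by nlinarith
      _ ≤ _ := mul_le_mul h3 this (by linarith) (by linarith)

lemma tv_le {ι : Type*} (s : Finset ι) (a b : ι → ℝ) (ha : ∑ i ∈ s, a i * a i = 1)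
    (hb : ∑ i ∈ s, b i * b i = 1) {ε : ℝ} (hε : 0 < ε) (h : 1 - ε ^ 2 / 8 ≤ ∑ i ∈ s, a i * b i) :
    ∑ i ∈ s, |a i ^ 2 - b i ^ 2| ≤ ε := by
  have h1 : ∀ i ∈ s, |a i ^ 2 - b i ^ 2| ≤ (2 / ε) * (a i * a i + b i * b i - 2 * (a i * b i)) +
      (ε / 4) * (a i * a i + b i * b i) := fun i _ => by
    have e : a i ^ 2 - b i ^ 2 = (a i - b i) * (a i + b i) := by ring
    have e1 : 2 / ε * (a i * a i + b i * b i - 2 * (a i * b i)) = 2 / ε * |a i - b i| ^ 2 := by
      rw [sq_abs]; ring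
    have e2 : ε / 8 * |a i + b i| ^ 2 ≤ (ε / 4) * (a i * a i + b i * b i) := by
      rw [sq_abs]; nlinarith [sq_nonneg (a i - b i)]
    rw [e, abs_mul, e1]
    generalize |a i - b i| = x at *
    generalize |a i + b i| = y at *
    have : x * y ≤ 2 / ε * x ^ 2 + ε / 8 * y ^ 2 := by
      have : 2 / ε * x ^ 2 + ε / 8 * y ^ 2 - x * y = 2 / ε * (x - ε / 4 * y) ^ 2 := by field_simp; ring
      have : 0 ≤ 2 / ε * (x - ε / 4 * y) ^ 2 := by positivity
      linarith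
    linarith
  refine (sum_le_sum h1).trans ?_
  simp only [sum_add_distrib, ← mul_sum, sum_sub_distrib, ha, hb]
  have : 2 / ε * (1 + 1 - 2 * ∑ i ∈ s, a i * b i) ≤ 2 / ε * (ε ^ 2 / 4) := by gcongr; linarith
  have e : 2 / ε * (ε ^ 2 / 4) = ε / 2 := by field_simp; ring
  linarith

abbrev V := ℤ × Bool
def v0 : V := (0, false)

noncomputable def ph (M : ℕ) (a : ℤ) : ℝ := if 0 ≤ a ∧ a < M then (√M)⁻¹ else 0
noncomputable def ov (M C : ℕ) (k k' : ℤ) : ℝ :=
  ∑ a ∈ Icc (-(M + C : ℤ)) (M + C), ph M (a - k) * ph M (a - k')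
lemma ov_eq {M : ℕ} (C : ℕ) (k k' : ℤ) : ov M C k k' =
    (((Icc (-(M + C : ℤ)) (M + C)).filter fun a =>
      (0 ≤ a - k ∧ a - k < M) ∧ (0 ≤ a - k' ∧ a - k' < M)).card : ℝ) / M := by
  rw [ov, card_filter, Nat.cast_sum, sum_div]
  refine sum_congr rfl fun a _ => ?_
  simp only [ph]
  by_cases h1 : 0 ≤ a - k ∧ a - k < M <;> by_cases h2 : 0 ≤ a - k' ∧ a - k' < M <;>
    simp only [h1, h2, if_true, if_false, and_self, and_true, and_false, false_and] <;> simp
  rw [← mul_inv, Real.mul_self_sqrt (by positivity)]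
lemma ov_self {M C : ℕ} (hM : 0 < M) {k : ℤ} (hk : |k| ≤ C) : ov M C k k = 1 := by
  rw [ov_eq, div_eq_one_iff_eq (by positivity)]
  have := abs_le.1 hk
  have : ((Icc (-(M + C : ℤ)) (M + C)).filter fun a =>
      (0 ≤ a - k ∧ a - k < M) ∧ (0 ≤ a - k ∧ a - k < M)) = Ico k (k + M) := by
    ext a; simp only [mem_filter, mem_Icc, mem_Ico]; omega
  rw [this]; simp
lemma ov_near {M C : ℕ} (hM : 0 < M) {k : ℤ} (hk : |k| ≤ C) : |1 - ov M C k 0| ≤ 2 * C / M := by
  have := abs_le.1 hk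
  have hM' : (0 : ℝ) < M := by positivity
  rw [ov_eq]
  set F := (Icc (-(M + C : ℤ)) (M + C)).filter fun a =>
      (0 ≤ a - k ∧ a - k < M) ∧ (0 ≤ a - 0 ∧ a - 0 < M)
  have h1 : F.card ≤ M := by
    have : F ⊆ Ico 0 (M : ℤ) := fun a ha => by
      simp only [F, mem_filter, mem_Icc, mem_Ico] at ha ⊢; omega
    simpa using card_le_card this
  have h2 : M ≤ F.card + 2 * C := by
    have : Ico (C : ℤ) (M - C) ⊆ F := fun a ha => by
      simp only [F, mem_filter, mem_Icc, mem_Ico] at ha ⊢; omega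
    have := card_le_card this
    rw [Int.card_Ico] at this
    omega
  have h1' : (F.card : ℝ) ≤ M := by exact_mod_cast h1
  have h2' : (M : ℝ) ≤ F.card + 2 * C := by exact_mod_cast h2
  rw [show 1 - (F.card : ℝ) / M = (M - F.card) / M by field_simp, abs_of_nonneg (by
    apply div_nonneg <;> linarith)]
  gcongr; linarith

noncomputable def site (M : ℕ) (α : ℝ) (k : ℤ) (v : V) : ℝ :=
  if v.2 then Real.sin α * ph M (v.1 - k) else if v.1 - k = 0 then Real.cos α else 0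
noncomputable def WW (M C : ℕ) : Finset V := Icc (-(M + C : ℤ)) (M + C) ×ˢ univ
lemma site_mem {M C : ℕ} {α : ℝ} {k : ℤ} {v : V} (hk : |k| ≤ C) (h : site M α k v ≠ 0) : v ∈ WW M C := by
  have := abs_le.1 hk
  simp only [WW, mem_product, mem_Icc, mem_univ, and_true]
  simp only [site, ph] at h
  split_ifs at h <;> first | omega | simp at h
lemma site_zero (M : ℕ) (v : V) : site M 0 0 v = if v = v0 then 1 else 0 := by
  obtain ⟨a, b⟩ := v
  cases b <;> simp [site, v0]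
lemma site_sum {M C : ℕ} (α α' : ℝ) {k k' : ℤ} (hk : |k| ≤ C) :
    ∑ v ∈ WW M C, site M α k v * site M α' k' v =
      Real.sin α * Real.sin α' * ov M C k k' + if k = k' then Real.cos α * Real.cos α' else 0 := by
  have := abs_le.1 hk
  rw [WW, sum_product_right, Fintype.sum_bool, ov, mul_sum]
  congr 1
  · exact sum_congr rfl fun a _ => by simp only [site, if_true]; ring
  · rw [sum_eq_single k]
    · simp [site, sub_eq_zero]
    · intro a _ h; simp [site, sub_eq_zero, h]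
    · intro h; exact absurd (mem_Icc.2 (by omega)) h
lemma site_norm {M C : ℕ} (hM : 0 < M) (α : ℝ) {k : ℤ} (hk : |k| ≤ C) :
    ∑ v ∈ WW M C, site M α k v * site M α k v = 1 := by
  rw [site_sum _ _ hk, ov_self hM hk]; simp only [if_true]; nlinarith [Real.sin_sq_add_cos_sq α]
lemma site_ov {M C : ℕ} (hM : 0 < M) (θ θ' : ℝ) {k : ℤ} (hk : |k| ≤ C) (h : k ≠ 0 → θ = 1) :
    1 - (2 * (θ' - θ) ^ 2 + 2 * C / M) ≤
      ∑ v ∈ WW M C, site M (Real.pi / 2 * θ) k v * site M (Real.pi / 2 * θ') 0 v := by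
  rw [site_sum _ _ hk]
  set α := Real.pi / 2 * θ with hα
  set α' := Real.pi / 2 * θ' with hα'
  have e : (if k = 0 then Real.cos α * Real.cos α' else 0) = Real.cos α * Real.cos α' := by
    split_ifs with e
    · rfl
    · simp [hα, h e]
  have h1 := Real.one_sub_sq_div_two_le_cos (x := α - α')
  have h2 : (α - α') ^ 2 / 2 ≤ 2 * (θ' - θ) ^ 2 := by
    have : (α - α') ^ 2 / 2 = Real.pi ^ 2 / 8 * (θ' - θ) ^ 2 := by rw [hα, hα']; ring
    rw [this]; gcongr; nlinarith [Real.pi_le_four, Real.pi_pos]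
  have h3 : Real.sin α * Real.sin α' * (1 - ov M C k 0) ≤ 2 * C / M := by
    refine (le_abs_self _).trans (le_trans ?_ (ov_near hM hk))
    rw [abs_mul, abs_mul]
    exact mul_le_of_le_one_left (abs_nonneg _)
      (mul_le_one₀ (Real.abs_sin_le_one _) (abs_nonneg _) (Real.abs_sin_le_one _))
  rw [Real.cos_sub] at h1
  rw [e]; linarith

variable {Y : Type*}

open Classical in
noncomputable def amp (η : Y → V → ℝ) (T : Finset Y) (ω : Y → V) : ℝ :=
  if ∀ z, z ∉ T → ω z = v0 then ∏ z ∈ T, η z (ω z) else 0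

lemma amp_ext {η : Y → V → ℝ} {T U : Finset Y} (h : T ⊆ U)
    (h0 : ∀ z, z ∉ T → ∀ v, η z v = if v = v0 then 1 else 0) (ω : Y → V) : amp η T ω = amp η U ω := by
  unfold amp
  by_cases e : ∀ z, z ∉ T → ω z = v0
  · rw [if_pos e, if_pos fun z hz => e z fun q => hz (h q)]
    exact prod_subset h fun z _ hz => by rw [h0 z hz, if_pos (e z hz)]
  · rw [if_neg e]
    push Not at e
    obtain ⟨z, h1, h2⟩ := e
    split_ifs with e'
    · refine (prod_eq_zero (i := z) ?_ (by rw [h0 z h1, if_neg h2])).symm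
      by_contra q; exact h2 (e' z q)
    · rfl

lemma exists_box (U : Finset Y) (W : Finset V) : ∃ S : Finset (Y → V),
    (∀ ω, ω ∈ S ↔ (∀ z, z ∉ U → ω z = v0) ∧ ∀ z ∈ U, ω z ∈ W) ∧
    ∀ F : Y → V → ℝ, ∑ ω ∈ S, ∏ z ∈ U, F z (ω z) = ∏ z ∈ U, ∑ v ∈ W, F z v := by
  classical
  let ex : (U → V) → Y → V := fun p z => if h : z ∈ U then p ⟨z, h⟩ else v0
  have e1 : ∀ p (z : U), ex p z = p z := fun p z => by simp [ex]
  refine ⟨(Fintype.piFinset fun _ : U => W).image ex, fun ω => ?_, fun F => ?_⟩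
  · simp only [mem_image, Fintype.mem_piFinset]
    constructor
    · rintro ⟨p, hp, rfl⟩
      exact ⟨fun z hz => by simp [ex, hz], fun z hz => by simpa [ex, hz] using hp ⟨z, hz⟩⟩
    · rintro ⟨h1, h2⟩
      refine ⟨fun z => ω z, fun z => h2 z z.2, ?_⟩
      funext z
      by_cases hz : z ∈ U
      · simp [ex, hz]
      · simp [ex, hz, h1 z hz]
  · rw [sum_image fun p _ q _ e => funext fun z => by rw [← e1 p, ← e1 q, e], ← prod_coe_sort U,
      prod_univ_sum]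
    refine sum_congr rfl fun p _ => ?_
    rw [← prod_coe_sort U]
    exact prod_congr rfl fun z _ => by rw [e1]

lemma amp_mem {η : Y → V → ℝ} {U : Finset Y} {ω : Y → V} (h : amp η U ω ≠ 0) :
    (∀ z, z ∉ U → ω z = v0) ∧ ∀ z ∈ U, η z (ω z) ≠ 0 := by
  unfold amp at h
  split_ifs at h with e
  · exact ⟨e, prod_ne_zero_iff.1 h⟩
  · exact absurd rfl h

lemma amp_inner {U : Finset Y} {W : Finset V} {S : Finset (Y → V)}
    (h1 : ∀ ω, ω ∈ S ↔ (∀ z, z ∉ U → ω z = v0) ∧ ∀ z ∈ U, ω z ∈ W)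
    (h2 : ∀ F : Y → V → ℝ, ∑ ω ∈ S, ∏ z ∈ U, F z (ω z) = ∏ z ∈ U, ∑ v ∈ W, F z v)
    (η η' : Y → V → ℝ) :
    ∑ ω ∈ S, amp η U ω * amp η' U ω = ∏ z ∈ U, ∑ v ∈ W, η z v * η' z v := by
  rw [← h2 fun z v => η z v * η' z v]
  refine sum_congr rfl fun ω hω => ?_
  simp only [amp, if_pos ((h1 ω).1 hω).1, prod_mul_distrib]

variable {G : Type*} [Group G] [MulAction G Y]

/-- the affine action on lamp configurations -/
@[reducible] def lamp (A : Subgroup G) (c : G → Y → ℤ)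
    (hc : ∀ g ∈ A, ∀ h ∈ A, ∀ z, c (g * h) z = c g (h • z) + c h z) : MulAction A (Y → V) where
  smul a ω z := ((ω ((a : G)⁻¹ • z)).1 + c a ((a : G)⁻¹ • z), (ω ((a : G)⁻¹ • z)).2)
  one_smul ω := by
    funext z
    have := hc 1 A.one_mem 1 A.one_mem z
    simp only [mul_one, one_smul] at this
    show ((ω (((1 : A) : G)⁻¹ • z)).1 + c ((1 : A) : G) (((1 : A) : G)⁻¹ • z),
      (ω (((1 : A) : G)⁻¹ • z)).2) = ω z
    simp [show c 1 z = 0 by omega]
  mul_smul a b ω := by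
    funext z
    show ((ω (((a * b : A) : G)⁻¹ • z)).1 + c ((a * b : A) : G) (((a * b : A) : G)⁻¹ • z),
      (ω (((a * b : A) : G)⁻¹ • z)).2) =
      ((ω ((b : G)⁻¹ • (a : G)⁻¹ • z)).1 + c b ((b : G)⁻¹ • (a : G)⁻¹ • z) + c a ((a : G)⁻¹ • z),
      (ω ((b : G)⁻¹ • (a : G)⁻¹ • z)).2)
    simp only [Subgroup.coe_mul, hc _ a.2 _ b.2, mul_inv_rev, mul_smul, smul_inv_smul]
    congr 1; ring

lemma am_stab (H : Subgroup G) (E : Finset Y) (h1 : ∀ g ∈ H, ∀ z ∈ E, g • z ∈ E)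
    {B : Set G} (hB : Am B) (h2 : ∀ g ∈ H, (∀ z ∈ E, g • z = z) → g ∈ B) : Am (H : Set G) := by
  classical
  refine am_fin H (Ω := E → Y) ((Fintype.piFinset fun _ : E => E).filter fun φ => ∀ e ∈ E, ∃ i, φ i = e)
    ⟨fun i => i, by simp⟩ (fun a φ hφ => ?_) fun φ hφ => hB.mono ?_
  · simp only [mem_filter, Fintype.mem_piFinset] at hφ ⊢
    refine ⟨fun i => h1 a a.2 _ (hφ.1 i), fun e he => ?_⟩
    obtain ⟨i, hi⟩ := hφ.2 _ (h1 _ (H.inv_mem a.2) e he)
    exact ⟨i, by simp [hi, Subgroup.smul_def]⟩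
  · rintro _ ⟨a, ha, rfl⟩
    refine h2 a a.2 fun z hz => ?_
    obtain ⟨i, rfl⟩ := (mem_filter.1 hφ).2 z hz
    exact congrFun ha i

theorem am_step (A : Subgroup G) (c : G → Y → ℤ)
    (hc : ∀ g ∈ A, ∀ h ∈ A, ∀ z, c (g * h) z = c g (h • z) + c h z)
    (hr : ∀ K : Finset G, (∀ g ∈ K, g ∈ A) → ∀ ε : ℝ, 0 < ε → ∃ (θ : Y → ℝ) (T : Finset Y),
      (∀ z, z ∉ T → θ z = 0) ∧ (∀ g ∈ K, ∀ z, c g z ≠ 0 → θ z = 1) ∧
      ∀ g ∈ K, ∀ U : Finset Y, ∑ z ∈ U, (θ z - θ (g⁻¹ • z)) ^ 2 ≤ ε)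
    (hA : Am {g | g ∈ A ∧ ∀ z, c g z = 0}) : Am (A : Set G) := by
  classical
  letI := lamp A c hc
  have sm : ∀ (a : A) (ω : Y → V) z, (a • ω) z =
    ((ω ((a : G)⁻¹ • z)).1 + c a ((a : G)⁻¹ • z), (ω ((a : G)⁻¹ • z)).2) := fun _ _ _ => rfl
  have c1 : ∀ z, c 1 z = 0 := fun z => by
    have := hc 1 A.one_mem 1 A.one_mem z
    simp only [mul_one, one_smul] at this; omega
  refine am_act A (Ω := Y → V) fun K ε hε => ?_
  set δ := min (ε ^ 2 / 24) (1 / 3) with hδ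
  have δ0 : 0 < δ := by positivity
  obtain ⟨θ, T, t0, t1, t2⟩ := hr (K.image Subtype.val) (fun g hg => by
    obtain ⟨a, -, rfl⟩ := mem_image.1 hg; exact a.2) δ δ0
  have c0 : ∀ g ∈ K, ∀ z, z ∉ T → c g z = 0 := fun g hg z hz => by
    by_contra e
    have := t1 _ (mem_image_of_mem _ hg) z e
    rw [t0 z hz] at this; norm_num at this
  obtain ⟨C, hC⟩ : ∃ C : ℕ, ∀ g ∈ K, ∀ z, |c g z| ≤ C := by
    refine ⟨(K ×ˢ T).sup fun p => (c p.1 p.2).natAbs, fun g hg z => ?_⟩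
    by_cases hz : z ∈ T
    · have := le_sup (f := fun p : A × Y => (c p.1 p.2).natAbs) (b := (g, z)) (mem_product.2 ⟨hg, hz⟩)
      rw [Int.abs_eq_natAbs]; exact_mod_cast this
    · simp [c0 g hg z hz]
  obtain ⟨M, hM⟩ := exists_nat_gt (4 * T.card * C / δ)
  have M0 : 0 < M := by
    have : (0 : ℝ) ≤ 4 * T.card * C / δ := by positivity
    exact_mod_cast this.trans_lt hM
  let ξ : Y → V → ℝ := fun z => site M (Real.pi / 2 * θ z) 0
  have ξ0 : ∀ z, z ∉ T → ∀ v, ξ z v = if v = v0 then 1 else 0 := fun z hz v => by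
    simp only [ξ, t0 z hz, mul_zero, site_zero]
  have z0 : |(0 : ℤ)| ≤ C := by simp
  obtain ⟨S0, s1, s2⟩ := exists_box T (WW M C)
  let ν : (Y → V) →₀ ℝ := Finsupp.onFinset S0 (fun ω => amp ξ T ω ^ 2) fun ω h => by
    have := amp_mem (η := ξ) (U := T) (ω := ω) (by simpa using h)
    exact (s1 ω).2 ⟨this.1, fun z hz => site_mem z0 (this.2 z hz)⟩
  have ν1 : ∀ ω, ν ω = amp ξ T ω ^ 2 := fun _ => rfl
  refine ⟨ν, ⟨fun ω => by rw [ν1]; positivity, ?_⟩, fun g hg => ?_, fun ω hω => ?_⟩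
  · rw [tot_eq ν Finsupp.support_onFinset_subset]
    simp only [ν1, sq, amp_inner s1 s2]
    exact prod_eq_one fun z _ => site_norm M0 _ z0
  · let ξ' : Y → V → ℝ := fun z => site M (Real.pi / 2 * θ ((g : G)⁻¹ • z)) (c g ((g : G)⁻¹ • z))
    let T' := T.image ((g : G) • ·)
    have mT : ∀ z, z ∈ T' ↔ (g : G)⁻¹ • z ∈ T := fun z => by
      rw [mem_image]
      exact ⟨by rintro ⟨y, hy, rfl⟩; simpa using hy, fun e => ⟨_, e, by simp⟩⟩
    have gi : ∀ (ω : Y → V) z, (g⁻¹ • ω) z = ((ω ((g : G) • z)).1 - c g z, (ω ((g : G) • z)).2) :=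
      fun ω z => by
        have := hc _ (A.inv_mem g.2) _ g.2 z
        rw [inv_mul_cancel, c1] at this
        rw [sm]; simp only [Subgroup.coe_inv, inv_inv]; congr 1; omega
    have a1 : ∀ ω, amp ξ T (g⁻¹ • ω) = amp ξ' T' ω := fun ω => by
      unfold amp
      refine if_congr ⟨fun h z hz => ?_, fun h z hz => ?_⟩ ?_ rfl
      · have := h _ (mt (mT z).2 hz)
        rwa [gi, c0 g hg _ (mt (mT z).2 hz), smul_inv_smul, sub_zero] at this
      · rw [gi, c0 g hg z hz, sub_zero]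
        exact h _ (by simpa [mT] using hz)
      · rw [prod_image fun x _ y _ e => by simpa using e]
        refine prod_congr rfl fun z _ => ?_
        simp [ξ, ξ', gi, site]
    have a2 : ∀ ω, amp ξ' T' ω = amp ξ' (T ∪ T') ω := amp_ext subset_union_right fun z hz v => by
      rw [mT] at hz
      simp only [ξ', t0 _ hz, c0 g hg _ hz, mul_zero, site_zero]
    have a3 : ∀ ω, amp ξ T ω = amp ξ (T ∪ T') ω := amp_ext subset_union_left ξ0
    obtain ⟨S, s3, s4⟩ := exists_box (T ∪ T') (WW M C)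
    have : (tr g ν - ν).support ⊆ S := fun ω hω => by
      rw [Finsupp.mem_support_iff, Finsupp.sub_apply, tr_apply, ν1, ν1, a1, a2, a3] at hω
      by_cases e : amp ξ (T ∪ T') ω = 0
      · have := amp_mem (η := ξ') (U := T ∪ T') (ω := ω) (by simpa [e] using hω)
        exact (s3 ω).2 ⟨this.1, fun z hz => site_mem (hC g hg _) (this.2 z hz)⟩
      · have := amp_mem e
        exact (s3 ω).2 ⟨this.1, fun z hz => site_mem z0 (this.2 z hz)⟩
    rw [N1_eq _ this]
    simp only [Finsupp.sub_apply, tr_apply, ν1, a1, a2, a3]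
    have b1 : ∑ z ∈ T ∪ T', (2 * (θ z - θ ((g : G)⁻¹ • z)) ^ 2 + 2 * C / M) ≤ 3 * δ := by
      rw [sum_add_distrib, ← mul_sum, sum_const, nsmul_eq_mul]
      have h1 := t2 _ (mem_image_of_mem _ hg) (T ∪ T')
      have h2 : ((T ∪ T').card : ℝ) ≤ 2 * T.card := by
        have := (card_union_le T T').trans (Nat.add_le_add_left card_image_le _)
        have : (T ∪ T').card ≤ 2 * T.card := by omega
        exact_mod_cast this
      have h3 : ((T ∪ T').card : ℝ) * (2 * C / M) ≤ δ := by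
        refine (mul_le_mul_of_nonneg_right h2 (by positivity)).trans ?_
        rw [div_lt_iff₀ δ0] at hM
        rw [mul_div_assoc', div_le_iff₀ (by positivity)]; linarith
      linarith
    refine tv_le _ _ _ ?_ ?_ hε ?_
    · rw [amp_inner s3 s4]; exact prod_eq_one fun z _ => site_norm M0 _ (hC g hg _)
    · rw [amp_inner s3 s4]; exact prod_eq_one fun z _ => site_norm M0 _ z0
    · rw [amp_inner s3 s4]
      refine le_trans ?_ (weier _ _ _ (fun z _ => by positivity) (fun z _ => site_ov M0 _ _ (hC g hg _)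
        (t1 _ (mem_image_of_mem _ hg) _)) (b1.trans (by linarith [min_le_right (ε ^ 2 / 24) (1 / 3)])))
      linarith [min_le_left (ε ^ 2 / 24) (1 / 3)]
  · have hω' := amp_mem (η := ξ) (U := T) (ω := ω) (by simpa [ν1] using hω)
    let E := T.filter fun z => (ω z).2 = true
    have e0 : ∀ z, z ∉ E → ω z = v0 := fun z hz => by
      by_cases e : z ∈ T
      · have h1 : (ω z).2 = false := by simpa [E, e] using hz
        have h2 := hω'.2 z e
        simp only [ξ, site, h1] at h2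
        exact Prod.ext (by by_contra q; simp [v0] at q; simp [q] at h2) h1
      · exact hω'.1 z e
    have e1 : ∀ z, z ∈ E ↔ (ω z).2 = true := fun z =>
      ⟨fun h => (mem_filter.1 h).2, fun h => by by_contra q; simp [e0 z q, v0] at h⟩
    have e2 : ∀ a : A, a • ω = ω → ∀ z, ω ((a : G) • z) = ((ω z).1 + c a z, (ω z).2) := fun a ha z => by
      conv_lhs => rw [← ha, sm]
      simp
    refine (am_stab ((MulAction.stabilizer A ω).map A.subtype) E ?_ hA ?_).mono ?_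
    · rintro _ ⟨a, ha, rfl⟩ z hz
      rw [e1] at hz ⊢
      rw [A.subtype_apply, e2 a ha, hz]
    · rintro _ ⟨a, ha, rfl⟩ h
      refine ⟨a.2, fun z => ?_⟩
      have := e2 a ha z
      by_cases hz : z ∈ E
      · rw [show (a : G) • z = z from h z hz] at this
        simpa using congrArg Prod.fst this
      · have h3 : (a : G) • z ∉ E := by rw [e1] at hz ⊢; rwa [this]
        rw [e0 _ h3, e0 _ hz] at this
        simpa [v0] using (congrArg Prod.fst this).symm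
    · rintro _ ⟨a, ha, rfl⟩
      exact ⟨a, ha, rfl⟩

end Vale.Agent.P196.Rt
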