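import Vale.Agent.P196.Cyc

/-! Interface: a group with a good lift of the three-cycles of multisections. -/

namespace Vale.Agent.P196

structure Lift (Γ : Type) [Group Γ] (pr : Γ →* Equiv.Perm Z) where
  c : Tm → Leg → Leg → Leg → Γ
  pr_c : ∀ {t A B C}, Ok t.sh A B C → pr (c t A B C) = cyc t.sh A B C
  gen : Subgroup.closure {g | ∃ t A B C, Ok (Tm.sh t) A B C ∧ g = c t A B C} = ⊤
  conj : ∀ {t t' : Tm} {A B C A' B' C' : Leg} (γ : Γ) (f : X → X), Ok t.sh A B C → Ok t'.sh A' B' C' →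
    (∀ x, t.sh x → t'.sh (f x)) → (∀ y, t'.sh y → ∃ x, t.sh x ∧ f x = y) →
    (∀ x, t.sh x → pr γ (A.at x) = A'.at (f x)) → (∀ x, t.sh x → pr γ (B.at x) = B'.at (f x)) →
    (∀ x, t.sh x → pr γ (C.at x) = C'.at (f x)) → γ * c t A B C * γ⁻¹ = c t' A' B' C'
  add : ∀ {t A B C} (s : Tm), Ok t.sh A B C →
    c t A B C = c (.an t s) A B C * c (.an t (.nt s)) A B C
  rot : ∀ {t A B C}, Ok t.sh A B C → c t A B C = c t B C A
  rev : ∀ {t A B C}, Ok t.sh A B C → c t C B A = (c t A B C)⁻¹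
  a4 : ∀ {t A B C D}, Ok t.sh A B C → Dm t.sh D → Dj t.sh D A → Dj t.sh D B → Dj t.sh D C →
    c t B A C = c t A C D * (c t B C D)⁻¹
  cube : ∀ {t A B C}, Ok t.sh A B C → c t A B C ^ 3 = 1

/-- target of module K -/
def KStmt : Prop := ∀ (Γ : Type) [Group Γ] (pr : Γ →* Equiv.Perm Z), Lift Γ pr → pr.ker.FG
/-- target of module S -/
def SStmt : Prop := IsSimpleGroup GG ∧ Infinite GG
open Classical in
/-- target of module A -/
def AStmt : Prop := ∀ (K : Finset GG) (ε : ℝ), 0 < ε → ∃ D : Finset GG, D.Nonempty ∧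
  ∀ g ∈ K, ((symmDiff (D.image (g * ·)) D).card : ℝ) < ε * D.card

end Vale.Agent.P196
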