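import Vale.Agent.P196.Coc3
import Vale.Agent.P196.Amen2
import Vale.Agent.P196.Spec

/-! Amenability of the group. -/

namespace Vale.Agent.P196

open Finset

noncomputable def hs (n : ℕ) : ℝ := ∑ k ∈ range n, 1 / ((k : ℝ) + 1)
lemma hs_add (a j : ℕ) : hs a ≤ hs (a + j) ∧ hs (a + j) ≤ hs a + j / (a + 1) := by
  induction j with
  | zero => simp
  | succ j ih =>
    have e : hs (a + (j + 1)) = hs (a + j) + 1 / (((a + j : ℕ) : ℝ) + 1) := sum_range_succ _ _
    have h1 : (0 : ℝ) ≤ 1 / (((a + j : ℕ) : ℝ) + 1) := by positivity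
    have h2 : 1 / (((a + j : ℕ) : ℝ) + 1) ≤ 1 / (a + 1) := by gcongr; omega
    rw [e]; push_cast at *
    rw [add_div]
    constructor <;> linarith [ih.1, ih.2]
lemma hs_mono {a b : ℕ} (h : a ≤ b) : hs a ≤ hs b := by
  obtain ⟨j, rfl⟩ := Nat.exists_eq_add_of_le h; exact (hs_add a j).1
lemma hs_near {L n n' : ℕ} (h : 2 * L ≤ n) (h1 : n ≤ n' + L) (h2 : n' ≤ n + L) :
    |hs n - hs n'| ≤ 2 * L / (n + 1) := by
  have k : ∀ a j : ℕ, j ≤ L → n ≤ a + L → |hs (a + j) - hs a| ≤ 2 * L / (n + 1) := fun a j hj ha => by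
    have := hs_add a j
    rw [abs_of_nonneg (by linarith)]
    refine le_trans (b := (j : ℝ) / (a + 1)) (by linarith) ?_
    rw [div_le_div_iff₀ (by positivity) (by positivity)]
    have e1 : (j : ℝ) ≤ L := by exact_mod_cast hj
    have e2 : (n : ℝ) + 1 ≤ 2 * (a + 1) := by
      have : n + 1 ≤ 2 * (a + 1) := by omega
      exact_mod_cast this
    calc (j : ℝ) * (n + 1) ≤ L * (2 * (a + 1)) := by gcongr
      _ = _ := by ring
  rcases le_total n n' with e | e
  · obtain ⟨j, rfl⟩ := Nat.exists_eq_add_of_le e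
    rw [abs_sub_comm]; exact k n j (by omega) (by omega)
  · obtain ⟨j, rfl⟩ := Nat.exists_eq_add_of_le e
    exact k n' j (by omega) (by omega)

lemma cutoff (L : ℕ) {ε : ℝ} (hε : 0 < ε) : ∃ (f β : ℕ → ℝ) (N : ℕ), (∀ n ≤ 2 * L, f n = 1) ∧
    (∀ n, N < n → f n = 0) ∧ (∀ n, 0 ≤ β n) ∧
    (∀ n n', n ≤ n' + L → n' ≤ n + L → (f n - f n') ^ 2 ≤ β n) ∧
    ∀ s : Finset ℕ, ∑ n ∈ s, ((n : ℝ) + 1) * β n ≤ ε := by
  have h0 : 0 ≤ hs (3 * L) := by simpa [hs] using hs_mono (Nat.zero_le (3 * L))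
  obtain ⟨N, hN⟩ := (Filter.tendsto_atTop.1 Real.tendsto_sum_range_one_div_nat_succ_atTop
    (2 * hs (3 * L) + L + 1 + 8 * L ^ 2 / ε)).exists
  change _ ≤ hs N at hN
  set D := hs N - hs (3 * L) with hD
  have p1 : (0 : ℝ) ≤ 8 * L ^ 2 / ε := by positivity
  have p2 : (0 : ℝ) ≤ L := by positivity
  have D0 : 0 < D := by linarith
  let f : ℕ → ℝ := fun n => max (min (1 - (hs n - hs (3 * L)) / D) 1) 0
  have f1 : ∀ n ≤ 3 * L, f n = 1 := fun n hn => by
    have : (hs n - hs (3 * L)) / D ≤ 0 := div_nonpos_of_nonpos_of_nonneg (by linarith [hs_mono hn]) D0.le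
    simp only [f]; rw [min_eq_right (by linarith), max_eq_left zero_le_one]
  have f0 : ∀ n, N ≤ n → f n = 0 := fun n hn => by
    have : 1 ≤ (hs n - hs (3 * L)) / D := by rw [le_div_iff₀ D0]; linarith [hs_mono hn]
    simp only [f]; exact max_eq_right ((min_le_left _ _).trans (by linarith))
  refine ⟨f, fun n => if 2 * L ≤ n ∧ n ≤ N + L then (2 * L / (n + 1) / D) ^ 2 else 0, N,
    fun n hn => f1 n (by omega), fun n hn => f0 n hn.le, fun n => by positivity,
    fun n n' h1 h2 => ?_, fun s => ?_⟩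
  · beta_reduce
    split_ifs with e
    · rw [sq_le_sq, abs_of_nonneg (a := _ / D) (by positivity)]
      refine (abs_max_sub_max_le_abs _ _ _).trans ((abs_min_sub_min_le_max _ _ _ _).trans ?_)
      rw [sub_self, abs_zero, show 1 - (hs n - hs (3 * L)) / D - (1 - (hs n' - hs (3 * L)) / D) =
        -((hs n - hs n') / D) by ring, abs_neg, abs_div, abs_of_pos D0]
      refine max_le ?_ (by positivity)
      gcongr; exact hs_near e.1 h1 h2
    · by_cases e' : 2 * L ≤ n
      · rw [f0 n (by omega), f0 n' (by omega)]; simp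
      · rw [f1 n (by omega), f1 n' (by omega)]; simp
  · have : ∑ n ∈ s, ((n : ℝ) + 1) * (if 2 * L ≤ n ∧ n ≤ N + L then (2 * L / (n + 1) / D) ^ 2 else 0) ≤
        ∑ n ∈ range (N + (L + 1)), 4 * L ^ 2 / D ^ 2 * (1 / ((n : ℝ) + 1)) := by
      simp only [mul_ite, mul_zero]
      rw [← sum_filter]
      refine (sum_le_sum_of_subset_of_nonneg (t := range (N + (L + 1))) (fun n hn => ?_)
        fun _ _ _ => by positivity).trans (sum_le_sum fun n _ => le_of_eq (by field_simp; ring))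
      simp only [mem_filter, mem_range] at hn ⊢; omega
    refine this.trans ?_
    rw [← mul_sum]
    change _ * hs _ ≤ _
    have h3 : hs (N + (L + 1)) ≤ 2 * D := by
      have h4 := (hs_add N (L + 1)).2
      have : ((L + 1 : ℕ) : ℝ) / (N + 1) ≤ L + 1 := by
        push_cast; exact div_le_self (by positivity) (by linarith [Nat.cast_nonneg (α := ℝ) N])
      linarith
    calc 4 * (L : ℝ) ^ 2 / D ^ 2 * hs (N + (L + 1)) ≤ 4 * L ^ 2 / D ^ 2 * (2 * D) := by gcongr
      _ = 8 * L ^ 2 / D := by field_simp; ring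
      _ ≤ ε := by
        rw [div_le_iff₀ D0, mul_comm ε, ← div_le_iff₀ hε]; linarith

noncomputable def lv (x : X) : ℕ := (lev x (mm x)).toNat
lemma Top.lv_eq {m x} (t : Top m x) : lev x m = lv x := by
  rw [lv, t.mm_eq, ENat.natCast_toNat t.lev_ne]

lemma Key.not_sm {i L w x} (h : Key i L w x) (hc : Cn i x) (hs : ¬ Sm L x) : ¬ Sm L (wact w x) := by
  obtain ⟨m, t, h1, h2⟩ := hc
  obtain ⟨m', p, t'⟩ := t.act h.dom
  simp only [Sm, t.mm_eq, t'.mm_eq, not_forall, not_or, not_lt] at hs ⊢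
  obtain ⟨k, hk, e1, e2⟩ := hs
  have : k = m + 1 ∨ k = m + 2 := by
    by_contra q
    exact e1 (by simpa [show m + 3 + (k - (m + 3)) = k by omega] using h2 (k - (m + 3)))
  have H : 2 ≤ i ∧ (L : ℕ∞) ≤ x (m + 1) ∧ (L : ℕ∞) ≤ x (m + 2) := by
    match i with
    | 0 | 1 => rcases this with rfl | rfl; exacts [absurd h1.1 e1, absurd h1.2 e1]
    | 2 => rcases this with rfl | rfl; exacts [absurd h1.1 e1, ⟨le_rfl, by simp [h1.1], e2⟩]
    | 3 => rcases this with rfl | rfl; exacts [⟨by omega, e2, by simp [h1.2]⟩, absurd h1.2 e1]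
    | i + 4 => exact h1.elim
  have d2 := h.k1 (by omega) m t.2 (by simp [t.1]) H.2.1 H.2.2
  have d1 := h.k2 H.1 m t.2 (by simp [t.1]) H.2.1 H.2.2
  rcases this with rfl | rfl
  · exact ⟨m' + 1, by omega, by rw [p.g1.eq (by rw [d1, d2]; rfl)]; exact ⟨e1, e2⟩⟩
  · exact ⟨m' + 2, by omega, by rw [p.g2.eq (by rw [d2]; rfl)]; exact ⟨e1, e2⟩⟩

lemma lv_le {w x} (hw : wdom w x) (h : HT x) : lv (wact w x) ≤ lv x + w.length := by
  obtain ⟨m', -, t'⟩ := h.top.act hw
  have := h.top.lev_le hw t'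
  rw [h.top.lv_eq, t'.lv_eq] at this
  exact_mod_cast this

lemma Key.lv_eq {i L w x} (h : Key i L w x) (ht : HT x) (hb : ¬ lev x (mm x - 2) ≤ L) :
    lv (wact w x) = lv x := by
  have t := ht.top
  generalize mm x = m at t hb
  have e : ((L + 1 : ℕ) : ℕ∞) ≤ lev x (m - 2) := by
    push_cast; exact Order.add_one_le_of_lt (not_le.1 hb)
  obtain ⟨n, rfl⟩ : ∃ n, m = n + 2 := by
    refine ⟨m - 2, ?_⟩
    by_contra q
    simp [show m - 2 = 0 by omega] at e
  obtain ⟨m', p, t'⟩ := t.act h.dom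
  obtain ⟨n', q⟩ := h.far (n := n + 1) (e.trans (lev_mono x (by omega)))
  have i1 := p.ix
  have i2 := q.ix
  have := q.lv.eq (h.far2 e _ (by simp))
  rw [show n' + 1 = m' by push_cast at i1 i2; omega, t.lv_eq, t'.lv_eq] at this
  exact_mod_cast this

lemma count (i L : ℕ) : ∃ C : ℕ, ∀ (n : ℕ) (U : Finset Z), (∀ z ∈ U, Cn i z.1 ∧ Sm L z.1 ∧
    lev z.1 (mm z.1 - 2) ≤ L ∧ lv z.1 = n) → U.card ≤ C * (n + 1) := by
  classical
  let F := (fin_tail (L + 5) fun _ => ⊤).toFinset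
  refine ⟨(F ×ˢ (univ : Finset Sh) ×ˢ range (L + 3)).card, fun n U hU => ?_⟩
  rw [← card_range (n + 1), ← card_product]
  refine card_le_card_of_injOn (fun z => ((fun k => if k + 2 = mm z.1 ∨ k + 1 = mm z.1 then 0 else z.1 k,
    z.2, mm z.1), (z.1 (mm z.1 - 2)).toNat)) (fun z hz => ?_) fun z hz z' hz' e => ?_
  · obtain ⟨⟨m, t, -, h2⟩, h3, h4, h5⟩ := hU z hz
    simp only [Sm, t.mm_eq] at h3 h4 ⊢
    have := idx_le h4
    simp only [coe_product, Set.mem_prod, mem_coe, mem_univ, mem_range, F, Set.Finite.mem_toFinset,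
      true_and]
    refine ⟨⟨⟨m + 3, by omega, fun k _ => ?_, fun k => by beta_reduce; rw [if_neg (by omega), h2]⟩, by omega⟩, ?_⟩
    · beta_reduce
      split_ifs with e
      · simp
      rcases lt_trichotomy k m with e' | rfl | e'
      · exact Or.inl ((le_of_lev (by omega) h4).trans (by norm_cast; omega))
      · exact Or.inr t.1
      · rcases h3 k e' with e | e
        · exact Or.inr e
        · exact Or.inl (e.le.trans (by norm_cast; omega))
    · cases m with
      | zero => simp [t.1]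
      | succ m =>
        have := le_of_lev (k := m + 1 - 2) (by omega) t.lv_eq.le
        rw [h5] at this
        exact Nat.lt_succ_of_le (ENat.toNat_le_of_le_natCast this)
  · obtain ⟨⟨m, t, -⟩, -, -, h5⟩ := hU z hz
    obtain ⟨⟨m', t', -⟩, -, -, h5'⟩ := hU z' hz'
    simp only [t.mm_eq, t'.mm_eq, Prod.mk.injEq] at e
    obtain ⟨⟨e1, e2, rfl⟩, e4⟩ := e
    have a : ∀ k, k + 1 ≠ m → z.1 k = z'.1 k := fun k hk => by
      by_cases q : k + 2 = m
      · subst q
        rw [← ENat.natCast_toNat (t.2 k (by omega)), ← ENat.natCast_toNat (t'.2 k (by omega))]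
        exact congrArg _ e4
      · simpa [q, hk] using congrFun e1 k
    refine Prod.ext (funext fun k => ?_) e2
    by_cases q : k + 1 = m
    · subst q
      have : lev z.1 (k + 1) = lev z'.1 (k + 1) := by rw [t.lv_eq, t'.lv_eq, h5, h5']
      rw [lev_succ, lev_succ, lev_congr fun j hj => a j (by omega)] at this
      exact ENat.add_left_injective_of_ne_top (n := 1) (by simp) (ENat.add_right_injective_of_ne_top
        (lev_ne_top fun j hj => t'.2 j (by omega)) this)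
    · exact a k q

theorem recur (i : ℕ) (K : Finset (Equiv.Perm Z)) (hK : ∀ g ∈ K, g ∈ AA i) {ε : ℝ} (hε : 0 < ε) :
    ∃ (θ : Z → ℝ) (T : Finset Z), (∀ z, z ∉ T → θ z = 0) ∧
      (∀ g ∈ K, ∀ z : Z, Cn i z.1 → gd (ee i) g z ≠ 0 → θ z = 1) ∧
      ∀ g ∈ K, ∀ U : Finset Z, ∑ z ∈ U, (θ z - θ (g⁻¹ z)) ^ 2 ≤ ε := by
  classical
  obtain ⟨L, hL⟩ := un_finset K fun g hg => (hK g hg).1
  obtain ⟨C, hC⟩ := count i L
  obtain ⟨f, β, N, f1, f0, b0, b1, b2⟩ := cutoff L (ε := ε / (C + 1)) (by positivity)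
  refine ⟨fun z => if Cn i z.1 ∧ Sm L z.1 then f (lv z.1) else 0,
    ((fin_cn i N L).prod (Set.finite_univ (α := Sh))).toFinset, fun z hz => ?_, fun g hg z h1 h2 => ?_,
    fun g hg U => ?_⟩
  · beta_reduce
    split_ifs with e
    · refine f0 _ (not_le.1 fun q => hz ?_)
      simp only [Set.Finite.mem_toFinset]
      exact ⟨⟨e.1, by rw [e.1.ht.top.lv_eq]; exact_mod_cast q, e.2⟩, trivial⟩
    · rfl
  · obtain ⟨w, a, -, c⟩ := (hL g hg).1.key (hK g hg) z
    obtain ⟨d1, d2⟩ := a.supp h1 (c _ ▸ h2)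
    rw [h1.ht.top.lv_eq] at d1
    simp only [h1, d2, and_self, if_true]
    exact f1 _ (by exact_mod_cast d1)
  · have hg' := inv_mem (hK g hg)
    let B := U.filter fun z => Cn i z.1 ∧ Sm L z.1 ∧ lev z.1 (mm z.1 - 2) ≤ L
    have : ∑ z ∈ U, ((if Cn i z.1 ∧ Sm L z.1 then f (lv z.1) else 0) -
        if Cn i (g⁻¹ z).1 ∧ Sm L (g⁻¹ z).1 then f (lv (g⁻¹ z).1) else 0) ^ 2 ≤ ∑ z ∈ B, β (lv z.1) := by
      rw [sum_filter]
      refine sum_le_sum fun z _ => ?_
      have c1 := hg'.1.cn i z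
      obtain ⟨w, a, b, -⟩ := (hL g hg).2.key hg' z
      obtain ⟨w', a', b', -⟩ := (hL g hg).1.key (hK g hg) (g⁻¹ z)
      rw [show g (g⁻¹ z) = z by simp] at b'
      generalize g⁻¹ z = y at *
      by_cases h1 : Cn i z.1
      swap
      · simp [h1, c1]
      by_cases h2 : Sm L z.1
      swap
      · have := a.not_sm h1 h2
        rw [← b] at this
        simp [h2, this]
      have h3 : Sm L y.1 := by
        by_contra q; exact a'.not_sm (c1.2 h1) q (b' ▸ h2)
      simp only [h1, h2, h3, c1.2 h1, and_self, if_true, true_and]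
      split_ifs with e
      · have l1 := lv_le a.dom h1.ht
        have l2 := lv_le a'.dom (c1.2 h1).ht
        have := a.len
        have := a'.len
        rw [← b] at l1
        rw [← b'] at l2
        exact b1 _ _ (by omega) (by omega)
      · rw [b, a.lv_eq h1.ht e]; simp
    refine this.trans ?_
    rw [sum_comp β fun z : Z => lv z.1]
    refine (sum_le_sum (g := fun n : ℕ => C * (((n : ℝ) + 1) * β n)) fun n _ => ?_).trans ?_
    · rw [nsmul_eq_mul, ← mul_assoc]
      refine mul_le_mul_of_nonneg_right ?_ (b0 n)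
      exact_mod_cast hC n _ fun z hz => by
        simp only [B, mem_filter] at hz
        exact ⟨hz.1.2.1, hz.1.2.2.1, hz.1.2.2.2, hz.2⟩
    · rw [← mul_sum]
      refine (mul_le_mul_of_nonneg_left (b2 _) (by positivity)).trans ?_
      rw [mul_div_assoc', div_le_iff₀ (by positivity)]; nlinarith

theorem loc_finite (K : Finset (Equiv.Perm Z)) (hK : ∀ g ∈ K, g ∈ AA 4) :
    (Subgroup.closure (K : Set (Equiv.Perm Z)) : Set (Equiv.Perm Z)).Finite := by
  classical
  set H := Subgroup.closure (K : Set (Equiv.Perm Z)) with hH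
  have hA : H ≤ AA 4 := (Subgroup.closure_le _).2 hK
  have fg : Group.FG H := Group.closure_finset_fg K
  have h1 : ∀ z : Z, ∃ t : Tm, t.sh z.1 ∧ ∀ g ∈ H, g z = z → ∀ y, t.sh y → g (y, z.2) = (y, z.2) := by
    intro z
    have ho : (MulAction.orbit H z).Finite := (BND K hK z).subset (by
      rintro _ ⟨g, rfl⟩; exact ⟨g, g.2, rfl⟩)
    have : (MulAction.stabilizer H z).FiniteIndex := ⟨by
      rw [MulAction.index_stabilizer]
      exact (Set.ncard_pos ho).2 ⟨z, MulAction.mem_orbit_self z⟩ |>.ne'⟩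
    obtain ⟨S, hS⟩ := Group.fg_def.1 (Subgroup.fg_of_index_ne_zero (MulAction.stabilizer H z))
    have : ∀ S : Finset (MulAction.stabilizer H z), ∃ t : Tm, t.sh z.1 ∧ ∀ g ∈ S, ∀ y, t.sh y →
        (g.1.1 : Equiv.Perm Z) (y, z.2) = (y, z.2) := fun S => by
      induction S using Finset.induction_on with
      | empty => exact ⟨.tt, Tm.sh_tt _, by simp⟩
      | insert g S _ ih =>
        obtain ⟨t, a, b⟩ := ih
        obtain ⟨s, c, d⟩ := fix_nbhd (hA g.1.2) (z := z) g.2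
        refine ⟨.an t s, ⟨a, c⟩, fun h hh y hy => ?_⟩
        rcases mem_insert.1 hh with rfl | hh
        exacts [d y hy.2, b h hh y hy.1]
    obtain ⟨t, a, b⟩ := this S
    refine ⟨t, a, fun g hg e y hy => ?_⟩
    have : ∀ h : MulAction.stabilizer H z, (h.1.1 : Equiv.Perm Z) (y, z.2) = (y, z.2) := fun h => by
      have hh : h ∈ Subgroup.closure (S : Set _) := by rw [hS]; trivial
      induction hh using Subgroup.closure_induction with
      | mem h hh => exact b h hh y hy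
      | one => rfl
      | mul h k _ _ p q => simp [p, q]
      | inv h _ p => exact Equiv.Perm.inv_eq_iff_eq.2 p.symm
    exact this ⟨⟨g, hg⟩, e⟩
  have h2 : ∀ s : Sh, ∃ Z0 : Set Z, Z0.Finite ∧ ∀ g ∈ H, (∀ z ∈ Z0, g z = z) → ∀ y, g (y, s) = (y, s) := by
    intro s
    obtain ⟨l, a, b⟩ := compact_cover (fun t => ∃ z : Z, ∀ g ∈ H, g z = z → ∀ y, t.sh y →
      g (y, s) = (y, s)) fun x => by
        obtain ⟨t, a, b⟩ := h1 (x, s)
        exact ⟨t, a, _, b⟩
    choose! φ hφ using a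
    refine ⟨φ '' {t | t ∈ l}, (List.finite_toSet l).image _, fun g hg e y => ?_⟩
    obtain ⟨t, ht, hy⟩ := b y
    exact hφ t ht g hg (e _ ⟨t, ht, rfl⟩) y hy
  choose Z0 z1 z2 using h2
  have hf : (⋃ s, Z0 s).Finite := Set.finite_iUnion z1
  have := hf.to_subtype
  refine Set.Finite.of_finite_image (f := fun g (z : (⋃ s, Z0 s : Set Z)) => g z)
    ((Set.Finite.pi' fun z : (⋃ s, Z0 s : Set Z) => BND K hK z).subset ?_) ?_
  · rintro _ ⟨g, hg, rfl⟩ z; exact ⟨g, hg, rfl⟩
  · intro g hg g' hg' e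
    rw [← mul_one g, ← mul_inv_cancel_left g' (g * 1), mul_one, mul_eq_left]
    ext1 ⟨y, s⟩
    refine z2 s _ (H.mul_mem (H.inv_mem hg') hg) (fun z hz => ?_) y
    rw [Equiv.Perm.mul_apply, Equiv.Perm.inv_eq_iff_eq]
    exact congrFun e ⟨z, Set.mem_iUnion.2 ⟨s, hz⟩⟩

lemma am_base : Rt.Am (((AA 4).subgroupOf GG : Subgroup GG) : Set GG) := by
  classical
  intro K hK
  have := loc_finite (K.image Subtype.val) fun g hg => by
    obtain ⟨a, ha, rfl⟩ := mem_image.1 hg; exact hK a ha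
  refine Rt.am_finite ((Subgroup.closure ((K.image Subtype.val : Finset (Equiv.Perm Z)) :
    Set (Equiv.Perm Z))).subgroupOf GG) (Set.Finite.preimage (f := (Subtype.val : GG → _)) Subtype.val_injective.injOn this) K fun g hg => ?_
  exact Subgroup.subset_closure (mem_coe.2 (mem_image_of_mem _ hg))

lemma am_succ (i : ℕ) (h : Rt.Am (((AA (i + 1)).subgroupOf GG : Subgroup GG) : Set GG)) :
    Rt.Am (((AA i).subgroupOf GG : Subgroup GG) : Set GG) := by
  classical
  refine Rt.am_step (Y := Z) _ (fun g z => if Cn i z.1 then gd (ee i) g z else 0)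
    (fun g hg h hh z => ?_) (fun K hK ε hε => ?_) (h.mono fun g hg => ?_)
  · have e : h • z = (h : Equiv.Perm Z) z := rfl
    have l1 : Loc (g : Equiv.Perm Z) := hg.1
    have l2 : Loc (h : Equiv.Perm Z) := hh.1
    simp only [e, l2.cn, Subgroup.coe_mul, gd_mul l1 l2]
    split_ifs <;> simp
  · obtain ⟨θ, T, a, b, c⟩ := recur i (K.image Subtype.val) (fun g hg => by
      obtain ⟨a, ha, rfl⟩ := mem_image.1 hg; exact hK a ha) hε
    refine ⟨θ, T, a, fun g hg z hz => ?_, fun g hg U => c _ (mem_image_of_mem _ hg) U⟩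
    split_ifs at hz with e
    · exact b _ (mem_image_of_mem _ hg) z e hz
    · exact absurd rfl hz
  · exact mem_AA_succ.2 ⟨hg.1, fun z hz => by simpa [hz] using hg.2 z⟩

open Classical in
theorem aStmt : AStmt := fun K ε hε =>
  Rt.folner ((am_succ 0 (am_succ 1 (am_succ 2 (am_succ 3 am_base)))).mono
    fun g _ => GG_le_AA g.2) K ε hε

end Vale.Agent.P196
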