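import Vale.Agent.P196.Hol2

/-! Lifted three-cycles on distinct sheets. -/

namespace Vale.Agent.P196
open Equiv Idm

noncomputable def TWW (ω : Sh → Wd) (l s : List Sh) (g : Gam) : Gam :=
  s.foldr (fun i => tww (ω i) l i) g
lemma TWW_cons (ω l i s g) : TWW ω l (i :: s) g = tww (ω i) l i (TWW ω l s g) := rfl
lemma TWW_mul (a l s g h) : TWW a l s (g * h) = TWW a l s g * TWW a l s h := by
  induction s with
  | nil => rfl
  | cons i s ih => rw [TWW_cons, ih, tww_mul]; rfl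
lemma TWW_inv (a l s g) : TWW a l s g⁻¹ = (TWW a l s g)⁻¹ := by
  induction s with
  | nil => rfl
  | cons i s ih => rw [TWW_cons, ih, tww_inv]; rfl
section
variable {ω : Sh → Wd} {p : ID} (hω : ∀ i, DomI (ω i) p)
include hω
lemma TWW_in {l g} (hg : ∀ i, In g l i p) (c : l.length ≤ 30) {s : List Sh} (hs : s.Nodup)
    (hl : ∀ x ∈ s, x ∈ l) : ∀ j, j ∉ s → ∀ V, In g l j V → In (TWW ω l s g) l j V := by
  induction s with
  | nil => intro j _ V h; exact h
  | cons i s ih =>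
    intro j hj V h
    simp only [List.mem_cons, not_or, List.nodup_cons] at hj hs
    have ih' := ih hs.2 fun x hx => hl x (List.mem_cons_of_mem _ hx)
    exact tww_other (hω i) (ih' i hs.1 _ (hg i)) (hl i List.mem_cons_self) c hj.1 (ih' j hj.2 V h)
lemma TWW_supp {l g} (hg : ∀ i, In g l i p) (c : l.length ≤ 30) {s : List Sh} (hs : s.Nodup)
    (hl : ∀ x ∈ s, x ∈ l) : Supp sheets (TWW ω l s g) l := by
  obtain ⟨j, hj⟩ := fresh l (by omega)
  exact (TWW_in hω hg c hs hl j (fun e => hj (hl _ e)) _ (hg j)).1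
lemma TWW_filter {l l0 g} (hg : ∀ i, In g l0 i p) (e : ∀ x ∈ l0, x ∈ l) (c0 : l0.length ≤ 30)
    (c : l.length ≤ 30) {s : List Sh} (hs : s.Nodup) :
    TWW ω l s g = TWW ω l0 (s.filter (· ∈ l0)) g := by
  induction s with
  | nil => rfl
  | cons i s ih =>
    simp only [List.nodup_cons] at hs
    have n : (s.filter (· ∈ l0)).Nodup := hs.2.filter _
    have m : ∀ x ∈ s.filter (· ∈ l0), x ∈ l0 := fun x hx => by simpa using (List.mem_filter.1 hx).2
    rw [TWW_cons, ih hs.2]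
    by_cases h : i ∈ l0
    · rw [List.filter_cons_of_pos (by simpa using h), TWW_cons]
      exact tww_mono (hω i) (TWW_in hω hg c0 n m i (fun q => hs.1 (List.mem_filter.1 q).1) _ (hg i))
        h e c0 c
    · rw [List.filter_cons_of_neg (by simpa using h)]
      exact tww_fix (TWW_supp hω hg c0 n m) h e (by omega) (by omega)
lemma TWW_perm {l g} (hg : ∀ i, In g l i p) (c : l.length ≤ 30) {s s' : List Sh}
    (h : s.Perm s') (hs : s.Nodup) (hl : ∀ x ∈ s, x ∈ l) : TWW ω l s g = TWW ω l s' g := by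
  induction h with
  | nil => rfl
  | cons x _ ih =>
    rw [TWW_cons, TWW_cons, ih (List.nodup_cons.1 hs).2 fun y hy => hl y (List.mem_cons_of_mem _ hy)]
  | swap x y s =>
    simp only [List.nodup_cons, List.mem_cons, not_or] at hs
    have m : ∀ z ∈ s, z ∈ l := fun z hz => hl z (by simp [hz])
    exact tww_comm (hω y) (hω x) (TWW_in hω hg c hs.2.2 m y hs.1.2 _ (hg y))
      (TWW_in hω hg c hs.2.2 m x hs.2.1 _ (hg x)) (hl y (by simp)) (hl x (by simp)) (Ne.symm hs.1.1) c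
  | trans h1 _ ih1 ih2 =>
    rw [ih1 hs hl, ih2 (h1.nodup_iff.1 hs) fun y hy => hl y (h1.mem_iff.2 hy)]
omit hω in
open Classical in
noncomputable def fam (p : ID) (ω : Sh → Wd) : T3 Gam := fun i j k =>
  if D3 i j k then tw3 p (ω i, i) (ω j, j) (ω k, k) else 1
lemma TWW_val {L s : List Sh} (c : L.length ≤ 30) (hs : s.Nodup)
    {i j k : Sh} (d : D3 i j k) (e : ∀ x ∈ [i, j, k], x ∈ L) (e' : ∀ x ∈ [i, j, k], x ∈ s) :
    TWW ω L s (p.p i j k) = fam p ω i j k := by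
  simp only [fam, d, if_true]
  rw [TWW_filter hω (in_val (le_refl p) d) e (by simp) c hs]
  refine TWW_perm hω (in_val (le_refl p) d) (by simp) (s' := [i, j, k]) ?_ (hs.filter _)
    (fun x hx => by simpa using (List.mem_filter.1 hx).2)
  refine (List.perm_ext_iff_of_nodup (hs.filter _) (nodup3 d)).2 fun x => ?_
  simp only [List.mem_filter, decide_eq_true_eq]
  exact ⟨fun q => q.2, fun q => ⟨e' x q, q⟩⟩
lemma TWW_val' {L : List Sh} (c : L.length ≤ 30)
    {i j k : Sh} (d : D3 i j k) (hi : i ∈ L) (hj : j ∈ L) (hk : k ∈ L) :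
    TWW ω L L.dedup (p.p i j k) = fam p ω i j k :=
  TWW_val hω c (List.nodup_dedup _) d (by simp [hi, hj, hk]) (by simp [hi, hj, hk])
lemma fam_pre : Pre sheets (fam p ω) where
  junk i j k d := by simp [fam, d]
  cyc i j k d := by
    rw [← TWW_val' hω (L := [i, j, k]) (by simp) d (by simp) (by simp) (by simp),
      ← TWW_val' hω (L := [i, j, k]) (by simp) d.rot (by simp) (by simp) (by simp), ← p.pre.cyc _ _ _ d]
  inv i j k d := by
    rw [← TWW_val' hω (L := [i, j, k]) (by simp) d (by simp) (by simp) (by simp),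
      ← TWW_val' hω (L := [i, j, k]) (by simp) d.rev (by simp) (by simp) (by simp), p.pre.inv _ _ _ d,
      TWW_inv]
  acts x y z d i j k d' := by
    have m : ∀ r ∈ [x, y, z, i, j, k], c3 x y z r ∈ [x, y, z, i, j, k] := fun r hr =>
      c3_mem d (by simp) (by simp) (by simp) hr
    rw [← TWW_val' hω (L := [x, y, z, i, j, k]) (by simp) d (by simp) (by simp) (by simp),
      ← TWW_val' hω (L := [x, y, z, i, j, k]) (by simp) d' (by simp) (by simp) (by simp),
      ← TWW_val' hω (L := [x, y, z, i, j, k]) (by simp) (d'.map _) (m _ (by simp)) (m _ (by simp))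
        (m _ (by simp)), ← p.pre.acts x y z d i j k d', TWW_mul, TWW_mul, TWW_inv]
  a4 i j k l d h1 h2 h3 := by
    rw [← TWW_val' hω (L := [i, j, k, l]) (by simp) (D3.swap12 d) (by simp) (by simp) (by simp),
      ← TWW_val' hω (L := [i, j, k, l]) (by simp) ⟨d.2.2, h3.symm, h1.symm⟩ (by simp) (by simp) (by simp),
      ← TWW_val' hω (L := [i, j, k, l]) (by simp) ⟨d.2.1, h3.symm, h2.symm⟩ (by simp) (by simp) (by simp),
      p.pre.a4 i j k l d h1 h2 h3, TWW_mul, TWW_inv]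
  supp i j k d := by
    rw [← TWW_val hω (L := [i, j, k]) (by simp) (nodup3 d) d (fun _ e => e) fun _ e => e]
    exact TWW_supp hω (in_val (le_refl p) d) (by simp) (nodup3 d) fun _ e => e
lemma fam_in {i j k} (d : D3 i j k) : In (fam p ω i j k) [i, j, k] i (T0w (ω i) p) := by
  rw [← TWW_val hω (L := [i, j, k]) (by simp) (nodup3 d) d (fun _ e => e) fun _ e => e, TWW_cons]
  exact tww_in (hω i) (TWW_in hω (in_val (le_refl p) d) (by simp) (s := [j, k]) (by simp [d.2.1])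
    (by simp) i (by simp [d.1, d.2.2]) _ (in_val (le_refl p) d i)) (by simp) (by simp)
lemma fam_comm {g l i j k} (d : D3 i j k) (c : l.length ≤ 40)
    (h : ∀ x, x = i ∨ x = j ∨ x = k → In g l x (T0w (ω x) p).compl) : Commute g (fam p ω i j k) :=
  (fam_pre hω).comm_of_one d l (by omega) fun x hx a b ha hb d' =>
    (h x hx).commute (by rw [Idm.compl_compl]; exact fam_in hω d') (by
      intro y hy hy'
      simp only [List.mem_cons, List.not_mem_nil, or_false] at hy'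
      rcases hy' with rfl | rfl | rfl
      exacts [rfl, absurd hy ha, absurd hy hb]) c (by simp)
end

/-- the word assignment of a list of legs -/
def om : List Leg → Sh → Wd
  | [], _ => []
  | A :: L, s => if s = A.2 then A.1 else om L s
lemma om_mem {L : List Leg} (h : (L.map Prod.snd).Nodup) {A} (hA : A ∈ L) : om L A.2 = A.1 := by
  induction L with
  | nil => simp at hA
  | cons B L ih =>
    simp only [List.map_cons, List.nodup_cons] at h
    rcases List.mem_cons.1 hA with rfl | hA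
    · simp [om]
    · have : A.2 ≠ B.2 := fun e => h.1 (e ▸ List.mem_map_of_mem hA)
      simp [om, this, ih h.2 hA]
lemma om_dom {t : Tm} {L : List Leg} (h : ∀ A ∈ L, Dm t.sh A) (s : Sh) : DomI (om L s) (ev t) := by
  induction L with
  | nil => trivial
  | cons B L ih =>
    simp only [om]; split_ifs
    exacts [(ev_trw (h B (by simp))).1, ih fun A hA => h A (by simp [hA])]
noncomputable def c0 (t : Tm) (A B C : Leg) : Gam := tw3 (ev t) A B C
lemma c0_fam {t : Tm} {L : List Leg} (h : (L.map Prod.snd).Nodup) {A B C} (hA : A ∈ L) (hB : B ∈ L)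
    (hC : C ∈ L) (d : D3 A.2 B.2 C.2) : c0 t A B C = fam (ev t) (om L) A.2 B.2 C.2 := by
  simp only [fam, d, if_true, om_mem h hA, om_mem h hB, om_mem h hC]; rfl
structure Ok0 (t : Tm) (A B C : Leg) : Prop where
  a : Dm t.sh A
  b : Dm t.sh B
  c : Dm t.sh C
  d : D3 A.2 B.2 C.2
lemma Ok0.ok {t A B C} (h : Ok0 t A B C) : Ok t.sh A B C :=
  ⟨h.a, h.b, h.c, dj_of_ne h.d.1, dj_of_ne h.d.2.1, dj_of_ne h.d.2.2⟩
lemma Ok0.rot {t A B C} (h : Ok0 t A B C) : Ok0 t B C A := ⟨h.b, h.c, h.a, h.d.rot⟩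
lemma Ok0.rev {t A B C} (h : Ok0 t A B C) : Ok0 t C B A := ⟨h.c, h.b, h.a, h.d.rev⟩
lemma Ok0.mono {t s : Tm} {A B C} (h : Ok0 t A B C) (e : ∀ x, s.sh x → t.sh x) : Ok0 s A B C :=
  ⟨fun x hx => h.a x (e x hx), fun x hx => h.b x (e x hx), fun x hx => h.c x (e x hx), h.d⟩
lemma Ok0.dm {t A B C} (h : Ok0 t A B C) : ∀ X ∈ [A, B, C], Dm t.sh X := by
  simp [h.a, h.b, h.c]
lemma Ok0.fam {t A B C} (h : Ok0 t A B C) : c0 t A B C = fam (ev t) (om [A, B, C]) A.2 B.2 C.2 :=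
  c0_fam (L := [A, B, C]) (nodup3 h.d) (by simp) (by simp) (by simp) h.d
lemma c0_rot {t A B C} (h : Ok0 t A B C) : c0 t A B C = c0 t B C A := by
  rw [h.fam, (fam_pre (om_dom h.dm)).cyc _ _ _ h.d,
    c0_fam (L := [A, B, C]) (nodup3 h.d) (by simp) (by simp) (by simp) h.d.rot]
lemma c0_rev {t A B C} (h : Ok0 t A B C) : c0 t C B A = (c0 t A B C)⁻¹ := by
  rw [h.fam, ← (fam_pre (om_dom h.dm)).inv _ _ _ h.d,
    c0_fam (L := [A, B, C]) (nodup3 h.d) (by simp) (by simp) (by simp) h.d.rev]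
lemma c0_a4 {t A B C D} (h : Ok0 t A B C) (hD : Dm t.sh D) (h1 : D.2 ≠ A.2) (h2 : D.2 ≠ B.2)
    (h3 : D.2 ≠ C.2) : c0 t B A C = c0 t A C D * (c0 t B C D)⁻¹ := by
  have n : ([A, B, C, D].map Prod.snd).Nodup := by
    simp [h.d.1, h.d.2.1, h.d.2.2, h1.symm, h2.symm, h3.symm]
  rw [c0_fam n (by simp) (by simp) (by simp) (D3.swap12 h.d),
    c0_fam n (by simp) (by simp) (by simp) ⟨h.d.2.2, h3.symm, h1.symm⟩,
    c0_fam n (by simp) (by simp) (by simp) ⟨h.d.2.1, h3.symm, h2.symm⟩]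
  exact (fam_pre (om_dom (by simp [h.a, h.b, h.c, hD]))).a4 _ _ _ _ h.d h1 h2 h3
lemma c0_acts {t A B C D E} (h : Ok0 t A B C) (h' : Ok0 t A D E) (h1 : D.2 ≠ B.2) (h2 : D.2 ≠ C.2)
    (h3 : E.2 ≠ B.2) (h4 : E.2 ≠ C.2) : c0 t A B C * c0 t A D E * (c0 t A B C)⁻¹ = c0 t B D E := by
  have n : ([A, B, C, D, E].map Prod.snd).Nodup := by
    simp [h.d.1, h.d.2.1, h.d.2.2, h'.d.1, h'.d.2.1, h'.d.2.2, h1.symm, h2.symm, h3.symm, h4.symm]
  rw [c0_fam n (by simp) (by simp) (by simp) h.d, c0_fam n (by simp) (by simp) (by simp) h'.d,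
    c0_fam n (by simp) (by simp) (by simp) ⟨h1.symm, h'.d.2.1, h3.symm⟩,
    (fam_pre (om_dom (by simp [h.a, h.b, h.c, h'.b, h'.c]))).acts _ _ _ h.d _ _ _ h'.d, c3_1 h.d,
    c3_fix h'.d.1.symm h1 h2, c3_fix h'.d.2.2.symm h3 h4]
lemma c0_in {t A B C} (h : Ok0 t A B C) : In (c0 t A B C) [A.2, B.2, C.2] A.2 (ev (t.trw A.1)) := by
  have := fam_in (om_dom h.dm) h.d
  rwa [← h.fam, om_mem (L := [A, B, C]) (nodup3 h.d) (by simp), (ev_trw h.a).2] at this
lemma c0_in' {t A B C} (h : Ok0 t A B C) {t' : Tm} {X : Leg} (hX : Dm t'.sh X)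
    (e : ∀ x, t'.sh x → Off t.sh A B C (X.at x)) :
    In (c0 t A B C) [A.2, B.2, C.2] X.2 (ev (t'.trw X.1)).compl := by
  have key : ∀ {A B C}, Ok0 t A B C → X.2 = A.2 → (∀ x y, t'.sh x → t.sh y → A.at y ≠ X.at x) →
      In (c0 t A B C) [A.2, B.2, C.2] X.2 (ev (t'.trw X.1)).compl := by
    intro A B C h q e
    rw [q]
    refine (c0_in h).mono (by simp) (perp_iff_le.1 (ev_perp fun y h1 h2 => ?_))
    rw [Tm.sh_trw] at h1 h2
    exact e _ _ h2.2 h1.2 (by simp [Leg.at, wact_inv' h1.1, wact_inv' h2.1, q])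
  by_cases h1 : X.2 = A.2
  · exact key h h1 fun x y hx hy => (e x hx y hy).1
  by_cases h2 : X.2 = B.2
  · rw [c0_rot h]; exact (key h.rot h2 fun x y hx hy => (e x hx y hy).2.1).mono_l (by simp)
  by_cases h3 : X.2 = C.2
  · rw [c0_rot h, c0_rot h.rot]
    exact (key h.rot.rot h3 fun x y hx hy => (e x hx y hy).2.2).mono_l (by simp)
  exact in_of_not_mem _ (c0_in h).1 (by simp [h1, h2, h3]) (fun _ e => e) (by simp)
/-- disjoint supports commute -/
lemma c0_comm {t t' A B C A' B' C'} (h : Ok0 t A B C) (h' : Ok0 t' A' B' C')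
    (e : ∀ x, t'.sh x → Off t.sh A B C (A'.at x) ∧ Off t.sh A B C (B'.at x) ∧ Off t.sh A B C (C'.at x)) :
    Commute (c0 t A B C) (c0 t' A' B' C') := by
  rw [h'.fam]
  refine fam_comm (om_dom h'.dm) h'.d (l := [A.2, B.2, C.2]) (by simp) ?_
  have k : ∀ X ∈ [A', B', C'], (∀ x, t'.sh x → Off t.sh A B C (X.at x)) →
      In (c0 t A B C) [A.2, B.2, C.2] X.2 (T0w (om [A', B', C'] X.2) (ev t')).compl := fun X hX q => by
    rw [om_mem (L := [A', B', C']) (nodup3 h'.d) hX, (ev_trw (h'.dm X hX)).2]; exact c0_in' h (h'.dm X hX) q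
  rintro x (rfl | rfl | rfl)
  exacts [k _ (by simp) fun x hx => (e x hx).1, k _ (by simp) fun x hx => (e x hx).2.1,
    k _ (by simp) fun x hx => (e x hx).2.2]
lemma c0_add (t s : Tm) (A B C : Leg) : c0 t A B C = c0 (.an t s) A B C * c0 (.an t (.nt s)) A B C := by
  simp only [c0, tw3]; rw [(ev_compat t s).val, tww_mul, tww_mul, tww_mul]; rfl
lemma c0_congr {t : Tm} {A B C A' B' C' : Wd} {i j k} (d : D3 i j k) (h1 : Ag t A A') (h2 : Ag t B B')
    (h3 : Ag t C C') : c0 t (A, i) (B, j) (C, k) = c0 t (A', i) (B', j) (C', k) :=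
  tw3_congr d (hol h1) (hol h2) (hol h3)
lemma c0_sh {t s : Tm} (h : ∀ x, t.sh x ↔ s.sh x) (A B C) : c0 t A B C = c0 s A B C := by
  simp only [c0, ev_congr h]

end Vale.Agent.P196
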