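import Vale.Agent.P196.CT1

/-! Shadows, reparametrisation, generation. -/

namespace Vale.Agent.P196
open Equiv Idm

def ext (A : Leg) (u : Wd) : Leg := (A.1 ++ u, A.2)
lemma c0_rep {t : Tm} {u : Wd} (hu : ∀ x, t.sh x → wdom u x) {A B C} (h : Ok0 (t.trw u) A B C) :
    c0 (t.trw u) A B C = c0 t (ext A u) (ext B u) (ext C u) := by
  obtain ⟨A, i⟩ := A; obtain ⟨B, j⟩ := B; obtain ⟨C, k⟩ := C
  have d : D3 i j k := h.d
  obtain ⟨hw, e⟩ := ev_trw hu
  have dB : DomI B (T0w u (ev t)) := e ▸ (ev_trw h.b).1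
  have dC : DomI C (T0w u (ev t)) := e ▸ (ev_trw h.c).1
  have iv := in_val (le_refl (ev t)) d
  have c : [i, j, k].length ≤ 30 := by simp
  have mi : i ∈ [i, j, k] := by simp
  have mj : j ∈ [i, j, k] := by simp
  have mk : k ∈ [i, j, k] := by simp
  have k1 := tww_in hw (iv k) mk c
  have k2 := fun x (e : x ≠ k) => tww_other hw (iv k) mk c e (iv x)
  have k3 := fun x (e : x ≠ k) => tww_other dC k1 mk c e (k2 x e)
  have j1 := tww_in hw (k3 j d.2.1) mj c
  have j2 := tww_other hw (k3 j d.2.1) mj c d.1 (k3 i d.2.2)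
  simp only [c0, tw3, ext, tww_append]
  rw [← e, T0w_val hw d]
  simp only [tw3]
  rw [tww_comm dC hw (tww_other hw (k2 j d.2.1) mj c d.2.1.symm k1)
      (tww_other hw (k2 j d.2.1) mj c d.1 (k2 i d.2.2)) mk mi d.2.2 c,
    tww_comm dC hw k1 (k2 j d.2.1) mk mj d.2.1 c, tww_comm dB hw j1 j2 mj mi d.1 c]

open Classical in
lemma cy0_eq (U : X → Prop) {i j k} (d : D3 i j k) (x s) :
    cy0 U i j k (x, s) = (x, (if U x then c3 i j k else 1) s) := by
  split_ifs with h
  exacts [(cy0_app d x s).1 h, (cy0_app d x s).2 h]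
open Classical in
lemma cy0_inv (U : X → Prop) {i j k} (d : D3 i j k) (x s) :
    (cy0 U i j k)⁻¹ (x, s) = (x, (if U x then c3 i j k else 1)⁻¹ s) := by
  rw [Perm.inv_eq_iff_eq, cy0_eq U d]; simp
lemma sd_meet {p q S T} (c : Compat p q) (h1 : Sd p S) (h2 : Sd q T) :
    Sd (meet p q) fun x => S x ∧ T x := by
  intro j i k d
  have d' := D3.swap12 d
  obtain ⟨a, b, -, -, ha⟩ := exists_aux d' [] (by simp)
  rw [c.isMeet.br d' ha, cm, map_mul, map_mul, map_mul, map_inv, map_inv, h1 _ _ _ ha.1,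
    h2 _ _ _ ha.2.1]
  ext1 ⟨x, s⟩
  simp only [Perm.mul_apply, cy0_inv _ ha.1, cy0_inv _ ha.2.1, cy0_eq _ ha.1, cy0_eq _ ha.2.1,
    cy0_eq _ d]
  by_cases e1 : S x <;> by_cases e2 : T x <;> simp [e1, e2, ← c3_cm d' ha]
lemma sd_compl {p S} (h : Sd p S) : Sd p.compl fun x => ¬ S x := by
  intro i j k d
  have e := congrArg pr (one_eq p i j k)
  have e2 := cy0_split (fun _ => True) S d
  simp only [true_and] at e2
  rw [map_mul, h i j k d, show FF.one = ph _ from rfl, pr_ph isLoc_true d, e2] at e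
  exact (mul_left_cancel e).symm
lemma sd_tr {t : Tm} (h : Sd (ev t) t.sh) (a : Lt) : Sd (ev (t.tr a)) (t.tr a).sh := by
  have := sd_T0 (meet_le_right (ev t) (dmI a)) (sd_meet (ev_cd t a) h (sd_phi (isLoc_dom a)))
    fun _ e => e.2
  rw [ev_tr, TT]
  convert this using 1
  funext y
  rw [Tm.sh_tr]
  exact propext ⟨fun e => ⟨e.1, e.2, by simpa using Lt.dom_inv e.1⟩, fun e => ⟨e.1, e.2.1⟩⟩
lemma sd_ev (t : Tm) : Sd (ev t) t.sh := by
  have z : ∀ S : X → Prop, (∀ x, S x) → Sd (top FF) S := fun S h => by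
    rw [show S = fun _ => True from funext fun x => eq_true (h x), ← phi_true]
    exact sd_phi isLoc_true
  induction t with
  | Q k => induction k with
    | zero => exact z _ fun x => by simp [Tm.sh]
    | succ k ih => exact sd_tr ih .u
  | J k => induction k with
    | zero => exact z _ fun x => by simp [Tm.sh]
    | succ k ih => exact sd_tr ih .v
  | K k => induction k with
    | zero => exact z _ fun x => by simp [Tm.sh]
    | succ k ih => exact sd_tr ih .v'
  | nt t ih => exact sd_compl ih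
  | an s t ih1 ih2 => exact sd_meet (ev_compat s t) ih1 ih2
  | W k t ih => induction k with
    | zero => exact sd_tr ih .c
    | succ k ih => exact sd_tr ih .u
lemma pr_tww {w p g l i} (hw : DomI w p) (hg : In g l i p) (hi : i ∈ l) (c : l.length ≤ 30) :
    ∃ m : Perm Z, pr (tww w l i g) = m * pr g * m⁻¹ ∧ (∀ x, wdom w x → m (x, i) = (wact w x, i)) ∧
      ∀ x s, s ∈ l → s ≠ i → m (x, s) = (x, s) := by
  obtain ⟨j, k, d, h1, h2⟩ := ex_d3 i l (by omega)
  refine ⟨pr (MW w i j k), by rw [tww_eq hw hg hi c d h1 h2]; simp, fun x hx => pr_MW_app d hx,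
    fun x s hs e => pr_MW_fix d ?_⟩
  simp only [List.mem_cons, List.not_mem_nil, or_false, not_or]
  exact ⟨e, fun q => h1 (q ▸ hs), fun q => h2 (q ▸ hs)⟩
lemma pr_c0 {t A B C} (h : Ok0 t A B C) : pr (c0 t A B C) = cyc t.sh A B C := by
  obtain ⟨A, i⟩ := A; obtain ⟨B, j⟩ := B; obtain ⟨C, k⟩ := C
  have d : D3 i j k := h.d
  have iv := in_val (le_refl (ev t)) d
  have c : [i, j, k].length ≤ 30 := by simp
  have mi : i ∈ [i, j, k] := by simp
  have mj : j ∈ [i, j, k] := by simp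
  have mk : k ∈ [i, j, k] := by simp
  have dA := (ev_trw h.a).1
  have dB := (ev_trw h.b).1
  have dC := (ev_trw h.c).1
  have k2 := fun x (e : x ≠ k) => tww_other dC (iv k) mk c e (iv x)
  obtain ⟨m3, e3, a3, b3⟩ := pr_tww dC (iv k) mk c
  obtain ⟨m2, e2, a2, b2⟩ := pr_tww dB (k2 j d.2.1) mj c
  obtain ⟨m1, e1, a1, b1⟩ := pr_tww dA (tww_other dB (k2 j d.2.1) mj c d.1 (k2 i d.2.2)) mi c
  simp only [c0, tw3]
  rw [e1, e2, e3, sd_ev t i j k d]
  have : ∀ A B C g : Perm Z, A * (B * (C * g * C⁻¹) * B⁻¹) * A⁻¹ = (A * B * C) * g * (A * B * C)⁻¹ := by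
    intros; group
  rw [this]
  refine cyc_conj' (ok0 _ d) h.ok _ ?_ ?_ ?_ <;> intro x hx <;>
    simp only [Perm.mul_apply, Leg.at, wact_nil]
  · rw [b3 _ _ mi d.2.2, b2 _ _ mi d.1, a1 _ (h.a x hx)]
  · rw [b3 _ _ mj d.2.1, a2 _ (h.b x hx), b1 _ _ mj d.1.symm]
  · rw [a3 _ (h.c x hx), b2 _ _ mk d.2.1.symm, b1 _ _ mk d.2.2.symm]

def Df (U : X → Prop) : Prop := IsLoc U ∧ ∃ t : Tm, t.sh = U ∧ ev t = phi U
lemma Df.and {U V} (h : Df U) (h' : Df V) : Df fun x => U x ∧ V x := by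
  obtain ⟨a, s, rfl, e⟩ := h; obtain ⟨b, t, rfl, e'⟩ := h'
  exact ⟨a.and b, .an s t, rfl, by rw [← phi_meet a b, ← e, ← e']; rfl⟩
lemma Df.not {U} (h : Df U) : Df fun x => ¬ U x := by
  obtain ⟨a, s, rfl, e⟩ := h
  exact ⟨a.not, .nt s, rfl, by rw [← phi_compl a, ← e]; rfl⟩
lemma Df.congr {U V} (h : Df U) (e : ∀ x, U x ↔ V x) : Df V :=
  (funext fun x => propext (e x) : U = V) ▸ h
lemma Df.tr {U V} (h : Df U) (a : Lt) (hV : IsLoc V) (e : ∀ y, V y ↔ a.inv.dom y ∧ U (a.inv.act y)) :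
    Df V := by
  obtain ⟨b, s, rfl, e'⟩ := h
  exact ⟨hV, s.tr a, funext fun y => propext (by rw [Tm.sh_tr, e]), by rw [ev_tr, e', TT_phi b hV e]⟩
lemma df_true : Df fun _ => True := ⟨isLoc_true, .tt, funext fun x => by simp, phi_true.symm⟩
lemma df_th (n k : ℕ) (hn : n < 3) (hk : k ≤ 3) : Df (th n k) := by
  induction k with
  | zero => exact df_true.congr fun x => by simp [th]
  | succ k ih =>
    have := ih (by omega)
    match n, hn with
    | 0, _ => exact this.tr .u (th_loc _ _ (by omega) hk) fun y => (Tm.sh_tr .u (.Q k) y)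
    | 1, _ => exact this.tr .v (th_loc _ _ (by omega) hk) fun y => (Tm.sh_tr .v (.J k) y)
    | 2, _ => exact this.tr .v' (th_loc _ _ (by omega) hk) fun y => (Tm.sh_tr .v' (.K k) y)
lemma df_code1 (n : Fin 3) (m : Fin 4) : Df fun x => code x n = m := by
  by_cases h : m.val = 3
  · refine (df_th n 3 n.2 le_rfl).congr fun x => ?_
    simp only [th, code, Fin.ext_iff, h]
    generalize x n = a
    induction a using ENat.recTopCoe with
    | top => simp
    | coe a => rw [show (3 : ℕ∞) = (3 : ℕ) from rfl, cmin]; simp only [ENat.toNat_coe, Nat.cast_le]; omega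
  · have := m.2
    refine ((df_th n m n.2 (by omega)).and (df_th n (m + 1) n.2 (by omega)).not).congr fun x => ?_
    simp only [th, code, Fin.ext_iff]
    generalize x n = a
    induction a using ENat.recTopCoe with
    | top => simp; omega
    | coe a => rw [show (3 : ℕ∞) = (3 : ℕ) from rfl, cmin]; simp only [ENat.toNat_coe, Nat.cast_le]; omega
lemma df_code (S : Set (Fin 3 → Fin 4)) : Df fun x => code x ∈ S := by
  induction S, S.toFinite using Set.Finite.induction_on with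
  | empty => exact df_true.not.congr fun x => by simp
  | @insert c S _ _ ih =>
    refine ((((df_code1 0 (c 0)).and (df_code1 1 (c 1))).and (df_code1 2 (c 2))).not.and
      ih.not).not.congr fun x => ?_
    simp only [Set.mem_insert_iff, funext_iff, Fin.forall_fin_succ]
    simp; tauto
lemma df_loc {U} (h : IsLoc U) : Df U := h.eq ▸ df_code _

end Vale.Agent.P196
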