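import Vale.Agent.P196.CT2

/-! Lifted three-cycles for arbitrary multisections. -/

namespace Vale.Agent.P196
open Equiv Idm

lemma freshn (l : List Sh) (n : ℕ) (h : l.length + n ≤ 200) :
    ∃ σ : Fin n → Sh, Function.Injective σ ∧ ∀ i, σ i ∉ l := by
  have c1 := List.toFinset_card_le l
  have c2 : (l.toFinsetᶜ).card = 200 - l.toFinset.card := by rw [Finset.card_compl]; simp
  obtain ⟨I, hI, hc⟩ := Finset.exists_subset_card_eq (s := l.toFinsetᶜ) (n := n) (by omega)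
  refine ⟨fun i => (I.equivFinOfCardEq hc).symm i, fun i j e => by simpa using Subtype.ext e, fun i => ?_⟩
  simpa using hI ((I.equivFinOfCardEq hc).symm i).2
lemma dm_nil (t : X → Prop) (s : Sh) : Dm t ([], s) := fun _ _ => trivial

def Ax (t : Tm) (l : List Sh) (D E : Leg) : Prop :=
  Dm t.sh D ∧ Dm t.sh E ∧ D.2 ∉ l ∧ E.2 ∉ l ∧ D.2 ≠ E.2
lemma Ax.ok0 {t l D E X} (h : Ax t l D E) (hX : Dm t.sh X) (m : X.2 ∈ l) : Ok0 t X D E :=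
  ⟨hX, h.1, h.2.1, fun e => h.2.2.1 (e ▸ m), h.2.2.2.2, fun e => h.2.2.2.1 (e ▸ m)⟩
lemma Ax.mono {t l l' D E} (h : Ax t l D E) (e : ∀ x ∈ l', x ∈ l) : Ax t l' D E :=
  ⟨h.1, h.2.1, fun q => h.2.2.1 (e _ q), fun q => h.2.2.2.1 (e _ q), h.2.2.2.2⟩
lemma ex_ax (l : List Sh) (h : l.length < 190) : ∃ a b, ∀ t, Ax t l ([], a) ([], b) := by
  obtain ⟨a, b, h1, h2, h3⟩ := fresh2 l h
  exact ⟨a, b, fun t => ⟨dm_nil _ _, dm_nil _ _, h1, h2, h3⟩⟩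
def Mv (γ : Gam) (t : Tm) (X X' : Leg) (l : List Sh) : Prop :=
  ∀ D E, Ax t l D E → γ * c0 t X D E * γ⁻¹ = c0 t X' D E
lemma Mv.comp {γ γ' t X X' X'' l} (h : Mv γ t X X' l) (h' : Mv γ' t X' X'' l) : Mv (γ' * γ) t X X'' l :=
  fun D E a => by rw [← h' D E a, ← h D E a]; group
lemma mv_self {t A B C l} (h : Ok0 t A B C) (h1 : A.2 ∈ l) (h2 : B.2 ∈ l) (h3 : C.2 ∈ l) :
    Mv (c0 t A B C) t A B l := fun _ _ a =>
  c0_acts h (a.ok0 h.a h1) (fun e => a.2.2.1 (e ▸ h2)) (fun e => a.2.2.1 (e ▸ h3))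
    (fun e => a.2.2.2.1 (e ▸ h2)) (fun e => a.2.2.2.1 (e ▸ h3))
lemma off_of_ne {t : X → Prop} {A B C : Leg} {z : Z} (h : z.2 ∉ [A.2, B.2, C.2]) : Off t A B C z := by
  simp at h
  exact fun y _ => ⟨fun e => h.1 (e ▸ rfl), fun e => h.2.1 (e ▸ rfl), fun e => h.2.2 (e ▸ rfl)⟩
lemma mv_off {t0 t A B C X l} (h : Ok0 t0 A B C) (h1 : A.2 ∈ l) (h2 : B.2 ∈ l) (h3 : C.2 ∈ l)
    (hX : Dm t.sh X) (m : X.2 ∈ l) (e : ∀ x, t.sh x → Off t0.sh A B C (X.at x)) :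
    Mv (c0 t0 A B C) t X X l := fun D E a => by
  have k : ∀ s, s ∉ l → s ∉ [A.2, B.2, C.2] := fun s hs q => by
    simp only [List.mem_cons, List.not_mem_nil, or_false] at q
    rcases q with rfl | rfl | rfl <;> contradiction
  rw [(c0_comm h (a.ok0 hX m) fun x hx =>
    ⟨e x hx, off_of_ne (k _ a.2.2.1), off_of_ne (k _ a.2.2.2.1)⟩).eq]; group
def MR (t : Tm) (r r' : Leg × Sh × Sh) : Prop :=
  Dj t.sh r.1 r'.1 ∧ r.2.1 ≠ r'.1.2 ∧ r.2.2 ≠ r'.1.2 ∧ r.2.1 ≠ r'.2.1 ∧ r.2.1 ≠ r'.2.2 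
lemma mover {t : Tm} {l : List Sh} (L : List (Leg × Sh × Sh)) (h1 : L.Pairwise (MR t))
    (h2 : ∀ r ∈ L, Dm t.sh r.1 ∧ D3 r.1.2 r.2.1 r.2.2 ∧ r.1.2 ∈ l ∧ r.2.1 ∈ l ∧ r.2.2 ∈ l) :
    ∃ γ, (∀ r ∈ L, Mv γ t r.1 ([], r.2.1) l) ∧ ∀ X : Leg, Dm t.sh X → X.2 ∈ l →
      (∀ r ∈ L, Dj t.sh r.1 X ∧ r.2.1 ≠ X.2 ∧ r.2.2 ≠ X.2) → Mv γ t X X l := by
  induction L with
  | nil => exact ⟨1, by simp, fun X _ _ _ D E _ => by simp⟩
  | cons r L ih =>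
    rw [List.pairwise_cons] at h1
    obtain ⟨γ, a, b⟩ := ih h1.2 fun r hr => h2 r (by simp [hr])
    obtain ⟨d1, d2, d3, d4, d5⟩ := h2 r (by simp)
    have o : Ok0 t r.1 ([], r.2.1) ([], r.2.2) := ⟨d1, dm_nil _ _, dm_nil _ _, d2⟩
    have k : ∀ X : Leg, Dm t.sh X → X.2 ∈ l → Dj t.sh r.1 X ∧ r.2.1 ≠ X.2 ∧ r.2.2 ≠ X.2 →
        Mv (c0 t r.1 ([], r.2.1) ([], r.2.2)) t X X l := fun X p q e =>
      mv_off o d3 d4 d5 p q fun x hx y hy => ⟨e.1 y x hy hx, dj_of_ne (A := ([], _)) e.2.1 y x hy hx,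
        dj_of_ne (A := ([], _)) e.2.2 y x hy hx⟩
    refine ⟨γ * c0 t r.1 ([], r.2.1) ([], r.2.2), fun r' hr => ?_, fun X p q e =>
      (k X p q (e r (by simp))).comp (b X p q fun r' hr => e r' (by simp [hr]))⟩
    rcases List.mem_cons.1 hr with rfl | hr
    · exact (mv_self o d3 d4 d5).comp (b _ (dm_nil _ _) d4 fun r hr =>
        ⟨dj_of_ne (h1.1 r hr).2.1.symm, (h1.1 r hr).2.2.2.1.symm, (h1.1 r hr).2.2.2.2.symm⟩)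
    · have := h2 r' (by simp [hr])
      exact (k _ this.1 this.2.2.1 ⟨(h1.1 r' hr).1, (h1.1 r' hr).2.1, (h1.1 r' hr).2.2.1⟩).comp (a r' hr)
lemma mover4 {t : Tm} {A B C D : Leg} (h : Ok t.sh A B C) (hD : Dm t.sh D) (h1 : Dj t.sh D A)
    (h2 : Dj t.sh D B) (h3 : Dj t.sh D C) {σ : Fin 8 → Sh} (hσ : Function.Injective σ)
    (h4 : ∀ i, σ i ∉ [A.2, B.2, C.2, D.2]) {l : List Sh} (h5 : ∀ x ∈ [A.2, B.2, C.2, D.2], x ∈ l)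
    (h6 : ∀ i, σ i ∈ l) : ∃ γ, Mv γ t A ([], σ 0) l ∧ Mv γ t B ([], σ 1) l ∧ Mv γ t C ([], σ 2) l ∧
      Mv γ t D ([], σ 3) l := by
  simp only [List.mem_cons, List.not_mem_nil, or_false, not_or, forall_eq_or_imp, forall_eq] at h4 h5
  have e1 := fun i => (h4 i).1
  have e2 := fun i => (h4 i).2.1
  have e3 := fun i => (h4 i).2.2.1
  have e4 := fun i => (h4 i).2.2.2
  have f1 := fun i => Ne.symm (e1 i)
  have f2 := fun i => Ne.symm (e2 i)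
  have f3 := fun i => Ne.symm (e3 i)
  have f4 := fun i => Ne.symm (e4 i)
  obtain ⟨γ, a, -⟩ := mover (t := t) (l := l) [(A, σ 0, σ 4), (B, σ 1, σ 5), (C, σ 2, σ 6), (D, σ 3, σ 7)]
    (by simp [MR, hσ.eq_iff, e1, e2, e3, e4, h.ab, h.ac, h.bc, h1.symm, h2.symm, h3.symm])
    (by simp [D3, hσ.eq_iff, f1, f2, f3, f4, h.a, h.b, h.c, hD, h5, h6])
  simp only [List.mem_cons, List.not_mem_nil, or_false, forall_eq_or_imp, forall_eq] at a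
  exact ⟨γ, a⟩
lemma mover3 {t : Tm} {A B C : Leg} (h : Ok t.sh A B C) (l0 : List Sh) (c : l0.length ≤ 100) :
    ∃ γ l i j k, D3 i j k ∧ l.length ≤ 20 ∧ (∀ x ∈ [A.2, B.2, C.2, i, j, k], x ∈ l) ∧
      (∀ x ∈ l0, x ∈ l → x ∈ [A.2, B.2, C.2]) ∧
      Mv γ t A ([], i) l ∧ Mv γ t B ([], j) l ∧ Mv γ t C ([], k) l := by
  obtain ⟨d, hd⟩ := fresh (A.2 :: B.2 :: C.2 :: l0) (by simp; omega)
  obtain ⟨σ, hσ, h4⟩ := freshn (A.2 :: B.2 :: C.2 :: d :: l0) 8 (by simp; omega)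
  simp only [List.mem_cons, not_or] at hd
  obtain ⟨γ, a, b, e, -⟩ := mover4 (D := ([], d)) h (dm_nil _ _) (dj_of_ne hd.1) (dj_of_ne hd.2.1)
    (dj_of_ne hd.2.2.1) hσ (fun i q => h4 i (by simp at q ⊢; tauto))
    (l := A.2 :: B.2 :: C.2 :: d :: List.ofFn σ) (by simp) (by simp [List.mem_ofFn, -List.ofFn_succ])
  refine ⟨γ, _, σ 0, σ 1, σ 2, by simp [D3, hσ.eq_iff], by simp, by simp, fun x hx q => ?_, a, b, e⟩
  simp only [List.mem_cons, List.mem_ofFn, List.not_mem_nil, or_false] at q ⊢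
  rcases q with q | q | q | rfl | ⟨i, rfl⟩
  exacts [by tauto, by tauto, by tauto, absurd hx hd.2.2.2, absurd (by simp [hx]) (h4 i)]

noncomputable def FF5 (t : Tm) (X Y Z D E : Leg) : Gam :=
  c0 t Z D E * (c0 t Y D E)⁻¹ * c0 t X D E * (c0 t Z D E)⁻¹
lemma F_eq0 {t X Y Z D E} (h : Ok0 t X Y Z) (a : Ax t [X.2, Y.2, Z.2] D E) :
    FF5 t X Y Z D E = c0 t X Y Z := by
  obtain ⟨a1, a2, a3, a4, a5⟩ := a
  simp only [List.mem_cons, List.not_mem_nil, or_false, not_or] at a3 a4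
  rw [c0_a4 (D := D) ⟨h.b, h.a, h.c, D3.swap12 h.d⟩ a1 a3.2.1 a3.1 a3.2.2,
    c0_a4 (A := Z) (B := Y) (C := D) (D := E) ⟨h.c, h.b, a1, h.d.2.1.symm, Ne.symm a3.2.1, Ne.symm a3.2.2⟩
      a2 a4.2.2 a4.2.1 a5.symm,
    c0_a4 (A := Z) (B := X) (C := D) (D := E) ⟨h.c, h.a, a1, h.d.2.2.symm, Ne.symm a3.1, Ne.symm a3.2.2⟩
      a2 a4.2.2 a4.1 a5.symm, FF5]
  group
lemma F_mv {γ t X Y Z X' Y' Z' D E l} (h1 : Mv γ t X X' l) (h2 : Mv γ t Y Y' l) (h3 : Mv γ t Z Z' l)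
    (a : Ax t l D E) : γ * FF5 t X Y Z D E * γ⁻¹ = FF5 t X' Y' Z' D E := by
  simp only [FF5, ← h1 D E a, ← h2 D E a, ← h3 D E a]; group
lemma ok0_nil (t : Tm) {i j k} (d : D3 i j k) : Ok0 t ([], i) ([], j) ([], k) :=
  ⟨dm_nil _ _, dm_nil _ _, dm_nil _ _, d⟩
lemma F_indep {t A B C D E D' E'} (h : Ok t.sh A B C) (a : Ax t [A.2, B.2, C.2] D E)
    (a' : Ax t [A.2, B.2, C.2] D' E') : FF5 t A B C D E = FF5 t A B C D' E' := by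
  obtain ⟨γ, l, i, j, k, d, -, m1, m2, h1, h2, h3⟩ := mover3 h [D.2, E.2, D'.2, E'.2] (by simp)
  have b : Ax t l D E := ⟨a.1, a.2.1, fun q => a.2.2.1 (m2 _ (by simp) q),
    fun q => a.2.2.2.1 (m2 _ (by simp) q), a.2.2.2.2⟩
  have b' : Ax t l D' E' := ⟨a'.1, a'.2.1, fun q => a'.2.2.1 (m2 _ (by simp) q),
    fun q => a'.2.2.2.1 (m2 _ (by simp) q), a'.2.2.2.2⟩
  have m3 : ∀ x ∈ [i, j, k], x ∈ l := fun x hx => m1 x (by simp at hx ⊢; tauto)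
  have e := F_mv h1 h2 h3 b
  rw [F_eq0 (ok0_nil t d) (b.mono m3), ← F_eq0 (ok0_nil t d) (b'.mono m3), ← F_mv h1 h2 h3 b'] at e
  simpa using e
noncomputable def cc (t : Tm) (A B C : Leg) : Gam :=
  FF5 t A B C ([], (ex_ax [A.2, B.2, C.2] (by simp)).choose)
    ([], (ex_ax [A.2, B.2, C.2] (by simp)).choose_spec.choose)
lemma cc_eq {t A B C D E} (h : Ok t.sh A B C) (a : Ax t [A.2, B.2, C.2] D E) :
    cc t A B C = FF5 t A B C D E := F_indep h ((ex_ax [A.2, B.2, C.2] (by simp)).choose_spec.choose_spec t) a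
lemma cc_c0 {t A B C} (h : Ok0 t A B C) : cc t A B C = c0 t A B C :=
  F_eq0 h ((ex_ax [A.2, B.2, C.2] (by simp)).choose_spec.choose_spec t)
lemma cc_mv {γ t X Y Z X' Y' Z' l} (h : Ok t.sh X Y Z) (h' : Ok t.sh X' Y' Z') (h1 : Mv γ t X X' l)
    (h2 : Mv γ t Y Y' l) (h3 : Mv γ t Z Z' l) (c : l.length ≤ 100) :
    γ * cc t X Y Z * γ⁻¹ = cc t X' Y' Z' := by
  obtain ⟨a, b, e⟩ := ex_ax (X.2 :: Y.2 :: Z.2 :: X'.2 :: Y'.2 :: Z'.2 :: l) (by simp; omega)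
  rw [cc_eq h ((e t).mono (by simp)), cc_eq h' ((e t).mono (by simp))]
  exact F_mv h1 h2 h3 ((e t).mono (by simp +contextual))
lemma cc_rot {t : Tm} {A B C} (h : Ok t.sh A B C) : cc t A B C = cc t B C A := by
  obtain ⟨γ, l, i, j, k, d, c, -, -, h1, h2, h3⟩ := mover3 h [] (by simp)
  have e := cc_mv h (ok0 _ d) h1 h2 h3 (by omega)
  rw [cc_c0 (ok0_nil t d), c0_rot (ok0_nil t d), ← cc_c0 (ok0_nil t d.rot),
    ← cc_mv h.rot (ok0 _ d.rot) h2 h3 h1 (by omega)] at e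
  simpa using e
lemma cc_rev {t : Tm} {A B C} (h : Ok t.sh A B C) : cc t C B A = (cc t A B C)⁻¹ := by
  obtain ⟨γ, l, i, j, k, d, c, -, -, h1, h2, h3⟩ := mover3 h [] (by simp)
  have e := cc_mv h.rev (ok0 _ d.rev) h3 h2 h1 (by omega)
  rw [cc_c0 (ok0_nil t d.rev), c0_rev (ok0_nil t d), ← cc_c0 (ok0_nil t d),
    ← cc_mv h (ok0 _ d) h1 h2 h3 (by omega)] at e
  simpa [mul_assoc] using e
lemma cc_a4 {t : Tm} {A B C D} (h : Ok t.sh A B C) (hD : Dm t.sh D) (h1 : Dj t.sh D A)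
    (h2 : Dj t.sh D B) (h3 : Dj t.sh D C) : cc t B A C = cc t A C D * (cc t B C D)⁻¹ := by
  obtain ⟨σ, hσ, h4⟩ := freshn [A.2, B.2, C.2, D.2] 8 (by simp)
  obtain ⟨γ, a, b, c, d⟩ := mover4 h hD h1 h2 h3 hσ h4 (l := A.2 :: B.2 :: C.2 :: D.2 :: List.ofFn σ)
    (by simp) (by simp [List.mem_ofFn, -List.ofFn_succ])
  have d1 : D3 (σ 1) (σ 0) (σ 2) := by simp [D3, hσ.eq_iff]
  have d2 : D3 (σ 0) (σ 2) (σ 3) := by simp [D3, hσ.eq_iff]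
  have d3 : D3 (σ 1) (σ 2) (σ 3) := by simp [D3, hσ.eq_iff]
  have e := cc_mv h.rev.rot (ok0 _ d1) b a c (by simp)
  rw [cc_c0 (ok0_nil t d1), c0_a4 (D := ([], σ 3)) (ok0_nil t (D3.swap12 d1)) (dm_nil _ _)
      d2.2.2.symm d3.2.2.symm d2.2.1.symm, ← cc_c0 (ok0_nil t d2), ← cc_c0 (ok0_nil t d3),
    ← cc_mv ⟨h.a, h.c, hD, h.ac, h3.symm, h1.symm⟩ (ok0 _ d2) a c d (by simp),
    ← cc_mv ⟨h.b, h.c, hD, h.bc, h3.symm, h2.symm⟩ (ok0 _ d3) b c d (by simp)] at e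
  have : γ * cc t B A C * γ⁻¹ = γ * (cc t A C D * (cc t B C D)⁻¹) * γ⁻¹ := by rw [e]; group
  simpa using this

end Vale.Agent.P196
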