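import Vale.Agent.P196.CT3

/-! The conjugation rule. -/

namespace Vale.Agent.P196
open Equiv Idm

lemma Ax.dj {t l D E X} (h : Ax t l D E) (m : X.2 ∈ l) : Dj t.sh D X ∧ Dj t.sh E X :=
  ⟨dj_of_ne fun e => h.2.2.1 (e ▸ m), dj_of_ne fun e => h.2.2.2.1 (e ▸ m)⟩
lemma pr_cc {t : Tm} {A B C} (h : Ok t.sh A B C) : pr (cc t A B C) = cyc t.sh A B C := by
  obtain ⟨a, b, e⟩ := ex_ax [A.2, B.2, C.2] (by simp)
  have e := e t
  have da := e.dj (X := A) (by simp)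
  have db := e.dj (X := B) (by simp)
  have dc := e.dj (X := C) (by simp)
  have de : Dj t.sh ([], b) ([], a) := dj_of_ne e.2.2.2.2.symm
  rw [cc_eq h e, FF5]
  simp only [map_mul, map_inv, pr_c0 (e.ok0 h.a (by simp)), pr_c0 (e.ok0 h.b (by simp)),
    pr_c0 (e.ok0 h.c (by simp))]
  rw [cyc_a4 h.rev.rot e.1 db.1 da.1 dc.1,
    cyc_a4 (A := C) (B := B) ⟨h.c, h.b, e.1, h.bc.symm, db.1.symm, dc.1.symm⟩ e.2.1 dc.2 db.2 de,
    cyc_a4 (A := C) (B := A) ⟨h.c, h.a, e.1, h.ac.symm, da.1.symm, dc.1.symm⟩ e.2.1 dc.2 da.2 de]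
  group
lemma cc_sh {t s : Tm} (h : ∀ x, t.sh x ↔ s.sh x) (A B C) : cc t A B C = cc s A B C := by
  simp only [cc, FF5, c0_sh h]
def AgL (t : Tm) (A A' : Leg) : Prop := A.2 = A'.2 ∧ Ag t A.1 A'.1
lemma ag_refl {t : Tm} {A : Leg} (h : Dm t.sh A) : Ag t A.1 A.1 := fun y hy => ⟨h y hy, h y hy, rfl⟩
lemma agL_of {t : Tm} {A A' : Leg} {x0} (hx : t.sh x0) (h : Dm t.sh A) (h' : Dm t.sh A')
    (e : ∀ x, t.sh x → A.at x = A'.at x) : AgL t A A' :=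
  ⟨(congrArg Prod.snd (e x0 hx) : (A.at x0).2 = (A'.at x0).2), fun y hy => ⟨h y hy, h' y hy, congrArg Prod.fst (e y hy)⟩⟩
lemma c0_congr1 {t X X' D E} (h : Ok0 t X D E) (e : AgL t X X') : c0 t X D E = c0 t X' D E := by
  obtain ⟨X', i⟩ := X'
  obtain rfl : X.2 = i := e.1
  exact c0_congr h.d e.2 (ag_refl h.b) (ag_refl h.c)
lemma cc_congr {t : Tm} {A B C A' B' C'} (h : Ok t.sh A B C) (h' : Ok t.sh A' B' C') (e1 : AgL t A A')
    (e2 : AgL t B B') (e3 : AgL t C C') : cc t A B C = cc t A' B' C' := by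
  have k : ∀ {X X'}, Dm t.sh X → AgL t X X' → X.2 ∈ [A.2, B.2, C.2] → Mv 1 t X X' [A.2, B.2, C.2] :=
    fun d e m D E a => by simpa using c0_congr1 (a.ok0 d m) e
  simpa using cc_mv h h' (k h.a e1 (by simp)) (k h.b e2 (by simp)) (k h.c e3 (by simp)) (by simp)
lemma ext_at (A : Leg) (u x) : (ext A u).at x = A.at (wact u x) := by simp [ext, Leg.at]
lemma dm_ext {t : Tm} {u : Wd} (hu : ∀ x, t.sh x → wdom u x) {A} (h : Dm (t.trw u).sh A) :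
    Dm t.sh (ext A u) := fun x hx =>
  (wdom_append _ _ _).2 ⟨hu x hx, h _ ((Tm.sh_trw_act (hu x hx)).2 hx)⟩
lemma ok_ext {t : Tm} {u : Wd} (hu : ∀ x, t.sh x → wdom u x) {A B C} (h : Ok (t.trw u).sh A B C) :
    Ok t.sh (ext A u) (ext B u) (ext C u) := by
  have k : ∀ {A B}, Dj (t.trw u).sh A B → Dj t.sh (ext A u) (ext B u) := fun d x y hx hy => by
    rw [ext_at, ext_at]
    exact d _ _ ((Tm.sh_trw_act (hu x hx)).2 hx) ((Tm.sh_trw_act (hu y hy)).2 hy)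
  exact ⟨dm_ext hu h.a, dm_ext hu h.b, dm_ext hu h.c, k h.ab, k h.bc, k h.ac⟩
lemma cc_rep {t : Tm} {u : Wd} (hu : ∀ x, t.sh x → wdom u x) {A B C} (h : Ok (t.trw u).sh A B C) :
    cc (t.trw u) A B C = cc t (ext A u) (ext B u) (ext C u) := by
  obtain ⟨a, b, e⟩ := ex_ax [A.2, B.2, C.2] (by simp)
  have e := e (t.trw u)
  rw [cc_eq h e, cc_eq (ok_ext hu h) (D := ext ([], a) u) (E := ext ([], b) u)
    ⟨dm_ext hu e.1, dm_ext hu e.2.1, e.2.2⟩]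
  simp only [FF5, c0_rep hu (e.ok0 h.a (by simp)), c0_rep hu (e.ok0 h.b (by simp)),
    c0_rep hu (e.ok0 h.c (by simp))]
lemma f5_mul {G} [Group G] {x y z x' y' z' : G} (h1 : Commute x z') (h2 : Commute y z')
    (h3 : Commute z z') (h4 : Commute x y') (h5 : Commute z y') (h6 : Commute z x')
    (h7 : Commute y y') :
    z * z' * (y * y')⁻¹ * (x * x') * (z * z')⁻¹ = z * y⁻¹ * x * z⁻¹ * (z' * y'⁻¹ * x' * z'⁻¹) := by
  rw [h7.eq, show (z * z')⁻¹ = z⁻¹ * z'⁻¹ by rw [h3.eq, mul_inv_rev], mul_inv_rev]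
  have a1 : Commute (y⁻¹ * x * z⁻¹) z' := (h2.inv_left.mul_left h1).mul_left h3.inv_left
  have a2 : Commute (x * z⁻¹) y'⁻¹ := (h4.mul_left h5.inv_left).inv_right
  calc _ = z * z' * y⁻¹ * y'⁻¹ * x * (x' * z⁻¹) * z'⁻¹ := by group
    _ = z * z' * y⁻¹ * (y'⁻¹ * (x * z⁻¹)) * x' * z'⁻¹ := by rw [← h6.inv_left.eq]; group
    _ = z * (z' * (y⁻¹ * x * z⁻¹)) * y'⁻¹ * x' * z'⁻¹ := by rw [← a2.eq]; group
    _ = _ := by rw [← a1.eq]; group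
lemma cc_add {t : Tm} {A B C} (s : Tm) (h : Ok t.sh A B C) :
    cc t A B C = cc (.an t s) A B C * cc (.an t (.nt s)) A B C := by
  obtain ⟨a, b, e⟩ := ex_ax [A.2, B.2, C.2] (by simp)
  have k : ∀ {P Q : Leg}, Dm t.sh P → Dm t.sh Q → P.2 ∈ [A.2, B.2, C.2] → Q.2 ∈ [A.2, B.2, C.2] →
      (P = Q ∨ Dj t.sh P Q) →
      Commute (c0 (.an t s) P ([], a) ([], b)) (c0 (.an t (.nt s)) Q ([], a) ([], b)) := by
    intro P Q dP dQ mP mQ q
    have i : ∀ {P : Leg}, Dm t.sh P → ∀ x y, (Tm.an t (.nt s)).sh x → (Tm.an t s).sh y →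
        P.at y ≠ P.at x := fun d x y hx hy e => hx.2 (d.inj hy.1 hx.1 e ▸ hy.2)
    have e := e t
    have dd : Dj t.sh ([], a) ([], b) := dj_of_ne e.2.2.2.2
    refine c0_comm (((e.ok0 dP mP).mono fun _ h => h.1)) ((e.ok0 dQ mQ).mono fun _ h => h.1)
      fun x hx => ⟨fun y hy => ⟨?_, (e.dj mQ).1 _ _ hy.1 hx.1, (e.dj mQ).2 _ _ hy.1 hx.1⟩,
        fun y hy => ⟨(e.dj mP).1.symm _ _ hy.1 hx.1, i e.1 x y hx hy, dd.symm _ _ hy.1 hx.1⟩,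
        fun y hy => ⟨(e.dj mP).2.symm _ _ hy.1 hx.1, dd _ _ hy.1 hx.1, i e.2.1 x y hx hy⟩⟩
    rcases q with rfl | q
    exacts [i dP x y hx hy, q _ _ hy.1 hx.1]
  rw [cc_eq h (e _), cc_eq (t := .an t s) (h.mono fun _ h => h.1) (e _),
    cc_eq (t := .an t (.nt s)) (h.mono fun _ h => h.1) (e _)]
  simp only [FF5]
  rw [c0_add t s A, c0_add t s B, c0_add t s C]
  exact f5_mul (k h.a h.c (by simp) (by simp) (.inr h.ac)) (k h.b h.c (by simp) (by simp) (.inr h.bc))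
    (k h.c h.c (by simp) (by simp) (.inl rfl)) (k h.a h.b (by simp) (by simp) (.inr h.ab))
    (k h.c h.b (by simp) (by simp) (.inr h.bc.symm)) (k h.c h.a (by simp) (by simp) (.inr h.ac.symm))
    (k h.b h.b (by simp) (by simp) (.inl rfl))
lemma cc_empty {t : Tm} {A B C} (h : ∀ x, ¬ t.sh x) : cc t A B C = 1 := by
  simp only [cc, FF5, c0, tw3, ev_empty h]
  simp [zero, tww_one]

/-- local action on one leg -/
def LM (γ : Gam) (l : List Sh) (t : Tm) (X : Leg) (x : P196.X) : Prop :=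
  ∃ (s : Tm) (X' : Leg), s.sh x ∧ Dm (Tm.an t s).sh X' ∧ X'.2 ∈ X.2 :: l ∧
    (∀ y, (Tm.an t s).sh y → pr γ (X.at y) = X'.at y) ∧
    ∀ r : Tm, (∀ y, r.sh y → (Tm.an t s).sh y) → Mv γ r X X' (X.2 :: l)
lemma sh_hit {t0 : Tm} {A X : Leg} (hA : Dm t0.sh A) {y} (hy : wdom X.1 y) (e : X.2 = A.2) :
    (Tm.pre X.1 (t0.trw A.1)).sh y ↔ ∃ z, t0.sh z ∧ A.at z = X.at y := by
  rw [Tm.sh_pre, Tm.sh_trw]
  refine ⟨fun h => ⟨_, h.2.2, by simp [Leg.at, wact_inv' h.2.1, e]⟩, fun ⟨z, hz, q⟩ => ?_⟩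
  have : wact A.1 z = wact X.1 y := congrArg Prod.fst q
  rw [← this, wact_inv (hA z hz)]
  exact ⟨hy, wdom_inv (hA z hz), hz⟩
lemma lm_hit {t0 A B C l t X x} (h : Ok0 t0 A B C) (h1 : A.2 ∈ l) (h2 : B.2 ∈ l) (h3 : C.2 ∈ l)
    (hX : Dm t.sh X) (hx : t.sh x) (q : ∃ z, t0.sh z ∧ A.at z = X.at x) : LM (c0 t0 A B C) l t X x := by
  have e : X.2 = A.2 := by obtain ⟨z, -, q⟩ := q; exact (congrArg Prod.snd q).symm
  set u := winv A.1 ++ X.1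
  have k : ∀ y, (Tm.an t (Tm.pre X.1 (t0.trw A.1))).sh y →
      wdom u y ∧ t0.sh (wact u y) ∧ A.at (wact u y) = X.at y := fun y hy => by
    have := hy.2
    rw [Tm.sh_pre, Tm.sh_trw] at this
    simp [u, this, Leg.at, wact_inv' this.2.1, e]
  refine ⟨.pre X.1 (t0.trw A.1), ext B u, (sh_hit h.a (hX x hx) e).2 q,
    fun y hy => (wdom_append _ _ _).2 ⟨(k y hy).1, h.b _ (k y hy).2.1⟩, List.mem_cons_of_mem _ h2,
    fun y hy => by rw [pr_c0 h, ← (k y hy).2.2, cyc_A h.ok (k y hy).2.1, ext_at], fun r hr D E a => ?_⟩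
  have hu : ∀ y, r.sh y → wdom u y := fun y hy => (k y (hr y hy)).1
  have r0 : ∀ y, (r.trw u).sh y → t0.sh y := fun y hy => by
    rw [Tm.sh_trw] at hy
    have := (k _ (hr _ hy.2)).2.1
    rwa [wact_inv' hy.1] at this
  have o := h.mono r0
  have dX : Dm r.sh X := fun y hy => hX y (hr y hy).1
  have o' : Ok0 r (ext A u) (ext B u) (ext C u) := ⟨dm_ext hu o.a, dm_ext hu o.b, dm_ext hu o.c, h.d⟩
  have ag : AgL r (ext A u) X := ⟨e.symm, fun y hy => ⟨o'.a y hy, dX y hy, by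
    have := congrArg Prod.fst (k y (hr y hy)).2.2
    simpa [ext, Leg.at] using this⟩⟩
  have m := mv_off (h.mono (s := .an t0 (.nt (r.trw u))) fun _ h => h.1) (List.mem_cons_of_mem X.2 h1)
    (List.mem_cons_of_mem _ h2) (List.mem_cons_of_mem _ h3) dX (by simp) (fun y hy z hz => by
      obtain ⟨k1, k2, k3⟩ := k y (hr y hy)
      rw [← k3]
      refine ⟨fun q => hz.2 ?_, h.ok.ab.symm _ _ hz.1 k2, h.ok.ac.symm _ _ hz.1 k2⟩
      rw [h.a.inj hz.1 k2 q]; exact (Tm.sh_trw_act k1).2 hy)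
  have m2 : Mv (c0 r X (ext B u) (ext C u)) r X (ext B u) (X.2 :: l) :=
    mv_self ⟨dX, o'.b, o'.c, e ▸ h.d⟩ (by simp) (List.mem_cons_of_mem _ h2) (List.mem_cons_of_mem _ h3)
  rw [c0_add t0 (r.trw u), c0_sh (t := .an t0 (r.trw u)) (s := r.trw u)
    (fun y => ⟨fun h => h.2, fun h => ⟨r0 y h, h⟩⟩), c0_rep hu o, c0_congr1 o' ag]
  exact m.comp m2 D E a
lemma lm_gen {t0 A B C t X x} (h : Ok0 t0 A B C) (hX : Dm t.sh X) (hx : t.sh x) :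
    LM (c0 t0 A B C) [A.2, B.2, C.2] t X x := by
  by_cases q1 : ∃ z, t0.sh z ∧ A.at z = X.at x
  · exact lm_hit h (by simp) (by simp) (by simp) hX hx q1
  by_cases q2 : ∃ z, t0.sh z ∧ B.at z = X.at x
  · rw [c0_rot h]; exact lm_hit h.rot (by simp) (by simp) (by simp) hX hx q2
  by_cases q3 : ∃ z, t0.sh z ∧ C.at z = X.at x
  · rw [c0_rot h, c0_rot h.rot]; exact lm_hit h.rot.rot (by simp) (by simp) (by simp) hX hx q3
  have k : ∀ {A : Leg}, Dm t0.sh A → (¬ ∃ z, t0.sh z ∧ A.at z = X.at x) →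
      ∃ s : Tm, s.sh x ∧ ∀ y, t.sh y → s.sh y → ∀ z, t0.sh z → A.at z ≠ X.at y := by
    intro A d q
    by_cases e : X.2 = A.2
    · exact ⟨.nt (.pre X.1 (t0.trw A.1)), fun p => q ((sh_hit d (hX x hx) e).1 p),
        fun y hy p z hz e' => p ((sh_hit d (hX y hy) e).2 ⟨z, hz, e'⟩)⟩
    · exact ⟨.tt, by simp, fun y _ _ z _ e' => e (congrArg Prod.snd e').symm⟩
  obtain ⟨s1, a1, b1⟩ := k h.a q1
  obtain ⟨s2, a2, b2⟩ := k h.b q2
  obtain ⟨s3, a3, b3⟩ := k h.c q3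
  have off : ∀ y, (Tm.an t (.an s1 (.an s2 s3))).sh y → Off t0.sh A B C (X.at y) := fun y hy z hz =>
    ⟨b1 y hy.1 hy.2.1 z hz, b2 y hy.1 hy.2.2.1 z hz, b3 y hy.1 hy.2.2.2 z hz⟩
  exact ⟨.an s1 (.an s2 s3), X, ⟨a1, a2, a3⟩, fun y hy => hX y hy.1, by simp,
    fun y hy => by rw [pr_c0 h, cyc_off (off y hy)], fun r hr =>
      mv_off h (by simp) (by simp) (by simp) (fun y hy => hX y (hr y hy).1) (by simp)
        fun y hy => off y (hr y hy)⟩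

end Vale.Agent.P196
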