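import Vale.Agent.P196.CT4
import Vale.Agent.P196.Spec

/-! The lift. -/

namespace Vale.Agent.P196
open Equiv Idm

def LCR (γ : Gam) : Prop := ∀ (t : Tm) A B C x, Ok t.sh A B C → t.sh x →
  ∃ (s : Tm) (A' B' C' : Leg), s.sh x ∧ (∀ y, s.sh y → t.sh y) ∧ Ok s.sh A' B' C' ∧
    (∀ y, s.sh y → pr γ (A.at y) = A'.at y ∧ pr γ (B.at y) = B'.at y ∧ pr γ (C.at y) = C'.at y) ∧
    ∀ r : Tm, (∀ y, r.sh y → s.sh y) → γ * cc r A B C * γ⁻¹ = cc r A' B' C'
lemma Mv.mono {γ t X X' l l'} (h : Mv γ t X X' l) (e : ∀ x ∈ l, x ∈ l') : Mv γ t X X' l' :=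
  fun D E a => h D E (a.mono e)
lemma lcr_gen {t0 A0 B0 C0} (h0 : Ok0 t0 A0 B0 C0) : LCR (c0 t0 A0 B0 C0) := by
  intro t A B C x h hx
  obtain ⟨s1, A', a1, a2, -, a4, a5⟩ := lm_gen h0 h.a hx
  obtain ⟨s2, B', b1, b2, -, b4, b5⟩ := lm_gen h0 h.b hx
  obtain ⟨s3, C', c1, c2, -, c4, c5⟩ := lm_gen h0 h.c hx
  generalize c0 t0 A0 B0 C0 = γ at *
  have e1 : ∀ y, (Tm.an t (.an s1 (.an s2 s3))).sh y → (Tm.an t s1).sh y := fun y hy => ⟨hy.1, hy.2.1⟩
  have e2 : ∀ y, (Tm.an t (.an s1 (.an s2 s3))).sh y → (Tm.an t s2).sh y := fun y hy => ⟨hy.1, hy.2.2.1⟩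
  have e3 : ∀ y, (Tm.an t (.an s1 (.an s2 s3))).sh y → (Tm.an t s3).sh y := fun y hy => ⟨hy.1, hy.2.2.2⟩
  have o : Ok (Tm.an t (.an s1 (.an s2 s3))).sh A' B' C' :=
    ⟨fun y hy => a2 y (e1 y hy), fun y hy => b2 y (e2 y hy), fun y hy => c2 y (e3 y hy),
      fun y z hy hz q => h.ab y z hy.1 hz.1 ((pr γ).injective (by
        rw [a4 y (e1 y hy), b4 z (e2 z hz), q])),
      fun y z hy hz q => h.bc y z hy.1 hz.1 ((pr γ).injective (by
        rw [b4 y (e2 y hy), c4 z (e3 z hz), q])),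
      fun y z hy hz q => h.ac y z hy.1 hz.1 ((pr γ).injective (by
        rw [a4 y (e1 y hy), c4 z (e3 z hz), q]))⟩
  refine ⟨.an t (.an s1 (.an s2 s3)), A', B', C', ⟨hx, a1, b1, c1⟩, fun y hy => hy.1, o,
    fun y hy => ⟨a4 y (e1 y hy), b4 y (e2 y hy), c4 y (e3 y hy)⟩, fun r hr => ?_⟩
  exact cc_mv (l := [A.2, B.2, C.2, A0.2, B0.2, C0.2]) (h.mono fun y hy => (hr y hy).1) (o.mono hr)
    ((a5 r fun y hy => e1 y (hr y hy)).mono (by simp)) ((b5 r fun y hy => e2 y (hr y hy)).mono (by simp))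
    ((c5 r fun y hy => e3 y (hr y hy)).mono (by simp)) (by simp)
lemma LCR.mul {γ γ'} (h : LCR γ) (h' : LCR γ') : LCR (γ * γ') := by
  intro t A B C x o hx
  obtain ⟨s, A', B', C', a1, a2, a3, a4, a5⟩ := h' t A B C x o hx
  obtain ⟨s', A'', B'', C'', b1, b2, b3, b4, b5⟩ := h s A' B' C' x a3 a1
  refine ⟨s', A'', B'', C'', b1, fun y hy => a2 y (b2 y hy), b3, fun y hy => ?_, fun r hr => ?_⟩
  · simp only [map_mul, Perm.mul_apply, a4 y (b2 y hy), b4 y hy, and_self]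
  · rw [← b5 r hr, ← a5 r fun y hy => b2 y (hr y hy)]; group

def S0 : Set Gam := {g | ∃ t A B C, Ok0 t A B C ∧ g = c0 t A B C}
lemma of_nice {S a i j k} (d : D3 i j k) (h : Dm (fun x => code x ∈ S) (Option.toList a, i)) :
    (PresentedGroup.of (S, a, i, j, k) : Gam) ∈ Subgroup.closure S0 := by
  obtain ⟨hU, t, e1, e2⟩ := df_code S
  have o : Ok0 t (a.toList, i) ([], j) ([], k) := ⟨e1 ▸ h, dm_nil _ _, dm_nil _ _, d⟩
  refine Subgroup.subset_closure ⟨t, _, _, _, o, Short.eq (Short.of _) (by omega) (m := 5) ?_ (by omega) ?_⟩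
  · simp only [c0, tw3, tww_nil, e2, phi_p hU]
    cases a
    · exact (ph_short _ _ _ _).mono (by omega)
    · exact ((mvl_short _ _ _).mul (ph_short _ _ _ _)).mul (mvl_short _ _ _).inv
  · rw [pr_c0 o, pr_of, e1]; rfl
lemma ph_mem {U} (hU : IsLoc U) {i j k} (d : D3 i j k) : ph U i j k ∈ Subgroup.closure S0 := by
  simp only [ph, d, if_true]; exact of_nice d (dm_nil _ _)
lemma gen_S0 : Subgroup.closure S0 = ⊤ := by
  rw [eq_top_iff, ← PresentedGroup.closure_range_of, Subgroup.closure_le]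
  rintro _ ⟨⟨S, a, i, j, k⟩, rfl⟩
  have one : gen (S, a, i, j, k) = 1 → (PresentedGroup.of (S, a, i, j, k) : Gam) ∈ Subgroup.closure S0 :=
    fun e => by rw [(Short.of _).eq (by omega) (Short.one 0) (by omega) (by simpa using e)]; exact one_mem _
  by_cases o : Ok (fun x => code x ∈ S) (a.toList, i) ([], j) ([], k)
  swap
  · exact one (by simp [gen, cyc, o])
  by_cases q : ∃ x, code x ∈ S
  swap
  · exact one (by ext1 z; exact cyc_off fun x hx => absurd ⟨x, hx⟩ q)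
  obtain ⟨x0, hx0⟩ := q
  have jk : j ≠ k := fun e => o.bc x0 x0 hx0 hx0 (by simp [Leg.at, e])
  have hU := (df_code S).1
  obtain ⟨σ, hσ, h4⟩ := freshn [i, j, k] 4 (by simp)
  simp only [List.mem_cons, List.not_mem_nil, or_false, not_or] at h4
  have f1 := fun n => Ne.symm (h4 n).1
  have f2 := fun n => Ne.symm (h4 n).2.1
  have f3 := fun n => Ne.symm (h4 n).2.2
  have d1 : D3 j (σ 0) (σ 2) := by simp [D3, hσ.eq_iff, f2]
  have d2 : D3 k (σ 1) (σ 3) := by simp [D3, hσ.eq_iff, f3]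
  have d3 : D3 i (σ 0) (σ 1) := by simp [D3, hσ.eq_iff, f1]
  have e : ph (fun x => code x ∈ S) k (σ 1) (σ 3) * ph (fun x => code x ∈ S) j (σ 0) (σ 2) *
      PresentedGroup.of (S, a, i, j, k) * (ph (fun x => code x ∈ S) k (σ 1) (σ 3) *
      ph (fun x => code x ∈ S) j (σ 0) (σ 2))⁻¹ = PresentedGroup.of (S, a, i, σ 0, σ 1) := by
    have s2 := (ph_short (fun x => code x ∈ S) k (σ 1) (σ 3)).mul (ph_short (fun x => code x ∈ S) j (σ 0) (σ 2))
    refine ((s2.mul (Short.of _)).mul s2.inv).eq (by omega) (Short.of _) (by omega) ?_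
    rw [map_mul, map_mul, map_inv, pr_of, pr_of, map_mul, pr_ph hU d1, pr_ph hU d2]
    refine cyc_conj' o ⟨o.a, dm_nil _ _, dm_nil _ _, dj_of_ne d3.1, dj_of_ne d3.2.1, dj_of_ne d3.2.2⟩ _
      (fun x hx => ?_) (fun x hx => ?_) fun x hx => ?_
    · have n : ∀ (s) (y : X), (y, σ s) ≠ Leg.at (a.toList, i) x := fun s y e =>
        (h4 s).1 (congrArg Prod.snd e)
      rw [Perm.mul_apply, cy0, cy0, cyc_off (z := Leg.at _ x) fun y hy => ⟨o.ab.symm y x hy hx,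
        n _ _, n _ _⟩, cyc_off fun y hy => ⟨o.ac.symm y x hy hx, n _ _, n _ _⟩]
    · simp only [Perm.mul_apply, Leg.at, wact_nil, cy0_eq _ d1, cy0_eq _ d2, hx, if_true, c3_1 d1]
      rw [c3_fix (h4 0).2.2 (by simp [hσ.eq_iff]) (by simp [hσ.eq_iff])]
    · simp only [Perm.mul_apply, Leg.at, wact_nil, cy0_eq _ d1, cy0_eq _ d2, hx, if_true]
      rw [c3_fix jk.symm (f3 0) (f3 2), c3_1 d2]
  have m := mul_mem (ph_mem hU d2) (ph_mem hU d1)
  have := mul_mem (mul_mem (inv_mem m) (e ▸ of_nice d3 o.a)) m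
  simpa [mul_assoc] using this
lemma lcr (γ : Gam) : LCR γ := by
  refine Subgroup.closure_induction'' (s := S0) (p := fun g _ => LCR g) ?_ ?_ ?_
    (fun _ _ _ _ a b => a.mul b) (gen_S0 ▸ Subgroup.mem_top γ)
  · rintro _ ⟨t, A, B, C, h, rfl⟩; exact lcr_gen h
  · rintro _ ⟨t, A, B, C, h, rfl⟩; rw [← c0_rev h]; exact lcr_gen h.rev
  · exact fun t A B C x h hx => ⟨t, A, B, C, hx, fun _ e => e, h, by simp, by simp⟩

lemma cc_conj {t t' : Tm} {A B C A' B' C' : Leg} (γ : Gam) (f : X → X) (h : Ok t.sh A B C)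
    (h' : Ok t'.sh A' B' C') (hf : ∀ x, t.sh x → t'.sh (f x)) (hs : ∀ y, t'.sh y → ∃ x, t.sh x ∧ f x = y)
    (h1 : ∀ x, t.sh x → pr γ (A.at x) = A'.at (f x)) (h2 : ∀ x, t.sh x → pr γ (B.at x) = B'.at (f x))
    (h3 : ∀ x, t.sh x → pr γ (C.at x) = C'.at (f x)) : γ * cc t A B C * γ⁻¹ = cc t' A' B' C' := by
  have fi : ∀ x y, t.sh x → t.sh y → f x = f y → x = y := fun x y hx hy e =>
    h.a.inj hx hy ((pr γ).injective (by rw [h1 x hx, h1 y hy, e]))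
  obtain ⟨r', e1, e2⟩ := loc_ind (fun r => (∀ y, r.sh y → t.sh y) → ∃ r' : Tm,
      (∀ y, r'.sh y ↔ ∃ x, r.sh x ∧ f x = y) ∧ γ * cc r A B C * γ⁻¹ = cc r' A' B' C')
    (fun r hr _ => ⟨.ff, fun y => by simp [hr], by rw [cc_empty hr, cc_empty (by simp)]; simp⟩)
    (fun r s p1 p2 hr => by
      obtain ⟨r1, a1, b1⟩ := p1 fun y hy => hr y hy.1
      obtain ⟨r2, a2, b2⟩ := p2 fun y hy => hr y hy.1
      have e : ∀ y, (Tm.nt (.an (.nt r1) (.nt r2))).sh y ↔ ∃ x, r.sh x ∧ f x = y := fun y => by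
        simp only [Tm.sh, a1, a2, not_and_or, not_not]
        refine ⟨fun q => q.elim (fun ⟨x, p, e⟩ => ⟨x, p.1, e⟩) fun ⟨x, p, e⟩ => ⟨x, p.1, e⟩,
          fun ⟨x, p, e⟩ => ?_⟩
        by_cases q : s.sh x
        exacts [.inl ⟨x, ⟨p, q⟩, e⟩, .inr ⟨x, ⟨p, q⟩, e⟩]
      refine ⟨_, e, ?_⟩
      rw [cc_add s (h.mono hr), cc_add r1 (h'.mono fun y hy => by
        obtain ⟨x, p, rfl⟩ := (e y).1 hy; exact hf x (hr x p)), cc_sh (s := r1) (t := .an _ r1), cc_sh (s := r2)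
        (t := .an _ (.nt r1)), ← b1, ← b2]
      · group
      · intro y
        refine ⟨fun q => by have := q.1; have := q.2; simp only [Tm.sh] at *; tauto, fun q =>
          ⟨fun p => p.2 q, fun p => ?_⟩⟩
        obtain ⟨x, p1, rfl⟩ := (a1 y).1 p
        obtain ⟨x', p2, e'⟩ := (a2 _).1 q
        exact p2.2 (fi _ _ (hr _ p1.1) (hr _ p2.1) e'.symm ▸ p1.2)
      · exact fun y => ⟨fun q => q.2, fun q => ⟨fun p => p.1 q, q⟩⟩) t
    (fun x hx => by
      obtain ⟨s, A1, B1, C1, a1, a2, a3, a4, a5⟩ := lcr γ t A B C x h hx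
      refine ⟨s, a1, fun r hr _ => ?_⟩
      have k1 : ∀ y, s.sh y → A1.at y = A'.at (f y) := fun y hy => by rw [← (a4 y hy).1, h1 y (a2 y hy)]
      have k2 : ∀ y, s.sh y → B1.at y = B'.at (f y) := fun y hy => by rw [← (a4 y hy).2.1, h2 y (a2 y hy)]
      have k3 : ∀ y, s.sh y → C1.at y = C'.at (f y) := fun y hy => by rw [← (a4 y hy).2.2, h3 y (a2 y hy)]
      have u : ∀ y, s.sh y → wdom (winv A'.1 ++ A1.1) y ∧ wact (winv A'.1 ++ A1.1) y = f y := by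
        intro y hy
        have e : wact A1.1 y = wact A'.1 (f y) := congrArg Prod.fst (k1 y hy)
        have d := h'.a _ (hf y (a2 y hy))
        simp [a3.a y hy, e, wdom_inv d, wact_inv d]
      generalize winv A'.1 ++ A1.1 = w at u
      have hu : ∀ y, r.sh y → wdom w y := fun y hy => (u y (hr y hy).1).1
      have e : ∀ y, (r.trw w).sh y ↔ ∃ x, r.sh x ∧ f x = y := fun y => by
        refine ⟨fun q => ?_, ?_⟩
        · rw [Tm.sh_trw] at q
          exact ⟨_, q.2, by rw [← (u _ (hr _ q.2).1).2, wact_inv' q.1]⟩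
        · rintro ⟨x, p, rfl⟩
          rw [← (u _ (hr _ p).1).2]; exact (Tm.sh_trw_act (hu x p)).2 p
      have o : Ok (r.trw w).sh A' B' C' := h'.mono fun y hy => by
        obtain ⟨x, p, rfl⟩ := (e y).1 hy; exact hf x (hr x p).2
      have o' := ok_ext hu o
      have o1 : Ok r.sh A1 B1 C1 := a3.mono fun y hy => (hr y hy).1
      have ag : ∀ {P P' : Leg}, Dm r.sh P → Dm r.sh (ext P' w) → (∀ y, s.sh y → P.at y = P'.at (f y)) →
          AgL r P (ext P' w) := fun d d' k =>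
        ⟨(congrArg Prod.snd (k x a1) :), fun y hy => ⟨d y hy, d' y hy, by
          have := congrArg Prod.fst (k y (hr y hy).1)
          simpa [ext, Leg.at, (u y (hr y hy).1).2] using this⟩⟩
      exact ⟨r.trw w, e, by rw [a5 r fun y hy => (hr y hy).1, cc_rep hu o,
        cc_congr o1 o' (ag o1.a o'.a k1) (ag o1.b o'.b k2) (ag o1.c o'.c k3)]⟩) fun _ e => e
  rw [e2]
  exact cc_sh (fun y => (e1 y).trans ⟨fun ⟨x, p, q⟩ => q ▸ hf x p, hs y⟩) _ _ _

end Vale.Agent.P196
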