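import Vale.Agent.P196.CT5

/-! Cubes vanish; the lift exists. -/

namespace Vale.Agent.P196
open Equiv Idm

lemma ker_central {g : Gam} (h : pr g = 1) (γ : Gam) : γ * g * γ⁻¹ = g := by
  have : Commute γ g := by
    refine Subgroup.closure_induction (k := S0) (p := fun γ _ => Commute γ g) ?_ (Commute.one_left _)
      (fun _ _ _ _ a b => a.mul_left b) (fun _ _ a => a.inv_left) (gen_S0 ▸ Subgroup.mem_top γ)
    rintro _ ⟨t, A, B, C, o, rfl⟩
    have := cc_conj g id o.ok o.ok (fun _ e => e) (fun y e => ⟨y, e, rfl⟩) (by simp [h]) (by simp [h])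
      (by simp [h])
    rw [cc_c0 o, mul_inv_eq_iff_eq_mul] at this
    exact this.symm
  rw [this.eq]; group
lemma cyc_cube {t A B C} (h : Ok t A B C) : cyc t A B C ^ 3 = 1 := by
  ext1 z
  rcases z_cases t A B C z with ⟨x, hx, rfl⟩ | ⟨x, hx, rfl⟩ | ⟨x, hx, rfl⟩ | e
  · simp [pow_succ, cyc_A h hx, cyc_B h hx, cyc_C h hx]
  · simp [pow_succ, cyc_A h hx, cyc_B h hx, cyc_C h hx]
  · simp [pow_succ, cyc_A h hx, cyc_B h hx, cyc_C h hx]
  · simp [pow_succ, cyc_off e]
lemma cube_ker {t : Tm} {A B C} (h : Ok t.sh A B C) : pr (cc t A B C ^ 3) = 1 := by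
  rw [map_pow, pr_cc h, cyc_cube h]
lemma cube_eq {t : Tm} {A B C A' B' C'} (h : Ok t.sh A B C) (h' : Ok t.sh A' B' C') :
    cc t A B C ^ 3 = cc t A' B' C' ^ 3 := by
  obtain ⟨d, hd⟩ := fresh [A.2, B.2, C.2, A'.2, B'.2, C'.2] (by simp)
  obtain ⟨σ, hσ, h4⟩ := freshn [d, A.2, B.2, C.2, A'.2, B'.2, C'.2] 8 (by simp)
  have k : ∀ {A B C}, Ok t.sh A B C → d ∉ [A.2, B.2, C.2] → (∀ i, σ i ∉ [A.2, B.2, C.2, d]) →
      cc t A B C ^ 3 = cc t ([], σ 0) ([], σ 1) ([], σ 2) ^ 3 := by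
    intro A B C h hd h4
    simp only [List.mem_cons, not_or] at hd
    obtain ⟨γ, a, b, c, -⟩ := mover4 (D := ([], d)) h (dm_nil _ _) (dj_of_ne hd.1) (dj_of_ne hd.2.1)
      (dj_of_ne hd.2.2.1) hσ h4 (l := A.2 :: B.2 :: C.2 :: d :: List.ofFn σ) (by simp)
      (by simp [List.mem_ofFn, -List.ofFn_succ])
    rw [← cc_mv h (ok0 _ (by simp [D3, hσ.eq_iff])) a b c (by simp), conj_pow, ker_central (cube_ker h)]
  rw [k h (by simp at hd ⊢; tauto) fun i q => h4 i (by simp at q ⊢; tauto),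
    k h' (by simp at hd ⊢; tauto) fun i q => h4 i (by simp at q ⊢; tauto)]
lemma d012 : D3 0 1 2 := by simp [D3]
noncomputable def zz (t : Tm) : Gam := cc t ([], 0) ([], 1) ([], 2) ^ 3
lemma zz_sq (t : Tm) : zz t * zz t = 1 := by
  have := cube_eq (t := t) (ok0 _ d012.rev) (ok0 _ d012)
  rw [cc_rev (ok0 _ d012), inv_pow, inv_eq_iff_mul_eq_one] at this
  exact this
lemma zz_sh {s t : Tm} (h : ∀ x, s.sh x ↔ t.sh x) : zz s = zz t := by rw [zz, cc_sh h, zz]
lemma zz_add (t s : Tm) : zz t = zz (.an t s) * zz (.an t (.nt s)) := by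
  have := c0_comm (ok0_nil (.an t s) d012) (ok0_nil (.an t (.nt s)) d012) fun x hx => by
    have : ∀ y, (Tm.an t s).sh y → y ≠ x := by rintro y hy rfl; exact hx.2 hy.2
    refine ⟨?_, ?_, ?_⟩ <;> intro y hy <;> simp [Leg.at, this y hy]
  simp only [zz, cc_c0 (ok0_nil _ d012)]
  rw [c0_add t s, this.mul_pow]
lemma zz_trw {t : Tm} {u} (hu : ∀ x, t.sh x → wdom u x) : zz (t.trw u) = zz t := by
  rw [zz, cc_rep hu (ok0 _ d012)]
  exact cube_eq (ok_ext hu (ok0 _ d012)) (ok0 _ d012)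
lemma zz_empty {t : Tm} (h : ∀ x, ¬ t.sh x) : zz t = 1 := by simp [zz, cc_empty h]
lemma zz_W {k : ℕ} {t s : Tm} (h : ∀ x, s.sh x ↔ x 0 = k ∧ t.sh (pop x)) :
    zz s = zz (.an t (.Q (k + 1))) := by
  rw [← zz_trw (t := .an t (.Q (k + 1))) (u := pw k) fun x hx => (pw_spec k x).1.2 hx.2]
  refine zz_sh fun x => (h x).trans ⟨fun ⟨a, b⟩ => ?_, fun q => ?_⟩
  · have d : ((k + 1 : ℕ) : ℕ∞) ≤ pop x 0 := by
      simp only [pop, cons_0, a]; push_cast; exact le_self_add
    rw [← Tm.push_pop a, ← (pw_spec k _).2, Tm.sh_trw_act ((pw_spec k _).1.2 d)]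
    exact ⟨b, d⟩
  · rw [Tm.sh_trw] at q
    rw [← wact_inv' q.1, (pw_spec k _).2, Tm.pop_push q.2.2]
    exact ⟨by simp [push], q.2.1⟩
lemma zz_Q (n : ℕ) : zz (.Q n) = 1 := by
  rw [zz_add _ (.Q (n + 1)), zz_W (k := n) (t := .tt) (s := .an _ (.nt _)) fun x => by
    simp only [Tm.sh, Tm.tt]; generalize x 0 = a; enat_to_nat <;> first | omega | (simp_all; done) | (simp_all; omega),
    zz_sh (s := .an .tt (.Q (n + 1))) (t := .an (.Q n) (.Q (n + 1))) fun x => by
    simp only [Tm.sh, Tm.tt]; generalize x 0 = a; enat_to_nat <;> first | omega | simp_all, zz_sq]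
lemma en7 (c : ℕ) (p : ℕ∞) : ((c + 1 : ℕ) : ℕ∞) ≤ p ↔ 1 ≤ p ∧ (c : ℕ∞) ≤ p - 1 := by
  enat_to_nat <;> first | omega | simp_all
lemma en8 (c : ℕ) (p : ℕ∞) : ((c + 1 : ℕ) : ℕ∞) ≤ p + 1 ↔ (c : ℕ∞) ≤ p := by
  enat_to_nat <;> first | omega | simp_all
def box (a b c : ℕ) : Tm := .an (.Q a) (.an (.J b) (.K c))
lemma zz_box (a b c : ℕ) : zz (box a b c) = 1 := by
  induction c generalizing a b with
  | zero =>
    induction b generalizing a with
    | zero => rw [← zz_Q a]; exact zz_sh fun x => by simp [box, Tm.sh]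
    | succ b ih =>
      rw [← ih (a + 1), ← zz_trw (t := box (a + 1) b 0) (u := [.u']) fun x hx =>
        ⟨trivial, le_trans (by simp) hx.1⟩]
      refine zz_sh fun x => ?_
      simp only [Tm.trw, Tm.sh_tr, box, Tm.sh, Lt.inv, Lt.dom, Lt.act, cons_0, cons_1, cons_2, tl_app]
      generalize x 0 = p; generalize x 1 = q
      enat_to_nat <;> first | omega | (simp_all; done) | (simp_all; omega)
  | succ c ih =>
    rw [← ih a (b + 1), ← zz_trw (t := box a (b + 1) c) (u := [.v']) fun x hx =>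
      ⟨trivial, le_trans (by simp) hx.2.1⟩]
    refine zz_sh fun x => ?_
    simp only [Tm.trw, Tm.sh_tr, box, Tm.sh, Lt.inv, Lt.dom, Lt.act, cons_0, cons_1, cons_2, tl_app]
    rw [en7, en8]; tauto
lemma cmax (a k : ℕ) (p : ℕ∞) : ((max a k : ℕ) : ℕ∞) ≤ p ↔ (a : ℕ∞) ≤ p ∧ (k : ℕ∞) ≤ p := by
  rw [Nat.mono_cast.map_max, max_le_iff]
def Gd (N : ℕ) (s : Tm) : Prop := ∀ a b c, N ≤ a → zz (.an (box a b c) s) = 1
lemma gd_an {N} (t : Tm) (h : bd t ≤ N) : ∀ s, Gd N s → Gd N (.an s t) := by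
  induction t with
  | Q k =>
    intro s g a b c e
    rw [← g (max a k) b c (by omega)]; exact zz_sh fun x => by simp [box, Tm.sh, cmax]; tauto
  | J k =>
    intro s g a b c e
    rw [← g a (max b k) c e]; exact zz_sh fun x => by simp [box, Tm.sh, cmax]; tauto
  | K k =>
    intro s g a b c e
    rw [← g a b (max c k) e]; exact zz_sh fun x => by simp [box, Tm.sh, cmax]; tauto
  | nt t ih =>
    intro s g a b c e
    have := zz_add (.an (box a b c) s) t
    rw [g a b c e, zz_sh (s := .an (.an _ s) t) (t := .an (box a b c) (.an s t)) fun x => and_assoc, ih h s g a b c e,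
      one_mul] at this
    rw [this]; exact zz_sh fun x => and_assoc.symm
  | an t t' ih1 ih2 =>
    simp only [bd] at h
    intro s g a b c e
    rw [← ih2 (by omega) _ (ih1 (by omega) s g) a b c e]
    exact zz_sh fun x => by simp only [Tm.sh]; tauto
  | W k t _ =>
    refine fun s g a b c e => zz_empty fun x hx => ?_
    have h1 : (a : ℕ∞) ≤ x 0 := hx.1.1
    rw [hx.2.2.1, Nat.cast_le] at h1
    simp only [bd] at h; omega
lemma zz_aux (n : ℕ) : ∀ (t : Tm) (m : ℕ), mu t ≤ n → zz (.an t (.Q m)) = 1 := by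
  induction n with
  | zero =>
    intro t m h
    have d := fun x => dec_mu0 x t (by omega)
    by_cases q : t.sh fun _ => 0
    · have : ev (.an t (.Q m)) = ev (.Q m) := meet_of_ge ((le_top _).trans ((d _).1 q))
      rw [← zz_Q m]; simp only [zz, cc, FF5, c0, this]
    · have : ev (.an t (.Q m)) = ev .ff :=
        (meet_eq_zero (((d _).2 q).symm.mono (le_top _))).trans ev_ff.symm
      rw [← zz_empty (t := .ff) (by simp)]; simp only [zz, cc, FF5, c0, this]
  | succ n ih =>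
    intro t m h
    have : ∀ d k, bd t ≤ k + d → zz (.an t (.Q k)) = 1 := by
      intro d
      induction d with
      | zero =>
        intro k e
        rw [← gd_an t le_rfl .tt (fun a b c _ => by
          rw [← zz_box a b c]; exact zz_sh fun x => by simp [Tm.sh_an]) k 0 0 e]
        exact zz_sh fun x => by simp [box, Tm.sh, Tm.tt]; tauto
      | succ d ih2 =>
        intro k e
        rw [zz_add _ (.Q (k + 1)), zz_W (k := k) (t := t.pull k) (s := .an _ (.nt _)),
          ih (t.pull k) _ (by have := mu_pull k t; omega), mul_one, ← ih2 (k + 1) (by omega)]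
        · refine zz_sh fun x => ⟨fun q => ⟨q.1.1, q.2⟩, fun q => ⟨⟨q.1, le_trans ?_ q.2⟩, q.2⟩⟩
          simp
        · intro x
          have e1 : (Tm.Q k).sh x ∧ ¬ (Tm.Q (k + 1)).sh x ↔ x 0 = k := by
            simp only [Tm.sh]; generalize x 0 = a
            enat_to_nat <;> first | omega | (simp_all; done) | (simp_all; omega)
          rw [Tm.sh_an, Tm.sh_an, and_assoc, Tm.sh_nt, e1, and_comm]
          refine and_congr_right fun a => ?_
          rw [Tm.sh_pull k t (by simp only [pop, cons_0, a]; push_cast; exact le_self_add), Tm.push_pop a]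
    exact this (bd t) m (by omega)
lemma zz_one (t : Tm) : zz t = 1 :=
  by rw [← zz_aux _ t 0 le_rfl]; exact zz_sh fun x => by simp [Tm.sh]

noncomputable def lift : Lift Gam pr where
  c := cc
  pr_c := pr_cc
  gen := by
    rw [eq_top_iff, ← gen_S0]
    exact Subgroup.closure_mono fun _ ⟨t, A, B, C, h, e⟩ => ⟨t, A, B, C, h.ok, e.trans (cc_c0 h).symm⟩
  conj := cc_conj
  add := cc_add
  rot := cc_rot
  rev := cc_rev
  a4 := cc_a4
  cube h := (cube_eq h (ok0 _ d012)).trans (zz_one _)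

theorem gg_fp (hK : KStmt) : Group.IsFinitelyPresented GG := by
  have r : pr.range = GG := by
    rw [MonoidHom.range_eq_map, ← lift.gen, MonoidHom.map_closure, GG]
    congr 1
    ext g
    exact ⟨fun ⟨_, ⟨t, A, B, C, h, rfl⟩, e⟩ => ⟨t, A, B, C, h, by rw [← e, lift.pr_c h]⟩,
      fun ⟨t, A, B, C, h, e⟩ => ⟨_, ⟨t, A, B, C, h, rfl⟩, by rw [e, lift.pr_c h]⟩⟩
  rw [← r]
  have : Finite Rel := rel_finite
  refine Group.IsFinitelyPresented.of_surjective pr.rangeRestrict pr.rangeRestrict_surjective ?_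
  rw [MonoidHom.ker_rangeRestrict]
  have : Group.FG pr.ker := (Group.fg_iff_subgroup_fg _).2 (hK Gam pr lift)
  exact Subgroup.IsFinitelyNormallyGenerated.of_FG _

end Vale.Agent.P196
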