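import Vale.Agent.P196.Meet

/-! The closure lemma: pairwise compatible idempotents have triple meets. -/

namespace Vale.Agent.P196
variable {Γ : Type*} [Group Γ] {F : Frame Γ}

lemma c3_apply {i j k : Sh} (h : D3 i j k) (x : Sh) :
    c3 i j k x = if x = i then j else if x = j then k else if x = k then i else x := by
  split_ifs with h1 h2 h3
  · rw [h1, c3_1 h]
  · rw [h2, c3_2 h]
  · rw [h3, c3_3 h]
  · exact c3_fix h1 h2 h3

namespace Idm

lemma c3_cm {i j k a b : Sh} (hd : D3 i j k) (h : Aux i j k a b) :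
    c3 i a j * c3 j k b * (c3 i a j)⁻¹ * (c3 j k b)⁻¹ = c3 j i k := by
  obtain ⟨d1, d2, e1, e2, e3⟩ := h
  have : c3 i a j * c3 j k b = c3 j i k * c3 j k b * c3 i a j := by
    ext x
    simp only [Equiv.Perm.mul_apply, c3_apply d1, c3_apply d2, c3_apply (D3.swap12 hd)]
    obtain ⟨f1, f2, f3⟩ := hd
    obtain ⟨g1, g2, -⟩ := d1
    obtain ⟨-, g3, g4⟩ := d2
    have := f1.symm; have := f2.symm; have := f3.symm; have := g1.symm; have := g2.symm
    have := g3.symm; have := g4.symm; have := e1.symm; have := e2.symm; have := e3.symm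
    by_cases x1 : x = i
    · subst x1; simp [*]
    by_cases x2 : x = j
    · subst x2; simp [*]
    by_cases x3 : x = k
    · subst x3; simp [*]
    by_cases x4 : x = a
    · subst x4; simp [*]
    by_cases x5 : x = b
    · subst x5; simp [*]
    simp [*]
  rw [this]; group

lemma Aux.map {i j k a b : Sh} (h : Aux i j k a b) (s : Equiv.Perm Sh) :
    Aux (s i) (s j) (s k) (s a) (s b) :=
  ⟨h.1.map s, h.2.1.map s, fun e => h.2.2.1 (s.injective e), fun e => h.2.2.2.1 (s.injective e),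
    fun e => h.2.2.2.2 (s.injective e)⟩

lemma commute_of_acts {g g' : Γ} {s : Equiv.Perm Sh} {m : T3 Γ} (h : Acts g s m) (h' : Acts g' s m)
    {i j k : Sh} (d : D3 i j k) : Commute (m i j k) (g⁻¹ * g') := by
  have e := h' i j k d
  rw [← h i j k d] at e
  have : g⁻¹ * g' * m i j k = m i j k * (g⁻¹ * g') := by
    calc _ = g⁻¹ * (g' * m i j k * g'⁻¹) * g' := by group
      _ = _ := by rw [e]; group
  exact this.symm

lemma commute_cm {g u v : Γ} (h1 : Commute g u) (h2 : Commute g v) : Commute g (cm u v) :=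
  ((h1.mul_right h2).mul_right h1.inv_right).mul_right h2.inv_right

lemma cm_commute {u v h : Γ} (h1 : Commute u h) (h2 : Commute u (cm v h))
    (h3 : Commute v (cm v h)) : Commute (cm u v) h := by
  have e0 : v⁻¹ * h * v = (cm v h)⁻¹ * h := by
    have : h = v⁻¹ * (cm v h) * h * v := by simp [cm, mul_assoc]
    rw [h3.inv_left.eq] at this
    calc _ = (cm v h)⁻¹ * (cm v h * v⁻¹ * h * v) := by group
      _ = _ := by rw [← this]
  have e : Commute u (v⁻¹ * h * v) := by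
    rw [e0]; exact h2.inv_right.mul_right h1
  have e2 : Commute (v * u⁻¹ * v⁻¹) h := by
    have := (Commute.conj_iff v).2 e.inv_left
    simpa [mul_assoc] using this
  have := h1.mul_left e2
  simpa [cm, mul_assoc] using this

open Classical in
noncomputable def brk (x y : T3 Γ) : T3 Γ := fun j i k =>
  if h : D3 i j k then cm (x i (exists_aux h [] (by simp)).choose j)
    (y j k (exists_aux h [] (by simp)).choose_spec.choose) else 1

lemma brk_eq {x y : T3 Γ} (hx : Pre F.toSheets x) (hy : Pre F.toSheets y) {i j k a b : Sh}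
    (hd : D3 i j k) (h : Aux i j k a b) : brk x y j i k = cm (x i a j) (y j k b) := by
  simp only [brk, hd, dif_pos]
  exact br_indep hx hy hd h (exists_aux hd [] (by simp)).choose_spec.choose_spec.2.2

lemma ex_aux {i j k : Sh} (h : D3 i j k) : ∃ a b, Aux i j k a b := by
  obtain ⟨a, b, -, -, h⟩ := exists_aux h [] (by simp)
  exact ⟨a, b, h⟩

section closure
variable {U V W x y z : Idm F}

lemma brk_com {q : Idm F} {x y : Idm F} (h1 : Perp q x) (h2 : Perp q y) :
    Com q.p (brk x.p y.p) := by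
  intro a b c j i k d1 d2
  obtain ⟨a', b', h⟩ := ex_aux (D3.swap12 d2)
  rw [brk_eq x.pre y.pre (D3.swap12 d2) h]
  exact commute_cm (h1 _ _ _ _ _ _ d1 h.1) (h2 _ _ _ _ _ _ d1 h.2.1)

lemma brk_one (x y : Idm F) (a b c : Sh) (d : D3 a b c) :
    Acts (F.one a b c) (c3 a b c) (brk x.p y.p) := by
  intro j i k d2
  obtain ⟨a', b', h⟩ := ex_aux (D3.swap12 d2)
  rw [brk_eq x.pre y.pre (D3.swap12 d2) h,
    brk_eq x.pre y.pre ((D3.swap12 d2).map (c3 a b c)) (h.map _),
    ← x.eqv a b c d _ _ _ h.1, ← y.eqv a b c d _ _ _ h.2.1]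
  simp only [cm]; group

lemma brk_acts {q : Idm F} {m : T3 Γ} (h0 : ∀ a b c, D3 a b c → Acts (F.one a b c) (c3 a b c) m)
    (h : Com q.compl.p m) (a b c : Sh) (d : D3 a b c) : Acts (q.p a b c) (c3 a b c) m := by
  intro i j k hd
  rw [← h0 a b c d i j k hd, one_eq q, mul_assoc (q.p a b c) _ (m i j k),
    (h _ _ _ _ _ _ d hd).eq]
  group

lemma brk_congr {x y x' y' : Idm F} (h : ∀ i j k a b c, D3 i j k → D3 a b c →
    cm (x.p i j k) (y.p a b c) = cm (x'.p i j k) (y'.p a b c)) : brk x.p y.p = brk x'.p y'.p := by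
  funext j i k
  by_cases d : D3 i j k
  · obtain ⟨a', b', h'⟩ := ex_aux d
    rw [brk_eq x.pre y.pre d h', brk_eq x'.pre y'.pre d h', h _ _ _ _ _ _ h'.1 h'.2.1]
  · simp [brk, d]

theorem closure_meet (hx : IsMeet x W U) (hy : IsMeet y U V) (hz : IsMeet z V W) :
    Compat y W := by
  set m := brk x.p y.p with hm
  have AV := fun {i j k a b c : Sh} (s : D3 i j k) (t : D3 a b c) =>
    triA hy.symm hz hx.2.1 hx.1 s t
  have AW := fun {i j k a b c : Sh} (s : D3 i j k) (t : D3 a b c) =>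
    triA hx hz.symm hy.1 hy.2.1 s t
  have AU := fun {i j k a b c : Sh} (s : D3 i j k) (t : D3 a b c) =>
    triA hx.symm hy hz.2.1 hz.1 s t
  have m1 : m = brk x.p z.p := brk_congr fun _ _ _ _ _ _ s t => (AV s t).1
  have m2 : m = brk z.p y.p := brk_congr fun _ _ _ _ _ _ s t => (AW t s).2.1
  have m3 : m = brk W.p y.p := brk_congr fun _ _ _ _ _ _ s t => (AW t s).2.2
  have sym : ∀ {i j k a b c : Sh}, D3 i j k → D3 a b c →
      cm (x.p i j k) (y.p a b c) = cm (y.p i j k) (x.p a b c) := fun s t => by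
    rw [(AV s t).1, (AU t s).2.1, ← (AW s t).1]
  have o : ∀ a b c, D3 a b c → Acts (F.one a b c) (c3 a b c) m := brk_one x y
  have cW : Com W.compl.p m := m1 ▸ brk_com (Perp.symm hx.1) (Perp.symm hz.2.1)
  have cy : Com y.compl.p m := by
    have c1 : Com U.compl.p m := brk_com (Perp.symm hx.2.1) (Perp.symm hy.1)
    have c2 : Com (U.sub y).p m := m2 ▸ brk_com (hy.2.2.mono hz.1) (hy.2.2.mono hy.2.1)
    intro a b c i j k d1 d2
    have : y.compl.p a b c = (U.sub y).p a b c * U.compl.p a b c := by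
      have e := one_eq y a b c
      rw [one_eq U, sub_val hy.1, mul_assoc] at e
      exact (mul_left_cancel e).symm
    rw [this]; exact (c2 _ _ _ _ _ _ d1 d2).mul_left (c1 _ _ _ _ _ _ d1 d2)
  have aW := brk_acts o cW
  have ay := brk_acts o cy
  have mv : ∀ {i j k a b : Sh}, D3 i j k → Aux i j k a b →
      m j i k = cm (W.p i a j) (y.p j k b) := fun d h => by rw [m3, brk_eq W.pre y.pre d h]
  have am : ∀ a b c, D3 a b c → Acts (m a b c) (c3 a b c) m := by
    intro j i k d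
    obtain ⟨a, b, h⟩ := ex_aux (D3.swap12 d)
    have := (((aW _ _ _ h.1).mul (ay _ _ _ h.2.1)).mul (aW _ _ _ h.1).inv).mul (ay _ _ _ h.2.1).inv
    rw [c3_cm (D3.swap12 d) h] at this
    have e := mv (D3.swap12 d) h
    simp only [cm] at e
    rwa [← e] at this
  have cyc : ∀ i j k, D3 i j k → m i j k = m j k i := by
    intro i j k d
    have := am i j k d i j k d
    rw [c3_1 d, c3_2 d, c3_3 d] at this
    rw [← this]; group
  have supp : ∀ i j k, D3 i j k → Supp F.toSheets (m i j k) [i, j, k] := by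
    intro j i k d
    refine supp_of_aux2 (by simp) fun a b ha hb hab => ?_
    simp only [List.mem_cons, not_or] at ha hb
    have h : Aux i j k a b := ⟨⟨Ne.symm ha.2.1, ha.1, d.1.symm⟩,
      ⟨d.2.2, Ne.symm hb.2.2.1, Ne.symm hb.1⟩, ha.2.2.1, hab, hb.2.1⟩
    rw [mv (D3.swap12 d) h]
    have s1 := (W.pre.supp _ _ _ h.1).mono (l' := [a, b, j, i, k]) (by simp)
    have s2 := (y.pre.supp _ _ _ h.2.1).mono (l' := [a, b, j, i, k]) (by simp)
    exact ((s1.mul s2).mul s1.inv).mul s2.inv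
  have cW' : Com m (dif W.p m) := fun _ _ _ _ _ _ d1 d2 =>
    commute_of_acts (am _ _ _ d2) (aW _ _ _ d2) d1
  have cy' : Com m (dif y.p m) := fun _ _ _ _ _ _ d1 d2 =>
    commute_of_acts (am _ _ _ d2) (ay _ _ _ d2) d1
  have vW : ∀ i j k, W.p i j k = m i j k * dif W.p m i j k := by intro i j k; simp [dif]
  have vy : ∀ i j k, y.p i j k = m i j k * dif y.p m i j k := by intro i j k; simp [dif]
  have kap : ∀ {i j k a b : Sh}, D3 i j k → Aux i j k a b →
      cm (dif W.p m i a j) (dif y.p m j k b) = (cm (m i a j) (m j k b))⁻¹ * m j i k := by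
    intro i j k a b d h
    rw [mv d h, vW i a j, vy j k b]
    simp only [cm]
    rw [comm_mul_mul (cW' _ _ _ _ _ _ h.1 h.1) (cW' _ _ _ _ _ _ h.2.1 h.1)
      (cy' _ _ _ _ _ _ h.1 h.2.1) (cy' _ _ _ _ _ _ h.2.1 h.2.1)]
    group
  have kap1 : ∀ {i j k a b : Sh}, D3 i j k → Aux i j k a b →
      Commute (dif W.p m i a j) (dif y.p m j k b) := by
    intro i j k a b d h
    obtain ⟨a1, b1, ha, hb, d1, d2, e1, e2, e3⟩ := exists_aux (D3.swap12 h.1) [k, b] (by simp)
    simp only [List.mem_cons, not_or] at ha hb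
    have w1 := W.pre.comm_eq (D3.swap12 h.1) d1 d2 e1 e2 e3
    rw [vW a a1 i, vW i j b1, comm_mul_mul (cW' _ _ _ _ _ _ d1 d1) (cW' _ _ _ _ _ _ d2 d1)
      (cW' _ _ _ _ _ _ d1 d2) (cW' _ _ _ _ _ _ d2 d2)] at w1
    have w2 : dif W.p m i a j = ((m i a j)⁻¹ * cm (m a a1 i) (m i j b1)) *
        cm (dif W.p m a a1 i) (dif W.p m i j b1) := by
      conv_lhs => rw [dif, w1]
      simp only [cm]; group
    rw [w2]
    refine Commute.mul_left ((cy' _ _ _ _ _ _ h.1 h.2.1).inv_left.mul_left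
      (commute_cm (cy' _ _ _ _ _ _ d1 h.2.1).symm (cy' _ _ _ _ _ _ d2 h.2.1).symm).symm) ?_
    have d3 : D3 b1 i j := d2.rot.rot
    have h3 : Aux b1 j k i b := ⟨d3, h.2.1, d.2.2, h.2.2.2.2.symm, Ne.symm hb.2.1⟩
    have d4 : D3 b1 j k := ⟨d3.2.2, d.2.1, hb.1⟩
    have r : dif W.p m i j b1 = dif W.p m b1 i j := by
      simp only [dif]; rw [cyc _ _ _ d3, W.pre.cyc _ _ _ d3]
    have cN : ∀ {p q r : Sh}, D3 p q r → Commute (dif W.p m p q r)
        (cm (dif W.p m i j b1) (dif y.p m j k b)) := by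
      intro p q r' dd
      rw [r, kap d4 h3]
      exact (commute_cm (cW' _ _ _ _ _ _ d3 dd).symm (cW' _ _ _ _ _ _ h.2.1 dd).symm).inv_right.mul_right
        (cW' _ _ _ _ _ _ (D3.swap12 d4) dd).symm
    refine cm_commute ?_ (cN d1) (cN d2)
    refine ((supp _ _ _ d1).inv.mul (W.pre.supp _ _ _ d1)).commute
      ((supp _ _ _ h.2.1).inv.mul (y.pre.supp _ _ _ h.2.1)) ?_ (by simp) (by simp)
    simp [h.1.2.1, h.2.2.1, h.2.2.2.1, e1, ha.1, ha.2.1, d.1, d.2.2, h.2.2.2.2.symm]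
  have pre : Pre F.toSheets m := by
    refine ⟨?_, cyc, ?_, am, ?_, supp⟩
    · intro j i k d
      have : ¬ D3 i j k := fun e => d (D3.swap12 e)
      simp [hm, brk, this]
    · intro j i k d
      obtain ⟨a, b, h⟩ := ex_aux (D3.swap12 d)
      have d' : D3 k j i := (D3.swap12 d).rev
      have h' : Aux k j i b a := ⟨h.2.1.rot, h.1.rot.rot, h.2.2.2.2, h.2.2.2.1.symm, h.2.2.1⟩
      rw [cyc _ _ _ d.rev, cyc _ _ _ d.rev.rot, hm, brk_eq x.pre y.pre d' h',
        brk_eq x.pre y.pre (D3.swap12 d) h, ← x.pre.cyc _ _ _ h.2.1, y.pre.cyc _ _ _ h.1.rot.rot,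
        sym h.2.1 h.1]
      simp only [cm]; group
    · intro i j k b d h1 h2 h3
      obtain ⟨a, ha⟩ := fresh [i, j, k, b] (by simp)
      simp only [List.mem_cons, not_or] at ha
      have h : Aux i j k a b := ⟨⟨Ne.symm ha.1, ha.2.1, d.1⟩, ⟨d.2.1, h3.symm, h2.symm⟩,
        ha.2.2.1, ha.2.2.2.1, h1⟩
      have e := kap d h
      have e0 : cm (dif W.p m i a j) (dif y.p m j k b) = 1 := by
        simp only [cm]; rw [(kap1 d h).eq]; group
      rw [e0, eq_inv_mul_iff_mul_eq, mul_one] at e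
      rw [← e, cm, am i a j h.1 j k b h.2.1, c3_3 h.1, c3_fix d.2.2.symm (Ne.symm ha.2.2.1) d.2.1.symm,
        c3_fix h1 (Ne.symm ha.2.2.2.1) h2]
  let M : Idm F := ⟨m, pre, o⟩
  have l1 : Le M y := Com.symm cy
  have l2 : Le M W := Com.symm cW
  have s1 : (y.sub M).p = dif y.p m := by simp only [sub, l1, dif_pos]; rfl
  have s2 : (W.sub M).p = dif W.p m := by simp only [sub, l2, dif_pos]; rfl
  refine ⟨M, l1, l2, perp_of_split l2 (perp_sub l1).symm (perp_of_av ?_)⟩
  have one : ∀ j k b, D3 j k b → ∀ p q, p ∉ [j, k, b] → q ∉ [j, k, b] → D3 j p q →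
      Commute ((y.sub M).p j k b) ((W.sub M).p j p q) := by
    intro j k b d p q hp hq d'
    simp only [List.mem_cons, not_or] at hp hq
    rw [(W.sub M).pre.cyc _ _ _ d', s1, s2]
    exact (kap1 ⟨d'.1.symm, d.1, hp.2.1⟩ ⟨d'.rot, d, hq.2.1, hq.2.2.1, Ne.symm hp.2.2.1⟩).symm
  intro j k b d t p q hp hq d'
  by_cases t1 : t = j
  · subst t1; exact one _ _ _ d p q hp hq d'
  by_cases t2 : t = k
  · subst t2; rw [(y.sub M).pre.cyc _ _ _ d]
    exact one _ _ _ d.rot p q (by simp at hp ⊢; tauto) (by simp at hq ⊢; tauto) d'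
  by_cases t3 : t = b
  · subst t3; rw [(y.sub M).pre.cyc _ _ _ d, (y.sub M).pre.cyc _ _ _ d.rot]
    exact one _ _ _ d.rot.rot p q (by simp at hp ⊢; tauto) (by simp at hq ⊢; tauto) d'
  refine ((y.sub M).pre.supp _ _ _ d).commute ((W.sub M).pre.supp _ _ _ d') ?_ (by simp) (by simp)
  simp at hp hq ⊢
  refine ⟨⟨Ne.symm t1, Ne.symm hp.1, Ne.symm hq.1⟩, ⟨Ne.symm t2, Ne.symm hp.2.1, Ne.symm hq.2.1⟩,
    ⟨Ne.symm t3, Ne.symm hp.2.2, Ne.symm hq.2.2⟩⟩

theorem Compat.meet_left {U V W : Idm F} (h : Compat U V) (h1 : Compat U W) (h2 : Compat V W) :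
    Compat (meet U V) W :=
  closure_meet h1.symm.isMeet h.isMeet h2.isMeet

end closure
end Idm
end Vale.Agent.P196
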