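import Vale.Agent.P196.Pos

/-! Displacement cocycles of the two particles at infinity; word level. -/

namespace Vale.Agent.P196

def Top (m : ℕ) (x : X) : Prop := x m = ⊤ ∧ ∀ k < m, x k ≠ ⊤
def HT (x : X) : Prop := ∃ m, x m = ⊤
open Classical in
noncomputable def mm (x : X) : ℕ := if h : HT x then Nat.find h else 0

lemma Top.ht {m x} (h : Top m x) : HT x := ⟨m, h.1⟩
lemma Top.le {m x k} (h : Top m x) (e : x k = ⊤) : m ≤ k := by
  by_contra hc; exact h.2 k (by omega) e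
lemma Top.uniq {m m' x} (h : Top m x) (h' : Top m' x) : m = m' := le_antisymm (h.le h'.1) (h'.le h.1)
lemma HT.top {x} (h : HT x) : Top (mm x) x := by
  classical
  simp only [mm, h, dif_pos]
  exact ⟨Nat.find_spec h, fun k hk => Nat.find_min h hk⟩
lemma Top.mm_eq {m x} (h : Top m x) : mm x = m := h.ht.top.uniq h
lemma Top.lv_top {m x} (h : Top m x) : lev x (m + 1) = ⊤ := lev_top.2 ⟨m, by omega, h.1⟩
lemma Top.lev_ne {m x} (h : Top m x) : lev x m ≠ ⊤ := lev_ne_top h.2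

lemma Top.act {m x w} (h : Top m x) (hw : wdom w x) : ∃ m', Pos w x m m' ∧ Top m' (wact w x) := by
  obtain ⟨m', p⟩ := pos hw (n := m) (by simp [h.lv_top])
  obtain ⟨k, hk, e⟩ := lev_top.1 (p.lv.top_iff.1 h.lv_top)
  have t := HT.top ⟨k, e⟩
  have h1 := t.le e
  obtain ⟨n, q⟩ := pos (wdom_inv hw) (n := mm (wact w x)) (by simp [t.lv_top])
  have := q.lv.top_iff.1 t.lv_top
  rw [wact_inv hw] at this
  obtain ⟨k', hk', e'⟩ := lev_top.1 this
  have h2 := h.le e'
  have h3 := q.ix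
  have h4 := p.ix
  rw [sw_inv] at h3
  exact ⟨m', p, (show mm (wact w x) = m' by omega) ▸ t⟩
lemma ht_act {w x} (hw : wdom w x) : HT (wact w x) ↔ HT x := by
  refine ⟨fun h => ?_, fun h => ?_⟩
  · obtain ⟨_, -, t⟩ := h.top.act (wdom_inv hw); rw [wact_inv hw] at t; exact t.ht
  · obtain ⟨_, -, t⟩ := h.top.act hw; exact t.ht

lemma Top.lev_le {m m' x w} (h : Top m x) (hw : wdom w x) (h' : Top m' (wact w x)) :
    lev (wact w x) m' ≤ lev x m + w.length := by
  by_cases e : lev (wact w x) m' ≤ w.length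
  · exact e.trans le_add_self
  have e' : ((w.length + 1 : ℕ) : ℕ∞) ≤ lev (wact w x) m' := by
    push_cast; exact Order.add_one_le_of_lt (not_le.1 e)
  cases m' with
  | zero => simp
  | succ n =>
    obtain ⟨n', q⟩ := pos (wdom_inv hw) (n := n) (by simpa using e')
    obtain ⟨k, p, t⟩ := h.act hw
    have h1 := t.uniq h'
    have h3 := q.ix
    have h4 := p.ix
    rw [sw_inv] at h3
    have := q.lv
    rw [wact_inv hw, show n' + 1 = m by omega] at this
    obtain ⟨i, hi⟩ := ENat.ne_top_iff_exists.1 h'.lev_ne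
    obtain ⟨j, hj, e2⟩ := this.nat hi.symm
    have := abs_le.1 (abs_dsp (winv w) n)
    rw [winv_length] at this
    rw [← hi, hj]
    have : i ≤ j + w.length := by omega
    exact_mod_cast this

open Classical in
/-- displacement of the first (`e = 0`) or second (`e = 1`) particle at infinity -/
noncomputable def wd (e : ℕ) (w : Wd) (x : X) : ℤ := if HT x then dsp w (mm x + e) else 0
lemma Top.wd_eq {m x} (h : Top m x) (e w) : wd e w x = dsp w (m + e) := by
  simp [wd, h.ht, h.mm_eq]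
lemma wd_of_not {x} (h : ¬ HT x) (e w) : wd e w x = 0 := by simp [wd, h]
@[simp] lemma wd_nil (e x) : wd e [] x = 0 := by simp [wd, dsp]
lemma wd_append (e) (w) {w' x} (h : wdom w' x) :
    wd e (w ++ w') x = wd e w' x + wd e w (wact w' x) := by
  by_cases t : HT x
  · obtain ⟨m', p, t'⟩ := t.top.act h
    rw [t.top.wd_eq, t.top.wd_eq, t'.wd_eq, dsp_append, p.ix]; congr 2; ring
  · rw [wd_of_not t, wd_of_not t, wd_of_not (mt (ht_act h).1 t)]; rfl
lemma wd_inv (e) {w x} (h : wdom w x) : wd e (winv w) (wact w x) = -wd e w x := by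
  by_cases t : HT x
  · obtain ⟨m', p, t'⟩ := t.top.act h
    rw [t.top.wd_eq, t'.wd_eq, ← dsp_inv, p.ix]; congr 1; ring
  · rw [wd_of_not t, wd_of_not (mt (ht_act h).1 t)]; rfl
lemma abs_wd (e w x) : |wd e w x| ≤ w.length := by
  unfold wd; split_ifs
  · exact abs_dsp _ _
  · simp

/-- the displacement only depends on the germ -/
theorem WD {t : Tm} {w w' x} (hx : t.sh x)
    (h : ∀ y, t.sh y → wdom w y ∧ wdom w' y ∧ wact w y = wact w' y) (e : ℕ) :
    wd e w x = wd e w' x := by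
  by_cases ht : HT x
  swap
  · rw [wd_of_not ht, wd_of_not ht]
  have t0 := ht.top
  generalize mm x = m at t0
  obtain ⟨m1, p1, t1⟩ := t0.act (h x hx).1
  obtain ⟨m2, p2, t2⟩ := t0.act (h x hx).2.1
  rw [(h x hx).2.2] at t1
  have e1 := t1.uniq t2
  have i1 := p1.ix
  have i2 := p2.ix
  obtain ⟨M, hM⟩ := t.det
  set R := M + w.length + w'.length with hR
  set y : X := fun k => min (x k) R with hy
  have hy1 : t.sh y := hM _ _ (close.mono (N := R) (fun n _ => by simp [hy]) (by omega)) hx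
  have hy2 : ((R + 1 : ℕ) : ℕ∞) ≤ lev y (m + e + 1) := by
    refine le_trans ?_ (lt_lev (k := m) (by omega))
    simp [hy, t0.1]
  obtain ⟨n1, q1⟩ := pos (h y hy1).1 (n := m + e) (le_trans (by gcongr; omega) hy2)
  obtain ⟨n2, q2⟩ := pos (h y hy1).2.1 (n := m + e) (le_trans (by gcongr; omega) hy2)
  have j1 := q1.ix
  have j2 := q2.ix
  have l1 := q1.lv
  rw [(h y hy1).2.2, show n1 = n2 by omega] at l1
  have := l1.uniq q2.lv (lev_ne_top fun k _ => by simp [hy])
  rw [t0.wd_eq, t0.wd_eq]; exact_mod_cast this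

/-! ### cylinders, tails, separation -/

noncomputable def cyl : ℕ → X → Tm → Tm
  | 0, _, t => t
  | n + 1, x, t => .W (x 0).toNat (cyl n (pop x) t)

lemma pop_zero (x : X) : pop x 0 = x 0 + 1 + x 1 := rfl
lemma pop_succ (x : X) (k : ℕ) : pop x (k + 1) = x (k + 2) := rfl

lemma sh_cyl (t : Tm) (n : ℕ) : ∀ x y : X, (∀ k < n, x k ≠ ⊤) →
    ((cyl n x t).sh y ↔ (∀ k < n, y k = x k) ∧ t.sh (pop^[n] y)) := by
  induction n with
  | zero => simp [cyl]
  | succ n ih =>
    intro x y hx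
    have h0 := hx 0 (by omega)
    have hp : ∀ k < n, pop x k ≠ ⊤ := fun k hk => by
      cases k with
      | zero => simp [pop_zero, h0, hx 1 (by omega)]
      | succ k => exact hx (k + 2) (by omega)
    simp only [cyl, Tm.sh, ih _ _ hp, ENat.natCast_toNat h0, Function.iterate_succ_apply, ← and_assoc]
    refine and_congr_left fun _ => ⟨fun ⟨e0, e⟩ k hk => ?_, fun e => ⟨e 0 (by omega), fun k hk => ?_⟩⟩
    · match k with
      | 0 => exact e0
      | 1 =>
        have := e 0 (by omega)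
        rw [pop_zero, pop_zero, e0] at this
        exact ENat.add_right_injective_of_ne_top (by simp [h0]) this
      | k + 2 => exact e (k + 1) (by omega)
    · cases k with
      | zero => rw [pop_zero, pop_zero, e 0 (by omega), e 1 (by omega)]
      | succ k => exact e (k + 2) (by omega)

lemma pop_iter_succ (n : ℕ) (y : X) : ∀ k, pop^[n] y (k + 1) = y (n + k + 1) := by
  induction n with
  | zero => simp
  | succ n ih => intro k; rw [Function.iterate_succ_apply', pop_succ, ih]; congr 1; ring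
lemma pop_iter_zero (n : ℕ) (y : X) : pop^[n] y 0 + 1 = lev y (n + 1) := by
  induction n with
  | zero => simp [lev_succ]
  | succ n ih =>
    rw [Function.iterate_succ_apply', pop_zero, ih, lev_succ y (n + 1), pop_iter_succ, add_assoc]

lemma sh_tail (t : Tm) : ∀ (m : ℕ) (x y : X), x m = ⊤ → (∀ k ≤ m + 2, x k = y k) →
    (t.sh x ↔ t.sh y) := by
  induction t with
  | Q k => intro m x y _ e; simp only [Tm.sh, e 0 (by omega)]
  | J k => intro m x y _ e; simp only [Tm.sh, e 1 (by omega)]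
  | K k => intro m x y _ e; simp only [Tm.sh, e 2 (by omega)]
  | nt t ih => intro m x y h e; simp only [Tm.sh, ih m x y h e]
  | an s t ih1 ih2 => intro m x y h e; simp only [Tm.sh, ih1 m x y h e, ih2 m x y h e]
  | W k t ih =>
    intro m x y h e
    simp only [Tm.sh, ← e 0 (by omega)]
    refine and_congr_right fun e0 => ?_
    cases m with
    | zero => simp [h] at e0
    | succ m =>
      refine ih m _ _ ?_ fun k hk => ?_
      · cases m with
        | zero => simp [pop_zero, h]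
        | succ m => exact h
      · cases k with
        | zero => rw [pop_zero, pop_zero, e 0 (by omega), e 1 (by omega)]
        | succ k => exact e (k + 2) (by omega)

lemma sep_enat {a b : ℕ∞} (h : a ≠ b) :
    ∃ k : ℕ, ((k : ℕ∞) ≤ a ∧ ¬ (k : ℕ∞) ≤ b) ∨ (¬ (k : ℕ∞) ≤ a ∧ (k : ℕ∞) ≤ b) := by
  have : ∀ a b : ℕ∞, a < b → ∃ k : ℕ, ¬ (k : ℕ∞) ≤ a ∧ (k : ℕ∞) ≤ b := fun a b h => by
    obtain ⟨i, rfl⟩ := ENat.ne_top_iff_exists.1 h.ne_top
    exact ⟨i + 1, by norm_cast; omega, by push_cast; exact Order.add_one_le_of_lt h⟩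
  rcases h.lt_or_gt with h | h
  · obtain ⟨k, hk⟩ := this _ _ h; exact ⟨k, Or.inr hk⟩
  · obtain ⟨k, hk⟩ := this _ _ h; exact ⟨k, Or.inl hk.symm⟩

lemma sep_two {x y : X} {i : ℕ} (hi : i ≤ 2) (h : x i ≠ y i) : ∃ t : Tm, t.sh x ∧ ¬ t.sh y := by
  obtain ⟨k, hk⟩ := sep_enat h
  interval_cases i
  · rcases hk with hk | hk
    exacts [⟨.Q k, hk⟩, ⟨.nt (.Q k), hk.1, not_not.2 hk.2⟩]
  · rcases hk with hk | hk
    exacts [⟨.J k, hk⟩, ⟨.nt (.J k), hk.1, not_not.2 hk.2⟩]
  · rcases hk with hk | hk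
    exacts [⟨.K k, hk⟩, ⟨.nt (.K k), hk.1, not_not.2 hk.2⟩]

lemma sep_of {x y : X} {k : ℕ} (h : x k ≠ y k) (hx : ∀ i, i + 2 < k → x i ≠ ⊤) :
    ∃ t : Tm, t.sh x ∧ ¬ t.sh y := by
  by_cases hk : k ≤ 2
  · exact sep_two hk h
  obtain ⟨n, rfl⟩ : ∃ n, k = n + 2 := ⟨k - 2, by omega⟩
  have hx' : ∀ i < n, x i ≠ ⊤ := fun i hi => hx i (by omega)
  obtain ⟨t, h1, h2⟩ := sep_two (x := pop^[n] x) (y := pop^[n] y) (i := 2) le_rfl
    (by rw [pop_iter_succ, pop_iter_succ]; exact h)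
  exact ⟨cyl n x t, (sh_cyl t n x x hx').2 ⟨fun _ _ => rfl, h1⟩, fun e => h2 ((sh_cyl t n x y hx').1 e).2⟩

lemma sep_top {x y : X} {m m' : ℕ} (h : Top m x) (h' : Top m' y) (hne : x ≠ y)
    (ht : m = m' → ∀ k, x (m + 3 + k) = y (m + 3 + k)) : ∃ t : Tm, t.sh x ∧ ¬ t.sh y := by
  rcases lt_trichotomy m m' with e | e | e
  · exact sep_of (k := m) (by rw [h.1]; exact (h'.2 m e).symm) fun i hi => h.2 i (by omega)
  · obtain ⟨k, hk⟩ := Function.ne_iff.1 hne
    refine sep_of hk fun i hi => h.2 i ?_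
    by_contra hc
    exact hk (by simpa [show m + 3 + (k - (m + 3)) = k by omega] using ht e (k - (m + 3)))
  · exact sep_of (k := m') (by rw [h'.1]; exact h.2 m' e) fun i hi => h.2 i (by omega)

theorem SEPw {w x} (hw : wdom w x) (h : wact w x ≠ x) : ∃ t : Tm, t.sh x ∧ ¬ t.sh (wact w x) := by
  by_cases ht : HT x
  · obtain ⟨m', p, t'⟩ := ht.top.act hw
    exact sep_top ht.top t' h.symm fun e k => by rw [← p.tail k, ← e]
  · obtain ⟨k, hk⟩ := Function.ne_iff.1 h.symm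
    exact sep_of hk fun i _ e => ht ⟨i, e⟩

/-! ### principality -/

lemma pr_aux {u x} {m : ℕ} (hu : wdom u x) (e : wact u x = x) (hs : sw u = 0) (hx : ∀ k < m, x k ≠ ⊤)
    (hl : ((u.length + 1 : ℕ) : ℕ∞) ≤ lev x (m + 1)) (d1 : dsp u m = 0) (d2 : dsp u (m + 1) = 0) :
    ∃ t : Tm, t.sh x ∧ ∀ y, t.sh y → wdom u y ∧ wact u y = y := by
  have hq : ∀ y : X, (Tm.Q u.length).sh (pop^[m] y) ↔ ((u.length + 1 : ℕ) : ℕ∞) ≤ lev y (m + 1) :=
    fun y => by
      rw [← pop_iter_zero]; push_cast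
      exact (ENat.add_le_add_iff_right (by simp)).symm
  refine ⟨.an (cyl m x (.Q u.length)) (.pre u (cyl m x .tt)), ⟨?_, ?_⟩, fun y hy => ?_⟩
  · exact (sh_cyl _ m x x hx).2 ⟨fun _ _ => rfl, (hq x).2 hl⟩
  · rw [Tm.sh_pre, e]; exact ⟨hu, (sh_cyl _ m x x hx).2 ⟨fun _ _ => rfl, Tm.sh_tt _⟩⟩
  obtain ⟨h1, h2⟩ := hy
  rw [sh_cyl _ m x y hx, hq] at h1
  rw [Tm.sh_pre, sh_cyl _ m x _ hx] at h2
  refine ⟨h2.1, ?_⟩
  obtain ⟨n, p⟩ := pos h2.1 h1.2
  have hn : n = m := by have := p.ix; omega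
  subst hn
  have a : ∀ k < n, wact u y k = y k := fun k hk => (h2.2.1 k hk).trans (h1.1 k hk).symm
  funext k
  rcases lt_trichotomy k n with hk | rfl | hk
  · exact a k hk
  · have := p.lv.eq d1
    rw [lev_succ, lev_succ, lev_congr a] at this
    have h3 : lev y k ≠ ⊤ := lev_ne_top fun i hi => by rw [h1.1 i hi]; exact hx i hi
    exact ENat.add_left_injective_of_ne_top (n := 1) (by simp) (ENat.add_right_injective_of_ne_top h3 this)
  · obtain ⟨i, rfl⟩ : ∃ i, k = n + 1 + i := ⟨k - (n + 1), by omega⟩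
    match i with
    | 0 => exact p.g1.eq (by rw [d1, d2]; rfl)
    | 1 => exact p.g2.eq (by rw [d2]; rfl)
    | i + 2 => simpa [show n + 1 + (i + 2) = n + 3 + i by ring] using p.tail i

theorem PR1 {u x} (hu : wdom u x) (e : wact u x = x) (d1 : wd 0 u x = 0) (d2 : wd 1 u x = 0) :
    ∃ t : Tm, t.sh x ∧ ∀ y, t.sh y → wdom u y ∧ wact u y = y := by
  by_cases ht : HT x
  · have t0 := ht.top
    obtain ⟨m', p, t'⟩ := t0.act hu
    rw [e] at t'
    have h1 := t'.uniq t0
    have h2 := p.ix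
    rw [t0.wd_eq] at d1 d2
    exact pr_aux hu e (by omega) t0.2 (by simp [t0.lv_top]) (by simpa using d1) (by simpa using d2)
  · have hx : ∀ k, x k ≠ ⊤ := fun k e => ht ⟨k, e⟩
    obtain ⟨n, p⟩ := pos hu (n := u.length) (le_lev x _)
    have hl : ((u.length + 1 : ℕ) : ℕ∞) ≤ lev x (u.length + 2 + 1) :=
      (le_lev x _).trans (lev_mono x (by omega))
    obtain ⟨n', q⟩ := pos hu hl
    have h1 := q.lv.eq (p.z _ (by simp))
    rw [e] at h1
    have h2 := lev_inj (lev_ne_top fun k _ => hx k) h1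
    have h3 := q.ix
    exact pr_aux hu e (by push_cast at h3; omega) (fun k _ => hx k) hl (p.z _ (by simp))
      (p.z _ (by push_cast; omega))

theorem PR {w w' x} (h : wdom w x) (h' : wdom w' x) (e : wact w x = wact w' x)
    (d1 : wd 0 w x = wd 0 w' x) (d2 : wd 1 w x = wd 1 w' x) :
    ∃ t : Tm, t.sh x ∧ ∀ y, t.sh y → wdom w y ∧ wdom w' y ∧ wact w y = wact w' y := by
  obtain ⟨t, h1, h2⟩ := PR1 (u := winv w' ++ w) (x := x) (by simp [h, e, wdom_inv h'])
    (by simp [e, wact_inv h']) (by rw [wd_append _ _ h, e, wd_inv _ h', d1]; ring)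
    (by rw [wd_append _ _ h, e, wd_inv _ h', d2]; ring)
  refine ⟨t, h1, fun y hy => ?_⟩
  obtain ⟨h3, h4⟩ := h2 y hy
  rw [wdom_append] at h3
  rw [wact_append] at h4
  have h5 := wdom_inv' h3.2
  have h6 := wact_inv' h3.2
  rw [h4] at h5 h6
  exact ⟨h3.1, h5, h6.symm⟩

end Vale.Agent.P196
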