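import Vale.Agent.P196.Coc

/-! Canonical singular points, flat words, finiteness. -/

namespace Vale.Agent.P196

def Ty : ℕ → ℕ∞ → ℕ∞ → Prop
  | 0, a, b => a = ⊤ ∧ b = ⊤
  | 1, a, b => a = ⊤ ∧ b = ⊤
  | 2, a, b => a = ⊤ ∧ b ≠ ⊤
  | 3, a, b => a ≠ ⊤ ∧ b = ⊤
  | _, _, _ => False
/-- the canonical points of step `i` -/
def Cn (i : ℕ) (x : X) : Prop :=
  ∃ m, Top m x ∧ Ty i (x (m + 1)) (x (m + 2)) ∧ ∀ k, x (m + 3 + k) = ⊤
def ee : ℕ → ℕ | 0 => 1 | 3 => 1 | _ => 0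

lemma Ty.congr {i a b a' b'} (h : Ty i a b) (h1 : a = ⊤ ↔ a' = ⊤) (h2 : b = ⊤ ↔ b' = ⊤) :
    Ty i a' b' := by
  match i with
  | 0 | 1 | 2 | 3 => simp only [Ty, ne_eq, ← h1, ← h2] at h ⊢; exact h
  | i + 4 => exact h.elim
lemma Cn.ht {i x} (h : Cn i x) : HT x := let ⟨_, t, _⟩ := h; t.ht
lemma Cn.act {i w x} (h : Cn i x) (hw : wdom w x) : Cn i (wact w x) := by
  obtain ⟨m, t, h1, h2⟩ := h
  obtain ⟨m', p, t'⟩ := t.act hw
  exact ⟨m', t', h1.congr p.g1.top_iff p.g2.top_iff, fun k => by rw [p.tail, h2]⟩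
lemma Cn_act {i w x} (hw : wdom w x) : Cn i (wact w x) ↔ Cn i x :=
  ⟨fun h => by simpa [wact_inv hw] using h.act (wdom_inv hw), fun h => h.act hw⟩
lemma Cn_sep {i j x y} (h : Cn i x) (h' : Cn j y) (hne : x ≠ y) : ∃ t : Tm, t.sh x ∧ ¬ t.sh y := by
  obtain ⟨m, t, -, h2⟩ := h
  obtain ⟨m', t', -, h2'⟩ := h'
  exact sep_top t t' hne fun e k => by rw [h2, e, h2']

def Flat (i : ℕ) (t : Tm) (w : Wd) : Prop := ∀ j < i, ∀ y, t.sh y → Cn j y → wd (ee j) w y = 0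
def Md (L : ℕ) (t : Tm) : Prop := ∀ y y', close L y y' → t.sh y → t.sh y'
lemma Md.mono {L L' t} (h : Md L t) (e : L ≤ L') : Md L' t := fun y y' c => h y y' (c.mono e)

noncomputable def can (x : X) (n : ℕ) (a b : ℕ∞) : X := fun k =>
  if k < n then x k else if k = n + 1 then a else if k = n + 2 then b else ⊤
lemma can_top {x n a b} (h : ∀ k < n, x k ≠ ⊤) : Top n (can x n a b) :=
  ⟨by simp [can], fun k hk => by simp [can, hk, h k hk]⟩
lemma can_cn {i x n a b} (h : ∀ k < n, x k ≠ ⊤) (h' : Ty i a b) : Cn i (can x n a b) :=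
  ⟨n, can_top h, by simpa [can] using h', fun k => by
    simp only [can]; rw [if_neg (by omega), if_neg (by omega), if_neg (by omega)]⟩
lemma can_mem {L t x n a b} (hm : Md L t) (hx : t.sh x) (hn : (L : ℕ∞) ≤ x n)
    (ha : a = x (n + 1) ∨ (a = ⊤ ∧ (L : ℕ∞) ≤ x (n + 1)))
    (hb : b = x (n + 2) ∨ (b = ⊤ ∧ (L : ℕ∞) ≤ x (n + 2))) : t.sh (can x n a b) := by
  let y : X := fun k => if k = n then ⊤ else if k = n + 1 then a else if k = n + 2 then b else x k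
  have h1 : t.sh y := hm x y (fun k _ => by
    simp only [y]
    split_ifs with e1 e2 e3
    · subst e1; simp [hn]
    · subst e2; rcases ha with e | e <;> simp [e]
    · subst e3; rcases hb with e | e <;> simp [e]
    · rfl) hx
  refine (sh_tail t n y _ (by simp [y]) fun k hk => ?_).1 h1
  simp only [y, can]
  split_ifs <;> first | rfl | omega

structure Key (i L : ℕ) (w : Wd) (x : X) : Prop where
  len : w.length ≤ L
  dom : wdom w x
  k1 : 1 ≤ i → ∀ n, (∀ k < n, x k ≠ ⊤) → (L : ℕ∞) ≤ x n → (L : ℕ∞) ≤ x (n + 1) →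
    (L : ℕ∞) ≤ x (n + 2) → dsp w (n + 1) = 0
  k2 : 2 ≤ i → ∀ n, (∀ k < n, x k ≠ ⊤) → (L : ℕ∞) ≤ x n → (L : ℕ∞) ≤ x (n + 1) →
    (L : ℕ∞) ≤ x (n + 2) → dsp w n = 0
  k3 : 3 ≤ i → ∀ n, (∀ k < n, x k ≠ ⊤) → (L : ℕ∞) ≤ x n → (L : ℕ∞) ≤ x (n + 1) → dsp w n = 0
  k4 : 4 ≤ i → ∀ n, (∀ k < n, x k ≠ ⊤) → (L : ℕ∞) ≤ x n → (L : ℕ∞) ≤ x (n + 2) →
    dsp w (n + 1) = 0

lemma Flat.key {i L t w x} (h : Flat i t w) (hm : Md L t) (hx : t.sh x) (hl : w.length ≤ L)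
    (hw : wdom w x) : Key i L w x := by
  have H : ∀ j < i, ∀ n a b, (∀ k < n, x k ≠ ⊤) → (L : ℕ∞) ≤ x n →
      (a = x (n + 1) ∨ (a = ⊤ ∧ (L : ℕ∞) ≤ x (n + 1))) →
      (b = x (n + 2) ∨ (b = ⊤ ∧ (L : ℕ∞) ≤ x (n + 2))) → Ty j a b → dsp w (n + ee j) = 0 :=
    fun j hj n a b h1 h2 h3 h4 h5 => by
      rw [← (can_top (a := a) (b := b) h1).wd_eq]
      exact h j hj _ (can_mem hm hx h2 h3 h4) (can_cn h1 h5)
  refine ⟨hl, hw, fun hi n h1 h2 h3 h4 => ?_, fun hi n h1 h2 h3 h4 => ?_, fun hi n h1 h2 h3 => ?_,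
    fun hi n h1 h2 h3 => ?_⟩
  · simpa [ee] using H 0 hi n ⊤ ⊤ h1 h2 (Or.inr ⟨rfl, h3⟩) (Or.inr ⟨rfl, h4⟩) ⟨rfl, rfl⟩
  · simpa [ee] using H 1 hi n ⊤ ⊤ h1 h2 (Or.inr ⟨rfl, h3⟩) (Or.inr ⟨rfl, h4⟩) ⟨rfl, rfl⟩
  · by_cases e : x (n + 2) = ⊤
    · simpa [ee] using H 1 (by omega) n ⊤ ⊤ h1 h2 (Or.inr ⟨rfl, h3⟩) (Or.inl e.symm) ⟨rfl, rfl⟩
    · simpa [ee] using H 2 hi n ⊤ _ h1 h2 (Or.inr ⟨rfl, h3⟩) (Or.inl rfl) ⟨rfl, e⟩
  · by_cases e : x (n + 1) = ⊤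
    · simpa [ee] using H 0 (by omega) n ⊤ ⊤ h1 h2 (Or.inl e.symm) (Or.inr ⟨rfl, h3⟩) ⟨rfl, rfl⟩
    · simpa [ee] using H 3 hi n _ ⊤ h1 h2 (Or.inl rfl) (Or.inr ⟨rfl, h3⟩) ⟨e, rfl⟩

lemma lev_pred {x : X} {n a L : ℕ} (h : ((a + L : ℕ) : ℕ∞) ≤ lev x (n + 1)) (h' : ¬ (L : ℕ∞) ≤ x n) :
    (a : ℕ∞) ≤ lev x n := by
  rw [lev_succ] at h
  generalize lev x n = p at *; generalize x n = q at *
  enat_to_nat <;> first | omega | simp_all

lemma Key.far {i L w x} (h : Key i L w x) {n : ℕ} (hn : ((L + 1 : ℕ) : ℕ∞) ≤ lev x (n + 1)) :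
    ∃ n', Pos w x n n' := pos h.dom (le_trans (by gcongr; exact h.len) hn)
lemma Key.far2 {i L w x} (h : Key i L w x) {n : ℕ} (hn : ((L + 1 : ℕ) : ℕ∞) ≤ lev x n) (k : ℤ)
    (hk : n + 1 ≤ k) : dsp w k = 0 := by
  cases n with
  | zero => simp at hn
  | succ n => obtain ⟨n', p⟩ := h.far hn; exact p.z k (by push_cast at hk; omega)

/-- all entries after the first infinite one are infinite or less than `B` -/
def Sm (B : ℕ) (x : X) : Prop := ∀ k, mm x < k → x k = ⊤ ∨ x k < B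

lemma Key.d1 {i L w x m} (h : Key i L w x) (hi : 1 ≤ i) (t : Top m x) (e : x (m + 1) = ⊤)
    (hl : ((2 * L + 1 : ℕ) : ℕ∞) ≤ lev x m) : dsp w m = 0 := by
  cases m with
  | zero => simp at hl
  | succ n =>
    by_cases e1 : (L : ℕ∞) ≤ x n
    · exact_mod_cast h.k1 hi n (fun k hk => t.2 k (by omega)) e1 (by simp [t.1]) (by simp [e])
    · exact h.far2 (lev_pred (by rwa [show L + 1 + L = 2 * L + 1 by ring]) e1) _ (by simp)

lemma Key.supp {i L w x} (h : Key i L w x) (hc : Cn i x) (hd : wd (ee i) w x ≠ 0) :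
    lev x (mm x) ≤ (2 * L : ℕ) ∧ Sm L x := by
  obtain ⟨m, t, h1, h2⟩ := hc
  rw [t.wd_eq] at hd
  have sm : (x (m + 1) = ⊤ ∨ x (m + 1) < L) → (x (m + 2) = ⊤ ∨ x (m + 2) < L) → Sm L x :=
    fun a b k hk => by
      rw [t.mm_eq] at hk
      obtain ⟨j, rfl⟩ : ∃ j, k = m + 1 + j := ⟨k - (m + 1), by omega⟩
      match j with
      | 0 => exact a
      | 1 => exact b
      | j + 2 => exact Or.inl (by rw [← h2 j]; congr 1; ring)
  have l1 : ¬ ((2 * L + 1 : ℕ) : ℕ∞) ≤ lev x m → lev x (mm x) ≤ (2 * L : ℕ) := fun e => by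
    rw [t.mm_eq]; push_cast at e ⊢; exact Order.le_of_lt_add_one (not_le.1 e)
  have l2 : ((2 * L + 1 : ℕ) : ℕ∞) ≤ lev x m → dsp w (m + 1) = 0 := fun e =>
    h.far2 (le_trans (by gcongr; omega) e) _ le_rfl
  have tt : (L : ℕ∞) ≤ x m := by simp [t.1]
  match i with
  | 0 => exact ⟨l1 fun e => hd (l2 e), sm (Or.inl h1.1) (Or.inl h1.2)⟩
  | 1 => exact ⟨l1 fun e => hd (by simpa [ee] using h.d1 le_rfl t h1.1 e),
      sm (Or.inl h1.1) (Or.inl h1.2)⟩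
  | 2 =>
    refine ⟨l1 fun e => hd (by simpa [ee] using h.d1 (by omega) t h1.1 e), sm (Or.inl h1.1) (Or.inr ?_)⟩
    by_contra hc
    exact hd (by simpa [ee] using h.k2 le_rfl m t.2 tt (by simp [h1.1]) (not_lt.1 hc))
  | 3 =>
    refine ⟨l1 fun e => hd (l2 e), sm (Or.inr ?_) (Or.inl h1.2)⟩
    by_contra hc
    exact hd (h.k1 (by omega) m t.2 tt (not_lt.1 hc) (by simp [h1.2]))
  | i + 4 => exact h1.elim

lemma fin_tail (N : ℕ) (τ : X) :
    {y : X | ∃ n ≤ N, (∀ k < n, y k ≤ N ∨ y k = ⊤) ∧ ∀ k, y (n + k) = τ k}.Finite := by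
  have : {y : X | ∃ n ≤ N, (∀ k < n, y k ≤ N ∨ y k = ⊤) ∧ ∀ k, y (n + k) = τ k} =
      ⋃ n ∈ Set.Iic N, {y : X | (∀ k < n, y k ≤ N ∨ y k = ⊤) ∧ ∀ k, y (n + k) = τ k} := by
    ext y; simp only [Set.mem_ofPred_eq, Set.mem_iUnion, Set.mem_Iic, exists_prop]
  rw [this]
  refine (Set.finite_Iic N).biUnion fun n _ => ?_
  have h1 : {a : ℕ∞ | a ≤ N ∨ a = ⊤}.Finite := by
    refine ((Set.finite_Iic N).image (fun i : ℕ => (i : ℕ∞))).insert ⊤ |>.subset ?_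
    rintro a (h | rfl)
    · obtain ⟨i, rfl⟩ := ENat.ne_top_iff_exists.1 (ne_top_of_le_ne_top (by simp) h)
      exact Or.inr ⟨i, by exact_mod_cast h, rfl⟩
    · exact Or.inl rfl
  refine Set.Finite.of_finite_image (f := fun y (k : Fin n) => y k)
    ((Set.Finite.pi' fun _ : Fin n => h1).subset ?_) ?_
  · rintro _ ⟨y, hy, rfl⟩ k; exact hy.1 k k.2
  · intro y hy y' hy' e
    funext k
    by_cases hk : k < n
    · exact congrFun e ⟨k, hk⟩
    · obtain ⟨j, rfl⟩ : ∃ j, k = n + j := ⟨k - n, by omega⟩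
      rw [hy.2, hy'.2]

lemma le_of_lev {x : X} {k n : ℕ} {N : ℕ∞} (hk : k < n) (h : lev x n ≤ N) : x k ≤ N :=
  le_self_add.trans ((lt_lev hk).trans h)
lemma idx_le {x : X} {n N : ℕ} (h : lev x n ≤ N) : n ≤ N := by
  exact_mod_cast (le_lev x n).trans h

lemma fin_cn (i N B : ℕ) : {x | Cn i x ∧ lev x (mm x) ≤ N ∧ Sm B x}.Finite := by
  refine (fin_tail (N + B + 3) fun _ => ⊤).subset ?_
  rintro x ⟨⟨m, t, -, h2⟩, h3, h4⟩
  rw [t.mm_eq] at h3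
  refine ⟨m + 3, by have := idx_le h3; omega, fun k _ => ?_, h2⟩
  rcases lt_trichotomy k m with e | rfl | e
  · exact Or.inl ((le_of_lev e h3).trans (by gcongr; omega))
  · exact Or.inr t.1
  · rcases h4 k (by rwa [t.mm_eq]) with e | e
    · exact Or.inr e
    · exact Or.inl (e.le.trans (by gcongr; omega))

theorem FINw {i t w} (hw : ∀ y, t.sh y → wdom w y) (h : Flat i t w) :
    {y | t.sh y ∧ Cn i y ∧ wd (ee i) w y ≠ 0}.Finite := by
  obtain ⟨M, hM⟩ := t.det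
  refine (fin_cn i (2 * (M + w.length)) (M + w.length)).subset fun y hy => ⟨hy.2.1, ?_⟩
  exact (h.key (Md.mono hM (by omega)) hy.1 (by omega) (hw y hy.1)).supp hy.2.1 hy.2.2

theorem PR4 {t w x} (hx : t.sh x) (hw : wdom w x) (h : Flat 4 t w) (e : wact w x = x) :
    wd 0 w x = 0 ∧ wd 1 w x = 0 := by
  by_cases ht : HT x
  swap
  · simp [wd_of_not ht]
  obtain ⟨M, hM⟩ := t.det
  have k := h.key (L := M + w.length) (Md.mono hM (by omega)) hx (by omega) hw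
  have t0 := ht.top
  generalize mm x = m at t0
  obtain ⟨m', p, t'⟩ := t0.act hw
  have g1 := p.g1
  have g2 := p.g2
  rw [e] at t' g1 g2
  rw [t'.uniq t0] at g1 g2
  have d2 : dsp w (m + 1) = 0 := by
    by_cases e2 : x (m + 2) = ⊤
    · exact k.k4 le_rfl m t0.2 (by simp [t0.1]) (by simp [e2])
    · have := g2.uniq (Rl.refl _) e2; omega
  have d1 : dsp w m = 0 := by
    by_cases e2 : x (m + 1) = ⊤
    · exact k.k3 (by omega) m t0.2 (by simp [t0.1]) (by simp [e2])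
    · have := g1.uniq (Rl.refl _) e2; omega
  simp [t0.wd_eq, d1, d2]

/-! ### finite orbits -/

lemma Key.fix {L w x} (h : Key 4 L w x) {n : ℕ} (hn : ((3 * L + 1 : ℕ) : ℕ∞) ≤ lev x (n + 1))
    (h1 : (L : ℕ∞) ≤ x (n + 1)) : dsp w n = 0 := by
  by_cases e : ∃ k < n, x k = ⊤
  · obtain ⟨k, hk, e⟩ := e
    have t := HT.top ⟨k, e⟩
    have := t.le e
    generalize mm x = m at *
    by_cases e1 : n = m + 1
    · subst e1; exact_mod_cast h.k4 le_rfl m t.2 (by simp [t.1]) h1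
    · exact h.far2 (n := m + 1) (by simp [t.lv_top]) _ (by push_cast; omega)
  push Not at e
  by_cases e1 : (L : ℕ∞) ≤ x n
  · exact h.k3 (by omega) n e e1 h1
  have h2 := lev_pred (a := 2 * L + 1) (by rwa [show 2 * L + 1 + L = 3 * L + 1 by ring]) e1
  cases n with
  | zero => simp at h2
  | succ n =>
    by_cases e2 : (L : ℕ∞) ≤ x n
    · exact_mod_cast h.k4 le_rfl n (fun k hk => e k (by omega)) e2 h1
    · exact h.far2 (lev_pred (by rwa [show L + 1 + L = 2 * L + 1 by ring]) e2) _ (by simp)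

lemma inv_fin (L : ℕ) {x : X} (hx : ¬ HT x) :
    ∃ Y : Set X, Y.Finite ∧ x ∈ Y ∧ ∀ y ∈ Y, ∀ w, Key 4 L w y → wact w y ∈ Y := by
  obtain ⟨P, hP⟩ := ENat.ne_top_iff_exists.1 (lev_ne_top (x := x) (n := 7 * L + 3) fun k _ e => hx ⟨k, e⟩)
  have hP' : 7 * L + 3 ≤ P := idx_le hP.symm.le
  refine ⟨{y | ∃ n, lev y (n + 3) = P ∧ ((5 * L + 1 : ℕ) : ℕ∞) ≤ lev y (n + 2) ∧
    ((3 * L + 1 : ℕ) : ℕ∞) ≤ lev y (n + 1) ∧ ∀ k, y (n + 3 + k) = x (7 * L + 3 + k)},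
    (fin_tail P fun k => x (7 * L + 3 + k)).subset ?_, ⟨7 * L, hP.symm,
      le_trans (by norm_cast; omega) (le_lev _ _), le_trans (by norm_cast; omega) (le_lev _ _), fun _ => rfl⟩, ?_⟩
  · rintro y ⟨n, h1, -, -, h4⟩
    exact ⟨n + 3, idx_le h1.le, fun k hk => Or.inl (le_of_lev hk h1.le), h4⟩
  rintro y ⟨n, h1, h2, h3, h4⟩ w hw
  obtain ⟨n', p⟩ := hw.far (n := n) (le_trans (by gcongr; omega) h3)
  obtain ⟨n1, p1⟩ := hw.far (n := n + 1) (le_trans (by gcongr; omega) h2)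
  obtain ⟨n2, p2⟩ := hw.far (n := n + 2) (by rw [h1]; gcongr; omega)
  have i0 := p.ix
  have i1 := p1.ix
  have i2 := p2.ix
  obtain rfl : n1 = n' + 1 := by push_cast at i1; omega
  obtain rfl : n2 = n' + 2 := by push_cast at i2; omega
  have b0 := abs_le.1 (abs_dsp w n)
  have b1 := abs_le.1 (abs_dsp w (n + 1 : ℕ))
  have := hw.len
  refine ⟨n', (p2.lv.eq (p.z _ (by simp))).trans h1, ?_, ?_, fun k => by rw [p.tail, h4]⟩
  · by_cases e : (L : ℕ∞) ≤ y (n + 2)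
    · rw [p1.lv.eq (hw.fix (le_trans (by gcongr; omega) h2) e)]; exact h2
    · exact p1.lv.le (lev_pred (a := 6 * L + 1) (by rw [h1]; gcongr; omega) e) (by push_cast at *; omega)
  · by_cases e : (L : ℕ∞) ≤ y (n + 1)
    · rw [p.lv.eq (hw.fix h3 e)]; exact h3
    · exact p.lv.le (lev_pred (a := 4 * L + 1) (le_trans (by norm_cast; omega) h2) e) (by push_cast at *; omega)

lemma inv_top (L : ℕ) {x : X} (hx : HT x) :
    ∃ Y : Set X, Y.Finite ∧ x ∈ Y ∧ ∀ y ∈ Y, ∀ w, Key 4 L w y → wact w y ∈ Y := by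
  have t := hx.top
  generalize mm x = m at t
  set N := 4 * L + 1 + (lev x m).toNat + (x (m + 1)).toNat + (x (m + 2)).toNat with hN
  refine ⟨{y | ∃ n, Top n y ∧ lev y n ≤ N ∧ (y (n + 2)).toNat ≤ N ∧
    (y (n + 1)).toNat + (y (n + 2)).toNat ≤ 2 * N ∧ ∀ k, y (n + 3 + k) = x (m + 3 + k)},
    (fin_tail (2 * N + 3) fun k => x (m + 3 + k)).subset ?_, ⟨m, t, ?_, by omega, by omega, fun _ => rfl⟩, ?_⟩
  · rintro y ⟨n, t', h1, h2, h3, h4⟩
    have hb : ∀ a : ℕ∞, a.toNat ≤ 2 * N → a ≤ (2 * N + 3 : ℕ) ∨ a = ⊤ := fun a ha => by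
      induction a using ENat.recTopCoe with
      | top => exact Or.inr rfl
      | coe a => exact Or.inl (by simp only [ENat.toNat_natCast] at ha; exact_mod_cast (by omega))
    refine ⟨n + 3, by have := idx_le h1; omega, fun k hk => ?_, h4⟩
    rcases lt_trichotomy k n with e | rfl | e
    · exact Or.inl ((le_of_lev e h1).trans (by gcongr; omega))
    · exact Or.inr t'.1
    · obtain rfl | rfl : k = n + 1 ∨ k = n + 2 := by omega
      exacts [hb _ (by omega), hb _ (by omega)]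
  · rw [← ENat.natCast_toNat t.lev_ne]; gcongr; omega
  rintro y ⟨n, t', h1, h2, h3, h4⟩ w hw
  obtain ⟨n', p, t''⟩ := t'.act hw.dom
  have b0 := abs_le.1 (abs_dsp w n)
  have b1 := abs_le.1 (abs_dsp w (n + 1))
  have hl := hw.len
  have k3 := hw.k3 (by omega) n t'.2 (by simp [t'.1])
  have k4 := hw.k4 le_rfl n t'.2 (by simp [t'.1])
  have g1 := p.g1
  have g2 := p.g2
  refine ⟨n', t'', ?_, ?_, ?_, fun k => by rw [p.tail, h4]⟩
  · by_cases e : ((3 * L + 1 : ℕ) : ℕ∞) ≤ lev y n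
    · cases n with
      | zero => simp at e
      | succ n =>
        obtain ⟨n1, p1⟩ := hw.far (n := n) (le_trans (by gcongr; omega) e)
        have i0 := p.ix
        have i1 := p1.ix
        obtain rfl : n' = n1 + 1 := by push_cast at i0; omega
        rw [p1.lv.eq (hw.fix e (by simp [t'.1]))]; exact h1
    · refine (t'.lev_le hw.dom t'').trans ((add_le_add (not_le.1 e).le le_rfl).trans ?_)
      norm_cast; omega
  · rcases g2 with ⟨-, e⟩ | ⟨i, j, e1, e2, e3⟩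
    · simp [e]
    · simp only [e1, e2, ENat.toNat_natCast, Nat.cast_le] at h2 k4 ⊢
      by_cases e : L ≤ i
      · have := k4 e; omega
      · omega
  · rcases g2 with ⟨e0, e⟩ | ⟨i, j, e1, e2, e3⟩ <;> rcases g1 with ⟨f0, f⟩ | ⟨i', j', f1, f2, f3⟩
    · simp [e, f]
    · simp only [e0, e, f1, f2, ENat.toNat_natCast, Nat.cast_le, ENat.toNat_top, le_top, forall_true_left] at h3 k3 k4 ⊢
      by_cases e : L ≤ i'
      · have := k3 e; omega
      · omega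
    · simp only [e1, e2, f, ENat.toNat_natCast, Nat.cast_le, ENat.toNat_top] at h2 k4 ⊢
      by_cases e : L ≤ i
      · have := k4 e; omega
      · omega
    · simp only [e1, e2, f1, f2, ENat.toNat_natCast, Nat.cast_le] at h2 h3 k3 ⊢
      by_cases e : L ≤ i'
      · have := k3 e; omega
      · omega

theorem inv_set (L : ℕ) (x : X) :
    ∃ Y : Set X, Y.Finite ∧ x ∈ Y ∧ ∀ y ∈ Y, ∀ w, Key 4 L w y → wact w y ∈ Y := by
  by_cases h : HT x
  exacts [inv_top L h, inv_fin L h]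

end Vale.Agent.P196
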