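import Vale.Agent.P196.Coc2

/-! The cocycles on the group; the filtration `AA i`. -/

namespace Vale.Agent.P196

/-- `w, j` is a chart of `g` near `z` -/
def Ch (g : Equiv.Perm Z) (z : Z) (w : Wd) (j : Sh) : Prop :=
  ∃ t : Tm, t.sh z.1 ∧ ∀ y, t.sh y → wdom w y ∧ g (y, z.2) = (wact w y, j)
def Loc (g : Equiv.Perm Z) : Prop := ∀ z, ∃ w j, Ch g z w j

lemma Ch.dom {g z w j} (h : Ch g z w j) : wdom w z.1 := let ⟨_, h1, h2⟩ := h; (h2 _ h1).1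
lemma Ch.app {g z w j} (h : Ch g z w j) : g z = (wact w z.1, j) := let ⟨_, h1, h2⟩ := h; (h2 _ h1).2
lemma Ch.one (z : Z) : Ch 1 z [] z.2 := ⟨.tt, Tm.sh_tt _, fun _ _ => ⟨trivial, rfl⟩⟩
lemma Ch.mul {g h z w j w' j'} (c : Ch h z w j) (c' : Ch g (h z) w' j') :
    Ch (g * h) z (w' ++ w) j' := by
  have e := c.app
  obtain ⟨t, h1, h2⟩ := c
  obtain ⟨t', h3, h4⟩ := c'
  rw [e] at h3 h4
  refine ⟨.an t (.pre w t'), ⟨h1, (Tm.sh_pre _ _ _).2 ⟨(h2 _ h1).1, h3⟩⟩, fun y hy => ?_⟩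
  have h5 := h4 _ ((Tm.sh_pre _ _ _).1 hy.2).2
  exact ⟨(wdom_append _ _ _).2 ⟨(h2 y hy.1).1, h5.1⟩, by
    rw [Equiv.Perm.mul_apply, (h2 y hy.1).2, wact_append]; exact h5.2⟩
lemma Ch.inv {g z w j} (c : Ch g z w j) : Ch g⁻¹ (g z) (winv w) z.2 := by
  have e := c.app
  obtain ⟨t, h1, h2⟩ := c
  rw [e]
  refine ⟨.trw w t, (Tm.sh_trw_act (h2 _ h1).1).2 h1, fun y hy => ?_⟩
  rw [Tm.sh_trw] at hy
  refine ⟨hy.1, ?_⟩
  rw [Equiv.Perm.inv_eq_iff_eq, (h2 _ hy.2).2, wact_inv' hy.1]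
lemma Loc.one : Loc 1 := fun z => ⟨_, _, Ch.one z⟩
lemma Loc.mul {g h} (hg : Loc g) (hh : Loc h) : Loc (g * h) := fun z => by
  obtain ⟨w, j, c⟩ := hh z
  obtain ⟨w', j', c'⟩ := hg (h z)
  exact ⟨_, _, c.mul c'⟩
lemma Loc.inv {g} (hg : Loc g) : Loc g⁻¹ := fun z => by
  obtain ⟨w, j, c⟩ := hg (g⁻¹ z)
  have := c.inv
  rw [show g (g⁻¹ z) = z by simp] at this
  exact ⟨_, _, this⟩

lemma ch_leg {g} {t : Tm} {A B : Leg} (hA : Dm t.sh A) (hB : Dm t.sh B)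
    (h : ∀ x, t.sh x → g (A.at x) = B.at x) {x} (hx : t.sh x) :
    Ch g (A.at x) (B.1 ++ winv A.1) B.2 := by
  refine ⟨.trw A.1 t, (Tm.sh_trw_act (hA x hx)).2 hx, fun y hy => ?_⟩
  rw [Tm.sh_trw] at hy
  refine ⟨(wdom_append _ _ _).2 ⟨hy.1, hB _ hy.2⟩, ?_⟩
  have := h _ hy.2
  simp only [Leg.at, wact_inv' hy.1] at this
  rw [wact_append]; exact this
lemma ch_off {t : Tm} {A B C : Leg} (h : Ok t.sh A B C) {z} (hz : Off t.sh A B C z) :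
    Ch (cyc t.sh A B C) z [] z.2 := by
  have H : ∀ D : Leg, Dm t.sh D → (∀ x, t.sh x → D.at x ≠ z) →
      ∃ s : Tm, s.sh z.1 ∧ ∀ y, s.sh y → ∀ x, t.sh x → D.at x ≠ (y, z.2) := fun D hD e => by
    by_cases e2 : D.2 = z.2
    · refine ⟨.nt (.trw D.1 t), fun q => ?_, fun y hy x hx q => hy ?_⟩
      · rw [Tm.sh_trw] at q
        exact e _ q.2 (Prod.ext (wact_inv' q.1) e2)
      · rw [← show wact D.1 x = y from congrArg Prod.fst q]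
        exact (Tm.sh_trw_act (hD x hx)).2 hx
    · exact ⟨.tt, Tm.sh_tt _, fun y _ x _ q => e2 (congrArg Prod.snd q)⟩
  obtain ⟨a, a1, a2⟩ := H A h.a fun x hx => (hz x hx).1
  obtain ⟨b, b1, b2⟩ := H B h.b fun x hx => (hz x hx).2.1
  obtain ⟨c, c1, c2⟩ := H C h.c fun x hx => (hz x hx).2.2
  exact ⟨.an a (.an b c), ⟨a1, b1, c1⟩, fun y hy => ⟨trivial,
    cyc_off fun x hx => ⟨a2 y hy.1 x hx, b2 y hy.2.1 x hx, c2 y hy.2.2 x hx⟩⟩⟩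
lemma loc_cyc {t : Tm} {A B C : Leg} (h : Ok t.sh A B C) : Loc (cyc t.sh A B C) := fun z => by
  rcases z_cases t.sh A B C z with ⟨x, hx, rfl⟩ | ⟨x, hx, rfl⟩ | ⟨x, hx, rfl⟩ | e
  exacts [⟨_, _, ch_leg h.a h.b (fun _ => cyc_A h) hx⟩, ⟨_, _, ch_leg h.b h.c (fun _ => cyc_B h) hx⟩,
    ⟨_, _, ch_leg h.c h.a (fun _ => cyc_C h) hx⟩, ⟨_, _, ch_off h e⟩]
lemma loc_of_GG {g} (hg : g ∈ GG) : Loc g := by
  induction hg using Subgroup.closure_induction with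
  | mem g hg => obtain ⟨t, A, B, C, h, rfl⟩ := hg; exact loc_cyc h
  | one => exact Loc.one
  | mul _ _ _ _ h1 h2 => exact h1.mul h2
  | inv _ _ h => exact h.inv

open Classical in
noncomputable def gd (e : ℕ) (g : Equiv.Perm Z) (z : Z) : ℤ :=
  if h : ∃ w j, Ch g z w j then wd e h.choose z.1 else 0
lemma Ch.wd_eq {g z w j w' j'} (c : Ch g z w j) (c' : Ch g z w' j') (e : ℕ) :
    wd e w z.1 = wd e w' z.1 := by
  obtain ⟨t, h1, h2⟩ := c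
  obtain ⟨t', h3, h4⟩ := c'
  exact WD (t := .an t t') ⟨h1, h3⟩ (fun y hy => ⟨(h2 y hy.1).1, (h4 y hy.2).1,
    congrArg Prod.fst ((h2 y hy.1).2.symm.trans (h4 y hy.2).2)⟩) e
theorem Ch.gd_eq {g z w j} (c : Ch g z w j) (e : ℕ) : gd e g z = wd e w z.1 := by
  have h : ∃ w j, Ch g z w j := ⟨w, j, c⟩
  simp only [gd, h, dif_pos]
  obtain ⟨j', c'⟩ := h.choose_spec
  exact c'.wd_eq c e
@[simp] lemma gd_one (e z) : gd e 1 z = 0 := by rw [(Ch.one z).gd_eq, wd_nil]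
theorem gd_mul {g h} (hg : Loc g) (hh : Loc h) (e z) :
    gd e (g * h) z = gd e g (h z) + gd e h z := by
  obtain ⟨w, j, c⟩ := hh z
  obtain ⟨w', j', c'⟩ := hg (h z)
  rw [(c.mul c').gd_eq, c.gd_eq, c'.gd_eq, wd_append _ _ c.dom, c.app, add_comm]
theorem gd_inv {g} (hg : Loc g) (e z) : gd e g⁻¹ (g z) = -gd e g z := by
  have := gd_mul hg.inv hg e z
  rw [inv_mul_cancel, gd_one] at this; omega
lemma gd_leg {g} {t : Tm} {A B : Leg} (hA : Dm t.sh A) (hB : Dm t.sh B)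
    (h : ∀ x, t.sh x → g (A.at x) = B.at x) {x} (hx : t.sh x) (e : ℕ) :
    gd e g (A.at x) = wd e B.1 x - wd e A.1 x := by
  rw [(ch_leg hA hB h hx).gd_eq]
  simp only [Leg.at]
  rw [wd_append _ _ (wdom_inv (hA x hx)), wd_inv _ (hA x hx), wact_inv (hA x hx)]; ring
lemma gd_cyc_A {t : Tm} {A B C : Leg} (h : Ok t.sh A B C) {x} (hx : t.sh x) (e : ℕ) :
    gd e (cyc t.sh A B C) (A.at x) = wd e B.1 x - wd e A.1 x :=
  gd_leg h.a h.b (fun _ => cyc_A h) hx e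
lemma gd_cyc_B {t : Tm} {A B C : Leg} (h : Ok t.sh A B C) {x} (hx : t.sh x) (e : ℕ) :
    gd e (cyc t.sh A B C) (B.at x) = wd e C.1 x - wd e B.1 x :=
  gd_leg h.b h.c (fun _ => cyc_B h) hx e
lemma gd_cyc_C {t : Tm} {A B C : Leg} (h : Ok t.sh A B C) {x} (hx : t.sh x) (e : ℕ) :
    gd e (cyc t.sh A B C) (C.at x) = wd e A.1 x - wd e C.1 x :=
  gd_leg h.c h.a (fun _ => cyc_C h) hx e
lemma gd_cyc_off {t : Tm} {A B C : Leg} (h : Ok t.sh A B C) {z} (hz : Off t.sh A B C z) (e : ℕ) :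
    gd e (cyc t.sh A B C) z = 0 := by rw [(ch_off h hz).gd_eq, wd_nil]

lemma Loc.cn {g} (hg : Loc g) (i) (z : Z) : Cn i (g z).1 ↔ Cn i z.1 := by
  obtain ⟨w, j, c⟩ := hg z
  rw [c.app]; exact Cn_act c.dom

/-- the filtration -/
def AA (i : ℕ) : Subgroup (Equiv.Perm Z) where
  carrier := {g | Loc g ∧ ∀ j < i, ∀ z : Z, Cn j z.1 → gd (ee j) g z = 0}
  one_mem' := ⟨Loc.one, fun _ _ _ _ => gd_one _ _⟩
  mul_mem' := fun {g h} hg hh => ⟨hg.1.mul hh.1, fun j hj z hz => by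
    rw [gd_mul hg.1 hh.1, hg.2 j hj _ ((hh.1.cn j z).2 hz), hh.2 j hj z hz]; rfl⟩
  inv_mem' := fun {g} hg => ⟨hg.1.inv, fun j hj z hz => by
    have := gd_inv hg.1 (ee j) (g⁻¹ z)
    rw [show g (g⁻¹ z) = z by simp, hg.2 j hj _ ((hg.1.inv.cn j z).2 hz)] at this
    exact this⟩
lemma mem_AA {i g} : g ∈ AA i ↔ Loc g ∧ ∀ j < i, ∀ z : Z, Cn j z.1 → gd (ee j) g z = 0 := Iff.rfl
lemma GG_le_AA : GG ≤ AA 0 := fun _ hg => ⟨loc_of_GG hg, fun _ h => absurd h (by omega)⟩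
lemma mem_AA_succ {i g} : g ∈ AA (i + 1) ↔ g ∈ AA i ∧ ∀ z : Z, Cn i z.1 → gd (ee i) g z = 0 :=
  ⟨fun h => ⟨⟨h.1, fun j hj => h.2 j (by omega)⟩, h.2 i (by omega)⟩, fun h => ⟨h.1.1, fun j hj => by
    rcases Nat.lt_succ_iff_lt_or_eq.1 hj with e | rfl
    exacts [h.1.2 j e, h.2]⟩⟩
lemma AA_flat {i g} (hg : g ∈ AA i) {t : Tm} {w s j}
    (h : ∀ y, t.sh y → wdom w y ∧ g (y, s) = (wact w y, j)) : Flat i t w := fun k hk y hy hc => by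
  rw [← Ch.gd_eq (g := g) (z := (y, s)) ⟨t, hy, h⟩]; exact hg.2 k hk _ hc

/-- uniform charts -/
def Un (L : ℕ) (g : Equiv.Perm Z) : Prop := ∀ z : Z, ∃ (w : Wd) (j : Sh) (t : Tm), w.length ≤ L ∧
  t.sh z.1 ∧ Md L t ∧ ∀ y, t.sh y → wdom w y ∧ g (y, z.2) = (wact w y, j)
lemma Un.mono {L L' g} (h : Un L g) (e : L ≤ L') : Un L' g := fun z => by
  obtain ⟨w, j, t, h1, h2, h3, h4⟩ := h z
  exact ⟨w, j, t, h1.trans e, h2, h3.mono e, h4⟩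
lemma bound_finset {α : Type*} (P : ℕ → α → Prop) (hP : ∀ L L' a, P L a → L ≤ L' → P L' a)
    (K : Finset α) (h : ∀ a ∈ K, ∃ L, P L a) : ∃ L, ∀ a ∈ K, P L a := by
  choose! f hf using h
  exact ⟨K.sup f, fun a ha => hP _ _ _ (hf a ha) (Finset.le_sup ha)⟩
lemma Loc.un {g} (hg : Loc g) : ∃ L, Un L g := by
  classical
  have : ∀ s ∈ (Finset.univ : Finset Sh), ∃ L, ∀ x : X, ∃ (w : Wd) (j : Sh) (t : Tm), w.length ≤ L ∧
      t.sh x ∧ Md L t ∧ ∀ y, t.sh y → wdom w y ∧ g (y, s) = (wact w y, j) := fun s _ => by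
    obtain ⟨l, h1, h2⟩ := compact_cover
      (fun t => ∃ w j, ∀ y, t.sh y → wdom w y ∧ g (y, s) = (wact w y, j)) fun x => by
        obtain ⟨w, j, t, h1, h2⟩ := hg (x, s)
        exact ⟨t, h1, w, j, h2⟩
    have : ∀ l' : List Tm, (∀ t ∈ l', t ∈ l) → ∃ L, ∀ t ∈ l', ∃ (w : Wd) (j : Sh), w.length ≤ L ∧
        Md L t ∧ ∀ y, t.sh y → wdom w y ∧ g (y, s) = (wact w y, j) := by
      intro l'
      induction l' with
      | nil => exact fun _ => ⟨0, by simp⟩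
      | cons t l' ih =>
        intro h
        obtain ⟨L, hL⟩ := ih fun u hu => h u (by simp [hu])
        obtain ⟨w, j, hw⟩ := h1 t (h t (by simp))
        obtain ⟨M, hM⟩ := t.det
        refine ⟨L + M + w.length, fun u hu => ?_⟩
        rcases List.mem_cons.1 hu with rfl | hu
        · exact ⟨w, j, by omega, Md.mono hM (by omega), hw⟩
        · obtain ⟨w', j', a, b, c⟩ := hL u hu
          exact ⟨w', j', by omega, b.mono (by omega), c⟩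
    obtain ⟨L, hL⟩ := this l fun _ h => h
    refine ⟨L, fun x => ?_⟩
    obtain ⟨t, ht, hx⟩ := h2 x
    obtain ⟨w, j, a, b, c⟩ := hL t ht
    exact ⟨w, j, t, a, hx, b, c⟩
  obtain ⟨L, hL⟩ := bound_finset _ (fun L L' s h e x => by
    obtain ⟨w, j, t, h1, h2, h3, h4⟩ := h x
    exact ⟨w, j, t, h1.trans e, h2, h3.mono e, h4⟩) _ this
  exact ⟨L, fun z => hL z.2 (Finset.mem_univ _) z.1⟩
lemma un_finset (K : Finset (Equiv.Perm Z)) (h : ∀ g ∈ K, Loc g) :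
    ∃ L, ∀ g ∈ K, Un L g ∧ Un L g⁻¹ :=
  bound_finset _ (fun _ _ _ h e => ⟨h.1.mono e, h.2.mono e⟩) K fun g hg => by
    obtain ⟨L, h1⟩ := (h g hg).un
    obtain ⟨L', h2⟩ := (h g hg).inv.un
    exact ⟨L + L', h1.mono (by omega), h2.mono (by omega)⟩
lemma Un.key {i L g} (h : Un L g) (hg : g ∈ AA i) (z : Z) :
    ∃ w, Key i L w z.1 ∧ (g z).1 = wact w z.1 ∧ ∀ e, gd e g z = wd e w z.1 := by
  obtain ⟨w, j, t, h1, h2, h3, h4⟩ := h z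
  have c : Ch g z w j := ⟨t, h2, h4⟩
  exact ⟨w, (AA_flat hg h4).key h3 h2 h1 c.dom, by rw [c.app], c.gd_eq⟩

theorem FIN {i g} (hg : g ∈ AA i) : {z : Z | Cn i z.1 ∧ gd (ee i) g z ≠ 0}.Finite := by
  obtain ⟨L, hL⟩ := hg.1.un
  refine ((fin_cn i (2 * L) L).prod (Set.finite_univ (α := Sh))).subset fun z hz => ⟨⟨hz.1, ?_⟩, trivial⟩
  obtain ⟨w, h1, -, h3⟩ := hL.key hg z
  exact h1.supp hz.1 (h3 _ ▸ hz.2)

theorem BND (K : Finset (Equiv.Perm Z)) (hK : ∀ g ∈ K, g ∈ AA 4) (z : Z) :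
    {y | ∃ g ∈ Subgroup.closure (K : Set (Equiv.Perm Z)), g z = y}.Finite := by
  obtain ⟨L, hL⟩ := un_finset K fun g hg => (hK g hg).1
  obtain ⟨Y, h1, h2, h3⟩ := inv_set L z.1
  have H : ∀ g, g ∈ AA 4 → Un L g → ∀ y : Z, y.1 ∈ Y → (g y).1 ∈ Y := fun g hg hu y hy => by
    obtain ⟨w, a, b, -⟩ := hu.key hg y
    rw [b]; exact h3 _ hy w a
  refine (h1.prod (Set.finite_univ (α := Sh))).subset ?_
  rintro _ ⟨g, hg, rfl⟩
  refine ⟨?_, trivial⟩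
  have : (∀ y : Z, y.1 ∈ Y → (g y).1 ∈ Y) ∧ ∀ y : Z, y.1 ∈ Y → (g⁻¹ y).1 ∈ Y := by
    induction hg using Subgroup.closure_induction with
    | mem g hg => exact ⟨H g (hK g hg) (hL g hg).1, H _ (inv_mem (hK g hg)) (hL g hg).2⟩
    | one => exact ⟨fun _ h => h, fun _ h => h⟩
    | mul g h _ _ a b => exact ⟨fun y hy => a.1 _ (b.1 y hy), fun y hy => by
        rw [mul_inv_rev]; exact b.2 _ (a.2 y hy)⟩
    | inv g _ a => exact ⟨a.2, by simpa using a.1⟩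
  exact this.1 z h2

theorem fix_nbhd {g} (hg : g ∈ AA 4) {z : Z} (e : g z = z) :
    ∃ t : Tm, t.sh z.1 ∧ ∀ y, t.sh y → g (y, z.2) = (y, z.2) := by
  obtain ⟨w, j, c⟩ := hg.1 z
  have e1 := c.app
  have hd := c.dom
  obtain ⟨t, h1, h2⟩ := c
  rw [e] at e1
  have e2 : wact w z.1 = z.1 := (congrArg Prod.fst e1).symm
  have e3 : j = z.2 := (congrArg Prod.snd e1).symm
  obtain ⟨d1, d2⟩ := PR4 h1 hd (AA_flat hg h2) e2
  obtain ⟨s, h3, h4⟩ := PR1 hd e2 d1 d2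
  exact ⟨.an t s, ⟨h1, h3⟩, fun y hy => by rw [(h2 y hy.1).2, (h4 y hy.2).2, e3]⟩

end Vale.Agent.P196
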