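import Mathlib

/-! Sheet calculus in an abstract group. -/

namespace Vale.Agent.P196

abbrev Sh := Fin 200

def D3 (i j k : Sh) : Prop := i ≠ j ∧ j ≠ k ∧ i ≠ k

def c3 (i j k : Sh) : Equiv.Perm Sh := Equiv.swap i j * Equiv.swap j k

lemma c3_1 {i j k : Sh} (h : D3 i j k) : c3 i j k i = j := by
  obtain ⟨h1, h2, h3⟩ := h
  simp [c3, Equiv.swap_apply_of_ne_of_ne h1 h3]
lemma c3_2 {i j k : Sh} (h : D3 i j k) : c3 i j k j = k := by
  obtain ⟨h1, h2, h3⟩ := h
  simp [c3, Equiv.swap_apply_of_ne_of_ne h3.symm h2.symm]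
lemma c3_3 {i j k : Sh} (_h : D3 i j k) : c3 i j k k = i := by
  simp [c3]
lemma c3_fix {i j k x : Sh} (h1 : x ≠ i) (h2 : x ≠ j) (h3 : x ≠ k) : c3 i j k x = x := by
  simp [c3, Equiv.swap_apply_of_ne_of_ne h2 h3, Equiv.swap_apply_of_ne_of_ne h1 h2]

lemma D3.map {i j k : Sh} (h : D3 i j k) (s : Equiv.Perm Sh) : D3 (s i) (s j) (s k) :=
  ⟨fun e => h.1 (s.injective e), fun e => h.2.1 (s.injective e), fun e => h.2.2 (s.injective e)⟩
lemma D3.rot {i j k : Sh} (h : D3 i j k) : D3 j k i := ⟨h.2.1, h.2.2.symm, h.1.symm⟩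
lemma D3.rev {i j k : Sh} (h : D3 i j k) : D3 k j i := ⟨h.2.1.symm, h.1.symm, h.2.2.symm⟩

lemma fresh_in (I : Finset Sh) (l : List Sh) (h : l.length < I.card) : ∃ a ∈ I, a ∉ l := by
  by_contra hc
  push Not at hc
  have : I ⊆ l.toFinset := fun a ha => List.mem_toFinset.2 (hc a ha)
  have := (Finset.card_le_card this).trans (List.toFinset_card_le l)
  omega

lemma fresh (l : List Sh) (h : l.length < 200) : ∃ a, a ∉ l := by
  obtain ⟨a, -, ha⟩ := fresh_in Finset.univ l (by simpa using h)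
  exact ⟨a, ha⟩

lemma fresh2 (l : List Sh) (h : l.length < 190) : ∃ a b, a ∉ l ∧ b ∉ l ∧ a ≠ b := by
  obtain ⟨a, ha⟩ := fresh l (by omega)
  obtain ⟨b, hb⟩ := fresh (a :: l) (by simp; omega)
  simp at hb
  exact ⟨a, b, ha, hb.2, Ne.symm hb.1⟩

lemma fresh2_in (I : Finset Sh) (l : List Sh) (h : l.length + 1 < I.card) :
    ∃ a b, a ∈ I ∧ b ∈ I ∧ a ∉ l ∧ b ∉ l ∧ a ≠ b := by
  obtain ⟨a, ha0, ha⟩ := fresh_in I l (by omega)
  obtain ⟨b, hb0, hb⟩ := fresh_in I (a :: l) (by simp; omega)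
  simp at hb
  exact ⟨a, b, ha0, hb0, ha, hb.2, Ne.symm hb.1⟩

variable {Γ : Type*} [Group Γ]

/-- Sheet subgroups. -/
structure Sheets (Γ : Type*) [Group Γ] where
  sub : Finset Sh → Subgroup Γ
  comm : ∀ {I J : Finset Sh}, Disjoint I J → ∀ g ∈ sub I, ∀ h ∈ sub J, Commute g h

def Supp (S : Sheets Γ) (g : Γ) (l : List Sh) : Prop :=
  ∀ I : Finset Sh, (∀ x ∈ l, x ∈ I) → 40 ≤ I.card → g ∈ S.sub I

section
variable {S : Sheets Γ} {g h : Γ} {l l' : List Sh}
lemma Supp.mono (hg : Supp S g l) (hl : ∀ x ∈ l, x ∈ l') : Supp S g l' :=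
  fun I hI hc => hg I (fun x hx => hI x (hl x hx)) hc
lemma Supp.mul (hg : Supp S g l) (hh : Supp S h l) : Supp S (g * h) l :=
  fun I hI hc => Subgroup.mul_mem _ (hg I hI hc) (hh I hI hc)
lemma Supp.inv (hg : Supp S g l) : Supp S g⁻¹ l :=
  fun I hI hc => Subgroup.inv_mem _ (hg I hI hc)
lemma Supp.one : Supp S 1 l := fun _ _ _ => Subgroup.one_mem _

lemma Supp.commute (hg : Supp S g l) (hh : Supp S h l') (hd : ∀ x ∈ l, x ∉ l')
    (h1 : l.length ≤ 40) (h2 : l'.length ≤ 160) : Commute g h := by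
  have hsub : l.toFinset ⊆ l'.toFinsetᶜ := by
    intro x hx; simp at hx ⊢; exact hd x hx
  have c1 := List.toFinset_card_le l
  have c2 := List.toFinset_card_le l'
  have c3' : (l'.toFinsetᶜ).card = 200 - l'.toFinset.card := by
    rw [Finset.card_compl]; simp
  obtain ⟨I, hI1, hI2, hI3⟩ := Finset.exists_subsuperset_card_eq hsub (n := 40) (by omega) (by omega)
  have c4 : (Iᶜ).card = 160 := by rw [Finset.card_compl, hI3]; simp
  refine S.comm (I := I) (J := Iᶜ) disjoint_compl_right g (hg I ?_ (by omega)) h (hh Iᶜ ?_ (by omega))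
  · intro x hx; exact hI1 (List.mem_toFinset.2 hx)
  · intro x hx
    simp only [Finset.mem_compl]
    intro hxI
    have := hI2 hxI
    simp at this
    exact this hx

lemma supp_of_aux2 (hl : l.length ≤ 36)
    (H : ∀ a b, a ∉ l → b ∉ l → a ≠ b → Supp S g (a :: b :: l)) : Supp S g l := by
  intro I hI hc
  obtain ⟨a, b, ha0, hb0, ha, hb, hab⟩ := fresh2_in I l (by omega)
  refine H a b ha hb hab I ?_ hc
  intro x hx
  simp at hx
  rcases hx with rfl | rfl | hx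
  exacts [ha0, hb0, hI x hx]
end

abbrev T3 (Γ : Type*) := Sh → Sh → Sh → Γ

def Acts (g : Γ) (s : Equiv.Perm Sh) (p : T3 Γ) : Prop :=
  ∀ i j k, D3 i j k → g * p i j k * g⁻¹ = p (s i) (s j) (s k)

lemma Acts.mul {g h : Γ} {s t : Equiv.Perm Sh} {p : T3 Γ} (h1 : Acts g s p) (h2 : Acts h t p) :
    Acts (g * h) (s * t) p := by
  intro i j k hd
  have := h1 _ _ _ (hd.map t)
  rw [← h2 i j k hd] at this
  simp only [Equiv.Perm.mul_apply, ← this]; group

lemma Acts.inv {g : Γ} {s : Equiv.Perm Sh} {p : T3 Γ} (h1 : Acts g s p) : Acts g⁻¹ s⁻¹ p := by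
  intro i j k hd
  have := h1 _ _ _ (hd.map s⁻¹)
  have e : ∀ x, s (s⁻¹ x) = x := fun x => by simp
  simp only [e] at this
  rw [← this]; group

def Com (p q : T3 Γ) : Prop :=
  ∀ i j k a b c, D3 i j k → D3 a b c → Commute (p i j k) (q a b c)

lemma Com.symm {p q : T3 Γ} (h : Com p q) : Com q p :=
  fun _ _ _ _ _ _ h1 h2 => (h _ _ _ _ _ _ h2 h1).symm

structure Pre (S : Sheets Γ) (p : T3 Γ) : Prop where
  junk : ∀ i j k, ¬ D3 i j k → p i j k = 1
  cyc : ∀ i j k, D3 i j k → p i j k = p j k i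
  inv : ∀ i j k, D3 i j k → p k j i = (p i j k)⁻¹
  acts : ∀ a b c, D3 a b c → Acts (p a b c) (c3 a b c) p
  a4 : ∀ i j k l, D3 i j k → l ≠ i → l ≠ j → l ≠ k → p j i k = p i k l * (p j k l)⁻¹
  supp : ∀ i j k, D3 i j k → Supp S (p i j k) [i, j, k]

variable {S : Sheets Γ}

lemma Pre.comm_eq {p : T3 Γ} (hp : Pre S p) {i j k a b : Sh} (h : D3 i j k) (h1 : D3 i a j)
    (h2 : D3 j k b) (hak : a ≠ k) (hab : a ≠ b) (hbi : b ≠ i) :
    p j i k = p i a j * p j k b * (p i a j)⁻¹ * (p j k b)⁻¹ := by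
  rw [hp.acts i a j h1 j k b h2, c3_3 h1, c3_fix h.2.2.symm hak.symm h.2.1.symm,
    c3_fix hbi hab.symm h2.2.2.symm]
  exact hp.a4 i j k b h hbi h2.2.2.symm h2.2.1.symm

lemma Pre.comm_of_one {p : T3 Γ} (hp : Pre S p) {g : Γ} {i j k : Sh} (h : D3 i j k)
    (l : List Sh) (hl : l.length ≤ 150)
    (H : ∀ x, x = i ∨ x = j ∨ x = k → ∀ a b, a ∉ l → b ∉ l → D3 x a b → Commute g (p x a b)) :
    Commute g (p i j k) := by
  obtain ⟨a, b, ha, hb, hab⟩ := fresh2 (i :: j :: k :: l) (by simp; omega)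
  simp only [List.mem_cons, not_or] at ha hb
  obtain ⟨h1, h2, h3⟩ := h
  have key : ∀ x, x = i ∨ x = j → Commute g (p x k a) := by
    intro x hx
    have hxk : x ≠ k := by rcases hx with rfl | rfl <;> assumption
    have hxa : x ≠ a := by rcases hx with rfl | rfl; exacts [Ne.symm ha.1, Ne.symm ha.2.1]
    have hxb : x ≠ b := by rcases hx with rfl | rfl; exacts [Ne.symm hb.1, Ne.symm hb.2.1]
    rw [hp.a4 k x a b ⟨hxk.symm, hxa, Ne.symm ha.2.2.1⟩ hb.2.2.1 hxb.symm hab.symm]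
    refine (H k (by simp) a b ha.2.2.2 hb.2.2.2 ⟨Ne.symm ha.2.2.1, hab, Ne.symm hb.2.2.1⟩).mul_right
      (H x (by tauto) a b ha.2.2.2 hb.2.2.2 ⟨hxa, hab, hxb⟩).inv_right
  rw [hp.a4 j i k a ⟨h1.symm, h3, h2⟩ ha.2.1 ha.1 ha.2.2.1]
  exact (key j (by simp)).mul_right (key i (by simp)).inv_right

def dif (p q : T3 Γ) : T3 Γ := fun i j k => (q i j k)⁻¹ * p i j k
def add (p q : T3 Γ) : T3 Γ := fun i j k => p i j k * q i j k

lemma com_dif {p q : T3 Γ} (hq : Pre S q) (h : ∀ a b c, D3 a b c → Acts (p a b c) (c3 a b c) q) :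
    Com q (dif p q) := by
  intro i j k a b c h1 h2
  have e1 := h a b c h2 i j k h1
  have e2 := hq.acts a b c h2 i j k h1
  rw [← e2] at e1
  unfold dif
  have : (q a b c)⁻¹ * p a b c * q i j k = q i j k * ((q a b c)⁻¹ * p a b c) := by
    calc _ = (q a b c)⁻¹ * (p a b c * q i j k * (p a b c)⁻¹) * p a b c := by group
      _ = _ := by rw [e1]; group
  exact this.symm

lemma pre_add {p q : T3 Γ} (hp : Pre S p) (hq : Pre S q) (h : Com p q) : Pre S (add p q) where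
  junk i j k hd := by simp [add, hp.junk _ _ _ hd, hq.junk _ _ _ hd]
  cyc i j k hd := by simp [add, hp.cyc _ _ _ hd, hq.cyc _ _ _ hd]
  inv i j k hd := by
    simp only [add, hp.inv _ _ _ hd, hq.inv _ _ _ hd, mul_inv_rev]
    exact (h _ _ _ _ _ _ hd hd).inv_inv.eq
  acts a b c hd i j k hd' := by
    simp only [add, ← hp.acts a b c hd i j k hd', ← hq.acts a b c hd i j k hd']
    have e1 := (h _ _ _ _ _ _ hd' hd).eq
    have e2 := (h _ _ _ _ _ _ hd hd').eq
    have e3 := (h _ _ _ _ _ _ hd hd).eq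
    set P := p a b c; set Q := q a b c; set x := p i j k; set y := q i j k
    calc P * Q * (x * y) * (P * Q)⁻¹ = P * (Q * x) * y * Q⁻¹ * P⁻¹ := by group
      _ = P * x * P⁻¹ * (P * (Q * y * Q⁻¹) * P⁻¹) := by rw [← e1]; group
      _ = _ := by
        have : Commute P (Q * y * Q⁻¹) :=
          (Commute.mul_right (Commute.mul_right e3 e2) (Commute.inv_right e3))
        rw [this.eq]; group
  a4 i j k l hd h1 h2 h3 := by
    simp only [add, hp.a4 i j k l hd h1 h2 h3, hq.a4 i j k l hd h1 h2 h3]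
    have d1 : D3 i k l := ⟨hd.2.2, h3.symm, h1.symm⟩
    have d2 : D3 j k l := ⟨hd.2.1, h3.symm, h2.symm⟩
    have e1 := (h _ _ _ _ _ _ d2 d1).inv_left.eq
    have e2 := (h _ _ _ _ _ _ d2 d2).inv_inv.eq
    rw [mul_inv_rev, ← e2]
    calc _ = p i k l * ((p j k l)⁻¹ * q i k l) * (q j k l)⁻¹ := by group
      _ = _ := by rw [e1]; group
  supp i j k hd := (hp.supp _ _ _ hd).mul (hq.supp _ _ _ hd)

lemma pre_dif {p q : T3 Γ} (hp : Pre S p) (hq : Pre S q)
    (h : ∀ a b c, D3 a b c → Acts (p a b c) (c3 a b c) q) : Pre S (dif p q) := by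
  have hc := com_dif hq h
  have hv : ∀ i j k, p i j k = q i j k * dif p q i j k := by intro i j k; simp [dif]
  refine ⟨?_, ?_, ?_, ?_, ?_, ?_⟩
  · intro i j k hd; simp [dif, hp.junk _ _ _ hd, hq.junk _ _ _ hd]
  · intro i j k hd; simp [dif, hp.cyc _ _ _ hd, hq.cyc _ _ _ hd]
  · intro i j k hd
    have e := (hc _ _ _ _ _ _ hd hd).inv_right.eq
    have : dif p q k j i = q i j k * (p i j k)⁻¹ := by
      simp [dif, hp.inv _ _ _ hd, hq.inv _ _ _ hd]
    rw [this, hv i j k, mul_inv_rev, ← mul_assoc, e]; group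
  · intro a b c hd i j k hd'
    have e1 := hp.acts a b c hd i j k hd'
    have e2 := h a b c hd i j k hd'
    have e3 := (hc _ _ _ _ _ _ hd (hd'.map (c3 a b c))).inv_left.eq
    have e4 : p a b c * dif p q i j k * (p a b c)⁻¹
        = dif p q (c3 a b c i) (c3 a b c j) (c3 a b c k) := by
      simp only [dif, ← e1, ← e2]; group
    calc _ = (q a b c)⁻¹ * (p a b c * dif p q i j k * (p a b c)⁻¹) * q a b c := by
          simp only [dif]; group
      _ = _ := by rw [e4, e3]; group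
  · intro i j k l hd h1 h2 h3
    have d1 : D3 i k l := ⟨hd.2.2, h3.symm, h1.symm⟩
    have d2 : D3 j k l := ⟨hd.2.1, h3.symm, h2.symm⟩
    have e1 := (hc _ _ _ _ _ _ d2 d1).eq
    have e2 := (hc _ _ _ _ _ _ d2 d2).inv_right.eq
    have : dif p q j i k = q j k l * dif p q i k l * (dif p q j k l)⁻¹ * (q j k l)⁻¹ := by
      simp only [dif, hp.a4 i j k l hd h1 h2 h3, hq.a4 i j k l hd h1 h2 h3]; group
    rw [this, e1, mul_assoc (dif p q i k l), e2]; group
  · intro i j k hd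
    exact (hq.supp _ _ _ hd).inv.mul (hp.supp _ _ _ hd)

end Vale.Agent.P196
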