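import Vale.Agent.P196.Dyn
import Vale.Agent.P196.Idem

/-! Definable sets are clopen; compactness; three-cycles of multisections. -/

namespace Vale.Agent.P196
namespace Tm
def trw : Wd → Tm → Tm
  | [], t => t
  | a :: w, t => tr a (trw w t)
lemma sh_trw (w : Wd) (t : Tm) (y : X) :
    (trw w t).sh y ↔ wdom (winv w) y ∧ t.sh (wact (winv w) y) := by
  induction w generalizing y with
  | nil => simp [trw]
  | cons a w ih => simp [trw, sh_tr, ih, winv_cons, and_assoc]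
def pre (w : Wd) (t : Tm) : Tm := trw (winv w) t
lemma sh_pre (w : Wd) (t : Tm) (y : X) : (pre w t).sh y ↔ wdom w y ∧ t.sh (wact w y) := by
  simp [pre, sh_trw]
lemma sh_an (s t : Tm) (x : X) : (an s t).sh x ↔ s.sh x ∧ t.sh x := Iff.rfl
lemma sh_nt (t : Tm) (x : X) : (nt t).sh x ↔ ¬ t.sh x := Iff.rfl
lemma sh_trw_act {w : Wd} {t : Tm} {x : X} (h : wdom w x) : (trw w t).sh (wact w x) ↔ t.sh x := by
  simp [sh_trw, wdom_inv h, wact_inv h]
end Tm

def close (M : ℕ) (x y : X) : Prop := ∀ n < M, min (x n) M = min (y n) M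
lemma close.symm {M x y} (h : close M x y) : close M y x := fun n hn => (h n hn).symm
lemma min_mono' {a b : ℕ∞} {M N : ℕ} (h : min a N = min b N) (hMN : M ≤ N) : min a M = min b M := by
  have : ∀ c : ℕ∞, min c M = min (min c N) M := fun c => by
    rw [min_assoc, min_eq_right (a := (N : ℕ∞)) (by exact_mod_cast hMN)]
  rw [this a, this b, h]
lemma close.mono {M N x y} (h : close N x y) (hMN : M ≤ N) : close M x y :=
  fun n hn => min_mono' (h n (by omega)) hMN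
lemma le_of_min {a b : ℕ∞} {k : ℕ} (h : min a k = min b k) (ha : (k : ℕ∞) ≤ a) : (k : ℕ∞) ≤ b := by
  rw [min_eq_right ha] at h; exact h ▸ min_le_left _ _

lemma cmin (a b : ℕ) : min (a : ℕ∞) b = ((min a b : ℕ) : ℕ∞) := (Nat.mono_cast.map_min).symm

lemma Tm.det (t : Tm) : ∃ M, ∀ x y, close M x y → t.sh x → t.sh y := by
  induction t with
  | Q k => exact ⟨k + 3, fun x y h => le_of_min (min_mono' (h 0 (by omega)) (by omega))⟩
  | J k => exact ⟨k + 3, fun x y h => le_of_min (min_mono' (h 1 (by omega)) (by omega))⟩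
  | K k => exact ⟨k + 3, fun x y h => le_of_min (min_mono' (h 2 (by omega)) (by omega))⟩
  | nt t ih => obtain ⟨M, h⟩ := ih; exact ⟨M, fun x y c h1 h2 => h1 (h _ _ c.symm h2)⟩
  | an s t ih1 ih2 =>
    obtain ⟨M, h⟩ := ih1; obtain ⟨N, h'⟩ := ih2
    exact ⟨M + N, fun x y c e => ⟨h _ _ (c.mono (by omega)) e.1, h' _ _ (c.mono (by omega)) e.2⟩⟩
  | W k t ih =>
    obtain ⟨M, h⟩ := ih
    refine ⟨M + k + 2, fun x y c e => ?_⟩
    have e0 : y 0 = k := by
      have := c 0 (by omega)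
      rw [e.1] at this
      generalize y 0 = a at *
      induction a using ENat.recTopCoe with
      | top => simp only [min_top_left, cmin, Nat.cast_inj] at this; omega
      | coe a => simp only [cmin, Nat.cast_inj] at this ⊢; omega
    refine ⟨e0, h _ _ (fun n hn => ?_) e.2⟩
    cases n with
    | zero =>
      have := min_mono' (c 1 (by omega)) (show M ≤ M + k + 2 by omega)
      simp only [pop, cons_0, e.1, e0]
      generalize y 1 = a at *; generalize x 1 = b at *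
      have hc : ∀ a : ℕ, (k : ℕ∞) + 1 + a = ((k + 1 + a : ℕ) : ℕ∞) := fun a => by push_cast; rfl
      induction a using ENat.recTopCoe <;> induction b using ENat.recTopCoe <;>
        simp only [hc, add_top, min_top_left, cmin, Nat.cast_inj] at this ⊢ <;> omega
    | succ n => exact min_mono' (c (n + 2) (by omega)) (by omega)

lemma isOpen_close (M : ℕ) (x : X) : IsOpen {y | close M x y} := by
  have : {y | close M x y} = ⋂ n ∈ Finset.range M, (fun y : X => y n) ⁻¹' {a | min (x n) M = min a M} := by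
    ext y; simp [close]
  rw [this]
  refine isOpen_biInter_finset fun n _ => IsOpen.preimage (continuous_apply n) ?_
  by_cases h : (M : ℕ∞) ≤ x n
  · have : {a : ℕ∞ | min (x n) M = min a M} = {a : ℕ∞ | a < M}ᶜ := by
      ext a; simp [min_eq_right h, eq_comm]
    rw [this, isOpen_compl_iff]
    refine Set.Finite.isClosed ((Set.finite_range (fun i : Fin M => ((i : ℕ) : ℕ∞))).subset ?_)
    intro a ha
    induction a using ENat.recTopCoe with
    | top => simp at ha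
    | coe a => exact ⟨⟨a, by simpa using ha⟩, rfl⟩
  · have : {a : ℕ∞ | min (x n) M = min a M} = {x n} := by
      ext a
      push Not at h
      simp only [min_eq_left h.le, Set.mem_setOf_eq, Set.mem_singleton_iff]
      constructor
      · intro e
        rcases le_total a M with h' | h'
        · rw [min_eq_left h'] at e; exact e.symm
        · rw [min_eq_right h'] at e; exact absurd e h.ne
      · rintro rfl; exact (min_eq_left h.le).symm
    rw [this]
    exact ENat.isOpen_singleton (by rintro e; simp [e] at h)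

lemma compact_cover (P : Tm → Prop) (h : ∀ x, ∃ t : Tm, t.sh x ∧ P t) :
    ∃ l : List Tm, (∀ t ∈ l, P t) ∧ ∀ x, ∃ t ∈ l, t.sh x := by
  choose f hf hP using h
  choose M hM using Tm.det
  obtain ⟨s, hs⟩ := isCompact_univ.elim_finite_subcover (fun x : X => {y | close (M (f x)) x y})
    (fun x => isOpen_close _ _) (fun x _ => Set.mem_iUnion.2 ⟨x, fun _ _ => rfl⟩)
  refine ⟨s.toList.map f, ?_, fun x => ?_⟩
  · intro t ht; obtain ⟨x, -, rfl⟩ := List.mem_map.1 ht; exact hP x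
  · obtain ⟨y, hy, e⟩ := Set.mem_iUnion₂.1 (hs (Set.mem_univ x))
    exact ⟨f y, List.mem_map_of_mem (Finset.mem_toList.2 hy), hM _ _ _ e (hf y)⟩

/-- local-to-global principle for additive properties of definable sets -/
lemma loc_ind (P : Tm → Prop) (h0 : ∀ r : Tm, (∀ x, ¬ r.sh x) → P r)
    (h1 : ∀ r s : Tm, P (.an r s) → P (.an r (.nt s)) → P r) (t : Tm)
    (h : ∀ x, t.sh x → ∃ s : Tm, s.sh x ∧ ∀ r : Tm, (∀ y, r.sh y → s.sh y ∧ t.sh y) → P r) : P t := by
  obtain ⟨l, hl, hc⟩ := compact_cover (fun s => ∀ r : Tm, (∀ y, r.sh y → s.sh y ∧ t.sh y) → P r)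
    fun x => by
      by_cases e : t.sh x
      · exact h x e
      · exact ⟨.nt t, e, fun r hr => h0 r fun y hy => (hr y hy).1 (hr y hy).2⟩
  have : ∀ r : Tm, (∀ y, r.sh y → t.sh y ∧ ∃ s ∈ l, s.sh y) → P r := by
    clear hc
    induction l with
    | nil => intro r hr; exact h0 r fun y hy => by simpa using (hr y hy).2
    | cons s l ih =>
      intro r hr
      refine h1 r s (hl s (by simp) _ fun y hy => ⟨hy.2, (hr y hy.1).1⟩)
        (ih (fun u hu => hl u (by simp [hu])) _ fun y hy => ⟨(hr y hy.1).1, ?_⟩)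
      obtain ⟨u, hu, e⟩ := (hr y hy.1).2
      rcases List.mem_cons.1 hu with rfl | hu
      · exact absurd e hy.2
      · exact ⟨u, hu, e⟩
  exact this t fun y hy => ⟨hy, hc y⟩

abbrev Z := X × Sh
abbrev Leg := Wd × Sh
noncomputable def Leg.at (A : Leg) (x : X) : Z := (wact A.1 x, A.2)
def Dj (t : X → Prop) (A B : Leg) : Prop := ∀ x y, t x → t y → A.at x ≠ B.at y
lemma Dj.symm {t A B} (h : Dj t A B) : Dj t B A := fun x y hx hy e => h y x hy hx e.symm
lemma Dj.mono {t s : X → Prop} {A B} (h : Dj t A B) (e : ∀ x, s x → t x) : Dj s A B :=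
  fun x y hx hy => h x y (e x hx) (e y hy)
lemma dj_of_ne {t} {A B : Leg} (h : A.2 ≠ B.2) : Dj t A B := 
  fun x y _ _ e => h (congrArg Prod.snd e : (A.at x).2 = (B.at y).2)
def Dm (t : X → Prop) (A : Leg) : Prop := ∀ x, t x → wdom A.1 x
lemma Dm.inj {t A} (h : Dm t A) {x y} (hx : t x) (hy : t y) (e : A.at x = A.at y) : x = y :=
  wact_inj (h x hx) (h y hy) (congrArg Prod.fst e)
structure Ok (t : X → Prop) (A B C : Leg) : Prop where
  a : Dm t A
  b : Dm t B
  c : Dm t C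
  ab : Dj t A B
  bc : Dj t B C
  ac : Dj t A C
lemma Ok.rot {t A B C} (h : Ok t A B C) : Ok t B C A := ⟨h.b, h.c, h.a, h.bc, h.ac.symm, h.ab.symm⟩
lemma Ok.swap {t A B C} (h : Ok t A B C) : Ok t A C B := ⟨h.a, h.c, h.b, h.ac, h.bc.symm, h.ab⟩
lemma Ok.rev {t A B C} (h : Ok t A B C) : Ok t C B A := h.swap.rot
lemma Ok.mono {t s : X → Prop} {A B C} (h : Ok t A B C) (e : ∀ x, s x → t x) : Ok s A B C :=
  ⟨fun x hx => h.a x (e x hx), fun x hx => h.b x (e x hx), fun x hx => h.c x (e x hx),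
    h.ab.mono e, h.bc.mono e, h.ac.mono e⟩
def Off (t : X → Prop) (A B C : Leg) (z : Z) : Prop :=
  ∀ x, t x → A.at x ≠ z ∧ B.at x ≠ z ∧ C.at x ≠ z

open Classical in
noncomputable def cf (t : X → Prop) (A B C : Leg) (z : Z) : Z :=
  if h : ∃ x, t x ∧ A.at x = z then B.at h.choose
  else if h : ∃ x, t x ∧ B.at x = z then C.at h.choose
  else if h : ∃ x, t x ∧ C.at x = z then A.at h.choose else z

section
variable {t : X → Prop} {A B C : Leg}
lemma cf_A (h : Ok t A B C) {x} (hx : t x) : cf t A B C (A.at x) = B.at x := by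
  have e : ∃ y, t y ∧ A.at y = A.at x := ⟨x, hx, rfl⟩
  simp only [cf, e, dif_pos]; rw [h.a.inj e.choose_spec.1 hx e.choose_spec.2]
lemma cf_B (h : Ok t A B C) {x} (hx : t x) : cf t A B C (B.at x) = C.at x := by
  have e : ∃ y, t y ∧ B.at y = B.at x := ⟨x, hx, rfl⟩
  have e' : ¬ ∃ y, t y ∧ A.at y = B.at x := fun ⟨y, hy, e⟩ => h.ab y x hy hx e
  simp only [cf, e, e', dif_pos, dif_neg, not_false_eq_true]
  rw [h.b.inj e.choose_spec.1 hx e.choose_spec.2]
lemma cf_C (h : Ok t A B C) {x} (hx : t x) : cf t A B C (C.at x) = A.at x := by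
  have e : ∃ y, t y ∧ C.at y = C.at x := ⟨x, hx, rfl⟩
  have e' : ¬ ∃ y, t y ∧ A.at y = C.at x := fun ⟨y, hy, e⟩ => h.ac y x hy hx e
  have e'' : ¬ ∃ y, t y ∧ B.at y = C.at x := fun ⟨y, hy, e⟩ => h.bc y x hy hx e
  simp only [cf, e, e', e'', dif_pos, dif_neg, not_false_eq_true]
  rw [h.c.inj e.choose_spec.1 hx e.choose_spec.2]
lemma cf_off {z} (h : Off t A B C z) : cf t A B C z = z := by
  have e1 : ¬ ∃ y, t y ∧ A.at y = z := fun ⟨y, hy, e⟩ => (h y hy).1 e
  have e2 : ¬ ∃ y, t y ∧ B.at y = z := fun ⟨y, hy, e⟩ => (h y hy).2.1 e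
  have e3 : ¬ ∃ y, t y ∧ C.at y = z := fun ⟨y, hy, e⟩ => (h y hy).2.2 e
  simp only [cf, e1, e2, e3, dif_neg, not_false_eq_true]
lemma z_cases (t : X → Prop) (A B C : Leg) (z : Z) : (∃ x, t x ∧ z = A.at x) ∨ (∃ x, t x ∧ z = B.at x) ∨
    (∃ x, t x ∧ z = C.at x) ∨ Off t A B C z := by
  by_contra hc
  push Not at hc
  exact hc.2.2.2 fun x hx => ⟨(hc.1 x hx).symm, (hc.2.1 x hx).symm, (hc.2.2.1 x hx).symm⟩
lemma cf_inv (h : Ok t A B C) (z : Z) : cf t A C B (cf t A B C z) = z := by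
  rcases z_cases t A B C z with ⟨x, hx, rfl⟩ | ⟨x, hx, rfl⟩ | ⟨x, hx, rfl⟩ | e
  · rw [cf_A h hx, cf_C h.swap hx]
  · rw [cf_B h hx, cf_B h.swap hx]
  · rw [cf_C h hx, cf_A h.swap hx]
  · rw [cf_off e, cf_off fun x hx => ⟨(e x hx).1, (e x hx).2.2, (e x hx).2.1⟩]

open Classical in
noncomputable def cyc (t : X → Prop) (A B C : Leg) : Equiv.Perm Z :=
  if h : Ok t A B C then ⟨cf t A B C, cf t A C B, cf_inv h, cf_inv h.swap⟩ else 1
lemma cyc_A (h : Ok t A B C) {x} (hx : t x) : cyc t A B C (A.at x) = B.at x := by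
  simp only [cyc, h, dif_pos]; exact cf_A h hx
lemma cyc_B (h : Ok t A B C) {x} (hx : t x) : cyc t A B C (B.at x) = C.at x := by
  simp only [cyc, h, dif_pos]; exact cf_B h hx
lemma cyc_C (h : Ok t A B C) {x} (hx : t x) : cyc t A B C (C.at x) = A.at x := by
  simp only [cyc, h, dif_pos]; exact cf_C h hx
lemma cyc_off {z} (h : Off t A B C z) : cyc t A B C z = z := by
  unfold cyc; split_ifs
  · exact cf_off h
  · rfl
lemma cyc_eq (h : Ok t A B C) {g : Equiv.Perm Z} (h1 : ∀ x, t x → g (A.at x) = B.at x)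
    (h2 : ∀ x, t x → g (B.at x) = C.at x) (h3 : ∀ x, t x → g (C.at x) = A.at x)
    (h4 : ∀ z, Off t A B C z → g z = z) : g = cyc t A B C := by
  ext1 z
  rcases z_cases t A B C z with ⟨x, hx, rfl⟩ | ⟨x, hx, rfl⟩ | ⟨x, hx, rfl⟩ | e
  · rw [cyc_A h hx, h1 x hx]
  · rw [cyc_B h hx, h2 x hx]
  · rw [cyc_C h hx, h3 x hx]
  · rw [cyc_off e, h4 z e]
lemma cyc_rot (h : Ok t A B C) : cyc t A B C = cyc t B C A :=
  cyc_eq h.rot (fun _ hx => cyc_B h hx) (fun _ hx => cyc_C h hx) (fun _ hx => cyc_A h hx)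
    fun _ e => cyc_off fun x hx => ⟨(e x hx).2.2, (e x hx).1, (e x hx).2.1⟩
lemma cyc_rev (h : Ok t A B C) : cyc t C B A = (cyc t A B C)⁻¹ := by
  refine (cyc_eq h.rev ?_ ?_ ?_ ?_).symm <;> intro x hx <;> rw [Equiv.Perm.inv_eq_iff_eq]
  exacts [(cyc_B h hx).symm, (cyc_A h hx).symm, (cyc_C h hx).symm,
    (cyc_off fun y hy => ⟨(hx y hy).2.2, (hx y hy).2.1, (hx y hy).1⟩).symm]
/-- conjugation, with a reparametrisation `f` of the base -/
lemma cyc_conj {t' : X → Prop} {A' B' C' : Leg} (h : Ok t A B C) (h' : Ok t' A' B' C')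
    (g : Equiv.Perm Z) (f : X → X) (hf : ∀ x, t x → t' (f x)) (hs : ∀ y, t' y → ∃ x, t x ∧ f x = y)
    (h1 : ∀ x, t x → g (A.at x) = A'.at (f x)) (h2 : ∀ x, t x → g (B.at x) = B'.at (f x))
    (h3 : ∀ x, t x → g (C.at x) = C'.at (f x)) : g * cyc t A B C * g⁻¹ = cyc t' A' B' C' := by
  refine cyc_eq h' ?_ ?_ ?_ ?_
  · intro y hy; obtain ⟨x, hx, rfl⟩ := hs y hy
    simp [← h1 x hx, cyc_A h hx, h2 x hx]
  · intro y hy; obtain ⟨x, hx, rfl⟩ := hs y hy
    simp [← h2 x hx, cyc_B h hx, h3 x hx]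
  · intro y hy; obtain ⟨x, hx, rfl⟩ := hs y hy
    simp [← h3 x hx, cyc_C h hx, h1 x hx]
  · intro z e
    have : Off t A B C (g⁻¹ z) := by
      intro x hx
      have := e _ (hf x hx)
      rw [← h1 x hx, ← h2 x hx, ← h3 x hx] at this
      refine ⟨fun e' => this.1 ?_, fun e' => this.2.1 ?_, fun e' => this.2.2 ?_⟩ <;> simp [e']
    simp only [Equiv.Perm.mul_apply, cyc_off this]; simp
lemma cyc_conj' {A' B' C' : Leg} (h : Ok t A B C) (h' : Ok t A' B' C') (g : Equiv.Perm Z)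
    (h1 : ∀ x, t x → g (A.at x) = A'.at x) (h2 : ∀ x, t x → g (B.at x) = B'.at x)
    (h3 : ∀ x, t x → g (C.at x) = C'.at x) : g * cyc t A B C * g⁻¹ = cyc t A' B' C' :=
  cyc_conj h h' g id (fun _ hx => hx) (fun y hy => ⟨y, hy, rfl⟩) h1 h2 h3
lemma cyc_split (h : Ok t A B C) (s : X → Prop) :
    cyc t A B C = cyc (fun x => t x ∧ s x) A B C * cyc (fun x => t x ∧ ¬ s x) A B C := by
  have o1 := h.mono (s := fun x => t x ∧ s x) fun _ e => e.1
  have o2 := h.mono (s := fun x => t x ∧ ¬ s x) fun _ e => e.1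
  have k : ∀ {A B C : Leg}, Ok t A B C → ∀ x, t x → (cyc (fun x => t x ∧ s x) A B C *
      cyc (fun x => t x ∧ ¬ s x) A B C) (A.at x) = B.at x := by
    intro A B C h x hx
    have o1 := h.mono (s := fun x => t x ∧ s x) fun _ e => e.1
    have o2 := h.mono (s := fun x => t x ∧ ¬ s x) fun _ e => e.1
    by_cases e : s x
    · rw [Equiv.Perm.mul_apply, cyc_off (z := A.at x), cyc_A o1 ⟨hx, e⟩]
      exact fun y hy => ⟨fun q => hy.2 (h.a.inj hy.1 hx q ▸ e), h.ab.symm _ _ hy.1 hx,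
        h.ac.symm _ _ hy.1 hx⟩
    · rw [Equiv.Perm.mul_apply, cyc_A o2 ⟨hx, e⟩, cyc_off]
      exact fun y hy => ⟨h.ab _ _ hy.1 hx, fun q => e (h.b.inj hy.1 hx q ▸ hy.2),
        h.bc.symm _ _ hy.1 hx⟩
  refine (cyc_eq h (k h) ?_ ?_ ?_).symm
  · rw [cyc_rot o1, cyc_rot o2]; exact k h.rot
  · rw [cyc_rot o1, cyc_rot o2, cyc_rot o1.rot, cyc_rot o2.rot]; exact k h.rot.rot
  · intro z e
    rw [Equiv.Perm.mul_apply, cyc_off (fun x hx => e x hx.1), cyc_off (fun x hx => e x hx.1)]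
lemma cyc_a4 {D : Leg} (h : Ok t A B C) (hD : Dm t D) (h1 : Dj t D A) (h2 : Dj t D B)
    (h3 : Dj t D C) : cyc t B A C = cyc t A C D * (cyc t B C D)⁻¹ := by
  have o1 : Ok t A C D := ⟨h.a, h.c, hD, h.ac, h3.symm, h1.symm⟩
  have o2 : Ok t B C D := ⟨h.b, h.c, hD, h.bc, h3.symm, h2.symm⟩
  rw [← cyc_rev o2]
  have o3 := o2.rev
  refine (cyc_eq h.rev.rot ?_ ?_ ?_ ?_).symm
  · intro x hx; rw [Equiv.Perm.mul_apply, cyc_C o3 hx, cyc_C o1 hx]
  · intro x hx
    rw [Equiv.Perm.mul_apply, cyc_off (z := A.at x), cyc_A o1 hx]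
    exact fun y hy => ⟨h1 _ _ hy hx, h.ac.symm _ _ hy hx, h.ab.symm _ _ hy hx⟩
  · intro x hx
    rw [Equiv.Perm.mul_apply, cyc_B o3 hx, cyc_off]
    exact fun y hy => ⟨h.ab _ _ hy hx, h.bc.symm _ _ hy hx, h2 _ _ hy hx⟩
  · intro z e
    by_cases q : ∃ x, t x ∧ z = D.at x
    · obtain ⟨x, hx, rfl⟩ := q
      rw [Equiv.Perm.mul_apply, cyc_A o3 hx, cyc_B o1 hx]
    · have q' : ∀ x, t x → D.at x ≠ z := fun x hx e => q ⟨x, hx, e.symm⟩
      rw [Equiv.Perm.mul_apply, cyc_off (z := z), cyc_off]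
      · exact fun y hy => ⟨(e y hy).2.1, (e y hy).2.2, q' y hy⟩
      · exact fun y hy => ⟨q' y hy, (e y hy).2.2, (e y hy).1⟩
end

/-- The group. -/
def GG : Subgroup (Equiv.Perm Z) :=
  Subgroup.closure {g | ∃ (t : Tm) (A B C : Leg), Ok t.sh A B C ∧ g = cyc t.sh A B C}

end Vale.Agent.P196
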