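import Mathlib

/-! The particle system: gaps `x 0, x 1, ...`; letters and words; definable sets. -/

namespace Vale.Agent.P196

abbrev X := ℕ → ℕ∞

def cons (a : ℕ∞) (x : X) : X := fun n => Nat.casesOn n a x
def tl (x : X) : X := fun n => x (n + 1)
@[simp] lemma cons_0 (a x) : cons a x 0 = a := rfl
@[simp] lemma cons_s (a x n) : cons a x (n + 1) = x n := rfl
@[simp] lemma cons_1 (a x) : cons a x 1 = x 0 := rfl
@[simp] lemma cons_2 (a x) : cons a x 2 = x 1 := rfl
@[simp] lemma cons_3 (a x) : cons a x 3 = x 2 := rfl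
@[simp] lemma tl_app (x n) : tl x n = x (n + 1) := rfl
@[simp] lemma tl_cons (a x) : tl (cons a x) = x := rfl
lemma cons_tl (x : X) : cons (x 0) (tl x) = x := by funext n; cases n <;> rfl

lemma X.ext4 {x y : X} (h0 : x 0 = y 0) (h1 : x 1 = y 1) (h2 : x 2 = y 2) (h3 : x 3 = y 3)
    (h : ∀ n, x (n + 4) = y (n + 4)) : x = y := by
  funext n
  match n with
  | 0 => exact h0
  | 1 => exact h1
  | 2 => exact h2
  | 3 => exact h3
  | n + 4 => exact h n

inductive Lt | u | u' | v | v' | c | c'
  deriving DecidableEq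

instance : Fintype Lt := ⟨{.u, .u', .v, .v', .c, .c'}, fun a => by cases a <;> simp⟩

namespace Lt
def inv : Lt → Lt | u => u' | u' => u | v => v' | v' => v | c => c' | c' => c
@[simp] lemma inv_inv (a : Lt) : a.inv.inv = a := by cases a <;> rfl
def dom : Lt → X → Prop
  | u, x => 1 ≤ x 1 | u', x => 1 ≤ x 0 | v, x => 1 ≤ x 2 | v', x => 1 ≤ x 1
  | c, x => 1 ≤ x 0 | c', x => ¬ 1 ≤ x 0
noncomputable def act : Lt → X → X
  | u, x => cons (x 0 + 1) (cons (x 1 - 1) (tl (tl x)))
  | u', x => cons (x 0 - 1) (cons (x 1 + 1) (tl (tl x)))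
  | v, x => cons (x 0) (cons (x 1 + 1) (cons (x 2 - 1) (tl (tl (tl x)))))
  | v', x => cons (x 0) (cons (x 1 - 1) (cons (x 2 + 1) (tl (tl (tl x)))))
  | c, x => cons 0 (cons (x 0 - 1) (tl x))
  | c', x => cons (x 1 + 1) (tl (tl x))

lemma dom_inv {a : Lt} {x : X} (_h : a.dom x) : a.inv.dom (a.act x) := by
  cases a <;> simp [dom, act, inv]
lemma act_inv {a : Lt} {x : X} (h : a.dom x) : a.inv.act (a.act x) = x := by
  cases a <;> simp only [dom, act, inv] at h ⊢ <;> apply X.ext4 <;> simp <;>
    (generalize x 0 = a at *; generalize x 1 = b at *; generalize x 2 = c at *; enat_to_nat <;> first | omega | simp_all)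
end Lt

abbrev Wd := List Lt
noncomputable def wact : Wd → X → X
  | [], x => x
  | a :: w, x => a.act (wact w x)
def wdom : Wd → X → Prop
  | [], _ => True
  | a :: w, x => wdom w x ∧ a.dom (wact w x)
def winv (w : Wd) : Wd := (w.map Lt.inv).reverse
@[simp] lemma wact_nil (x) : wact [] x = x := rfl
@[simp] lemma wact_cons (a w x) : wact (a :: w) x = a.act (wact w x) := rfl
@[simp] lemma wdom_nil (x) : wdom [] x := trivial
@[simp] lemma wdom_cons (a w x) : wdom (a :: w) x ↔ wdom w x ∧ a.dom (wact w x) := Iff.rfl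
@[simp] lemma wact_append (w w' x) : wact (w ++ w') x = wact w (wact w' x) := by
  induction w with
  | nil => rfl
  | cons a w ih => simp [ih]
@[simp] lemma wdom_append (w w' x) : wdom (w ++ w') x ↔ wdom w' x ∧ wdom w (wact w' x) := by
  induction w with
  | nil => simp
  | cons a w ih => simp [ih, and_assoc]
@[simp] lemma winv_nil : winv [] = [] := rfl
lemma winv_cons (a w) : winv (a :: w) = winv w ++ [a.inv] := by simp [winv]
lemma winv_append (w w') : winv (w ++ w') = winv w' ++ winv w := by simp [winv]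
@[simp] lemma winv_winv (w) : winv (winv w) = w := by simp [winv, Function.comp_def]
@[simp] lemma winv_length (w) : (winv w).length = w.length := by simp [winv]
lemma winv_spec {w x} (h : wdom w x) : wdom (winv w) (wact w x) ∧ wact (winv w) (wact w x) = x := by
  induction w with
  | nil => simp
  | cons a w ih =>
    obtain ⟨h1, h2⟩ := h
    simp [winv_cons, Lt.dom_inv h2, Lt.act_inv h2, ih h1]
lemma wdom_inv {w x} (h : wdom w x) : wdom (winv w) (wact w x) := (winv_spec h).1
lemma wact_inv {w x} (h : wdom w x) : wact (winv w) (wact w x) = x := (winv_spec h).2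
lemma wact_inv' {w x} (h : wdom (winv w) x) : wact w (wact (winv w) x) = x := by
  simpa using wact_inv h
lemma wdom_inv' {w x} (h : wdom (winv w) x) : wdom w (wact (winv w) x) := by
  simpa using wdom_inv h
lemma wact_inj {w x y} (h : wdom w x) (h' : wdom w y) (e : wact w x = wact w y) : x = y := by
  rw [← wact_inv h, e, wact_inv h']

noncomputable def pop (x : X) : X := cons (x 0 + 1 + x 1) (tl (tl x))
noncomputable def push (k : ℕ) (x : X) : X := cons k (cons (x 0 - (k + 1)) (tl x))

inductive Tm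
  | Q (k : ℕ) | J (k : ℕ) | K (k : ℕ) | nt (t : Tm) | an (s t : Tm) | W (k : ℕ) (t : Tm)

namespace Tm
def sh : Tm → X → Prop
  | Q k, x => (k : ℕ∞) ≤ x 0
  | J k, x => (k : ℕ∞) ≤ x 1
  | K k, x => (k : ℕ∞) ≤ x 2
  | nt t, x => ¬ sh t x
  | an s t, x => sh s x ∧ sh t x
  | W k t, x => x 0 = k ∧ sh t (pop x)
def tt : Tm := Q 0
def ff : Tm := nt (Q 0)
def dm : Lt → Tm
  | .u => J 1 | .u' => Q 1 | .v => K 1 | .v' => J 1 | .c => Q 1 | .c' => nt (Q 1)
lemma sh_dm (a : Lt) (x : X) : (dm a).sh x ↔ a.dom x := by cases a <;> simp [dm, sh, Lt.dom]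
@[simp] lemma sh_tt (x : X) : tt.sh x := by simp [tt, sh]
@[simp] lemma sh_ff (x : X) : ¬ ff.sh x := by simp [ff, sh]

def pull (k : ℕ) : Tm → Tm
  | Q l => if l ≤ k then tt else ff
  | J i => Q (k + 1 + i)
  | K j => J j
  | nt t => nt (pull k t)
  | an s t => an (pull k s) (pull k t)
  | W l s => if l = k then s else ff

lemma pop_push {k : ℕ} {z : X} (h : ((k + 1 : ℕ) : ℕ∞) ≤ z 0) : pop (push k z) = z := by
  apply X.ext4 <;> simp [pop, push]
  generalize z 0 = a at *; enat_to_nat <;> first | omega | simp_all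
lemma push_pop {k : ℕ} {x : X} (h : x 0 = k) : push k (pop x) = x := by
  apply X.ext4 <;> simp [pop, push, h]
  generalize x 1 = a at *; enat_to_nat <;> first | omega | simp_all

lemma sh_pull (k : ℕ) (t : Tm) {z : X} (h : ((k + 1 : ℕ) : ℕ∞) ≤ z 0) :
    (pull k t).sh z ↔ t.sh (push k z) := by
  induction t with
  | Q l => simp only [pull]; split_ifs with e <;> simp [sh, push, e]
  | J i =>
    simp only [pull, sh, push, cons_1, cons_0]
    generalize z 0 = a at *; enat_to_nat <;> first | omega | simp_all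
  | K j => simp [pull, sh, push]
  | nt t ih => simp [pull, sh, ih]
  | an s t ih1 ih2 => simp [pull, sh, ih1, ih2]
  | W l s _ =>
    simp only [pull]; split_ifs with e
    · subst e; simp only [sh, pop_push h]; simp [push]
    · simp [sh, push, Ne.symm e]

def trU : Tm → Tm
  | Q k => Q (k + 1) | J i => an (Q 1) (J (i - 1)) | K j => an (Q 1) (K j)
  | nt t => an (Q 1) (nt (trU t)) | an s t => an (trU s) (trU t) | W k t => W (k + 1) t
def trU' : Tm → Tm
  | Q k => an (J 1) (Q (k - 1)) | J i => J (i + 1) | K j => an (J 1) (K j)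
  | nt t => an (J 1) (nt (trU' t)) | an s t => an (trU' s) (trU' t)
  | W 0 _ => ff | W (k + 1) t => an (J 1) (W k t)
def trV : Tm → Tm
  | Q k => an (J 1) (Q k) | J i => J (i + 1) | K j => an (J 1) (K (j - 1))
  | nt t => an (J 1) (nt (trV t)) | an s t => an (trV s) (trV t)
  | W k t => an (J 1) (W k (trU t))
def trV' : Tm → Tm
  | Q k => an (K 1) (Q k) | J i => an (K 1) (J (i - 1)) | K j => K (j + 1)
  | nt t => an (K 1) (nt (trV' t)) | an s t => an (trV' s) (trV' t)
  | W k t => W k (trU' t)
def tr : Lt → Tm → Tm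
  | .u, t => trU t | .u', t => trU' t | .v, t => trV t | .v', t => trV' t
  | .c, t => W 0 t | .c', t => an (Q 1) (pull 0 t)

lemma pop_u' {y : X} (h : 1 ≤ y 0) : pop (Lt.u'.act y) = pop y := by
  apply X.ext4 <;> simp [pop, Lt.act]
  generalize y 0 = a at *; generalize y 1 = b at *; enat_to_nat <;> first | omega | simp_all
lemma pop_u {y : X} (h : 1 ≤ y 1) : pop (Lt.u.act y) = pop y := by
  apply X.ext4 <;> simp [pop, Lt.act]
  generalize y 0 = a at *; generalize y 1 = b at *; enat_to_nat <;> first | omega | simp_all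
lemma pop_v' {y : X} (h : 1 ≤ y 1) : pop (Lt.v'.act y) = Lt.u'.act (pop y) := by
  apply X.ext4 <;> simp [pop, Lt.act]
  generalize y 0 = a at *; generalize y 1 = b at *; enat_to_nat <;> first | omega | simp_all
lemma pop_v (y : X) : pop (Lt.v.act y) = Lt.u.act (pop y) := by
  apply X.ext4 <;> simp [pop, Lt.act, add_assoc]

lemma sh_trU (t : Tm) (y : X) : (trU t).sh y ↔ 1 ≤ y 0 ∧ t.sh (Lt.u'.act y) := by
  induction t with
  | nt t ih => simp only [trU, sh, ih]; norm_num; tauto
  | an s t ih1 ih2 => simp only [trU, sh, ih1, ih2]; tauto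
  | W k t _ =>
    simp only [trU, sh]
    by_cases h : 1 ≤ y 0
    · rw [pop_u' h]; simp only [h, true_and, Lt.act, cons_0]
      refine and_congr_left fun _ => ?_
      generalize y 0 = a at *; enat_to_nat <;> first | omega | simp_all
    · simp only [h, false_and, iff_false, not_and]; intro e; rw [e] at h; simp at h
  | _ => simp only [trU, sh, Lt.act, cons_0, cons_1, cons_2, tl_app]
         generalize y 0 = a at *; generalize y 1 = b at *; enat_to_nat <;> first | omega | simp_all
lemma sh_trU' (t : Tm) (y : X) : (trU' t).sh y ↔ 1 ≤ y 1 ∧ t.sh (Lt.u.act y) := by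
  induction t with
  | nt t ih => simp only [trU', sh, ih]; norm_num; tauto
  | an s t ih1 ih2 => simp only [trU', sh, ih1, ih2]; tauto
  | W k t _ =>
    cases k with
    | zero => simp [trU', sh, Lt.act, ff]
    | succ k =>
      simp only [trU', sh, Nat.cast_one]
      refine and_congr_right fun h => ?_
      rw [pop_u h]; simp only [Lt.act, cons_0]
      refine and_congr_left fun _ => ?_
      generalize y 0 = a at *; enat_to_nat <;> first | omega | simp_all
  | _ => simp only [trU', sh, Lt.act, cons_0, cons_1, cons_2, tl_app]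
         generalize y 0 = a at *; generalize y 1 = b at *; enat_to_nat <;> first | omega | simp_all
lemma sh_trV (t : Tm) (y : X) : (trV t).sh y ↔ 1 ≤ y 1 ∧ t.sh (Lt.v'.act y) := by
  induction t with
  | nt t ih => simp only [trV, sh, ih]; norm_num; tauto
  | an s t ih1 ih2 => simp only [trV, sh, ih1, ih2]; tauto
  | W k t _ =>
    simp only [trV, sh, Nat.cast_one, sh_trU]
    refine and_congr_right fun h => ?_
    rw [pop_v' h]
    have : 1 ≤ pop y 0 := by simp only [pop, cons_0]; exact h.trans le_add_self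
    simp [this, Lt.act]
  | _ => simp only [trV, sh, Lt.act, cons_0, cons_1, cons_2, tl_app]
         generalize y 2 = a at *; generalize y 1 = b at *; enat_to_nat <;> first | omega | simp_all
lemma sh_trV' (t : Tm) (y : X) : (trV' t).sh y ↔ 1 ≤ y 2 ∧ t.sh (Lt.v.act y) := by
  induction t with
  | nt t ih => simp only [trV', sh, ih]; norm_num; tauto
  | an s t ih1 ih2 => simp only [trV', sh, ih1, ih2]; tauto
  | W k t _ =>
    simp only [trV', sh, sh_trU', pop_v]
    simp [pop, Lt.act]; tauto
  | _ => simp only [trV', sh, Lt.act, cons_0, cons_1, cons_2, tl_app]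
         generalize y 2 = a at *; generalize y 1 = b at *; enat_to_nat <;> first | omega | simp_all

lemma sh_tr (a : Lt) (t : Tm) (y : X) : (tr a t).sh y ↔ a.inv.dom y ∧ t.sh (a.inv.act y) := by
  cases a
  exacts [sh_trU t y, sh_trU' t y, sh_trV t y, sh_trV' t y, by
    simp only [tr, sh, Lt.inv, Lt.dom, Lt.act, Nat.cast_zero, not_le, Order.lt_one_iff]
    refine and_congr_right fun h => ?_
    simp [pop, h, add_comm], by
    simp only [tr, sh, Lt.inv, Lt.dom, Nat.cast_one]
    refine and_congr_right fun h => ?_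
    rw [sh_pull 0 t (by simpa using h)]; simp [push, Lt.act]]
end Tm

end Vale.Agent.P196
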