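import Vale.Agent.P196.Cyc
import Vale.Agent.P196.Clos

/-! The finitely presented cover and its sheet frame. -/

namespace Vale.Agent.P196
open Equiv

noncomputable def code (x : X) : Fin 3 → Fin 4 := fun n =>
  ⟨(min (x n) 3).toNat, by
    have : min (x n) 3 ≤ (3 : ℕ) := min_le_right _ _
    have := ENat.toNat_le_of_le_natCast this
    omega⟩
def IsLoc (U : X → Prop) : Prop := ∀ x y, close 3 x y → U x → U y
lemma close_of_code {x y : X} (h : code x = code y) : close 3 x y := by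
  intro n hn
  have := congrArg Fin.val (congrFun h ⟨n, hn⟩)
  simp only [code] at this
  have f : ∀ a : ℕ∞, min a 3 ≠ ⊤ := fun a => ne_top_of_le_ne_top (by simp) (min_le_right _ _)
  have := congrArg (fun m : ℕ => (m : ℕ∞)) this
  simpa [ENat.natCast_toNat (f _)] using this
lemma IsLoc.eq {U : X → Prop} (h : IsLoc U) : (fun x => code x ∈ code '' {x | U x}) = U := by
  funext x
  exact propext ⟨fun ⟨y, hy, e⟩ => h y x (close_of_code e) hy, fun hx => ⟨x, hx, rfl⟩⟩
lemma IsLoc.and {U V} (h : IsLoc U) (h' : IsLoc V) : IsLoc fun x => U x ∧ V x :=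
  fun x y c e => ⟨h x y c e.1, h' x y c e.2⟩
lemma IsLoc.not {U} (h : IsLoc U) : IsLoc fun x => ¬ U x := fun x y c e q => e (h y x c.symm q)
lemma isLoc_true : IsLoc fun _ => True := fun _ _ _ _ => trivial
lemma isLoc_le (n k : ℕ) (hn : n < 3) (hk : k ≤ 3) : IsLoc fun x => (k : ℕ∞) ≤ x n :=
  fun _ _ c => le_of_min (min_mono' (c n hn) hk)
lemma isLoc_dom (a : Lt) : IsLoc a.dom := by
  cases a
  exacts [isLoc_le 1 1 (by simp) (by simp), isLoc_le 0 1 (by simp) (by simp),
    isLoc_le 2 1 (by simp) (by simp), isLoc_le 1 1 (by simp) (by simp),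
    isLoc_le 0 1 (by simp) (by simp), (isLoc_le 0 1 (by simp) (by simp)).not]

abbrev Gen := Set (Fin 3 → Fin 4) × Option Lt × Sh × Sh × Sh
noncomputable def gen (s : Gen) : Perm Z :=
  cyc (fun x => code x ∈ s.1) (s.2.1.toList, s.2.2.1) ([], s.2.2.2.1) ([], s.2.2.2.2)
def Rel : Set (FreeGroup Gen) :=
  {r | ∃ l : List (Gen × Bool), l.length ≤ 100 ∧ r = FreeGroup.mk l ∧ FreeGroup.lift gen r = 1}
lemma rel_finite : Rel.Finite :=
  ((List.finite_length_le (Gen × Bool) 100).image FreeGroup.mk).subset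
    fun _ ⟨l, h1, h2, _⟩ => ⟨l, h1, h2.symm⟩
abbrev Gam := PresentedGroup Rel
noncomputable def pr : Gam →* Perm Z := PresentedGroup.toGroup (f := gen) fun _ ⟨_, _, _, h⟩ => h
@[simp] lemma pr_of (s : Gen) : pr (PresentedGroup.of s) = gen s := PresentedGroup.toGroup.of _
lemma pr_mk (r : FreeGroup Gen) : pr (PresentedGroup.mk Rel r) = FreeGroup.lift gen r := rfl

def Short (n : ℕ) (g : Gam) : Prop :=
  ∃ l : List (Gen × Bool), l.length ≤ n ∧ g = PresentedGroup.mk Rel (FreeGroup.mk l)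
lemma Short.of (s : Gen) : Short 1 (PresentedGroup.of s) := ⟨[(s, true)], by simp, rfl⟩
lemma Short.one (n : ℕ) : Short n 1 := ⟨[], by simp, rfl⟩
lemma Short.mul {n m g h} (h1 : Short n g) (h2 : Short m h) : Short (n + m) (g * h) := by
  obtain ⟨l, a, rfl⟩ := h1; obtain ⟨l', b, rfl⟩ := h2
  exact ⟨l ++ l', by simp; omega, by rw [← map_mul, FreeGroup.mul_mk]⟩
lemma Short.inv {n g} (h1 : Short n g) : Short n g⁻¹ := by
  obtain ⟨l, a, rfl⟩ := h1
  exact ⟨FreeGroup.invRev l, by simpa using a, by rw [← map_inv, FreeGroup.inv_mk]⟩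
lemma Short.mono {n m g} (h1 : Short n g) (h : n ≤ m) : Short m g := by
  obtain ⟨l, a, rfl⟩ := h1; exact ⟨l, by omega, rfl⟩
lemma Short.eq {n m g h} (h1 : Short n g) (hn : n ≤ 50) (h2 : Short m h) (hm : m ≤ 50)
    (e : pr g = pr h) : g = h := by
  obtain ⟨l, a, b⟩ := h1.mul h2.inv
  rw [← mul_inv_eq_one, b]
  refine PresentedGroup.one_of_mem ⟨l, by omega, rfl, ?_⟩
  rw [← pr_mk, ← b]; simp [e]

def sp (s : Perm Sh) : Perm Z := Equiv.prodCongr (Equiv.refl _) s
@[simp] lemma sp_app (s : Perm Sh) (x : X) (i : Sh) : sp s (x, i) = (x, s i) := rfl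
lemma sp_cyc (s : Perm Sh) (t : X → Prop) (A B C : Leg) :
    sp s * cyc t A B C * (sp s)⁻¹ = cyc t (A.1, s A.2) (B.1, s B.2) (C.1, s C.2) := by
  have k : ∀ A B : Leg, Dj t (A.1, s A.2) (B.1, s B.2) ↔ Dj t A B := by
    intro A B; simp [Dj, Leg.at]
  by_cases h : Ok t A B C
  · exact cyc_conj' (A' := (A.1, s A.2)) (B' := (B.1, s B.2)) (C' := (C.1, s C.2)) h
      ⟨h.a, h.b, h.c, (k _ _).2 h.ab, (k _ _).2 h.bc, (k _ _).2 h.ac⟩ (sp s) (fun _ _ => rfl) (fun _ _ => rfl) (fun _ _ => rfl)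
  · have h' : ¬ Ok t (A.1, s A.2) (B.1, s B.2) (C.1, s C.2) :=
      fun e => h ⟨e.a, e.b, e.c, (k _ _).1 e.ab, (k _ _).1 e.bc, (k _ _).1 e.ac⟩
    simp [cyc, h, h']
lemma ok0 (t : X → Prop) {i j k : Sh} (d : D3 i j k) : Ok t ([], i) ([], j) ([], k) :=
  ⟨fun _ _ => trivial, fun _ _ => trivial, fun _ _ => trivial, dj_of_ne d.1, dj_of_ne d.2.1,
    dj_of_ne d.2.2⟩
/-- standard three-cycle over a base set -/
noncomputable def cy0 (t : X → Prop) (i j k : Sh) : Perm Z := cyc t ([], i) ([], j) ([], k)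
lemma cy0_app {t : X → Prop} {i j k : Sh} (d : D3 i j k) (x : X) (s : Sh) :
    (t x → cy0 t i j k (x, s) = (x, c3 i j k s)) ∧ (¬ t x → cy0 t i j k (x, s) = (x, s)) := by
  constructor
  · intro hx
    by_cases h1 : s = i
    · subst h1; rw [c3_1 d]; exact cyc_A (ok0 t d) hx
    by_cases h2 : s = j
    · subst h2; rw [c3_2 d]; exact cyc_B (ok0 t d) hx
    by_cases h3 : s = k
    · subst h3; rw [c3_3 d]; exact cyc_C (ok0 t d) hx
    rw [c3_fix h1 h2 h3]
    exact cyc_off fun y _ => by simp [Leg.at, Ne.symm h1, Ne.symm h2, Ne.symm h3]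
  · intro hx
    exact cyc_off fun y hy => by
      have : y ≠ x := by rintro rfl; exact hx hy
      simp [Leg.at, this]
lemma cy0_true {i j k : Sh} (d : D3 i j k) : cy0 (fun _ => True) i j k = sp (c3 i j k) := by
  ext1 ⟨x, s⟩; exact (cy0_app d x s).1 trivial
lemma cyc_fix {t : X → Prop} {A B C : Leg} {z : Z} (h : z.2 ∉ [A.2, B.2, C.2]) :
    cyc t A B C z = z := by
  simp at h
  exact cyc_off fun y _ => ⟨fun e => h.1 (e ▸ rfl), fun e => h.2.1 (e ▸ rfl), fun e => h.2.2 (e ▸ rfl)⟩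

def sub0 (I : Finset Sh) : Subgroup Gam :=
  Subgroup.closure {g | Short 25 g ∧ ∀ z : Z, z.2 ∉ I → pr g z = z}
def sheets : Sheets Gam where
  sub := sub0
  comm := by
    intro I J hd g hg h hh
    refine Subgroup.closure_induction (p := fun g _ => Commute g h) ?_ (by simp)
      (fun _ _ _ _ a b => a.mul_left b) (fun _ _ a => a.inv_left) hg
    intro g hg
    refine Subgroup.closure_induction (p := fun h _ => Commute g h) ?_ (by simp)
      (fun _ _ _ _ a b => a.mul_right b) (fun _ _ a => a.inv_right) hh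
    intro h hh
    refine (hg.1.mul hh.1).eq (by omega) (hh.1.mul hg.1) (by omega) ?_
    rw [map_mul, map_mul]
    refine Perm.Disjoint.commute fun z => ?_
    by_cases e : z.2 ∈ I
    · exact Or.inr (hh.2 z (Finset.disjoint_left.1 hd e))
    · exact Or.inl (hg.2 z e)
lemma supp_short {g : Gam} {l : List Sh} (h : Short 25 g) (h' : ∀ z : Z, z.2 ∉ l → pr g z = z) :
    Supp sheets g l :=
  fun _ hI _ => Subgroup.subset_closure ⟨h, fun z hz => h' z fun e => hz (hI _ e)⟩

open Classical in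
noncomputable def ph (U : X → Prop) : T3 Gam := fun i j k =>
  if D3 i j k then PresentedGroup.of (code '' {x | U x}, none, i, j, k) else 1
lemma ph_short (U i j k) : Short 1 (ph U i j k) := by
  unfold ph; split_ifs; exacts [Short.of _, Short.one _]
lemma pr_ph {U} (h : IsLoc U) {i j k} (d : D3 i j k) : pr (ph U i j k) = cy0 U i j k := by
  simp only [ph, d, if_true, pr_of, gen, h.eq]; rfl
lemma cy0_conj {U V : X → Prop} (h : ∀ x, V x → U x) {a b c i j k : Sh} (d : D3 a b c) (d' : D3 i j k) :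
    cy0 U a b c * cy0 V i j k * (cy0 U a b c)⁻¹ = cy0 V (c3 a b c i) (c3 a b c j) (c3 a b c k) :=
  cyc_conj' (ok0 V d') (ok0 V (d'.map _)) _ (fun x hx => (cy0_app d x i).1 (h x hx))
    (fun x hx => (cy0_app d x j).1 (h x hx)) (fun x hx => (cy0_app d x k).1 (h x hx))
lemma ph_acts {U V} (hU : IsLoc U) (hV : IsLoc V) (h : ∀ x, V x → U x) (a b c : Sh) (d : D3 a b c) :
    Acts (ph U a b c) (c3 a b c) (ph V) := fun i j k d' =>
  (((ph_short _ _ _ _).mul (ph_short _ _ _ _)).mul (ph_short _ _ _ _).inv).eq (by omega) (ph_short _ _ _ _) (by omega) (by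
    simp only [map_mul, map_inv, pr_ph hU d, pr_ph hV d', pr_ph hV (d'.map _), cy0_conj h d d'])
lemma ph_pre {U} (h : IsLoc U) : Pre sheets (ph U) where
  junk i j k d := by simp [ph, d]
  cyc i j k d := (ph_short _ _ _ _).eq (by omega) (ph_short _ _ _ _) (by omega) (by
    rw [pr_ph h d, pr_ph h d.rot]; exact cyc_rot (ok0 U d))
  inv i j k d := (ph_short _ _ _ _).eq (by omega) (ph_short _ _ _ _).inv (by omega) (by
    rw [map_inv, pr_ph h d, pr_ph h d.rev]; exact cyc_rev (ok0 U d))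
  acts := ph_acts h h fun _ e => e
  a4 i j k l d h1 h2 h3 := (ph_short _ _ _ _).eq (by omega) ((ph_short _ _ _ _).mul (ph_short _ _ _ _).inv) (by omega) (by
    rw [map_mul, map_inv, pr_ph h (Idm.D3.swap12 d), pr_ph h ⟨d.2.2, h3.symm, h1.symm⟩,
      pr_ph h ⟨d.2.1, h3.symm, h2.symm⟩]
    exact cyc_a4 (ok0 U d) (fun _ _ => trivial) (dj_of_ne h1) (dj_of_ne h2) (dj_of_ne h3))
  supp i j k d := supp_short ((ph_short _ _ _ _).mono (by omega)) fun z hz => by
    rw [pr_ph h d]; exact cyc_fix hz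

lemma one_conj_of {a b c : Sh} (d : D3 a b c) (s : Gen) :
    ph (fun _ => True) a b c * PresentedGroup.of s * (ph (fun _ => True) a b c)⁻¹ =
      PresentedGroup.of (s.1, s.2.1, c3 a b c s.2.2.1, c3 a b c s.2.2.2.1, c3 a b c s.2.2.2.2) :=
  (((ph_short _ _ _ _).mul (Short.of _)).mul (ph_short _ _ _ _).inv).eq (by omega) (Short.of _) (by omega) (by
    simp only [map_mul, map_inv, pr_ph isLoc_true d, pr_of, cy0_true d, gen, sp_cyc])
lemma one_conj_short {a b c : Sh} (d : D3 a b c) {n g} (h : Short n g) :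
    Short n (ph (fun _ => True) a b c * g * (ph (fun _ => True) a b c)⁻¹) := by
  obtain ⟨l, hl, rfl⟩ := h
  refine Short.mono ?_ hl
  clear hl
  induction l with
  | nil => have : FreeGroup.mk ([] : List (Gen × Bool)) = 1 := rfl
           simpa [this] using Short.one 0
  | cons s l ih =>
    have e : FreeGroup.mk (s :: l) = FreeGroup.mk [s] * FreeGroup.mk l := by
      rw [FreeGroup.mul_mk]; rfl
    have h1 : Short 1 (ph (fun _ => True) a b c * PresentedGroup.mk Rel (FreeGroup.mk [s]) *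
        (ph (fun _ => True) a b c)⁻¹) := by
      obtain ⟨s, q⟩ := s
      have := one_conj_of d s
      cases q
      · have e' : PresentedGroup.mk Rel (FreeGroup.mk [(s, false)]) = (PresentedGroup.of s)⁻¹ := rfl
        have := (this ▸ Short.of _ : Short 1 _).inv
        rw [e']; simpa [mul_assoc] using this
      · exact this ▸ Short.of _
    have := h1.mul ih
    rw [e, map_mul, List.length_cons, add_comm]
    simpa [mul_assoc] using this

noncomputable def FF : Frame Gam where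
  toSheets := sheets
  one := ph fun _ => True
  pre := ph_pre isLoc_true
  conj := by
    intro a b c d I g hg
    refine Subgroup.closure_induction (p := fun g _ => ph (fun _ => True) a b c * g *
      (ph (fun _ => True) a b c)⁻¹ ∈ sub0 (I.image (c3 a b c))) ?_ (by simp) ?_ ?_ hg
    · intro g hg
      refine Subgroup.subset_closure ⟨one_conj_short d hg.1, fun ⟨x, s⟩ hz => ?_⟩
      simp only [map_mul, map_inv, pr_ph isLoc_true d, cy0_true d, Perm.mul_apply]
      have e : (sp (c3 a b c))⁻¹ (x, s) = (x, (c3 a b c)⁻¹ s) := rfl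
      rw [e, hg.2 _ (fun q => hz (Finset.mem_image.2 ⟨_, q, by simp⟩))]; simp
    · intro x y _ _ h1 h2
      have := Subgroup.mul_mem _ h1 h2
      simpa [mul_assoc] using this
    · intro x _ h1
      have := Subgroup.inv_mem _ h1
      simpa [mul_assoc] using this

end Vale.Agent.P196
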