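import Vale.Agent.P196.Rig3

/-! No holonomy: words that agree as maps agree internally. -/

namespace Vale.Agent.P196
open Equiv Idm

lemma WE.mono {p q w w'} (h : WE p w w') (e : Le q p) : WE q w w' :=
  ⟨(domI_mono h.1 e).1, (domI_mono h.2.1 e).1, fun g l i a b c => h.2.2 g l i (a.mono (by omega) e) b c⟩
lemma we_of_av {p w w'} (hw : DomI w p) (hw' : DomI w' p) (h : ∀ i j k, D3 i j k →
    Av (F := FF) ((MW w' i j k)⁻¹ * MW w i j k) [i, j, k] i p) : WE p w w' := by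
  refine ⟨hw, hw', fun g l i hg hi hl => ?_⟩
  obtain ⟨j, k, d, e1, e2⟩ := ex_d3 i l (by omega)
  have hn : In ((MW w' i j k)⁻¹ * MW w i j k) [i, j, k] i p.compl :=
    ⟨(MW_supp w' d).inv.mul (MW_supp w d), by rw [Idm.compl_compl]; exact h i j k d⟩
  have := hg.commute hn (by
    intro x hx hx'
    simp only [List.mem_cons, List.not_mem_nil, or_false] at hx'
    rcases hx' with rfl | rfl | rfl
    exacts [rfl, absurd hx e1, absurd hx e2]) (by omega) (by simp)
  rw [tww_eq hw hg hi hl d e1 e2, tww_eq hw' hg hi hl d e1 e2]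
  calc _ = MW w' i j k * ((MW w' i j k)⁻¹ * MW w i j k * g) * (MW w i j k)⁻¹ := by group
    _ = _ := by rw [← this.eq]; group
lemma WE.av {r w w'} (h : WE r w w') {i j k} (d : D3 i j k) :
    Av (F := FF) ((MW w' i j k)⁻¹ * MW w i j k) [i, j, k] i r := by
  intro a b ha hb d'
  simp only [List.mem_cons, List.not_mem_nil, or_false, not_or] at ha hb
  have iv := in_val (le_refl r) d' i
  have m1 : j ∉ [i, a, b] := by simp [d.1.symm, Ne.symm ha.2.1, Ne.symm hb.2.1]
  have m2 : k ∉ [i, a, b] := by simp [d.2.2.symm, Ne.symm ha.2.2, Ne.symm hb.2.2]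
  have := h.2.2 _ _ _ iv (by simp) (by simp)
  rw [tww_eq h.1 iv (by simp) (by simp) d m1 m2, tww_eq h.2.1 iv (by simp) (by simp) d m1 m2] at this
  show _ = _
  calc _ = (MW w' i j k)⁻¹ * (MW w i j k * r.p i a b * (MW w i j k)⁻¹) * MW w i j k := by group
    _ = _ := by rw [this]; group
lemma WE.add {p q w w'} (hw : DomI w p) (hw' : DomI w' p) (c : Compat p q) (h1 : WE (meet p q) w w')
    (h2 : WE (meet p q.compl) w w') : WE p w w' :=
  we_of_av hw hw' fun _ _ _ d a b ha hb d' => by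
    rw [c.val]; exact (h1.av d a b ha hb d').mul_right (h2.av d a b ha hb d')

def Ag (s : Tm) (w w' : Wd) : Prop := ∀ y, s.sh y → wdom w y ∧ wdom w' y ∧ wact w y = wact w' y
/-- internal equality of germs -/
def WX (x : X) (w w' : Wd) : Prop := ∃ s : Tm, s.sh x ∧ Ag s w w' ∧ WE (ev s) w w'
lemma WX.refl {x w} (h : wdom w x) : WX x w w :=
  ⟨.pre w .tt, by simp [Tm.sh_pre, h], fun y hy => by simp [Tm.sh_pre] at hy; simp [hy],
    WE.refl (ev_trw fun y hy => by simpa [Tm.sh_pre] using hy).1⟩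
lemma WX.symm {x w w'} (h : WX x w w') : WX x w' w := by
  obtain ⟨s, a, b, c⟩ := h
  exact ⟨s, a, fun y hy => ⟨(b y hy).2.1, (b y hy).1, (b y hy).2.2.symm⟩, c.symm⟩
lemma WX.trans {x w w' w''} (h : WX x w w') (h' : WX x w' w'') : WX x w w'' := by
  obtain ⟨s, a, b, c⟩ := h
  obtain ⟨s', a', b', c'⟩ := h'
  exact ⟨.an s s', ⟨a, a'⟩, fun y hy => ⟨(b y hy.1).1, (b' y hy.2).2.1,
    (b y hy.1).2.2.trans (b' y hy.2).2.2⟩,
    (c.mono (meet_le_left _ _)).trans (c'.mono (meet_le_right _ _))⟩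
lemma WX.dom {x w w'} (h : WX x w w') : wdom w x ∧ wdom w' x ∧ wact w x = wact w' x := by
  obtain ⟨s, a, b, -⟩ := h; exact b x a
lemma WX.append {x w w' u u'} (h : WX x w w') (h' : WX (wact w x) u u') : WX x (u ++ w) (u' ++ w') := by
  obtain ⟨s, a, b, c⟩ := h
  obtain ⟨s', a', b', c'⟩ := h'
  refine ⟨.an s (.pre w s'), ⟨a, (Tm.sh_pre _ _ _).2 ⟨(b x a).1, a'⟩⟩, fun y hy => ?_,
    (c.mono (meet_le_left _ _)).append (c'.mono ?_)⟩
  · have e := b y hy.1
    have e' := b' _ ((Tm.sh_pre _ _ _).1 hy.2).2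
    simp only [wdom_append, wact_append, ← e.2.2]
    exact ⟨⟨e.1, e'.1⟩, ⟨e.2.1, e'.2.1⟩, e'.2.2⟩
  · rw [show meet (ev s) (ev (.pre w s')) = ev (.an s (.pre w s')) from rfl,
      (ev_trw (t := .an s (.pre w s')) fun y hy => (b y hy.1).1).2]
    refine ev_le fun y hy => ?_
    rw [Tm.sh_trw] at hy
    have := ((Tm.sh_pre _ _ _).1 hy.2.2).2
    rwa [wact_inv' hy.1] at this
lemma WX.left {x w w'} (h : WX x w w') (u) (hu : wdom u (wact w x)) : WX x (u ++ w) (u ++ w') :=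
  h.append (WX.refl hu)
lemma WX.right {x w u u'} (h : WX (wact w x) u u') (hw : wdom w x) : WX x (u ++ w) (u' ++ w) :=
  (WX.refl hw).append h
lemma wx_inv1 {a : Lt} {x} (h : a.dom x) : WX x [a.inv, a] [] := by
  have e : ∀ x, a.dom x → wdom [a.inv, a] x ∧ wdom [] x ∧ wact [a.inv, a] x = wact [] x :=
    fun x hx => by simp [hx, Lt.dom_inv hx, Lt.act_inv hx]
  have l : Le (ev (.dm a)) (dmI a) := ev_dm a ▸ le_refl _
  exact ⟨.dm a, (Tm.sh_dm _ _).2 h, fun y hy => e y ((Tm.sh_dm _ _).1 hy),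
    we_local (isLoc_dom a) (by simp) e l ⟨⟨trivial, l⟩, T0_le_ran l⟩ trivial⟩
lemma wx_cancel {a : Lt} {x w} (h : wdom (a :: w) x) : WX x (a.inv :: a :: w) w :=
  (wx_inv1 h.2).right h.1
lemma WX.flip {a : Lt} {x w w'} (h : WX x (a :: w) w') : WX x (a.inv :: w') w :=
  (h.left [a.inv] ⟨trivial, Lt.dom_inv h.dom.1.2⟩).symm.trans (wx_cancel h.dom.1)
lemma wx_inv {w x} (h : wdom w x) : WX x (winv w ++ w) [] := by
  induction w with
  | nil => exact WX.refl trivial
  | cons a w ih =>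
    rw [winv_cons, List.append_assoc]
    refine ((wx_cancel h).left _ ?_).trans (ih h.1)
    rw [(wx_cancel h).dom.2.2]; exact wdom_inv h.1
lemma wx_vu {x : X} (h1 : 1 ≤ x 1) (h2 : 1 ≤ x 2) : WX x [.v, .u] [.u, .v] :=
  ⟨.an (.dm .u) (.dm .v), ⟨h1, h2⟩, fun y hy => by
    have e1 : 1 ≤ y 1 := hy.1
    have e2 : 1 ≤ y 2 := hy.2
    refine ⟨by simp [Lt.dom, Lt.act, e1, e2], by simp [Lt.dom, Lt.act, e2], ?_⟩
    apply X.ext4 <;> simp [Lt.act, en5 e1, en6],
    pair_uv.cm _ (ev_dm .u ▸ meet_le_left _ _) (ev_dm .v ▸ meet_le_right _ _)⟩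
lemma wx_vc {x : X} (h1 : 1 ≤ x 1) (h2 : 1 ≤ x 0) : WX x [.v, .c] [.c, .u] := by
  have e : ∀ x : X, Lt.u.dom x ∧ Lt.c.dom x → Lt.v.act (Lt.c.act x) = Lt.c.act (Lt.u.act x) :=
    fun x hx => by
      have : 1 ≤ x 0 := hx.2
      apply X.ext4 <;> simp [Lt.act, en5 this, en6]
  refine ⟨.an (.dm .u) (.dm .c), ⟨h1, h2⟩, fun y hy => ?_,
    T0_sq (a := .v) (b := .c) (a' := .c) (b' := .u) (loc2 .u .c) (loc2 .c .u) (isLoc_dom .u)
    (fun y => by simp [Lt.dom, Lt.act]) (fun y => by simp [Lt.dom, Lt.act])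
    (fun x hx => ⟨hx.symm, hx.1, e x hx⟩)
    (le_dm2 (ev_dm .u ▸ meet_le_left _ _) (ev_dm .c ▸ meet_le_right _ _))⟩
  have e1 : 1 ≤ y 1 := hy.1
  have e2 : 1 ≤ y 0 := hy.2
  exact ⟨by simp [Lt.dom, Lt.act, e1, e2], by simp [Lt.dom, Lt.act, e1], e y ⟨e1, e2⟩⟩
lemma wx_vmove {x w0 w1} (h : wdom (.v :: w0) x → WX x (.v :: w0) w1) (k : ℕ)
    (e : wdom (.v :: (List.replicate k .u ++ w0)) x) :
    WX x (.v :: (List.replicate k .u ++ w0)) (List.replicate k .u ++ w1) := by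
  induction k with
  | zero => exact h e
  | succ k ih =>
    have h2 : 1 ≤ wact (List.replicate k .u ++ w0) x 2 := e.2
    have a := (wx_vu e.1.2 h2).right e.1.1
    exact a.trans ((ih ⟨e.1.1, h2⟩).left [.u] ⟨trivial, a.dom.2.1.2⟩)

def pw (k : ℕ) : Wd := List.replicate k .u ++ [.c]
lemma pw_spec (k : ℕ) (y : X) : (wdom (pw k) y ↔ ((k + 1 : ℕ) : ℕ∞) ≤ y 0) ∧ wact (pw k) y = push k y := by
  induction k with
  | zero => exact ⟨by simp [pw, Lt.dom], by simp [pw, Lt.act, push]⟩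
  | succ k ih =>
    have : pw (k + 1) = .u :: pw k := rfl
    rw [this, wdom_cons, wact_cons, ih.1, ih.2]
    constructor
    · simp only [Lt.dom, push, cons_1, cons_0]
      generalize y 0 = a; enat_to_nat <;> first | omega | simp_all
    · apply X.ext4 <;> simp [Lt.act, push]
      generalize y 0 = a; enat_to_nat <;> first | omega | simp_all
lemma rep_u (k : ℕ) (y : X) : (wdom (List.replicate k .u) y ↔ (k : ℕ∞) ≤ y 1) ∧
    wact (List.replicate k .u) y = cons (y 0 + k) (cons (y 1 - k) (tl (tl y))) := by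
  induction k with
  | zero => exact ⟨by simp, by apply X.ext4 <;> simp⟩
  | succ k ih =>
    rw [List.replicate_succ, wdom_cons, wact_cons, ih.1, ih.2]
    constructor
    · simp only [Lt.dom, cons_1, cons_0]
      generalize y 1 = a; enat_to_nat <;> first | omega | simp_all
    · apply X.ext4 <;> simp [Lt.act, add_assoc]
      generalize y 1 = a; enat_to_nat <;> first | omega | simp_all
lemma rep_v (k : ℕ) (y : X) : (wdom (List.replicate k .v) y ↔ (k : ℕ∞) ≤ y 2) ∧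
    wact (List.replicate k .v) y = cons (y 0) (cons (y 1 + k) (cons (y 2 - k) (tl (tl (tl y))))) := by
  induction k with
  | zero => exact ⟨by simp, by apply X.ext4 <;> simp⟩
  | succ k ih =>
    rw [List.replicate_succ, wdom_cons, wact_cons, ih.1, ih.2]
    constructor
    · simp only [Lt.dom, cons_2, cons_1, cons_0]
      generalize y 2 = a; enat_to_nat <;> first | omega | simp_all
    · apply X.ext4 <;> simp [Lt.act, add_assoc]
      generalize y 2 = a; enat_to_nat <;> first | omega | simp_all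
lemma wx_vp {k y} (h : wdom (.v :: pw k) y) : WX y (.v :: pw k) (pw k ++ [.u]) := by
  have := wx_vmove (w0 := [.c]) (w1 := [.c, .u]) (fun e => wx_vc e.2 e.1.2) k h
  simpa [pw] using this
lemma wx_vp' {k y} (h : wdom (.v' :: pw k) y) : WX y (.v' :: pw k) (pw k ++ [.u']) := by
  obtain ⟨h1, h2⟩ := h
  simp only [(pw_spec k y).1, (pw_spec k y).2, Lt.dom, push, cons_1, cons_0] at h1 h2
  have d : Lt.u'.dom y := le_trans (by simp) h1
  have e : wdom (.v :: pw k) (wact [.u'] y) := by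
    simp only [wdom_cons, (pw_spec k _).1, (pw_spec k _).2, Lt.dom, push, Lt.act, wact_cons, wact_nil,
      cons_2, cons_1, cons_0, tl_app]
    refine ⟨?_, en1 _⟩
    generalize y 0 = a at *; enat_to_nat <;> first | omega | simp_all
  have a := (wx_vp e).right (w := [.u']) ⟨trivial, d⟩
  have b := (wx_inv1 d).left (pw k) (by
    rw [(wx_inv1 d).dom.2.2]; exact (pw_spec k y).1.2 h1)
  rw [List.append_assoc] at a
  have := (a.trans b).flip
  rwa [List.append_nil] at this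

end Vale.Agent.P196
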