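import Vale.Agent.P196.Hol

/-! Normal forms of germs; the holonomy theorem. -/

namespace Vale.Agent.P196
open Equiv Idm

def nf (a b : ℕ) : List ℕ → Wd
  | [] => List.replicate a .u ++ List.replicate b .v
  | k :: l => pw k ++ nf a b l
lemma nf_nil (a b : ℕ) (z : X) : (wdom (nf a b []) z ↔ (b : ℕ∞) ≤ z 2 ∧ (a : ℕ∞) ≤ z 1 + b) ∧
    wact (nf a b []) z = cons (z 0 + a) (cons (z 1 + b - a) (cons (z 2 - b) (tl (tl (tl z))))) := by
  simp only [nf, wdom_append, wact_append, (rep_u _ _).1, (rep_u _ _).2, (rep_v _ _).1, (rep_v _ _).2]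
  exact ⟨Iff.rfl, rfl⟩
lemma nf_cons0 (a b k l z) : wact (nf a b (k :: l)) z 0 = k := by
  simp [nf, (pw_spec _ _).2, push]
def St (z : X) (e : Lt) (a b : ℕ) (l : List ℕ) : Prop :=
  ∃ a' b' l', a ≤ a' + 1 ∧ b ≤ b' + 1 ∧ WX z (e :: nf a b l) (nf a' b' l')
lemma st_u {z a b l} (h : wdom (.u :: nf a b l) z) : St z .u a b l := by
  cases l with
  | nil => exact ⟨a + 1, b, [], by omega, by omega, WX.refl h⟩
  | cons k l => exact ⟨a, b, (k + 1) :: l, by omega, by omega, WX.refl h⟩
lemma st_u' {z a b l} (ha : 1 ≤ a) (h : wdom (.u' :: nf a b l) z) : St z .u' a b l := by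
  match a, l with
  | a + 1, [] => exact ⟨a, b, [], by omega, by omega, wx_cancel (a := .u) h.1⟩
  | a, 0 :: l => exact absurd h.2 (by simp [Lt.dom, nf_cons0])
  | a, (k + 1) :: l => exact ⟨a, b, k :: l, by omega, by omega, wx_cancel (a := .u) h.1⟩
lemma St.push {z e e' a b k l} (h : WX (wact (nf a b l) z) (e :: pw k) (pw k ++ [e']))
    (hd : wdom (nf a b l) z) (h' : wdom (e' :: nf a b l) z → St z e' a b l) : St z e a b (k :: l) := by
  have a1 := h.right hd
  rw [List.append_assoc] at a1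
  have d := (wdom_append _ _ _).1 a1.dom.2.1
  obtain ⟨a', b', l', h1, h2, h3⟩ := h' d.1
  exact ⟨a', b', k :: l', h1, h2, a1.trans (h3.left _ d.2)⟩
lemma st_all {z : X} {e a b l} (hz : 1 ≤ z 0) (ha : 1 ≤ a) (hb : 1 ≤ b) (h : wdom (e :: nf a b l) z) :
    St z e a b l := by
  cases e with
  | u => exact st_u h
  | u' => exact st_u' ha h
  | c => exact ⟨a, b, 0 :: l, by omega, by omega, WX.refl h⟩
  | c' =>
    match l with
    | [] => exact absurd (by rw [(nf_nil _ _ _).2]; exact hz.trans le_self_add) h.2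
    | 0 :: l => exact ⟨a, b, l, by omega, by omega, wx_cancel (a := .c) h.1⟩
    | (k + 1) :: l => exact absurd (by simp [nf_cons0]) h.2
  | v =>
    cases l with
    | nil => exact ⟨a, b + 1, [], by omega, by omega, wx_vmove (fun e => WX.refl e) a h⟩
    | cons k l =>
      have d := (wdom_append _ _ _).1 h.1
      exact St.push (wx_vp ⟨d.2, by simpa [nf] using h.2⟩) d.1 st_u
  | v' =>
    match b, l with
    | b + 1, [] =>
      have d : wdom (.v :: nf a b []) z := by
        have h1 := (nf_nil _ _ _).1.1 h.1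
        have h2 := h.2
        simp only [wdom_cons, (nf_nil _ _ _).1, (nf_nil _ _ _).2, Lt.dom, cons_2, cons_1, cons_0] at h2 ⊢
        generalize z 1 = p at *; generalize z 2 = q at *
        enat_to_nat <;> first | omega | (simp_all; done) | (simp_all; omega)
      exact ⟨a, b, [], by omega, by omega,
        (wx_vmove (w1 := List.replicate (b + 1) .v) (fun e => WX.refl e) a d).flip⟩
    | b, k :: l =>
      have d := (wdom_append _ _ _).1 h.1
      exact St.push (wx_vp' ⟨d.2, by simpa [nf] using h.2⟩) d.1 (st_u' ha)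
lemma nf_word {z : X} {L l} (hz : 1 ≤ z 0) {w : Wd} (hw : w.length ≤ L) (h : wdom (w ++ nf L L l) z) :
    ∃ a b l', L ≤ a + w.length ∧ L ≤ b + w.length ∧ WX z (w ++ nf L L l) (nf a b l') := by
  induction w with
  | nil => exact ⟨L, L, l, by simp, by simp, WX.refl h⟩
  | cons e w ih =>
    simp only [List.length_cons] at hw ⊢
    obtain ⟨a, b, l', h1, h2, h3⟩ := ih (by omega) h.1
    have a1 := h3.left [e] ⟨trivial, h.2⟩
    obtain ⟨a', b', l'', h4, h5, h6⟩ := st_all hz (by omega) (by omega) a1.dom.2.1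
    exact ⟨a', b', l'', by omega, by omega, a1.trans h6⟩
lemma nf_exists (L : ℕ) (x : X) : ∃ l z, 1 ≤ z 0 ∧ wdom (nf L L l) z ∧ wact (nf L L l) z = x := by
  have : ∀ (d : ℕ) (x : X), ((L + 1 : ℕ) : ℕ∞) ≤ x 0 + d →
      ∃ l z, 1 ≤ z 0 ∧ wdom (nf L L l) z ∧ wact (nf L L l) z = x := by
    have base : ∀ x : X, ((L + 1 : ℕ) : ℕ∞) ≤ x 0 →
        ∃ l z, 1 ≤ z 0 ∧ wdom (nf L L l) z ∧ wact (nf L L l) z = x := by
      intro x h
      refine ⟨[], cons (x 0 - L) (cons (x 1) (cons (x 2 + L) (tl (tl (tl x))))), ?_, ?_, ?_⟩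
      · simp only [cons_0]; generalize x 0 = a at *; enat_to_nat <;> first | omega | simp_all
      · rw [(nf_nil _ _ _).1]; simp
      · rw [(nf_nil _ _ _).2]; apply X.ext4 <;> simp <;>
          (generalize x 0 = a at *; generalize x 1 = b; generalize x 2 = c
           enat_to_nat <;> first | omega | simp_all)
    intro d
    induction d with
    | zero => intro x h; exact base x (by simpa using h)
    | succ d ih =>
      intro x h
      by_cases q : ((L + 1 : ℕ) : ℕ∞) ≤ x 0
      · exact base x q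
      obtain ⟨k, hk⟩ : ∃ k : ℕ, x 0 = k := by
        generalize x 0 = a at *
        induction a using ENat.recTopCoe with
        | top => simp at q
        | coe a => exact ⟨a, rfl⟩
      obtain ⟨l, z, h1, h2, h3⟩ := ih (pop x) (by
        simp only [pop, cons_0, hk] at h ⊢
        generalize x 1 = a; enat_to_nat <;> first | omega | simp_all)
      refine ⟨k :: l, z, h1, ?_, ?_⟩
      · simp only [nf, wdom_append, h2, h3, (pw_spec _ _).1, pop, cons_0, hk, true_and]
        push_cast; exact le_self_add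
      · simp only [nf, wact_append, h3, (pw_spec _ _).2, Tm.push_pop hk]
  exact this (L + 1) x le_add_self

def FT (n : ℕ) (x : X) : Prop := x n = ⊤ ∧ ∀ k < n, x k ≠ ⊤
lemma FT.uniq {n m x} (h : FT n x) (h' : FT m x) : n = m := by
  rcases lt_trichotomy n m with e | e | e
  exacts [absurd h.1 (h'.2 n e), e, absurd h'.1 (h.2 m e)]
lemma ft_nf {a b n l y} (h : FT (n + 3) y) : FT (n + 3 + l.length) (wact (nf a b l) y) := by
  induction l with
  | nil =>
    rw [(nf_nil _ _ _).2]
    refine ⟨h.1, fun k hk => ?_⟩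
    have h0 := h.2 0 (by omega); have h1 := h.2 1 (by omega); have h2 := h.2 2 (by omega)
    match k with
    | 0 => simp [h0]
    | 1 => simp only [cons_1, cons_0]; generalize y 1 = p at *; enat_to_nat <;> simp_all
    | 2 => simp only [cons_2, cons_1, cons_0]; generalize y 2 = p at *; enat_to_nat <;> simp_all
    | k + 3 => exact h.2 (k + 3) (by simpa using hk)
  | cons k l ih =>
    simp only [nf, wact_append, (pw_spec _ _).2, List.length_cons]
    refine ⟨by rw [show n + 3 + (l.length + 1) = (n + 2 + l.length) + 1 + 1 by omega]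
               rw [show n + 3 + l.length = n + 2 + l.length + 1 by omega] at ih
               exact ih.1,
      fun m hm => ?_⟩
    match m with
    | 0 => simp [push]
    | 1 => have := ih.2 0 (by omega)
           simp only [push, cons_1, cons_0]; generalize wact (nf a b l) y 0 = p at *
           enat_to_nat <;> simp_all
    | m + 2 => exact ih.2 (m + 1) (by omega)
lemma nf_uniq {a b a' b' n y} (h : FT (n + 3) y) : ∀ {l l'}, wdom (nf a b l) y → wdom (nf a' b' l') y →
    wact (nf a b l) y = wact (nf a' b' l') y → nf a b l = nf a' b' l' := by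
  intro l l' h1 h2 e
  have hl : l.length = l'.length := by
    have := (ft_nf (a := a) (b := b) (l := l) h).uniq (e ▸ ft_nf (l := l') h); omega
  induction l generalizing l' with
  | nil =>
    obtain rfl : l' = [] := List.length_eq_zero_iff.1 hl.symm
    have e0 := congrFun e 0
    have e2 := congrFun e 2
    have g1 := ((nf_nil _ _ _).1.1 h1).1
    have g2 := ((nf_nil _ _ _).1.1 h2).1
    have h0 := h.2 0 (by omega); have h2 := h.2 2 (by omega)
    simp only [(nf_nil _ _ _).2, cons_0, cons_1, cons_2] at e0 e2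
    generalize y 0 = p at *; generalize y 2 = q at *
    have : a = a' ∧ b = b' := by enat_to_nat <;> first | omega | simp_all
    rw [this.1, this.2]
  | cons k l ih =>
    obtain _ | ⟨k', l'⟩ := l'
    · simp at hl
    have e0 := congrFun e 0
    rw [nf_cons0, nf_cons0, Nat.cast_inj] at e0
    subst e0
    simp only [nf, wdom_append, wact_append] at h1 h2 e ⊢
    rw [ih h1.1 h2.1 (wact_inj h1.2 h2.2 e) (by simpa using hl)]
lemma ex_ft {s : Tm} {z} (h : s.sh z) : ∃ n y, FT (n + 3) y ∧ s.sh y := by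
  obtain ⟨M, hM⟩ := s.det
  refine ⟨M, fun n => if n < M + 3 then min (z n) M else ⊤, ⟨by simp, fun k hk => ?_⟩,
    hM z _ (fun n hn => ?_) h⟩
  · simp only [hk, if_true]; exact ne_top_of_le_ne_top (by simp) (min_le_right _ _)
  · simp [show n < M + 3 by omega]
lemma wx_of_ag {s : Tm} {x w w'} (hx : s.sh x) (h : Ag s w w') : WX x w w' := by
  obtain ⟨l, z, h1, h2, rfl⟩ := nf_exists (w.length + w'.length) x
  obtain ⟨a, b, l1, -, -, e1⟩ := nf_word (w := w) h1 (by omega) ((wdom_append _ _ _).2 ⟨h2, (h _ hx).1⟩)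
  obtain ⟨a', b', l2, -, -, e2⟩ :=
    nf_word (w := w') h1 (by omega) ((wdom_append _ _ _).2 ⟨h2, (h _ hx).2.1⟩)
  generalize nf (w.length + w'.length) (w.length + w'.length) l = N at *
  have : nf a b l1 = nf a' b' l2 := by
    obtain ⟨s1, p1, q1, -⟩ := e1
    obtain ⟨s2, p2, q2, -⟩ := e2
    obtain ⟨n, y, hy, r1, r2, r3⟩ := ex_ft (s := .an s1 (.an s2 (.pre N s)))
      ⟨p1, p2, (Tm.sh_pre _ _ _).2 ⟨h2, hx⟩⟩
    refine nf_uniq hy (q1 y r1).2.1 (q2 y r2).2.1 ?_
    rw [← (q1 y r1).2.2, ← (q2 y r2).2.2, wact_append, wact_append,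
      (h _ ((Tm.sh_pre _ _ _).1 r3).2).2.2]
  have e3 : WX z (w ++ N) (w' ++ N) := e1.trans (this ▸ e2.symm)
  have e4 := WX.right (w := winv N) (x := wact N z) (by rwa [wact_inv h2]) (wdom_inv h2)
  have e5 := wx_inv (wdom_inv h2)
  rw [winv_winv] at e5
  have k : ∀ u, wdom u (wact N z) → WX (wact N z) (u ++ N ++ winv N) u := fun u hu => by
    have := e5.left u (by rwa [e5.dom.2.2])
    rwa [List.append_nil, ← List.append_assoc] at this
  exact (k w (h _ hx).1).symm.trans (e4.trans (k w' (h _ hx).2.1))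
theorem hol {t : Tm} {w w'} (h : Ag t w w') : WE (ev t) w w' := by
  have key : ∀ r : Tm, Ag r w w' → DomI w (ev r) ∧ DomI w' (ev r) := fun r hr =>
    ⟨(ev_trw fun y hy => (hr y hy).1).1, (ev_trw fun y hy => (hr y hy).2.1).1⟩
  refine loc_ind (fun r => Ag r w w' → WE (ev r) w w') (fun r hr ha => ?_) (fun r s h1 h2 ha => ?_) t
    (fun x hx => ?_) h
  · refine we_of_av (key r ha).1 (key r ha).2 fun _ _ _ _ _ _ _ _ _ => ?_
    rw [ev_empty hr]; exact Commute.one_right _
  · exact WE.add (key r ha).1 (key r ha).2 (ev_compat r s) (h1 fun y hy => ha y hy.1)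
      (h2 fun y hy => ha y hy.1)
  · obtain ⟨s, a, -, c⟩ := wx_of_ag hx h
    exact ⟨s, a, fun r hr _ => c.mono (ev_le fun y hy => (hr y hy).1)⟩

end Vale.Agent.P196
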