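import Vale.Agent.P196.Idem

/-! Internal idempotents. -/

namespace Vale.Agent.P196
variable {Γ : Type*} [Group Γ]

structure Frame (Γ : Type*) [Group Γ] extends Sheets Γ where
  one : T3 Γ
  pre : Pre toSheets one
  conj : ∀ a b c, D3 a b c → ∀ I g, g ∈ sub I →
    one a b c * g * (one a b c)⁻¹ ∈ sub (I.image (c3 a b c))

variable {F : Frame Γ}

lemma Supp.conj {g : Γ} {l : List Sh} (hg : Supp F.toSheets g l) {a b c : Sh} (h : D3 a b c) :
    Supp F.toSheets (F.one a b c * g * (F.one a b c)⁻¹) (l.map (c3 a b c)) := by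
  intro I hI hc
  have := F.conj a b c h (I.image (c3 a b c).symm) g (hg _ ?_ ?_)
  · simpa [Finset.image_image] using this
  · intro x hx
    exact Finset.mem_image.2 ⟨c3 a b c x, hI _ (List.mem_map_of_mem hx), by simp⟩
  · rwa [Finset.card_image_of_injective _ (Equiv.injective _)]

@[ext] structure Idm (F : Frame Γ) where
  p : T3 Γ
  pre : Pre F.toSheets p
  eqv : ∀ a b c, D3 a b c → Acts (F.one a b c) (c3 a b c) p

namespace Idm

lemma ext' {p q : Idm F} (h : ∀ i j k, D3 i j k → p.p i j k = q.p i j k) : p = q := by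
  ext i j k
  by_cases hd : D3 i j k
  · exact h i j k hd
  · rw [p.pre.junk _ _ _ hd, q.pre.junk _ _ _ hd]

def top (F : Frame Γ) : Idm F := ⟨F.one, F.pre, F.pre.acts⟩

def zero (F : Frame Γ) : Idm F where
  p := fun _ _ _ => 1
  pre := ⟨by simp, by simp, by simp, by simp [Acts], by simp, fun _ _ _ _ => Supp.one⟩
  eqv := by simp [Acts]

lemma eqv_dif {p q : Idm F} : ∀ a b c, D3 a b c → Acts (F.one a b c) (c3 a b c) (dif p.p q.p) := by
  intro a b c h i j k hd
  simp only [dif, ← p.eqv a b c h i j k hd, ← q.eqv a b c h i j k hd]; group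

def compl (p : Idm F) : Idm F := ⟨dif F.one p.p, pre_dif F.pre p.pre p.eqv, eqv_dif (p := top F)⟩

def Perp (p q : Idm F) : Prop := Com p.p q.p
def Le (p q : Idm F) : Prop := Perp p q.compl

lemma Perp.symm {p q : Idm F} (h : Perp p q) : Perp q p := Com.symm h
lemma perp_compl (p : Idm F) : Perp p p.compl := com_dif p.pre p.eqv
lemma le_refl (p : Idm F) : Le p p := perp_compl p
lemma one_eq (p : Idm F) (i j k : Sh) : F.one i j k = p.p i j k * p.compl.p i j k := by
  simp [compl, dif]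
lemma one_eq' (p : Idm F) {i j k : Sh} (h : D3 i j k) :
    F.one i j k = p.compl.p i j k * p.p i j k := by
  rw [one_eq p, (perp_compl p _ _ _ _ _ _ h h).eq]
lemma compl_compl (p : Idm F) : p.compl.compl = p := by
  refine ext' fun i j k h => ?_
  show (p.compl.p i j k)⁻¹ * F.one i j k = _
  rw [one_eq' p h]; group
lemma perp_zero (p : Idm F) : Perp p (zero F) := fun _ _ _ _ _ _ _ _ => Commute.one_right _
lemma compl_top : (top F).compl = zero F := ext' fun i j k _ => by simp [compl, dif, top, zero]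
lemma compl_zero : (zero F).compl = top F := by rw [← compl_top, compl_compl]
lemma le_top (p : Idm F) : Le p (top F) := by unfold Le; rw [compl_top]; exact perp_zero p
lemma zero_le (p : Idm F) : Le (zero F) p := (perp_zero _).symm
lemma perp_iff_le {p q : Idm F} : Perp p q ↔ Le p q.compl := by unfold Le; rw [compl_compl]

/-- `g` avoids `V` at sheet `i`. -/
def Av (g : Γ) (l : List Sh) (i : Sh) (V : Idm F) : Prop :=
  ∀ a b, a ∉ l → b ∉ l → D3 i a b → Commute g (V.p i a b)

lemma sep {g g' : Γ} {l l' : List Sh} {i : Sh} (V : Idm F) (hg : Supp F.toSheets g l)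
    (hg' : Supp F.toSheets g' l') (hd : ∀ x ∈ l, x ∈ l' → x = i) (h1 : Av g l i V)
    (h2 : Av g' l' i V.compl) (c1 : l.length ≤ 40) (c2 : l'.length ≤ 140) : Commute g g' := by
  obtain ⟨a, b, ha, hb, hab⟩ := fresh2 (i :: l ++ l') (by simp; omega)
  simp only [List.cons_append, List.mem_cons, List.mem_append, not_or] at ha hb
  have d : D3 i a b := ⟨Ne.symm ha.1, hab, Ne.symm hb.1⟩
  have e1 := h1 a b ha.2.1 hb.2.1 d
  have e2 := h2 a b ha.2.2 hb.2.2 d
  have e3 : Commute (F.one i a b * g * (F.one i a b)⁻¹) g' := by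
    refine (hg.conj d).commute hg' ?_ (by simpa using c1) (by omega)
    intro x hx hx'
    obtain ⟨y, hy, rfl⟩ := List.mem_map.1 hx
    by_cases hyi : y = i
    · subst hyi; rw [c3_1 d] at hx'; exact ha.2.2 hx'
    · rw [c3_fix hyi (show y ≠ a by rintro rfl; exact ha.2.1 hy)
        (show y ≠ b by rintro rfl; exact hb.2.1 hy)] at hx'
      exact hyi (hd y hy hx')
  rw [one_eq' V d] at e3
  set x := V.compl.p i a b
  set y := V.p i a b
  have : x * y * g * (x * y)⁻¹ = x * g * x⁻¹ := by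
    rw [mul_assoc x y g, ← e1.eq]; group
  rw [this] at e3
  have := (e2.symm.inv_left.mul_left e3).mul_left e2.symm
  simpa [mul_assoc] using this

lemma av_of_perp {p q : Idm F} (h : Perp p q) {i j k : Sh} (hd : D3 i j k) (l : List Sh) (x : Sh) :
    Av (p.p i j k) l x q := fun _ _ _ _ h2 => h _ _ _ _ _ _ hd h2

/-- avoidance is monotone -/
lemma Av.mono {g : Γ} {l : List Sh} {i : Sh} {V W : Idm F} (hg : Supp F.toSheets g l)
    (h : Av g l i V) (hl : l.length ≤ 40) (hW : Le W V) : Av g l i W := by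
  intro a b ha hb d
  refine sep V hg (W.pre.supp _ _ _ d) ?_ h (av_of_perp hW d _ _) hl (by simp)
  intro x hx hx'
  simp at hx'
  rcases hx' with rfl | rfl | rfl
  exacts [rfl, absurd hx ha, absurd hx hb]

lemma perp_of_av {p q : Idm F}
    (h : ∀ i j k, D3 i j k → ∀ x, Av (p.p i j k) [i, j, k] x q) : Perp p q :=
  fun i j k _ _ _ h1 h2 => q.pre.comm_of_one h2 [i, j, k] (by simp)
    fun x _ a b ha hb d => h i j k h1 x a b ha hb d

lemma Perp.mono {p q r : Idm F} (h : Perp p r) (hq : Le q r) : Perp p q :=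
  perp_of_av fun _ _ _ d _ => (av_of_perp h d _ _).mono (p.pre.supp _ _ _ d) (by simp) hq

lemma Perp.mono_left {p q r : Idm F} (h : Perp r p) (hq : Le q r) : Perp q p :=
  (h.symm.mono hq).symm

lemma Le.trans {p q r : Idm F} (h1 : Le p q) (h2 : Le q r) : Le p r := Perp.mono_left h2 h1

lemma Le.acts {p q : Idm F} (h : Le q p) (a b c : Sh) (d : D3 a b c) :
    Acts (p.p a b c) (c3 a b c) q.p := by
  intro i j k hd
  rw [← q.eqv a b c d i j k hd, one_eq p, mul_assoc (p.p a b c) _ (q.p i j k),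
    ← (h _ _ _ _ _ _ hd d).eq]
  group

lemma le_of_acts {p q : Idm F} (h : ∀ a b c, D3 a b c → Acts (p.p a b c) (c3 a b c) q.p) :
    Le q p := by
  intro i j k a b c h1 h2
  have e1 := h a b c h2 i j k h1
  rw [← q.eqv a b c h2 i j k h1, one_eq p] at e1
  set x := p.p a b c; set y := p.compl.p a b c; set z := q.p i j k
  have : y * z = z * y := by
    calc y * z = x⁻¹ * (x * y * z * (x * y)⁻¹) * x * y := by group
      _ = _ := by rw [← e1]; group
  exact this.symm

lemma exists_aux {i j k : Sh} (h : D3 i j k) (l : List Sh) (hl : l.length ≤ 150) :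
    ∃ a b, a ∉ l ∧ b ∉ l ∧ D3 i a j ∧ D3 j k b ∧ a ≠ k ∧ a ≠ b ∧ b ≠ i := by
  obtain ⟨a, b, ha, hb, hab⟩ := fresh2 (i :: j :: k :: l) (by simp; omega)
  simp only [List.mem_cons, not_or] at ha hb
  exact ⟨a, b, ha.2.2.2, hb.2.2.2, ⟨Ne.symm ha.1, ha.2.1, h.1⟩,
    ⟨h.2.1, Ne.symm hb.2.2.1, Ne.symm hb.2.1⟩, ha.2.2.1, hab, hb.1⟩

lemma D3.swap12 {i j k : Sh} (h : D3 i j k) : D3 j i k := ⟨h.1.symm, h.2.2, h.2.1⟩

lemma comm_mul_mul {x y u v : Γ} (h1 : Commute x u) (h2 : Commute y u) (h3 : Commute x v)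
    (h4 : Commute y v) :
    x * u * (y * v) * (x * u)⁻¹ * (y * v)⁻¹ = x * y * x⁻¹ * y⁻¹ * (u * v * u⁻¹ * v⁻¹) := by
  have a1 : Commute (x * y * x⁻¹ * y⁻¹) u := ((h1.mul_left h2).mul_left h1.inv_left).mul_left h2.inv_left
  have e1 : x * u * (y * v) * (x * u)⁻¹ = x * y * x⁻¹ * (u * v * u⁻¹) := by
    have : Commute x⁻¹ (u * v * u⁻¹) := ((h1.mul_right h3).mul_right h1.inv_right).inv_left
    rw [mul_assoc (x * y), this.eq, mul_assoc x u, ← mul_assoc u y, ← h2.eq]; group
  have : Commute y⁻¹ (u * v * u⁻¹ * v⁻¹) :=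
    (((h2.mul_right h4).mul_right h2.inv_right).mul_right h4.inv_right).inv_left
  rw [e1, mul_assoc (x * y * x⁻¹) y⁻¹, this.eq]; group

lemma le_antisymm {p q : Idm F} (h1 : Le p q) (h2 : Le q p) : p = q := by
  refine ext' fun j i k hd => ?_
  obtain ⟨a, b, -, -, d1, d2, e1, e2, e3⟩ := exists_aux (D3.swap12 hd) [] (by simp)
  have c1 := com_dif p.pre h1.acts
  have c2 : Com (dif q.p p.p) (dif q.p p.p) := by
    intro i j k a b c h h'
    have t1 := (c1 _ _ _ _ _ _ h h')
    have t2 := (com_dif q.pre h2.acts _ _ _ _ _ _ h h').inv_right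
    have : (dif p.p q.p a b c)⁻¹ = dif q.p p.p a b c := by simp [dif]
    rw [this] at t2
    exact t1.inv_left.mul_left t2
  have v : ∀ i j k, q.p i j k = p.p i j k * dif q.p p.p i j k := by intro i j k; simp [dif]
  rw [q.pre.comm_eq (D3.swap12 hd) d1 d2 e1 e2 e3, p.pre.comm_eq (D3.swap12 hd) d1 d2 e1 e2 e3,
    v i a j, v j k b, comm_mul_mul (c1 _ _ _ _ _ _ d1 d1) (c1 _ _ _ _ _ _ d2 d1)
      (c1 _ _ _ _ _ _ d1 d2) (c1 _ _ _ _ _ _ d2 d2), (c2 _ _ _ _ _ _ d1 d2).eq]
  group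

lemma eq_zero_of_perp {p : Idm F} (h : Perp p p) : p = zero F := by
  refine le_antisymm ?_ (zero_le p)
  unfold Le; rw [compl_zero]
  intro i j k a b c h1 h2
  show Commute _ (F.one a b c)
  rw [one_eq p]
  exact (h _ _ _ _ _ _ h1 h2).mul_right (perp_compl p _ _ _ _ _ _ h1 h2)

open Classical in
/-- difference `p - q`, meaningful when `q ≤ p` -/
noncomputable def sub (p q : Idm F) : Idm F :=
  if h : Le q p then ⟨dif p.p q.p, pre_dif p.pre q.pre h.acts, eqv_dif⟩ else zero F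

lemma sub_val {p q : Idm F} (h : Le q p) (i j k : Sh) :
    p.p i j k = q.p i j k * (p.sub q).p i j k := by simp [sub, h, dif]
lemma perp_sub {p q : Idm F} (h : Le q p) : Perp q (p.sub q) := by
  simp only [sub, h, dif_pos]; exact com_dif q.pre h.acts
lemma sub_le {p q : Idm F} (h : Le q p) : Le (p.sub q) p := by
  intro i j k a b c h1 h2
  have : (p.sub q).p i j k = (q.p i j k)⁻¹ * p.p i j k := by rw [sub_val h i j k]; group
  rw [this]
  exact (h _ _ _ _ _ _ h1 h2).inv_left.mul_left (perp_compl p _ _ _ _ _ _ h1 h2)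
lemma perp_of_split {p q s : Idm F} (h : Le q p) (h1 : Perp s q) (h2 : Perp s (p.sub q)) :
    Perp s p := by
  intro i j k a b c d1 d2
  rw [sub_val h]; exact (h1 _ _ _ _ _ _ d1 d2).mul_right (h2 _ _ _ _ _ _ d1 d2)
lemma compl_le_compl {p q : Idm F} (h : Le p q) : Le q.compl p.compl := by
  unfold Le; rw [compl_compl]; exact Perp.symm h

end Idm
end Vale.Agent.P196
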