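import Mathlib

/-! Pure algebra for module K: finite generation lemmas and the lemma on lifted wreath cycles. -/

set_option linter.unusedSectionVars false
set_option linter.style.haveILetI false

namespace Vale.Agent.P196.Ker

theorem p_inv_app {α : Type} (g : Equiv.Perm α) (x : α) : g⁻¹ (g x) = x := g.symm_apply_apply x

theorem p_app_inv {α : Type} (g : Equiv.Perm α) (x : α) : g (g⁻¹ x) = x := g.apply_symm_apply x

theorem fg_of_le_closure_comm {M : Type} [Group M] {S : Set M} (hS : S.Finite)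
    (hc : ∀ x ∈ S, ∀ y ∈ S, x * y = y * x) {H : Subgroup M} (hH : H ≤ Subgroup.closure S) :
    H.FG := by
  letI : CommGroup (Subgroup.closure S) := Subgroup.closureCommGroupOfComm hc
  haveI : Finite S := hS
  have h1 : Group.FG (Subgroup.closure S) := inferInstance
  have h2 : Module.Finite ℤ (Additive (Subgroup.closure S)) :=
    Module.Finite.iff_addGroup_fg.2 inferInstance
  have h3 : (H.subgroupOf (Subgroup.closure S)).FG := by
    rw [Subgroup.fg_iff_add_fg]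
    exact (Submodule.fg_iff_addSubgroup_fg (AddSubgroup.toIntSubmodule
      (Subgroup.toAddSubgroup (H.subgroupOf (Subgroup.closure S))))).1 (IsNoetherian.noetherian _)
  have h4 : Group.FG (H.subgroupOf (Subgroup.closure S)) := (Group.fg_iff_subgroup_fg _).2 h3
  exact (Group.fg_iff_subgroup_fg _).1 (Group.fg_of_surjective
    (f := (Subgroup.subgroupOfEquivOfLe hH).toMonoidHom) (Subgroup.subgroupOfEquivOfLe hH).surjective)

theorem fg_ext {Γ M : Type} [Group Γ] [Group M] {A B : Subgroup Γ} (hBA : B ≤ A) (hB : B.FG)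
    (θ : A →* M) (hker : ∀ a : A, θ a = 1 → a.1 ∈ B) (hr : θ.range.FG) : A.FG := by
  classical
  obtain ⟨S, hS⟩ := hr
  obtain ⟨T, hT⟩ := hB
  have hpre : ∀ s : S, ∃ a : A, θ a = s := fun s =>
    (hS ▸ Subgroup.subset_closure s.2 : (s : M) ∈ θ.range)
  choose f hf using hpre
  refine ⟨T ∪ Finset.univ.image fun s => (f s).1, le_antisymm ?_ fun a ha => ?_⟩
  · rw [Subgroup.closure_le]
    intro x hx
    simp only [Finset.coe_union, Finset.coe_image, Set.mem_union, Set.mem_image] at hx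
    rcases hx with hx | ⟨s, -, rfl⟩
    · exact hBA (hT ▸ Subgroup.subset_closure hx)
    · exact (f s).2
  · set C := Subgroup.closure ((T ∪ Finset.univ.image fun s => (f s).1 : Finset Γ) : Set Γ)
    have key : ∀ m ∈ Subgroup.closure (S : Set M), ∃ a' : A, a'.1 ∈ C ∧ θ a' = m := by
      intro m hm
      induction hm using Subgroup.closure_induction with
      | mem x hx => exact ⟨f ⟨x, hx⟩, Subgroup.subset_closure (by simp), hf _⟩
      | one => exact ⟨1, one_mem _, map_one _⟩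
      | mul x y _ _ hx hy =>
        obtain ⟨a, h1, rfl⟩ := hx
        obtain ⟨b, h2, rfl⟩ := hy
        exact ⟨a * b, mul_mem h1 h2, map_mul _ _ _⟩
      | inv x _ hx =>
        obtain ⟨a, h1, rfl⟩ := hx
        exact ⟨a⁻¹, inv_mem h1, map_inv _ _⟩
    obtain ⟨a', h1, h2⟩ := key (θ ⟨a, ha⟩) (hS ▸ ⟨_, rfl⟩)
    have h3 := hker (a'⁻¹ * ⟨a, ha⟩) (by rw [map_mul, map_inv, h2, inv_mul_cancel])
    have h4 : B ≤ C := by
      rw [← hT]
      exact Subgroup.closure_mono (by simp)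
    simpa using mul_mem h1 (h4 h3)

variable {P I Λ : Type} [DecidableEq P] [AddCommGroup I] [Group Λ]

/-- Three labelled points with distinct endpoints. -/
def E3 (A B C : P × I) : Prop := A.1 ≠ B.1 ∧ B.1 ≠ C.1 ∧ A.1 ≠ C.1

/-- Shift of the label. -/
def sf (A : P × I) (l : I) : P × I := (A.1, A.2 + l)

@[simp] theorem sf_fst (A : P × I) (l : I) : (sf A l).1 = A.1 := rfl
@[simp] theorem sf_snd (A : P × I) (l : I) : (sf A l).2 = A.2 + l := rfl
@[simp] theorem sf_zero (A : P × I) : sf A 0 = A := by simp [sf]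
@[simp] theorem sf_sf (A : P × I) (k l : I) : sf (sf A k) l = sf A (k + l) := by
  simp [sf, add_assoc]

theorem eq_sf {A B : P × I} (h : A.1 = B.1) : B = sf A (B.2 - A.2) := by
  ext <;> simp [h]

/-- The labelled three-cycle. -/
def tri (A B C D : P × I) : P × I :=
  if D.1 = A.1 then (B.1, D.2 - A.2 + B.2) else if D.1 = B.1 then (C.1, D.2 - B.2 + C.2)
  else if D.1 = C.1 then (A.1, D.2 - C.2 + A.2) else D

theorem tri_A {A B C D : P × I} (e : D.1 = A.1) : tri A B C D = (B.1, D.2 - A.2 + B.2) := if_pos e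

theorem tri_B {A B C D : P × I} (h : E3 A B C) (e : D.1 = B.1) :
    tri A B C D = (C.1, D.2 - B.2 + C.2) := by
  rw [tri, if_neg (e ▸ h.1.symm), if_pos e]

theorem tri_C {A B C D : P × I} (h : E3 A B C) (e : D.1 = C.1) :
    tri A B C D = (A.1, D.2 - C.2 + A.2) := by
  rw [tri, if_neg (e ▸ h.2.2.symm), if_neg (e ▸ h.2.1.symm), if_pos e]

theorem tri_off {A B C D : P × I} (e1 : D.1 ≠ A.1) (e2 : D.1 ≠ B.1) (e3 : D.1 ≠ C.1) :
    tri A B C D = D := by
  rw [tri, if_neg e1, if_neg e2, if_neg e3]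

theorem tri_cases (A B C D : P × I) :
    D.1 = A.1 ∨ D.1 = B.1 ∨ D.1 = C.1 ∨ (D.1 ≠ A.1 ∧ D.1 ≠ B.1 ∧ D.1 ≠ C.1) := by tauto

theorem E3.rot {A B C : P × I} (h : E3 A B C) : E3 B C A := ⟨h.2.1, h.2.2.symm, h.1.symm⟩

/-- A group generated by lifts of labelled three-cycles. -/
structure ALData (P I Λ : Type) [DecidableEq P] [AddCommGroup I] [Group Λ] where
  σ : Λ →* Equiv.Perm (P × I)
  O : P × I → P × I → P × I → Λ
  gen : Subgroup.closure {g | ∃ A B C, E3 A B C ∧ g = O A B C} = ⊤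
  σO : ∀ {A B C}, E3 A B C → ∀ D, σ (O A B C) D = tri A B C D
  conj0 : ∀ {A B C D E F}, E3 A B C → E3 D E F →
    O A B C * O D E F * (O A B C)⁻¹ = O (tri A B C D) (tri A B C E) (tri A B C F)
  shift : ∀ {A B C} (l : I), E3 A B C → O (sf A l) (sf B l) (sf C l) = O A B C
  rot : ∀ {A B C}, E3 A B C → O A B C = O B C A

namespace ALData

variable (a : ALData P I Λ)

theorem ind {p : Λ → Prop} (h1 : ∀ A B C, E3 A B C → p (a.O A B C)) (h2 : p 1)
    (h3 : ∀ x y, p x → p y → p (x * y)) (h4 : ∀ x, p x → p x⁻¹) (g : Λ) : p g := by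
  have hg : g ∈ Subgroup.closure {g | ∃ A B C, E3 A B C ∧ g = a.O A B C} := by
    rw [a.gen]; trivial
  induction hg using Subgroup.closure_induction with
  | mem x hx => obtain ⟨A, B, C, h, rfl⟩ := hx; exact h1 A B C h
  | one => exact h2
  | mul x y _ _ hx hy => exact h3 x y hx hy
  | inv x _ hx => exact h4 x hx

theorem σ_sf (g : Λ) : ∀ D l, a.σ g (sf D l) = sf (a.σ g D) l := by
  induction g using a.ind with
  | h1 A B C h =>
    intro D l
    rw [a.σO h, a.σO h]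
    rcases tri_cases A B C D with e | e | e | ⟨e1, e2, e3⟩
    · rw [tri_A e, tri_A (D := sf D l) e]; ext <;> simp; abel
    · rw [tri_B h e, tri_B (D := sf D l) h e]; ext <;> simp; abel
    · rw [tri_C h e, tri_C (D := sf D l) h e]; ext <;> simp; abel
    · rw [tri_off e1 e2 e3, tri_off (D := sf D l) e1 e2 e3]
  | h2 => simp
  | h3 x y hx hy => intro D l; simp [hx, hy]
  | h4 x hx =>
    intro D l
    rw [map_inv, Equiv.Perm.inv_eq_iff_eq, hx]
    simp

theorem σ_ne (g : Λ) {D D' : P × I} (h : D.1 ≠ D'.1) : (a.σ g D).1 ≠ (a.σ g D').1 := by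
  intro e
  have := eq_sf e
  rw [← a.σ_sf] at this
  have := (a.σ g).injective this
  exact h (by rw [this]; rfl)

theorem σ_E3 (g : Λ) {A B C : P × I} (h : E3 A B C) : E3 (a.σ g A) (a.σ g B) (a.σ g C) :=
  ⟨a.σ_ne g h.1, a.σ_ne g h.2.1, a.σ_ne g h.2.2⟩

theorem conj (g : Λ) : ∀ {D E F}, E3 D E F →
    g * a.O D E F * g⁻¹ = a.O (a.σ g D) (a.σ g E) (a.σ g F) := by
  induction g using a.ind with
  | h1 A B C h => intro D E F h'; rw [a.conj0 h h', a.σO h, a.σO h, a.σO h]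
  | h2 => simp
  | h3 x y hx hy =>
    intro D E F h
    simp only [map_mul, Equiv.Perm.mul_apply]
    rw [← hx (a.σ_E3 y h), ← hy h]
    group
  | h4 x hx =>
    intro D E F h
    have := hx (a.σ_E3 x⁻¹ h)
    simp only [map_inv, p_app_inv] at this
    rw [← this, map_inv]
    group

theorem central {z : Λ} (hz : a.σ z = 1) (g : Λ) : z * g = g * z := by
  induction g using a.ind with
  | h1 A B C h =>
    have := a.conj z h
    rw [hz] at this
    simp only [Equiv.Perm.one_apply] at this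
    rw [← mul_inv_eq_iff_eq_mul, this]
  | h2 => simp
  | h3 x y hx hy => rw [← mul_assoc, hx, mul_assoc, hy, mul_assoc]
  | h4 x hx => exact (show Commute z x from hx).inv_right

variable [Infinite P]

theorem fresh (l : List P) : ∃ x, x ∉ l := by
  obtain ⟨x, hx⟩ := Infinite.exists_notMem_finset l.toFinset
  exact ⟨x, by simpa using hx⟩

theorem move1 (l : List P) {A A' : P × I} (h : A.1 ≠ A'.1) (hA : A.1 ∉ l) (hA' : A'.1 ∉ l) :
    ∃ g, a.σ g A = A' ∧ ∀ D : P × I, D.1 ∈ l → a.σ g D = D := by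
  obtain ⟨x, hx⟩ := fresh (A.1 :: A'.1 :: l)
  simp only [List.mem_cons, not_or] at hx
  have h3 : E3 A A' (x, (0 : I)) := ⟨h, Ne.symm hx.2.1, Ne.symm hx.1⟩
  refine ⟨a.O A A' (x, 0), by simp [a.σO h3, tri], fun D hD => ?_⟩
  have e1 : D.1 ≠ A.1 := fun e => hA (e ▸ hD)
  have e2 : D.1 ≠ A'.1 := fun e => hA' (e ▸ hD)
  have e3 : D.1 ≠ x := fun e => hx.2.2 (e ▸ hD)
  simp [a.σO h3, tri, e1, e2, e3]

theorem move (l : List P) {A A' : P × I} (hA : A.1 ∉ l) (hA' : A'.1 ∉ l) :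
    ∃ g, a.σ g A = A' ∧ ∀ D : P × I, D.1 ∈ l → a.σ g D = D := by
  obtain ⟨x, hx⟩ := fresh (A.1 :: A'.1 :: l)
  simp only [List.mem_cons, not_or] at hx
  obtain ⟨g, h1, h2⟩ := a.move1 l (A := A) (A' := (x, 0)) (Ne.symm hx.1) hA hx.2.2
  obtain ⟨g', h1', h2'⟩ := a.move1 l (A := (x, 0)) (A' := A') hx.2.1 hx.2.2 hA'
  exact ⟨g' * g, by simp [h1, h1'], fun D hD => by simp [h2 D hD, h2' D hD]⟩

theorem trans : ∀ (l l' : List (P × I)), l.length = l'.length → (l.map Prod.fst).Nodup →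
    (l'.map Prod.fst).Nodup → ∃ g, l.map (a.σ g) = l'
  | [], [], _, _, _ => ⟨1, rfl⟩
  | [], _ :: _, h, _, _ => by simp at h
  | _ :: _, [], h, _, _ => by simp at h
  | A :: l, A' :: l', h, h1, h2 => by
    rw [List.map_cons, List.nodup_cons] at h1 h2
    obtain ⟨g, hg⟩ := trans l l' (by simpa using h) h1.2 h2.2
    obtain ⟨g', e1, e2⟩ := a.move (l'.map Prod.fst) (A := a.σ g A) (A' := A') (by
      rw [← hg]
      simp only [List.map_map, List.mem_map, Function.comp, not_exists, not_and]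
      intro D hD e
      refine a.σ_ne g (fun e' => h1.1 ?_) e
      exact List.mem_map.2 ⟨D, hD, e'⟩) h2.1
    refine ⟨g' * g, ?_⟩
    rw [List.map_cons, map_mul, Equiv.Perm.mul_apply, e1, Equiv.Perm.coe_mul, ← List.map_map, hg]
    congr 1
    conv_rhs => rw [← List.map_id l']
    exact List.map_congr_left fun D hD => e2 D (List.mem_map_of_mem hD)

end ALData

/-- Four labelled points with distinct endpoints. -/
def E4 (A B C D : P × I) : Prop := E3 A B C ∧ A.1 ≠ D.1 ∧ B.1 ≠ D.1 ∧ C.1 ≠ D.1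

namespace ALData

variable (a : ALData P I Λ) [Infinite P]

theorem const4 (f : P × I → P × I → P × I → P × I → Λ)
    (h1 : ∀ g A B C D, E4 A B C D → g * f A B C D * g⁻¹ = f (a.σ g A) (a.σ g B) (a.σ g C) (a.σ g D))
    (h2 : ∀ A B C D, E4 A B C D → a.σ (f A B C D) = 1) {A B C D A' B' C' D' : P × I}
    (h : E4 A B C D) (h' : E4 A' B' C' D') : f A B C D = f A' B' C' D' := by
  obtain ⟨g, hg⟩ := a.trans [A, B, C, D] [A', B', C', D'] rfl
    (by obtain ⟨⟨h1, h2, h3⟩, h4, h5, h6⟩ := h; simp [*])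
    (by obtain ⟨⟨h1, h2, h3⟩, h4, h5, h6⟩ := h'; simp [*])
  simp only [List.map_cons, List.map_nil, List.cons.injEq, and_true] at hg
  obtain ⟨rfl, rfl, rfl, rfl⟩ := hg
  rw [← h1 g _ _ _ _ h, ← a.central (h2 _ _ _ _ h) g]
  group

theorem fresh4 {A B C : P × I} (h : E3 A B C) : ∃ D, E4 A B C D := by
  obtain ⟨x, hx⟩ := fresh [A.1, B.1, C.1]
  simp only [List.mem_cons, List.not_mem_nil, or_false, not_or] at hx
  exact ⟨(x, 0), h, Ne.symm hx.1, Ne.symm hx.2.1, Ne.symm hx.2.2⟩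

/-- The diagonal elements. -/
def hh (A B C : P × I) (k : I) : Λ := a.O (sf A k) B C * (a.O A B C)⁻¹

omit [Infinite P] in
theorem σ_hh {A B C : P × I} (h : E3 A B C) (k : I) (D : P × I) :
    a.σ (a.hh A B C k) D =
      sf D ((Finsupp.single A.1 k - Finsupp.single B.1 k : P →₀ I) D.1) := by
  have h' : E3 (sf A k) B C := h
  obtain ⟨D, rfl⟩ := (a.σ (a.O A B C)).surjective D
  simp only [hh, map_mul, map_inv, Equiv.Perm.mul_apply, p_inv_app]
  rw [a.σO h, a.σO h']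
  rcases tri_cases A B C D with e | e | e | ⟨e1, e2, e3⟩
  · rw [tri_A e, tri_A (A := sf A k) e]; ext <;> simp [h.1]; abel
  · rw [tri_B h e, tri_B h' e]; ext <;> simp [h.2.1, h.2.2]
  · rw [tri_C h e, tri_C h' e]; ext <;> simp [h.1.symm]; abel
  · rw [tri_off e1 e2 e3, tri_off (A := sf A k) e1 e2 e3]
    ext <;> simp [Ne.symm e1, Ne.symm e2]

omit [Infinite P] in
theorem conj_hh (g : Λ) {A B C : P × I} (h : E3 A B C) (k : I) :
    g * a.hh A B C k * g⁻¹ = a.hh (a.σ g A) (a.σ g B) (a.σ g C) k := by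
  have h' : E3 (sf A k) B C := h
  simp only [hh]
  rw [← a.σ_sf, ← a.conj g h, ← a.conj g h']
  group

omit [Infinite P] in
theorem hh_add (A B C : P × I) (k l : I) :
    a.hh A B C (l + k) = a.hh (sf A l) B C k * a.hh A B C l := by simp [hh]

omit [Infinite P] in
theorem hh_zero (A B C : P × I) : a.hh A B C 0 = 1 := by simp [hh]

omit [Infinite P] in
theorem hh_neg (A B C : P × I) (k : I) : a.hh A B C (-k) = (a.hh (sf A (-k)) B C k)⁻¹ := by
  simp [hh]

omit [Infinite P] in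
theorem hh_shift {A B C : P × I} (h : E3 A B C) (k l : I) :
    a.hh (sf A l) (sf B l) (sf C l) k = a.hh A B C k := by
  have h' : E3 (sf A k) B C := h
  simp only [hh]
  rw [a.shift l h, ← a.shift l h', sf_sf, sf_sf, add_comm]

section quot

variable {Q : Type} [Group Q] (π : Λ →* Q) {E : Set I} (hE : AddSubgroup.closure E = ⊤)
include hE

omit [DecidableEq P] [Infinite P] in
theorem indI {p : I → Prop} (h1 : ∀ e ∈ E, p e) (h2 : p 0) (h3 : ∀ x y, p x → p y → p (x + y))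
    (h4 : ∀ x, p x → p (-x)) (k : I) : p k := by
  have hk : k ∈ AddSubgroup.closure E := by rw [hE]; trivial
  induction hk using AddSubgroup.closure_induction with
  | mem x hx => exact h1 x hx
  | zero => exact h2
  | add x y _ _ hx hy => exact h3 x y hx hy
  | neg x _ hx => exact h4 x hx

variable (ha : ∀ e ∈ E, ∀ e' ∈ E, ∀ A B C, E3 A B C →
    π (a.hh (sf A e') B C e) = π (a.hh A B C e))
  (hc : ∀ e ∈ E, ∀ A B C D, E4 A B C D → π (a.hh A B C e) = π (a.hh A B D e))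
include ha hc

theorem q_R1 (k : I) {A B C A' B' C' : P × I} (h : E3 A B C) (h' : E3 A' B' C')
    (e1 : A.1 = A'.1) (e2 : B.1 = B'.1) : π (a.hh A' B' C' k) = π (a.hh A B C k) := by
  have s1 : ∀ e ∈ E, ∀ l A B C, E3 A B C → π (a.hh (sf A l) B C e) = π (a.hh A B C e) := by
    intro e he l
    induction l using indI hE with
    | h1 e' he' => exact ha e he e' he'
    | h2 => simp
    | h3 x y hx hy => intro A B C h; rw [← sf_sf, hy _ _ _ (by exact h), hx _ _ _ h]
    | h4 x hx => intro A B C h; rw [← hx (sf A (-x)) B C h]; simp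
  have s2 : ∀ k l A B C, E3 A B C → π (a.hh (sf A l) B C k) = π (a.hh A B C k) := by
    intro k
    induction k using indI hE with
    | h1 e he => exact s1 e he
    | h2 => simp [hh_zero]
    | h3 x y hx hy =>
      intro l A B C h
      rw [hh_add, hh_add, map_mul, map_mul, hx l _ _ _ h, hy _ _ _ _ (by exact h), hy _ _ _ _ h,
        hy _ _ _ _ h]
    | h4 x hx =>
      intro l A B C h
      rw [hh_neg, hh_neg, map_inv, map_inv, hx _ _ _ _ (by exact h), hx _ _ _ _ h, hx _ _ _ _ h]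
  have s3 : ∀ k A B C D, E4 A B C D → π (a.hh A B C k) = π (a.hh A B D k) := by
    intro k
    induction k using indI hE with
    | h1 e he => exact hc e he
    | h2 => simp [hh_zero]
    | h3 x y hx hy =>
      intro A B C D h
      rw [hh_add, hh_add, map_mul, map_mul, hx _ _ _ _ h, hy _ _ _ D (by exact h)]
    | h4 x hx =>
      intro A B C D h
      rw [hh_neg, hh_neg, map_inv, map_inv, hx _ _ _ D (by exact h)]
  have s4 : ∀ A B C D, E3 A B C → E3 A B D → π (a.hh A B C k) = π (a.hh A B D k) := by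
    intro A B C D h h'
    obtain ⟨x, hx⟩ := fresh [A.1, B.1, C.1, D.1]
    simp only [List.mem_cons, List.not_mem_nil, or_false, not_or] at hx
    rw [s3 k A B C (x, 0) ⟨h, Ne.symm hx.1, Ne.symm hx.2.1, Ne.symm hx.2.2.1⟩,
      s3 k A B D (x, 0) ⟨h', Ne.symm hx.1, Ne.symm hx.2.1, Ne.symm hx.2.2.2⟩]
  obtain ⟨l, rfl⟩ : ∃ l, B' = sf B l := ⟨_, eq_sf e2⟩
  obtain ⟨m, rfl⟩ : ∃ m, A' = sf (sf A m) l := ⟨A'.2 - A.2 - l, by ext <;> simp [e1]⟩
  rw [s4 _ _ C' (sf C l) h' (by exact h), a.hh_shift (by exact h), s2 k m _ _ _ h]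

theorem q_comm (k l : I) {A B C A' B' C' : P × I} (h : E3 A B C) (h' : E3 A' B' C') :
    π (a.hh A B C k) * π (a.hh A' B' C' l) = π (a.hh A' B' C' l) * π (a.hh A B C k) := by
  rw [← mul_inv_eq_iff_eq_mul, ← map_inv, ← map_mul, ← map_mul, a.conj_hh _ h']
  exact a.q_R1 π hE ha hc l h' (a.σ_E3 _ h') (by simp [a.σ_hh h]) (by simp [a.σ_hh h])

theorem q_add (k l : I) {A B C : P × I} (h : E3 A B C) :
    π (a.hh A B C (k + l)) = π (a.hh A B C k) * π (a.hh A B C l) := by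
  rw [add_comm, hh_add, map_mul, a.q_R1 π hE ha hc k (A' := sf A l) h (by exact h) rfl rfl]

theorem q_neg (k : I) {A B C : P × I} (h : E3 A B C) :
    π (a.hh A B C (-k)) = (π (a.hh A B C k))⁻¹ := by
  rw [hh_neg, map_inv, a.q_R1 π hE ha hc k (A' := sf A (-k)) h (by exact h) rfl rfl]

theorem q_split (hd : ∀ e ∈ E, ∀ A B C D, E4 A B C D →
      π (a.hh A B C e) = π (a.hh A D C e) * (π (a.hh B D C e))⁻¹)
    (k : I) {A B C D : P × I} (h : E4 A B C D) :
    π (a.hh A B C k) = π (a.hh A D C k) * (π (a.hh B D C k))⁻¹ := by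
  have h1 : E3 A D C := ⟨h.2.1, h.2.2.2.symm, h.1.2.2⟩
  have h2 : E3 B D C := ⟨h.2.2.1, h.2.2.2.symm, h.1.2.1⟩
  have hcm : ∀ x y, Commute (π (a.hh A D C x)) (π (a.hh B D C y)) := fun x y =>
    a.q_comm π hE ha hc x y h1 h2
  induction k using indI hE with
  | h1 e he => exact hd e he _ _ _ _ h
  | h2 => simp [hh_zero]
  | h3 x y hx hy =>
    rw [a.q_add π hE ha hc _ _ h.1, a.q_add π hE ha hc _ _ h1, add_comm,
      a.q_add π hE ha hc _ _ h2, hx, hy, mul_inv_rev, mul_assoc, mul_assoc,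
      ← mul_assoc _ (π (a.hh A D C y)), ← (hcm y x).inv_right.eq, mul_assoc]
  | h4 x hx =>
    rw [a.q_neg π hE ha hc _ h.1, a.q_neg π hE ha hc _ h1, a.q_neg π hE ha hc _ h2, hx,
      mul_inv_rev, inv_inv, (hcm x x).inv_left.eq]

end quot

/-- Cycles whose three labels have the same image under `δ`. -/
def L0 (δ : I →+ ℤ) : Subgroup Λ :=
  Subgroup.closure {g | ∃ A B C, E3 A B C ∧ δ A.2 = δ B.2 ∧ δ B.2 = δ C.2 ∧ g = a.O A B C}

omit [Infinite P] in
theorem L0_pres (δ : I →+ ℤ) {g : Λ} (hg : g ∈ a.L0 δ) : ∀ D, δ (a.σ g D).2 = δ D.2 := by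
  induction hg using Subgroup.closure_induction with
  | mem x hx =>
    obtain ⟨A, B, C, h, e1, e2, rfl⟩ := hx
    intro D
    rw [a.σO h]
    unfold tri
    split_ifs <;> simp [e1, e2]
  | one => simp
  | mul x y _ _ hx hy => intro D; simp [hx, hy]
  | inv x _ hx => intro D; rw [← hx]; simp

theorem AL [AddGroup.FG I] (δ : I →+ ℤ) : ∃ Z0 : Set Λ, Z0.Finite ∧ (∀ z ∈ Z0, a.σ z = 1) ∧
    ∀ g, (∀ D, δ (a.σ g D).2 = δ D.2) →
      ∃ z ∈ Subgroup.closure Z0, ∃ g0 ∈ a.L0 δ, g = z * g0 := by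
  classical
  obtain ⟨E, hE, hEf⟩ := (AddGroup.fg_iff (G := I)).1 inferInstance
  obtain ⟨p0, -⟩ := fresh ([] : List P)
  obtain ⟨p1, hp1⟩ := fresh [p0]
  obtain ⟨p2, hp2⟩ := fresh [p0, p1]
  simp only [List.mem_cons, List.not_mem_nil, or_false, not_or] at hp1 hp2
  obtain ⟨D0, h0⟩ := fresh4 (A := (p0, (0 : I))) (B := (p1, 0)) (C := (p2, 0))
    ⟨Ne.symm hp1, Ne.symm hp2.2, Ne.symm hp2.1⟩
  let da : I → I → P × I → P × I → P × I → P × I → Λ := fun e e' A B C _ =>
    a.hh (sf A e') B C e * (a.hh A B C e)⁻¹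
  let dc : I → P × I → P × I → P × I → P × I → Λ := fun e A B C D =>
    a.hh A B C e * (a.hh A B D e)⁻¹
  let dd : I → P × I → P × I → P × I → P × I → Λ := fun e A B C D =>
    a.hh A B C e * (a.hh A D C e * (a.hh B D C e)⁻¹)⁻¹
  have t1 : ∀ {A B C D : P × I}, E4 A B C D → E3 A B D := fun h => ⟨h.1.1, h.2.2.1, h.2.1⟩
  have t2 : ∀ {A B C D : P × I}, E4 A B C D → E3 A D C := fun h => ⟨h.2.1, h.2.2.2.symm, h.1.2.2⟩
  have t3 : ∀ {A B C D : P × I}, E4 A B C D → E3 B D C :=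
    fun h => ⟨h.2.2.1, h.2.2.2.symm, h.1.2.1⟩
  have σa : ∀ e e' A B C D, E4 A B C D → a.σ (da e e' A B C D) = 1 := by
    intro e e' A B C D h
    rw [map_mul, map_inv, mul_inv_eq_one]
    ext1 X
    rw [a.σ_hh h.1, a.σ_hh (A := sf A e') (by exact h.1)]
    rfl
  have σc : ∀ e A B C D, E4 A B C D → a.σ (dc e A B C D) = 1 := by
    intro e A B C D h
    rw [map_mul, map_inv, mul_inv_eq_one]
    ext1 X
    rw [a.σ_hh h.1, a.σ_hh (t1 h)]
  have σd : ∀ e A B C D, E4 A B C D → a.σ (dd e A B C D) = 1 := by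
    intro e A B C D h
    rw [map_mul, map_inv, mul_inv_eq_one, map_mul, map_inv, eq_mul_inv_iff_mul_eq]
    ext1 X
    simp only [Equiv.Perm.mul_apply, a.σ_hh h.1, a.σ_hh (t2 h), a.σ_hh (t3 h), sf_sf, sf_fst,
      Finsupp.sub_apply]
    congr 1
    abel
  let Z0 : Set Λ := (fun p : I × I => da p.1 p.2 (p0, 0) (p1, 0) (p2, 0) D0) '' (E ×ˢ E) ∪
    ((fun e => dc e (p0, 0) (p1, 0) (p2, 0) D0) '' E ∪ (fun e => dd e (p0, 0) (p1, 0) (p2, 0) D0) '' E)
  have hZ : ∀ z ∈ Z0, a.σ z = 1 := by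
    rintro z (⟨p, -, rfl⟩ | ⟨e, -, rfl⟩ | ⟨e, -, rfl⟩)
    exacts [σa _ _ _ _ _ _ h0, σc _ _ _ _ _ h0, σd _ _ _ _ _ h0]
  refine ⟨Z0, ((hEf.prod hEf).image _).union ((hEf.image _).union (hEf.image _)), hZ, ?_⟩
  have hZ1 : ∀ z ∈ Subgroup.closure Z0, a.σ z = 1 := fun z hz =>
    (Subgroup.closure_le a.σ.ker).2 hZ hz
  haveI : (Subgroup.closure Z0).Normal := ⟨fun z hz g => by
    rwa [← a.central (hZ1 z hz) g, mul_inv_cancel_right]⟩
  let π := QuotientGroup.mk' (Subgroup.closure Z0)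
  have hπ : ∀ z ∈ Z0, π z = 1 := fun z hz =>
    (QuotientGroup.eq_one_iff z).2 (Subgroup.subset_closure hz)
  have ha : ∀ e ∈ E, ∀ e' ∈ E, ∀ A B C, E3 A B C →
      π (a.hh (sf A e') B C e) = π (a.hh A B C e) := by
    intro e he e' he' A B C h
    obtain ⟨D, hD⟩ := fresh4 h
    have := a.const4 (da e e') (fun g A B C D h => by
      simp only [da]
      rw [← a.σ_sf, ← a.conj_hh g h.1, ← a.conj_hh g (A := sf A e') (by exact h.1)]
      group) (σa e e') hD h0
    rw [← mul_inv_eq_one, ← map_inv, ← map_mul]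
    exact (congrArg π this).trans (hπ _ (Or.inl ⟨(e, e'), ⟨he, he'⟩, rfl⟩))
  have hc : ∀ e ∈ E, ∀ A B C D, E4 A B C D → π (a.hh A B C e) = π (a.hh A B D e) := by
    intro e he A B C D h
    have := a.const4 (dc e) (fun g A B C D h => by
      simp only [dc]
      rw [← a.conj_hh g h.1, ← a.conj_hh g (t1 h)]
      group) (σc e) h h0
    rw [← mul_inv_eq_one, ← map_inv, ← map_mul]
    exact (congrArg π this).trans (hπ _ (Or.inr (Or.inl ⟨e, he, rfl⟩)))
  have hd : ∀ e ∈ E, ∀ A B C D, E4 A B C D →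
      π (a.hh A B C e) = π (a.hh A D C e) * (π (a.hh B D C e))⁻¹ := by
    intro e he A B C D h
    have := a.const4 (dd e) (fun g A B C D h => by
      simp only [dd]
      rw [← a.conj_hh g h.1, ← a.conj_hh g (t2 h), ← a.conj_hh g (t3 h)]
      group) (σd e) h h0
    rw [← mul_inv_eq_one, ← map_inv, ← map_mul, ← map_inv, ← map_mul]
    exact (congrArg π this).trans (hπ _ (Or.inr (Or.inr ⟨e, he, rfl⟩)))
  let S : Set (Λ ⧸ Subgroup.closure Z0) := {q | ∃ A B C k, E3 A B C ∧ q = π (a.hh A B C k)}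
  letI : CommGroup (Subgroup.closure S) := Subgroup.closureCommGroupOfComm (by
    rintro _ ⟨A, B, C, k, h, rfl⟩ _ ⟨A', B', C', l, h', rfl⟩
    exact a.q_comm π hE ha hc k l h h')
  have hx : ∀ z : P, ∃ x : P, z ≠ p0 → E3 (z, (0 : I)) (p0, 0) (x, 0) := by
    intro z
    obtain ⟨x, hx⟩ := fresh [z, p0]
    simp only [List.mem_cons, List.not_mem_nil, or_false, not_or] at hx
    exact ⟨x, fun h => ⟨h, Ne.symm hx.2, Ne.symm hx.1⟩⟩
  choose x hx using hx
  let η0 : P → I → Λ ⧸ Subgroup.closure Z0 := fun z k =>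
    if z = p0 then 1 else π (a.hh (z, 0) (p0, 0) (x z, 0) k)
  have hη0 : ∀ z k, η0 z k ∈ Subgroup.closure S := by
    intro z k
    simp only [η0]
    split_ifs with h
    · exact one_mem _
    · exact Subgroup.subset_closure ⟨_, _, _, _, hx z h, rfl⟩
  let η : P → I →+ Additive (Subgroup.closure S) := fun z =>
    AddMonoidHom.mk' (fun k => Additive.ofMul ⟨η0 z k, hη0 z k⟩) fun k l => by
      rw [← ofMul_mul]
      congr 1
      apply Subtype.ext
      change η0 z (k + l) = η0 z k * η0 z l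
      simp only [η0]
      split_ifs with h
      · simp
      · exact a.q_add π hE ha hc k l (hx z h)
  let Φ : (P →₀ I) →+ Additive (Subgroup.closure S) := Finsupp.liftAddHom η
  let Φ' : (P →₀ I) → Λ ⧸ Subgroup.closure Z0 := fun φ => (Additive.toMul (Φ φ)).1
  have Φadd : ∀ φ ψ, Φ' (φ + ψ) = Φ' φ * Φ' ψ := fun φ ψ => by simp only [Φ', map_add]; rfl
  have Φneg : ∀ φ, Φ' (-φ) = (Φ' φ)⁻¹ := fun φ => by simp only [Φ', map_neg]; rfl
  have Φs : ∀ z k, Φ' (Finsupp.single z k) = η0 z k := fun z k => by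
    simp only [Φ', Φ, Finsupp.liftAddHom_apply_single]; rfl
  have hgen : ∀ A B C k, E3 A B C → π (a.hh A B C k) = η0 A.1 k * (η0 B.1 k)⁻¹ := by
    intro A B C k h
    by_cases hB : B.1 = p0
    · have hA : A.1 ≠ p0 := hB ▸ h.1
      simp only [η0, if_pos hB, if_neg hA, inv_one, mul_one]
      exact a.q_R1 π hE ha hc k (hx _ hA) h rfl hB.symm
    · by_cases hA : A.1 = p0
      · simp only [η0, if_pos hA, if_neg hB, one_mul]
        obtain ⟨D, hD⟩ := fresh4 h
        have hD' : E4 B A C D := ⟨⟨h.1.symm, h.2.2, h.2.1⟩, hD.2.2.1, hD.2.1, hD.2.2.2⟩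
        rw [← a.q_R1 π hE ha hc k (hx _ hB) hD'.1 rfl hA.symm, a.q_split π hE ha hc hd k hD,
          a.q_split π hE ha hc hd k hD', mul_inv_rev, inv_inv]
      · simp only [η0, if_neg hA, if_neg hB]
        obtain ⟨y, hy⟩ := fresh [A.1, B.1, p0]
        simp only [List.mem_cons, List.not_mem_nil, or_false, not_or] at hy
        have h4 : E4 A B (y, 0) (p0, 0) := ⟨⟨h.1, Ne.symm hy.2.1, Ne.symm hy.1⟩, hA, hB, hy.2.2⟩
        rw [a.q_R1 π hE ha hc k h4.1 h rfl rfl, a.q_split π hE ha hc hd k h4,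
          a.q_R1 π hE ha hc k (hx _ hA) (t2 h4) rfl rfl, a.q_R1 π hE ha hc k (hx _ hB) (t3 h4) rfl rfl]
  let Hs : Subgroup Λ := Subgroup.closure {g | ∃ A B C k, E3 A B C ∧ g = a.hh A B C k}
  have hH : ∀ g ∈ Hs, ∃ φ : P →₀ I, (∀ D, a.σ g D = sf D (φ D.1)) ∧ π g = Φ' φ := by
    intro g hg
    induction hg using Subgroup.closure_induction with
    | mem g hg =>
      obtain ⟨A, B, C, k, h, rfl⟩ := hg
      exact ⟨_, a.σ_hh h k, by rw [sub_eq_add_neg, Φadd, Φneg, Φs, Φs, hgen _ _ _ _ h]⟩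
    | one => exact ⟨0, by simp, by simp [Φ']⟩
    | mul g g' _ _ h h' =>
      obtain ⟨φ, h1, h2⟩ := h
      obtain ⟨ψ, h1', h2'⟩ := h'
      exact ⟨φ + ψ, fun D => by simp [h1, h1', add_comm], by rw [map_mul, h2, h2', Φadd]⟩
    | inv g _ h =>
      obtain ⟨φ, h1, h2⟩ := h
      refine ⟨-φ, fun D => ?_, by rw [map_inv, h2, Φneg]⟩
      rw [map_inv, Equiv.Perm.inv_eq_iff_eq, h1]
      simp
  haveI : Hs.Normal := ⟨fun g hg u => by
    induction hg using Subgroup.closure_induction with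
    | mem g hg =>
      obtain ⟨A, B, C, k, h, rfl⟩ := hg
      exact Subgroup.subset_closure ⟨_, _, _, k, a.σ_E3 u h, a.conj_hh u h k⟩
    | one => simp
    | mul g g' _ _ h h' => simpa [mul_assoc] using mul_mem h h'
    | inv g _ h => simpa [mul_assoc] using inv_mem h⟩
  have htop : ∀ g, g ∈ Hs ⊔ a.L0 δ := by
    have step : ∀ A B C : P × I, E3 A B C → a.O B C (A.1, 0) ∈ Hs ⊔ a.L0 δ →
        a.O A B C ∈ Hs ⊔ a.L0 δ := by
      intro A B C h h1
      have h' : E3 (A.1, (0 : I)) B C := h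
      have : a.O A B C = a.hh (A.1, 0) B C A.2 * a.O (A.1, 0) B C := by simp [hh, sf]
      rw [this, a.rot h']
      exact mul_mem (Subgroup.mem_sup_left (Subgroup.subset_closure ⟨_, _, _, _, h', rfl⟩)) h1
    intro g
    induction g using a.ind with
    | h1 A B C h =>
      refine step _ _ _ h (step _ _ _ h.rot (step _ _ _ h.rot.rot (Subgroup.mem_sup_right ?_)))
      exact Subgroup.subset_closure ⟨(A.1, 0), (B.1, 0), (C.1, 0), h, rfl, rfl, rfl⟩
    | h2 => exact one_mem _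
    | h3 x y hx hy => exact mul_mem hx hy
    | h4 x hx => exact inv_mem hx
  intro g hg
  obtain ⟨u, hu, g0, hg0, rfl⟩ := Subgroup.mem_sup_of_normal_left.1 (htop g)
  obtain ⟨φ, h1, h2⟩ := hH u hu
  have hδ : ∀ z, δ (φ z) = 0 := by
    intro z
    have e1 := hg (a.σ g0⁻¹ (z, 0))
    rw [a.L0_pres δ (inv_mem hg0)] at e1
    simpa [h1] using e1
  have hmem : Φ' φ ∈ (a.L0 δ).map π := by
    have : Φ φ ∈ (((a.L0 δ).map π).subgroupOf (Subgroup.closure S)).toAddSubgroup := by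
      simp only [Φ, Finsupp.liftAddHom_apply, Finsupp.sum]
      refine sum_mem fun z _ => ?_
      change η0 z (φ z) ∈ (a.L0 δ).map π
      simp only [η0]
      split_ifs with h
      · exact one_mem _
      · refine Subgroup.mem_map_of_mem π (mul_mem ?_ (inv_mem ?_))
        · exact Subgroup.subset_closure ⟨sf (z, 0) (φ z), _, _, hx z h, by simp [hδ], rfl, rfl⟩
        · exact Subgroup.subset_closure ⟨_, _, _, hx z h, rfl, rfl, rfl⟩
    exact this
  obtain ⟨v, hv, e⟩ := hmem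
  refine ⟨u * v⁻¹, (QuotientGroup.eq_one_iff _).1 ?_, v * g0, mul_mem hv hg0, by group⟩
  change π (u * v⁻¹) = 1
  rw [map_mul, map_inv, e, h2, mul_inv_cancel]

end ALData

end Vale.Agent.P196.Ker
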