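import Vale.Agent.P196.Spec

/-! The group is simple and infinite. -/

namespace Vale.Agent.P196.SS

open Tm

lemma cyc_mem {t : Tm} {A B C : Leg} (h : Ok t.sh A B C) : cyc t.sh A B C ∈ GG :=
  Subgroup.subset_closure ⟨t, A, B, C, h, rfl⟩

/-- locally given by a word -/
def Loc (g : Equiv.Perm Z) : Prop := ∀ (x : X) (i : Sh), ∃ (t : Tm) (w : Wd) (j : Sh), t.sh x ∧
  ∀ y, t.sh y → wdom w y ∧ g (y, i) = (wact w y, j)

lemma loc_cyc {t : Tm} {A B C : Leg} (h : Ok t.sh A B C) : Loc (cyc t.sh A B C) := by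
  have k : ∀ {A B C : Leg}, Ok t.sh A B C → ∀ x, t.sh x → ∃ (s : Tm) (w : Wd) (j : Sh),
      s.sh (wact A.1 x) ∧ ∀ y, s.sh y → wdom w y ∧ cyc t.sh A B C (y, A.2) = (wact w y, j) := by
    intro A B C h x hx
    refine ⟨trw A.1 t, B.1 ++ winv A.1, B.2, (sh_trw_act (h.a x hx)).2 hx, fun y hy => ?_⟩
    obtain ⟨h1, h2⟩ := (sh_trw _ _ _).1 hy
    refine ⟨(wdom_append _ _ _).2 ⟨h1, h.b _ h2⟩, ?_⟩
    have := cyc_A h h2
    rwa [Leg.at, Leg.at, wact_inv' h1, ← wact_append] at this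
  intro x i
  rcases z_cases t.sh A B C (x, i) with ⟨y, hy, e⟩ | ⟨y, hy, e⟩ | ⟨y, hy, e⟩ | e
  · cases e; exact k h y hy
  · cases e; rw [cyc_rot h]; exact k h.rot y hy
  · cases e; rw [cyc_rot h, cyc_rot h.rot]; exact k h.rot.rot y hy
  have k' : ∀ D : Leg, Dm t.sh D → (∀ y, t.sh y → D.at y ≠ (x, i)) → ∃ s : Tm, s.sh x ∧
      ∀ x', s.sh x' → ∀ y, t.sh y → D.at y ≠ (x', i) := by
    intro D hD h'
    by_cases e : D.2 = i
    · refine ⟨.nt (trw D.1 t), fun q => ?_, fun x' hx' y hy q => hx' ?_⟩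
      · obtain ⟨h1, h2⟩ := (sh_trw _ _ _).1 q
        exact h' _ h2 (by rw [Leg.at, wact_inv' h1, e])
      · cases q; exact (sh_trw_act (hD y hy)).2 hy
    · exact ⟨tt, sh_tt _, fun x' _ y _ q => e (congrArg Prod.snd q)⟩
  obtain ⟨s1, a1, b1⟩ := k' A h.a fun y hy => (e y hy).1
  obtain ⟨s2, a2, b2⟩ := k' B h.b fun y hy => (e y hy).2.1
  obtain ⟨s3, a3, b3⟩ := k' C h.c fun y hy => (e y hy).2.2
  exact ⟨.an s1 (.an s2 s3), [], i, ⟨a1, a2, a3⟩, fun x' hx' => ⟨trivial,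
    cyc_off fun y hy => ⟨b1 x' hx'.1 y hy, b2 x' hx'.2.1 y hy, b3 x' hx'.2.2 y hy⟩⟩⟩

lemma loc_of_mem {g : Equiv.Perm Z} (hg : g ∈ GG) : Loc g := by
  induction hg using Subgroup.closure_induction'' with
  | mem g hg => obtain ⟨t, A, B, C, h, rfl⟩ := hg; exact loc_cyc h
  | inv_mem g hg => obtain ⟨t, A, B, C, h, rfl⟩ := hg; rw [← cyc_rev h]; exact loc_cyc h.rev
  | one => exact fun x i => ⟨tt, [], i, sh_tt _, fun _ _ => ⟨trivial, rfl⟩⟩
  | mul g h _ _ hg hh =>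
    intro x i
    obtain ⟨t, w, j, a1, a2⟩ := hh x i
    obtain ⟨t', w', j', b1, b2⟩ := hg (wact w x) j
    refine ⟨.an t (pre w t'), w' ++ w, j', ⟨a1, (sh_pre _ _ _).2 ⟨(a2 x a1).1, b1⟩⟩, fun y hy => ?_⟩
    obtain ⟨c1, c2⟩ := (sh_pre _ _ _).1 hy.2
    rw [Equiv.Perm.mul_apply, (a2 y hy.1).2, (b2 _ c2).2, wact_append]
    exact ⟨(wdom_append _ _ _).2 ⟨c1, (b2 _ c2).1⟩, rfl⟩

lemma sep (n : ℕ) : ∀ x y : X, (∀ k, x k ≠ ⊤) → x n ≠ y n → ∃ t : Tm, t.sh x ∧ ¬ t.sh y := by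
  have k0 : ∀ x y : X, (∀ k, x k ≠ ⊤) → x 0 ≠ y 0 → ∃ t : Tm, t.sh x ∧ ¬ t.sh y := by
    intro x y hx h
    obtain ⟨k, hk⟩ := ENat.ne_top_iff_exists.1 (hx 0)
    exact ⟨.W k tt, ⟨hk.symm, sh_tt _⟩, fun q => h (hk.symm.trans q.1.symm)⟩
  induction n with
  | zero => exact k0
  | succ n ih =>
    intro x y hx h
    by_cases e : x 0 = y 0
    swap
    · exact k0 x y hx e
    obtain ⟨k, hk⟩ := ENat.ne_top_iff_exists.1 (hx 0)
    obtain ⟨t, h1, h2⟩ := ih (pop x) (pop y) (fun m => by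
      cases m with
      | zero => simp [pop, hx]
      | succ m => exact hx _) (by
      cases n with
      | zero =>
        simp only [pop, cons_0, ← e, ← hk]
        exact fun q => h (WithTop.add_left_cancel (ENat.natCast_ne_top (k + 1)) q)
      | succ n => exact h)
    exact ⟨.W k t, ⟨hk.symm, h1⟩, fun q => h2 q.2⟩

lemma close_act {M : ℕ} {x y : X} (a : Lt) (h : close (M + 1) x y) :
    close M (a.act x) (a.act y) := by
  have k : ∀ n ≤ M, min (x n) M = min (y n) M ∧ min (x n + 1) M = min (y n + 1) M ∧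
      min (x n - 1) M = min (y n - 1) M := fun n hn => by
    have := h n (by omega)
    have e1 : ∀ a : ℕ, (a : ℕ∞) + 1 = (a + 1 : ℕ) := fun _ => rfl
    have e2 : ∀ a : ℕ, (a : ℕ∞) - 1 = (a - 1 : ℕ) := fun _ => rfl
    generalize x n = a at *; generalize y n = b at *
    induction a using ENat.recTopCoe <;> induction b using ENat.recTopCoe <;>
      simp only [e1, e2, top_add, ENat.top_sub_one, min_top_left, cmin, Nat.cast_inj,
        and_self] at this ⊢ <;> omega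
  intro n hn
  match n with
  | 0 => cases a <;> simp [Lt.act, k 0 (by omega), k 1 (by omega)]
  | 1 => cases a <;> simp [Lt.act, k 0 (by omega), k 1 (by omega), k 2 (by omega)]
  | 2 => cases a <;> simp [Lt.act, k 1 (by omega), k 2 (by omega), k 3 (by omega)]
  | n + 3 => cases a <;>
      simp [Lt.act, k (n + 2) (by omega), k (n + 3) (by omega), k (n + 4) (by omega), add_assoc]

lemma close_wact {x y : X} (w : Wd) : ∀ M, close (M + w.length) x y →
    close M (wact w x) (wact w y) := by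
  induction w with
  | nil => exact fun _ h => h
  | cons a w ih => exact fun M h => close_act a (ih _ (by rwa [add_assoc, add_comm 1]))

lemma close_min (M : ℕ) (x : X) : close M x fun n => min (x n) M := fun n _ => by simp

lemma exists_moved {g : Equiv.Perm Z} (hg : g ∈ GG) (h1 : g ≠ 1) : ∃ (U : Tm) (x : X) (i : Sh),
    U.sh x ∧ ∀ y y', U.sh y → U.sh y' → g (y, i) ≠ (y', i) := by
  obtain ⟨⟨x, i⟩, hx⟩ : ∃ z, g z ≠ z := not_forall.1 fun h => h1 (Equiv.ext h)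
  obtain ⟨t, w, j, a1, a2⟩ := loc_of_mem hg x i
  by_cases e : j = i
  swap
  · exact ⟨t, x, i, a1, fun y y' hy _ q => e (by rw [(a2 y hy).2] at q; exact congrArg Prod.snd q)⟩
  subst e
  obtain ⟨n, hn⟩ : ∃ n, wact w x n ≠ x n :=
    not_forall.1 fun h => hx (by rw [(a2 x a1).2, funext h])
  obtain ⟨M, hM, hM'⟩ : ∃ M : ℕ, n < M ∧ min (wact w x n) M ≠ min (x n) M := by
    generalize wact w x n = a at *; generalize x n = b at *
    refine ⟨n + a.toNat + b.toNat + 1, by omega, ?_⟩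
    induction a using ENat.recTopCoe <;> induction b using ENat.recTopCoe <;>
      simp only [min_top_left, cmin, Nat.cast_inj, ne_eq, ENat.toNat_top, ENat.toNat_natCast,
        not_true] at hn ⊢ <;> omega
  obtain ⟨K, hK⟩ := t.det
  have c := close_min (M + w.length + K) x
  generalize hy : (fun n => min (x n) (M + w.length + K : ℕ)) = y at c
  obtain ⟨V, b1, b2⟩ := sep n y (wact w y) (fun k => by simp [← hy]) fun q => hM' (by
    rw [close_wact w M (c.mono (by omega)) n hM, c.mono (by omega) n hM, q])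
  have ty := hK _ _ (c.mono (by omega)) a1
  refine ⟨.an t (.an V (pre w (.nt V))), y, j, ⟨ty, b1, (sh_pre _ _ _).2 ⟨(a2 y ty).1, b2⟩⟩,
    fun z z' hz hz' q => ((sh_pre _ _ _).1 hz.2.2).2 ?_⟩
  rw [(a2 z hz.1).2] at q
  cases q; exact hz'.2.1

/-- the word removing the first particle -/
def popW : ℕ → Wd
  | 0 => [.c']
  | k + 1 => popW k ++ [.u']

lemma popW_spec (k : ℕ) : ∀ x : X, x 0 = k → wdom (popW k) x ∧ wact (popW k) x = pop x := by
  induction k with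
  | zero => intro x h; simp [popW, Lt.dom, Lt.act, pop, h, add_comm]
  | succ k ih =>
    intro x h
    have h1 : 1 ≤ x 0 := by rw [h]; exact_mod_cast Nat.le_add_left 1 k
    have := ih (Lt.u'.act x) (by simp only [Lt.act, cons_0, h]; rfl)
    simpa [popW, Lt.dom, h1, ← pop_u' h1] using this

lemma pushW_spec (k : ℕ) {z : X} (h : ((k + 1 : ℕ) : ℕ∞) ≤ z 0) :
    wdom (winv (popW k)) z ∧ wact (winv (popW k)) z = push k z := by
  obtain ⟨h1, h2⟩ := popW_spec k (push k z) rfl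
  have := winv_spec h1
  rwa [h2, pop_push h] at this

lemma clear (x : X) (L : ℕ) : ∃ w, wdom w x ∧ (L : ℕ∞) ≤ wact w x 0 := by
  induction L with
  | zero => exact ⟨[], trivial, by simp⟩
  | succ L ih =>
    obtain ⟨w, h1, h2⟩ := ih
    rcases h2.eq_or_lt with e | e
    · obtain ⟨a, b⟩ := popW_spec L _ e.symm
      refine ⟨popW L ++ w, (wdom_append _ _ _).2 ⟨h1, a⟩, ?_⟩
      rw [wact_append, b, pop, cons_0, ← e]; exact le_self_add
    · exact ⟨w, h1, Order.add_one_le_of_lt e⟩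

lemma build (n : ℕ) : ∀ g : ℕ → ℕ, ∃ (L : ℕ) (w : Wd), ∀ z : X, (L : ℕ∞) ≤ z 0 →
    wdom w z ∧ ∀ i ≤ n, wact w z i = g i := by
  induction n with
  | zero =>
    refine fun g => ⟨g 0 + 1, winv (popW (g 0)), fun z hz => ⟨(pushW_spec _ hz).1, fun i hi => ?_⟩⟩
    rw [(pushW_spec _ hz).2, Nat.le_zero.1 hi]; rfl
  | succ n ih =>
    intro g
    obtain ⟨L, w, h⟩ := ih fun i => Nat.casesOn i (g 0 + 1 + g 1) fun i => g (i + 2)
    refine ⟨L, winv (popW (g 0)) ++ w, fun z hz => ?_⟩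
    obtain ⟨h1, h2⟩ := h z hz
    have h0 := h2 0 (by omega)
    obtain ⟨a, b⟩ := pushW_spec (g 0) (z := wact w z) (by rw [h0]; exact_mod_cast Nat.le_add_right _ _)
    refine ⟨(wdom_append _ _ _).2 ⟨h1, a⟩, fun i hi => ?_⟩
    rw [wact_append, b]
    match i with
    | 0 => rfl
    | 1 =>
      rw [push, cons_1, cons_0, h0]
      exact_mod_cast Nat.add_sub_cancel_left _ _
    | i + 2 => exact h2 (i + 1) (by omega)

lemma minimal {U : Tm} {y : X} (hy : U.sh y) (x : X) : ∃ w, wdom w x ∧ U.sh (wact w x) := by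
  obtain ⟨M, hM⟩ := U.det
  obtain ⟨L, w, h⟩ := build M fun i => (min (y i) M).toNat
  obtain ⟨w', h1, h2⟩ := clear x L
  obtain ⟨h3, h4⟩ := h _ h2
  refine ⟨w ++ w', (wdom_append _ _ _).2 ⟨h1, h3⟩, hM _ _ (fun n hn => ?_) hy⟩
  rw [wact_append, h4 n hn.le, ENat.natCast_toNat (by simp)]; simp

lemma spare (l : List Sh) (h : l.length < 200) : ∃ e, e ∉ l := by
  by_contra hc
  have := List.toFinset_card_le l
  rw [Finset.eq_univ_of_forall (s := l.toFinset) (by simpa using hc)] at this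
  simp at this; omega

lemma ok_ne (t : X → Prop) {w : Wd} (hw : ∀ x, t x → wdom w x) {i j k : Sh} (h1 : i ≠ j) (h2 : j ≠ k)
    (h3 : i ≠ k) : Ok t (w, i) (w, j) (w, k) := ⟨hw, hw, hw, dj_of_ne h1, dj_of_ne h2, dj_of_ne h3⟩

section
variable {M : Subgroup (Equiv.Perm Z)} (hM : ∀ g ∈ GG, ∀ n ∈ M, g * n * g⁻¹ ∈ M)
include hM

lemma rep {t : Tm} {A B C D : Leg} (h : Ok t.sh A B C) (h' : Ok t.sh B C D) (hD : Dj t.sh A D)
    (hm : cyc t.sh A B C ∈ M) : cyc t.sh B C D ∈ M := by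
  obtain ⟨e, he⟩ := spare [A.2, B.2, C.2, D.2] (by simp)
  simp only [List.mem_cons, List.not_mem_nil, or_false, not_or] at he
  have o : Ok t.sh A D ([], e) := ⟨h.a, h'.c, fun _ _ => trivial, hD, dj_of_ne (Ne.symm he.2.2.2),
    dj_of_ne (Ne.symm he.1)⟩
  rw [← cyc_rot h'.rot.rot, ← cyc_conj' h h'.rot.rot (cyc t.sh A D ([], e)) (fun x hx => cyc_A o hx)
    (fun x hx => cyc_off fun y hy => ⟨h.ab _ _ hy hx, h'.ac.symm _ _ hy hx,
      dj_of_ne (t := t.sh) he.2.1 _ _ hy hx⟩)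
    fun x hx => cyc_off fun y hy => ⟨h.ac _ _ hy hx, h'.bc.symm _ _ hy hx,
      dj_of_ne (t := t.sh) he.2.2.1 _ _ hy hx⟩]
  exact hM _ (cyc_mem o) _ hm

lemma any {t : Tm} {A B C A' B' C' : Leg} (h : Ok t.sh A B C) (h' : Ok t.sh A' B' C')
    (hm : cyc t.sh A B C ∈ M) : cyc t.sh A' B' C' ∈ M := by
  obtain ⟨i, hi⟩ := spare [A.2, B.2, C.2, A'.2, B'.2, C'.2] (by simp)
  obtain ⟨j, hj⟩ := spare [A.2, B.2, C.2, A'.2, B'.2, C'.2, i] (by simp)
  obtain ⟨k, hk⟩ := spare [A.2, B.2, C.2, A'.2, B'.2, C'.2, i, j] (by simp)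
  simp only [List.mem_cons, List.not_mem_nil, or_false, not_or] at hi hj hk
  have d : ∀ i, Dm t.sh ([], i) := fun _ _ _ => trivial
  have n : ∀ {A : Leg} {i}, ¬ i = A.2 → Dj t.sh A ([], i) := fun h => dj_of_ne (Ne.symm h)
  have o1 : Ok t.sh B C ([], i) := ⟨h.b, h.c, d _, h.bc, n (by tauto), n (by tauto)⟩
  have o2 : Ok t.sh C ([], i) ([], j) := ⟨h.c, d _, d _, n (by tauto), n (by tauto), n (by tauto)⟩
  have o3 : Ok t.sh ([], i) ([], j) ([], k) :=
    ⟨d _, d _, d _, n (by tauto), n (by tauto), n (by tauto)⟩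
  have o4 : Ok t.sh ([], j) ([], k) A' :=
    ⟨d _, d _, h'.a, n (by tauto), (n (by tauto)).symm, (n (by tauto)).symm⟩
  have o5 : Ok t.sh ([], k) A' B' :=
    ⟨d _, h'.a, h'.b, (n (by tauto)).symm, h'.ab, (n (by tauto)).symm⟩
  exact rep hM o5 h' (n (by tauto)).symm (rep hM o4 o5 (n (by tauto)).symm (rep hM o3 o4
    (n (by tauto)).symm (rep hM o2 o3 (n (by tauto)) (rep hM o1 o2 (n (by tauto))
      (rep hM h o1 (n (by tauto)) hm)))))

lemma first {g : Equiv.Perm Z} (hg : g ∈ GG) (hg' : g ∈ M) (h1 : g ≠ 1) : ∃ (U : Tm) (x : X),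
    U.sh x ∧ ∀ s : Tm, (∀ y, s.sh y → U.sh y) → ∃ A B C, Ok s.sh A B C ∧ cyc s.sh A B C ∈ M := by
  obtain ⟨U, x, i, a1, a2⟩ := exists_moved hg h1
  obtain ⟨t0, w0, j0, b0, c0⟩ := loc_of_mem (inv_mem hg) x i
  obtain ⟨d, hd⟩ := spare [i, j0] (by simp)
  obtain ⟨e, he⟩ := spare [i, j0, d] (by simp)
  obtain ⟨t1, w1, j1, b1, c1⟩ := loc_of_mem hg x i
  obtain ⟨t2, w2, j2, b2, c2⟩ := loc_of_mem hg x d
  obtain ⟨t3, w3, j3, b3, c3⟩ := loc_of_mem hg x e
  obtain ⟨b, hb⟩ := spare [i, d, e, j1, j2, j3] (by simp)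
  obtain ⟨c, hc⟩ := spare [i, d, e, j1, j2, j3, b] (by simp)
  simp only [List.mem_cons, List.not_mem_nil, or_false, not_or] at hd he hb hc
  refine ⟨.an U (.an t0 (.an t1 (.an t2 t3))), x, ⟨a1, b0, b1, b2, b3⟩, fun s hs => ?_⟩
  have tr : ∀ x, s.sh x → wdom [] x := fun _ _ => trivial
  have oa := ok_ne s.sh tr (i := i) (j := b) (k := c) (by tauto) (by tauto) (by tauto)
  have ob := ok_ne s.sh tr (i := i) (j := d) (k := e) (by tauto) (by tauto) (by tauto)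
  have oc := ok_ne s.sh tr (i := b) (j := d) (k := e) (by tauto) (by tauto) (by tauto)
  have od := ok_ne s.sh tr (i := b) (j := i) (k := d) (by tauto) (by tauto) (by tauto)
  refine ⟨_, _, _, od.rev.rot, ?_⟩
  rw [cyc_a4 od (D := ([], e)) tr (dj_of_ne (by tauto)) (dj_of_ne (by tauto)) (dj_of_ne (by tauto))]
  set a := cyc s.sh ([], i) ([], b) ([], c)
  have hh : a * g⁻¹ * a⁻¹ * g ∈ M := mul_mem (hM _ (cyc_mem oa) _ (inv_mem hg')) hg'
  have k : ∀ (k j : Sh) (y y' : X), g (y, k) = (y', j) → ¬ b = j → ¬ c = j →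
      (∀ z, s.sh z → (z, i) ≠ g (y, k)) → (a * g⁻¹ * a⁻¹ * g) (y, k) = a (y, k) := by
    intro k j y y' q q1 q2 q3
    have : a (g (y, k)) = g (y, k) := cyc_off fun z hz =>
      ⟨q3 z hz, fun r => q1 (congrArg Prod.snd (r.trans q)),
        fun r => q2 (congrArg Prod.snd (r.trans q))⟩
    simp only [Equiv.Perm.mul_apply, Equiv.Perm.inv_eq_iff_eq.2 this.symm]; simp
  have k2 : ∀ (k : Sh) (y z : X), ¬ k = j0 → s.sh z → (z, i) ≠ g (y, k) := fun k y z q hz r =>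
    q (congrArg Prod.snd ((Equiv.Perm.inv_eq_iff_eq.2 r).symm.trans (c0 z (hs z hz).2.1).2))
  have k3 : ∀ (k : Sh) (y : X), ¬ k = i → ¬ b = k → ¬ c = k → a (y, k) = (y, k) :=
    fun k y q1 q2 q3 => cyc_off fun z _ => ⟨fun r => q1 (congrArg Prod.snd r).symm,
      fun r => q2 (congrArg Prod.snd r), fun r => q3 (congrArg Prod.snd r)⟩
  rw [← cyc_conj' ob oc (a * g⁻¹ * a⁻¹ * g)
    (fun y hy => (k i _ y _ (c1 y (hs y hy).2.2.1).2 (by tauto) (by tauto)
      fun z hz r => a2 y z (hs y hy).1 (hs z hz).1 r.symm).trans (cyc_A oa hy))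
    (fun y hy => (k d _ y _ (c2 y (hs y hy).2.2.2.1).2 (by tauto) (by tauto)
      fun z hz => k2 d y z (by tauto) hz).trans (k3 d y (by tauto) (by tauto) (by tauto)))
    (fun y hy => (k e _ y _ (c3 y (hs y hy).2.2.2.2).2 (by tauto) (by tauto)
      fun z hz => k2 e y z (by tauto) hz).trans (k3 e y (by tauto) (by tauto) (by tauto)))]
  simpa only [mul_assoc] using mul_mem hh (hM _ (cyc_mem ob) _ (inv_mem hh))

lemma all_mem {g : Equiv.Perm Z} (hg : g ∈ GG) (hg' : g ∈ M) (h1 : g ≠ 1) : GG ≤ M := by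
  obtain ⟨U, x0, a1, a2⟩ := first hM hg hg' h1
  rw [GG, Subgroup.closure_le]
  rintro _ ⟨t, A, B, C, h, rfl⟩
  have o : ∀ (r : Tm) (w : Wd), (∀ x, r.sh x → wdom w x) → Ok r.sh (w, 0) (w, 1) (w, 2) :=
    fun r w hw => ok_ne _ hw (by decide) (by decide) (by decide)
  have o0 := fun r => o r [] fun _ _ => trivial
  refine any hM (o0 t) h (loc_ind (fun r => cyc r.sh ([], 0) ([], 1) ([], 2) ∈ M) (fun r hr => ?_)
    (fun r s p q => ?_) t fun x _ => ?_)
  · rw [← cyc_eq (o0 r) (g := 1) (fun x hx => (hr x hx).elim) (fun x hx => (hr x hx).elim)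
      (fun x hx => (hr x hx).elim) fun _ _ => rfl]
    exact one_mem _
  · rw [cyc_split (o0 r) s.sh]; exact mul_mem p q
  obtain ⟨w, b1, b2⟩ := minimal a1 x
  refine ⟨pre w U, (sh_pre _ _ _).2 ⟨b1, b2⟩, fun r hr => ?_⟩
  have hw : ∀ y, r.sh y → wdom w y := fun y hy => ((sh_pre _ _ _).1 (hr y hy).1).1
  obtain ⟨A, B, C, c1, c2⟩ := a2 (trw w r) fun y hy => by
    obtain ⟨d1, d2⟩ := (sh_trw _ _ _).1 hy
    have := ((sh_pre _ _ _).1 (hr _ d2).1).2
    rwa [wact_inv' d1] at this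
  refine any hM (o r w hw) (o0 r) ?_
  have := cyc_conj (o r w hw) (o0 (trw w r)) 1 (wact w) (fun y hy => (sh_trw_act (hw y hy)).2 hy)
    (fun y hy => ⟨_, ((sh_trw _ _ _).1 hy).2, wact_inv' ((sh_trw _ _ _).1 hy).1⟩)
    (fun _ _ => rfl) (fun _ _ => rfl) fun _ _ => rfl
  rw [one_mul, inv_one, mul_one] at this
  rw [this]
  exact any hM c1 (o0 _) c2

end

lemma infinite : Infinite GG := by
  have o : ∀ k, Ok (Tm.W k tt).sh ([], 0) ([], 1) ([], 2) :=
    fun k => ok_ne _ (w := []) (fun _ _ => trivial) (by decide) (by decide) (by decide)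
  refine Infinite.of_injective (fun k : ℕ => (⟨_, cyc_mem (o k)⟩ : GG)) fun k l h => ?_
  by_contra hc
  have h1 := cyc_A (o k) (x := fun _ => k) ⟨rfl, sh_tt _⟩
  rw [Subtype.mk.inj h, cyc_off fun y hy => ⟨fun q => hc ?_, fun q => ?_, fun q => ?_⟩] at h1
  · exact (by decide : (0 : Sh) ≠ 1) (congrArg Prod.snd h1)
  · cases q; exact Nat.cast_injective (R := ℕ∞) hy.1
  · exact (by decide : (1 : Sh) ≠ 0) (congrArg Prod.snd q)
  · exact (by decide : (2 : Sh) ≠ 0) (congrArg Prod.snd q)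

end Vale.Agent.P196.SS

namespace Vale.Agent.P196

theorem sStmt : SStmt := by
  have := SS.infinite
  refine ⟨⟨fun N hN => ?_⟩, this⟩
  by_cases h : N = ⊥
  · exact Or.inl h
  obtain ⟨⟨g, hg⟩, h1⟩ := Subgroup.ne_bot_iff_exists_ne_one.1 h
  have := SS.all_mem (M := N.map GG.subtype)
    (by rintro a ha _ ⟨n, hn, rfl⟩; exact ⟨_, hN.conj_mem n hn ⟨a, ha⟩, rfl⟩) g.2 ⟨g, hg, rfl⟩
    fun q => h1 (Subtype.ext (Subtype.ext q))
  refine Or.inr (eq_top_iff.2 fun a _ => ?_)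
  obtain ⟨b, hb, e⟩ := this a.2
  rwa [← Subtype.ext e]

end Vale.Agent.P196
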