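import Vale.Agent.P196.KerLift
import Vale.Agent.P196.Simple

/-! Neighbourhood filters, cocycles of locally word-like permutations, the filtration. -/

namespace Vale.Agent.P196.Ker

open Filter

/-- Definable neighbourhoods of a point. -/
def NF (x : X) : Filter X where
  sets := {U | ∃ t, Df t ∧ t x ∧ ∀ y, t y → y ∈ U}
  univ_sets := ⟨fun _ => True, df_const True, trivial, fun _ _ => trivial⟩
  sets_of_superset := fun ⟨t, h1, h2, h3⟩ h => ⟨t, h1, h2, fun y hy => h (h3 y hy)⟩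
  inter_sets := fun ⟨t, h1, h2, h3⟩ ⟨t', h1', h2', h3'⟩ =>
    ⟨_, h1.and h1', ⟨h2, h2'⟩, fun y hy => ⟨h3 y hy.1, h3' y hy.2⟩⟩

theorem ev_NF {x : X} {p : X → Prop} :
    (∀ᶠ y in NF x, p y) ↔ ∃ t, Df t ∧ t x ∧ ∀ y, t y → p y := Iff.rfl

theorem Df.ev {t : X → Prop} (h : Df t) {x : X} (hx : t x) : ∀ᶠ y in NF x, t y :=
  ⟨t, h, hx, fun _ e => e⟩

theorem NF_self {x : X} {p : X → Prop} (h : ∀ᶠ y in NF x, p y) : p x := by
  obtain ⟨t, -, h2, h3⟩ := h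
  exact h3 x h2

theorem NF_ev {x : X} {p : X → Prop} (h : ∀ᶠ y in NF x, p y) :
    ∀ᶠ y in NF x, ∀ᶠ y' in NF y, p y' := by
  obtain ⟨t, h1, h2, h3⟩ := h
  exact ⟨t, h1, h2, fun y hy => ⟨t, h1, hy, h3⟩⟩

theorem ev_dom {w : Wd} {x : X} (h : wdom w x) : ∀ᶠ y in NF x, wdom w y := (df_dom w).ev h

theorem ev_act {w : Wd} {x : X} (h : wdom w x) {p : X → Prop} (hp : ∀ᶠ y in NF (wact w x), p y) :
    ∀ᶠ y in NF x, p (wact w y) := by
  obtain ⟨t, h1, h2, h3⟩ := hp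
  exact ⟨_, h1.pre w, ⟨h, h2⟩, fun y hy => h3 _ hy.2⟩

/-- Small definable neighbourhoods of a point. -/
def SF (x : X) : Filter (X → Prop) where
  sets := {U | ∃ r, Df r ∧ r x ∧ ∀ s, Df s → s x → (∀ y, s y → r y) → s ∈ U}
  univ_sets := ⟨fun _ => True, df_const True, trivial, fun _ _ _ _ => trivial⟩
  sets_of_superset := fun ⟨t, h1, h2, h3⟩ h => ⟨t, h1, h2, fun s a b c => h (h3 s a b c)⟩
  inter_sets := fun ⟨t, h1, h2, h3⟩ ⟨t', h1', h2', h3'⟩ =>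
    ⟨_, h1.and h1', ⟨h2, h2'⟩, fun s a b c =>
      ⟨h3 s a b fun y hy => (c y hy).1, h3' s a b fun y hy => (c y hy).2⟩⟩

theorem ev_SF {x : X} {p : (X → Prop) → Prop} :
    (∀ᶠ s in SF x, p s) ↔ ∃ r, Df r ∧ r x ∧ ∀ s, Df s → s x → (∀ y, s y → r y) → p s := Iff.rfl

theorem SF_df (x : X) : ∀ᶠ s in SF x, Df s ∧ s x :=
  ⟨fun _ => True, df_const True, trivial, fun _ a b _ => ⟨a, b⟩⟩

theorem SF_ex {x : X} {p : (X → Prop) → Prop} (h : ∀ᶠ s in SF x, p s) : ∃ s, p s := by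
  obtain ⟨r, h1, h2, h3⟩ := h
  exact ⟨r, h3 r h1 h2 fun _ e => e⟩

theorem SF_all {x : X} {p : X → Prop} (h : ∀ᶠ y in NF x, p y) : ∀ᶠ s in SF x, ∀ y, s y → p y := by
  obtain ⟨t, h1, h2, h3⟩ := h
  exact ⟨t, h1, h2, fun s _ _ c y hy => h3 y (c y hy)⟩

/-- Image of a predicate under a word. -/
def img (w : Wd) (s : X → Prop) : X → Prop := fun y => ∃ x, s x ∧ wdom w x ∧ wact w x = y

theorem SF_img {w : Wd} {x : X} (h : wdom w x) {p : (X → Prop) → Prop}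
    (hp : ∀ᶠ s in SF (wact w x), p s) : ∀ᶠ s in SF x, p (img w s) := by
  obtain ⟨r, h1, h2, h3⟩ := hp
  refine ⟨_, h1.pre w, ⟨h, h2⟩, fun s a b c => h3 _ (a.img w) ⟨x, b, h, rfl⟩ ?_⟩
  rintro _ ⟨y, e1, -, rfl⟩
  exact (c y e1).2

theorem df_ind (P : (X → Prop) → Prop) {s : X → Prop} (hs : Df s)
    (h0 : ∀ r, (∀ x, ¬ r x) → P r)
    (h1 : ∀ r u, Df r → Df u → (∀ y, r y → s y) → P (fun x => r x ∧ u x) →
      P (fun x => r x ∧ ¬ u x) → P r)
    (h : ∀ x, s x → ∃ u : X → Prop, (∀ᶠ y in NF x, u y) ∧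
      ∀ r, Df r → (∀ y, r y → u y ∧ s y) → P r) : P s := by
  obtain ⟨t, rfl⟩ := hs
  refine loc_ind (fun r => (∀ y, r.sh y → t.sh y) → P r.sh) (fun r hr _ => h0 _ hr)
    (fun r u a b c => h1 _ _ (df_sh r) (df_sh u) c (a fun y e => c y e.1) (b fun y e => c y e.1))
    t (fun x hx => ?_) fun _ e => e
  obtain ⟨u, ⟨_, ⟨v, rfl⟩, h2, h3⟩, h4⟩ := h x hx
  exact ⟨v, h2, fun r hr _ => h4 _ (df_sh r) fun y hy => ⟨h3 y (hr y hy).1, (hr y hy).2⟩⟩

/-- The facts about the displacement cocycles that module K uses. -/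
structure Coc where
  wd : Bool → Wd → X → ℤ
  S : ℕ → X → Prop
  ee : ℕ → Bool
  wd_append : ∀ e w {w' x}, wdom w' x → wd e (w ++ w') x = wd e w (wact w' x) + wd e w' x
  WD : ∀ e {w w' x}, (∀ᶠ y in NF x, wdom w y ∧ wdom w' y ∧ wact w y = wact w' y) →
    wd e w x = wd e w' x
  S_act : ∀ {i w x}, wdom w x → S i x → S i (wact w x)
  S_sep : ∀ {i j x y}, i < 4 → j < 4 → S i x → S j y → x ≠ y → ∃ t, Df t ∧ t x ∧ ¬ t y
  S_inf : ∀ i < 4, {x | S i x}.Infinite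
  FIN : ∀ {i t w}, i < 4 → Df t → (∀ y, t y → wdom w y) →
    (∀ j < i, ∀ y, t y → S j y → wd (ee j) w y = 0) → {y | t y ∧ S i y ∧ wd (ee i) w y ≠ 0}.Finite
  PR : ∀ {i w w' x}, i < 4 → S i x → wdom w x → wdom w' x → wact w x = wact w' x →
    (∀ e, wd e w x = wd e w' x) → ∀ᶠ y in NF x, wact w y = wact w' y
  PR4 : ∀ {w x}, wdom w x → (∀ᶠ y in NF x, ∀ j < 4, S j y → wd (ee j) w y = 0) → wact w x = x →
    ∀ᶠ y in NF x, wact w y = y
  SEP : ∀ {w x}, wdom w x → wact w x ≠ x → ∃ t, Df t ∧ t x ∧ ¬ t (wact w x)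
  ORB : ∀ i < 4, ∃ y0, S i y0 ∧ ∀ z, S i z → ∃ w, wdom w y0 ∧ wact w y0 = z ∧
    ∀ j ≤ i, S j y0 → wd (ee j) w y0 = 0
  BND : ∀ K : Finset (Equiv.Perm Z), (∀ g ∈ K, ∀ x i, ∃ w j, ∀ᶠ y in NF x,
      wdom w y ∧ g (y, i) = (wact w y, j) ∧ ∀ n < 4, S n y → wd (ee n) w y = 0) →
    ∀ z : Z, (MulAction.orbit (Subgroup.closure (K : Set (Equiv.Perm Z))) z).Finite

/-- `w` is a chart of `g` at `z`. -/
def Ch (g : Equiv.Perm Z) (z : Z) (w : Wd) : Prop :=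
  ∃ j, ∀ᶠ y in NF z.1, wdom w y ∧ g (y, z.2) = (wact w y, j)

theorem exists_ch {g : Equiv.Perm Z} (hg : g ∈ GG) (z : Z) : ∃ w, Ch g z w := by
  obtain ⟨t, w, j, h1, h2⟩ := SS.loc_of_mem hg z.1 z.2
  exact ⟨w, j, _, df_sh t, h1, h2⟩

theorem Ch.apply {g z w} (h : Ch g z w) : wdom w z.1 ∧ (g z).1 = wact w z.1 := by
  obtain ⟨j, h⟩ := h
  have := NF_self h
  exact ⟨this.1, congrArg Prod.fst this.2⟩

theorem Ch.mul {g h z w w'} (h1 : Ch h z w) (h2 : Ch g (h z) w') : Ch (g * h) z (w' ++ w) := by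
  obtain ⟨j, h1⟩ := h1
  obtain ⟨j', h2⟩ := h2
  have e := NF_self h1
  have e' : h z = (wact w z.1, j) := e.2
  rw [e'] at h2
  refine ⟨j', ?_⟩
  filter_upwards [h1, ev_act e.1 h2] with y a b
  rw [Equiv.Perm.mul_apply, a.2, b.2, wact_append]
  exact ⟨(wdom_append _ _ _).2 ⟨a.1, b.1⟩, rfl⟩

theorem Ch.near {g : Equiv.Perm Z} {x i w} (h : Ch g (x, i) w) :
    ∀ᶠ y in NF x, Ch g (y, i) w := by
  obtain ⟨j, h⟩ := h
  filter_upwards [NF_ev h] with y hy using ⟨j, hy⟩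

theorem ch_cyc {s : X → Prop} {A B C : Leg} (hs : Df s) (h : Ok s A B C) {x : X} (hx : s x) :
    Ch (cyc s A B C) (A.at x) (B.1 ++ winv A.1) := by
  refine ⟨B.2, ?_⟩
  filter_upwards [(hs.img A.1).ev ⟨x, hx, h.a x hx, rfl⟩]
  rintro _ ⟨y, h1, h2, rfl⟩
  refine ⟨(wdom_append _ _ _).2 ⟨wdom_inv h2, by rw [wact_inv h2]; exact h.b y h1⟩, ?_⟩
  rw [wact_append, wact_inv h2]
  exact cyc_A h h1

theorem ev_not_leg {s : X → Prop} {D : Leg} (hs : Df s) (hD : Dm s D) {z : Z}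
    (h : ∀ y, s y → D.at y ≠ z) : ∀ᶠ x in NF z.1, ∀ y, s y → D.at y ≠ (x, z.2) := by
  by_cases e : D.2 = z.2
  · have : ¬ img D.1 s z.1 := by
      rintro ⟨y, h1, -, h3⟩
      exact h y h1 (Prod.ext h3 e)
    filter_upwards [(hs.img D.1).not.ev this] with x hx y hy q
    exact hx ⟨y, hy, hD y hy, congrArg Prod.fst q⟩
  · exact Eventually.of_forall fun x y _ q => e (congrArg Prod.snd q)

theorem ev_off {s : X → Prop} {A B C : Leg} (hs : Df s) (h : Ok s A B C) {z : Z}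
    (e : Off s A B C z) : ∀ᶠ x in NF z.1, Off s A B C (x, z.2) := by
  filter_upwards [ev_not_leg hs h.a fun y hy => (e y hy).1,
    ev_not_leg hs h.b fun y hy => (e y hy).2.1, ev_not_leg hs h.c fun y hy => (e y hy).2.2]
    with x a b c y hy using ⟨a y hy, b y hy, c y hy⟩

theorem ch_off {s : X → Prop} {A B C : Leg} (hs : Df s) (h : Ok s A B C) {z : Z}
    (e : Off s A B C z) : Ch (cyc s A B C) z [] := by
  refine ⟨z.2, ?_⟩
  filter_upwards [ev_off hs h e] with x hx using ⟨trivial, cyc_off hx⟩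

theorem cyc_GG {s : X → Prop} {A B C : Leg} (hs : Df s) (h : Ok s A B C) : cyc s A B C ∈ GG := by
  obtain ⟨t, rfl⟩ := hs
  exact SS.cyc_mem h

theorem pr_GG {Γ : Type} [Group Γ] {pr : Γ →* Equiv.Perm Z} (L : Lift Γ pr) (g : Γ) :
    pr g ∈ GG := by
  induction g using cs_ind L with
  | h1 s A B C hs h => rw [pr_cs L hs h]; exact cyc_GG hs h
  | h2 => simp
  | h3 x y hx hy => rw [map_mul]; exact mul_mem hx hy
  | h4 x hx => rw [map_inv]; exact inv_mem hx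

theorem finite_leg {s : X → Prop} {A : Leg} (h : Dm s A) {F : Set Z} (hF : F.Finite) :
    {x | s x ∧ A.at x ∈ F}.Finite :=
  Set.Finite.of_finite_image (f := A.at) (hF.subset (by rintro _ ⟨x, hx, rfl⟩; exact hx.2))
    fun _ hx _ hy e => h.inj hx.1 hy.1 e

namespace Coc

variable (c : Coc)

theorem wd_nil (e : Bool) (x : X) : c.wd e [] x = 0 := by
  have := c.wd_append e [] (w' := []) (x := x) trivial
  simpa using this

theorem wd_inv (e : Bool) {w : Wd} {x : X} (h : wdom w x) :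
    c.wd e (winv w) (wact w x) = - c.wd e w x := by
  have h1 : c.wd e (winv w ++ w) x = c.wd e [] x := c.WD e (by
    filter_upwards [ev_dom h] with y hy
    exact ⟨(wdom_append _ _ _).2 ⟨hy, wdom_inv hy⟩, trivial, by simp [wact_inv hy]⟩)
  rw [c.wd_append _ _ h, c.wd_nil] at h1
  linarith

open Classical in
/-- The cocycle of a permutation, read off a chart. -/
noncomputable def gd (e : Bool) (g : Equiv.Perm Z) (z : Z) : ℤ :=
  if h : ∃ w, Ch g z w then c.wd e h.choose z.1 else 0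

theorem gd_eq (e : Bool) {g z w} (h : Ch g z w) : c.gd e g z = c.wd e w z.1 := by
  have h' : ∃ w, Ch g z w := ⟨w, h⟩
  rw [gd, dif_pos h']
  obtain ⟨j, h1⟩ := h'.choose_spec
  obtain ⟨j', h2⟩ := h
  apply c.WD
  filter_upwards [h1, h2] with y a b
  exact ⟨a.1, b.1, congrArg Prod.fst (a.2.symm.trans b.2)⟩

theorem gd_mul (e : Bool) {g h : Equiv.Perm Z} (hg : g ∈ GG) (hh : h ∈ GG) (z : Z) :
    c.gd e (g * h) z = c.gd e g (h z) + c.gd e h z := by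
  obtain ⟨w, h1⟩ := exists_ch hh z
  obtain ⟨w', h2⟩ := exists_ch hg (h z)
  rw [c.gd_eq e (h1.mul h2), c.gd_eq e h1, c.gd_eq e h2, c.wd_append _ _ h1.apply.1, h1.apply.2]

theorem gd_one (e : Bool) (z : Z) : c.gd e 1 z = 0 := by
  rw [c.gd_eq e (w := []) ⟨z.2, Eventually.of_forall fun _ => ⟨trivial, rfl⟩⟩, c.wd_nil]

theorem gd_inv (e : Bool) {g : Equiv.Perm Z} (hg : g ∈ GG) (z : Z) :
    c.gd e g⁻¹ (g z) = - c.gd e g z := by
  have := c.gd_mul e (inv_mem hg) hg z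
  rw [inv_mul_cancel, c.gd_one] at this
  linarith

theorem gd_cyc (e : Bool) {s : X → Prop} {A B C : Leg} (hs : Df s) (h : Ok s A B C) {x : X}
    (hx : s x) : c.gd e (cyc s A B C) (A.at x) = c.wd e B.1 x - c.wd e A.1 x := by
  rw [c.gd_eq e (ch_cyc hs h hx)]
  simp only [Leg.at]
  rw [c.wd_append _ _ (wdom_inv (h.a x hx)), wact_inv (h.a x hx), c.wd_inv e (h.a x hx)]
  ring

theorem gd_off (e : Bool) {s : X → Prop} {A B C : Leg} (hs : Df s) (h : Ok s A B C) {z : Z}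
    (hz : Off s A B C z) : c.gd e (cyc s A B C) z = 0 := by
  rw [c.gd_eq e (ch_off hs h hz), c.wd_nil]

theorem S_perm {g : Equiv.Perm Z} (hg : g ∈ GG) {i : ℕ} {z : Z} (h : c.S i z.1) :
    c.S i (g z).1 := by
  obtain ⟨w, h1⟩ := exists_ch hg z
  rw [h1.apply.2]
  exact c.S_act h1.apply.1 h

theorem S_back {i : ℕ} {w : Wd} {x : X} (h : wdom w x) (h' : c.S i (wact w x)) : c.S i x := by
  have := c.S_act (wdom_inv h) h'
  rwa [wact_inv h] at this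

theorem leg_chart {g : Equiv.Perm Z} (hg : g ∈ GG) (A : Leg) {x : X} (h : wdom A.1 x) :
    ∃ A' : Leg, ∀ᶠ y in NF x, wdom A'.1 y ∧ g (A.at y) = A'.at y ∧
      ∀ e, c.wd e A'.1 y = c.gd e g (A.at y) + c.wd e A.1 y := by
  obtain ⟨w, hw⟩ := exists_ch hg (A.at x)
  have h1 := ev_act h (Ch.near hw)
  obtain ⟨j, hj⟩ := hw
  refine ⟨(w ++ A.1, j), ?_⟩
  filter_upwards [ev_dom h, h1, ev_act h hj] with y a b d
  refine ⟨(wdom_append _ _ _).2 ⟨a, d.1⟩, ?_, fun e => ?_⟩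
  · simp only [Leg.at, wact_append]; exact d.2
  · rw [c.wd_append _ _ a, show c.gd e g (A.at y) = _ from c.gd_eq e b]
    rfl

/-- Admissible triples of level `n`. -/
def Adm (n : ℕ) (s : X → Prop) (A B C : Leg) : Prop :=
  ∀ j < n, ∀ x, s x → c.S j x →
    c.wd (c.ee j) A.1 x = c.wd (c.ee j) B.1 x ∧ c.wd (c.ee j) B.1 x = c.wd (c.ee j) C.1 x

theorem Adm.mono {c : Coc} {n s s' A B C} (h : c.Adm n s A B C) (e : ∀ x, s' x → s x) :
    c.Adm n s' A B C := fun j hj x hx => h j hj x (e x hx)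

theorem Adm.rot {c : Coc} {n s A B C} (h : c.Adm n s A B C) : c.Adm n s B C A :=
  fun j hj x hx hS => ⟨(h j hj x hx hS).2, ((h j hj x hx hS).1.trans (h j hj x hx hS).2).symm⟩

theorem Adm.rev {c : Coc} {n s A B C} (h : c.Adm n s A B C) : c.Adm n s C B A :=
  fun j hj x hx hS => ⟨(h j hj x hx hS).2.symm, (h j hj x hx hS).1.symm⟩

theorem FINd {i : ℕ} (hi : i < 4) {s : X → Prop} (hs : Df s) {w w' : Wd}
    (h1 : ∀ x, s x → wdom w x) (h2 : ∀ x, s x → wdom w' x)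
    (h : ∀ j < i, ∀ x, s x → c.S j x → c.wd (c.ee j) w x = c.wd (c.ee j) w' x) :
    {x | s x ∧ c.S i x ∧ c.wd (c.ee i) w x ≠ c.wd (c.ee i) w' x}.Finite := by
  have e : ∀ e x, s x → c.wd e (w' ++ winv w) (wact w x) = c.wd e w' x - c.wd e w x := by
    intro e x hx
    rw [c.wd_append _ _ (wdom_inv (h1 x hx)), wact_inv (h1 x hx), c.wd_inv e (h1 x hx)]; ring
  have := c.FIN (w := w' ++ winv w) hi (hs.img w) (by
    rintro _ ⟨x, a, b, rfl⟩
    exact (wdom_append _ _ _).2 ⟨wdom_inv b, by rw [wact_inv b]; exact h2 x a⟩) (by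
    rintro j hj _ ⟨x, a, b, rfl⟩ hS
    rw [e _ x a, h j hj x a (c.S_back b hS), sub_self])
  refine Set.Finite.of_finite_image (f := wact w) (this.subset ?_)
    fun x hx y hy q => wact_inj (h1 x hx.1) (h1 y hy.1) q
  rintro _ ⟨x, ⟨a, b, d⟩, rfl⟩
  exact ⟨⟨x, a, h1 x a, rfl⟩, c.S_act (h1 x a) b, by rw [e _ x a]; exact sub_ne_zero.2 d.symm⟩

theorem isolate {i j : ℕ} (hi : i < 4) (hj : j < 4) {x : X} (hx : c.S i x) {F : Set X}
    (hF : F.Finite) (h : ∀ y ∈ F, c.S j y) : ∀ᶠ y in NF x, y ∈ F → y = x := by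
  have : ∀ᶠ y in NF x, ∀ y' ∈ F, y' ≠ x → y ≠ y' := by
    rw [eventually_all_finite hF]
    intro y' hy'
    by_cases e : y' = x
    · simp [e]
    · obtain ⟨t, a1, a2, a3⟩ := c.S_sep hi hj hx (h y' hy') (Ne.symm e)
      filter_upwards [a1.ev a2] with y hy _ q using a3 (q ▸ hy)
  filter_upwards [this] with y hy hyF
  by_contra e
  exact hy y hyF e rfl

theorem ev_flat {i : ℕ} (hi : i < 4) {x : X} (hx : c.S i x) {w w' : Wd} (h1 : wdom w x)
    (h2 : wdom w' x) (n : ℕ) (hn : n ≤ 4)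
    (h : ∀ j < n, c.S j x → c.wd (c.ee j) w x = c.wd (c.ee j) w' x) :
    ∀ᶠ y in NF x, ∀ j < n, c.S j y → c.wd (c.ee j) w y = c.wd (c.ee j) w' y := by
  induction n with
  | zero => simp
  | succ n ih =>
    obtain ⟨t, a1, a2, a3⟩ := ev_NF.1 ((ih (by omega) fun j hj => h j (by omega)).and
      ((ev_dom h1).and (ev_dom h2)))
    have hF := c.FINd (i := n) (by omega) a1 (fun y hy => (a3 y hy).2.1) (fun y hy => (a3 y hy).2.2)
      fun j hj y hy => (a3 y hy).1 j hj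
    filter_upwards [a1.ev a2, c.isolate hi (by omega) hx hF fun y hy => hy.2.1] with y b1 b2 j hj hS
    rcases Nat.lt_succ_iff_lt_or_eq.1 hj with hj | rfl
    · exact (a3 y b1).1 j hj hS
    · by_contra e
      have := b2 ⟨b1, hS, e⟩
      subst this
      exact e (h j hj hS)

variable {Γ : Type} [Group Γ] {pr : Γ →* Equiv.Perm Z} (L : Lift Γ pr)

/-- The filtration of the lifted group. -/
def GN (n : ℕ) : Subgroup Γ :=
  Subgroup.closure {g | ∃ s A B C, Df s ∧ Ok s A B C ∧ c.Adm n s A B C ∧ g = cs L s A B C}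

theorem cs_mem {n s A B C} (hs : Df s) (h : Ok s A B C) (ha : c.Adm n s A B C) :
    cs L s A B C ∈ c.GN L n := Subgroup.subset_closure ⟨s, A, B, C, hs, h, ha, rfl⟩

theorem GN_zero : c.GN L 0 = ⊤ := by
  rw [eq_top_iff]
  intro g _
  induction g using cs_ind L with
  | h1 s A B C hs h => exact c.cs_mem L hs h fun j hj => absurd hj (by omega)
  | h2 => exact one_mem _
  | h3 x y hx hy => exact mul_mem (hx trivial) (hy trivial)
  | h4 x hx => exact inv_mem (hx trivial)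

theorem GN_succ_le (n : ℕ) : c.GN L (n + 1) ≤ c.GN L n :=
  Subgroup.closure_mono fun _ ⟨s, A, B, C, h1, h2, h3, h4⟩ =>
    ⟨s, A, B, C, h1, h2, fun j hj => h3 j (by omega), h4⟩

theorem gd_cyc_cases (e : Bool) {s : X → Prop} {A B C : Leg} (hs : Df s) (h : Ok s A B C) {z : Z}
    (hz : c.gd e (cyc s A B C) z ≠ 0) : ∃ x, s x ∧ (z = A.at x ∨ z = B.at x ∨ z = C.at x) ∧
      ¬ (c.wd e A.1 x = c.wd e B.1 x ∧ c.wd e B.1 x = c.wd e C.1 x) := by
  rcases z_cases s A B C z with ⟨x, hx, rfl⟩ | ⟨x, hx, rfl⟩ | ⟨x, hx, rfl⟩ | e'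
  · rw [c.gd_cyc e hs h hx] at hz
    exact ⟨x, hx, Or.inl rfl, fun q => hz (by omega)⟩
  · rw [cyc_rot h, c.gd_cyc e hs h.rot hx] at hz
    exact ⟨x, hx, Or.inr (Or.inl rfl), fun q => hz (by omega)⟩
  · rw [cyc_rot h, cyc_rot h.rot, c.gd_cyc e hs h.rot.rot hx] at hz
    exact ⟨x, hx, Or.inr (Or.inr rfl), fun q => hz (by omega)⟩
  · exact absurd (c.gd_off e hs h e') hz

theorem S_of_leg {i : ℕ} {s : X → Prop} {A B C : Leg} (h : Ok s A B C) {x : X} (hx : s x) {z : Z}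
    (e : z = A.at x ∨ z = B.at x ∨ z = C.at x) (hS : c.S i z.1) : c.S i x := by
  rcases e with rfl | rfl | rfl
  exacts [c.S_back (h.a x hx) hS, c.S_back (h.b x hx) hS, c.S_back (h.c x hx) hS]

theorem GN_flat {n : ℕ} {γ : Γ} (hγ : γ ∈ c.GN L n) :
    ∀ j < n, ∀ z : Z, c.S j z.1 → c.gd (c.ee j) (pr γ) z = 0 := by
  intro j hj
  induction hγ using Subgroup.closure_induction'' with
  | mem g hg =>
    obtain ⟨s, A, B, C, h1, h2, h3, rfl⟩ := hg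
    intro z hz
    by_contra e
    rw [pr_cs L h1 h2] at e
    obtain ⟨x, hx, a, b⟩ := c.gd_cyc_cases _ h1 h2 e
    exact b (h3 j hj x hx (c.S_of_leg h2 hx a hz))
  | inv_mem g hg =>
    obtain ⟨s, A, B, C, h1, h2, h3, rfl⟩ := hg
    intro z hz
    by_contra e
    rw [← cs_rev L h1 h2, pr_cs L h1 h2.rev] at e
    obtain ⟨x, hx, a, b⟩ := c.gd_cyc_cases _ h1 h2.rev e
    exact b (h3.rev j hj x hx (c.S_of_leg h2.rev hx a hz))
  | one => intro z _; rw [map_one, c.gd_one]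
  | mul g h _ _ hg hh =>
    intro z hz
    rw [map_mul, c.gd_mul _ (pr_GG L g) (pr_GG L h), hg _ (c.S_perm (pr_GG L h) hz), hh z hz]
    rfl

theorem bad_finite {i : ℕ} (hi : i < 4) {s : X → Prop} {A B C : Leg} (hs : Df s) (h : Ok s A B C)
    (ha : c.Adm i s A B C) : {x | s x ∧ c.S i x ∧ ¬ (c.wd (c.ee i) A.1 x = c.wd (c.ee i) B.1 x ∧
      c.wd (c.ee i) B.1 x = c.wd (c.ee i) C.1 x)}.Finite := by
  refine ((c.FINd hi hs h.a h.b fun j hj x a b => (ha j hj x a b).1).union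
    (c.FINd hi hs h.b h.c fun j hj x a b => (ha j hj x a b).2)).subset fun x hx => ?_
  rcases not_and_or.1 hx.2.2 with e | e
  exacts [Or.inl ⟨hx.1, hx.2.1, e⟩, Or.inr ⟨hx.1, hx.2.1, e⟩]

theorem GN_fin {i : ℕ} (hi : i < 4) {γ : Γ} (hγ : γ ∈ c.GN L i) :
    {z : Z | c.S i z.1 ∧ c.gd (c.ee i) (pr γ) z ≠ 0}.Finite := by
  have k : ∀ s A B C, Df s → Ok s A B C → c.Adm i s A B C →
      {z : Z | c.S i z.1 ∧ c.gd (c.ee i) (pr (cs L s A B C)) z ≠ 0}.Finite := by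
    intro s A B C h1 h2 h3
    have hF := c.bad_finite hi h1 h2 h3
    refine ((hF.image A.at).union ((hF.image B.at).union (hF.image C.at))).subset fun z hz => ?_
    have e := hz.2
    rw [pr_cs L h1 h2] at e
    obtain ⟨x, hx, a, b⟩ := c.gd_cyc_cases _ h1 h2 e
    have hm := (⟨hx, c.S_of_leg h2 hx a hz.1, b⟩ : _ ∧ _ ∧ _)
    rcases a with rfl | rfl | rfl
    exacts [Or.inl ⟨x, hm, rfl⟩, Or.inr (Or.inl ⟨x, hm, rfl⟩), Or.inr (Or.inr ⟨x, hm, rfl⟩)]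
  induction hγ using Subgroup.closure_induction'' with
  | mem g hg =>
    obtain ⟨s, A, B, C, h1, h2, h3, rfl⟩ := hg
    exact k s A B C h1 h2 h3
  | inv_mem g hg =>
    obtain ⟨s, A, B, C, h1, h2, h3, rfl⟩ := hg
    rw [← cs_rev L h1 h2]
    exact k s C B A h1 h2.rev h3.rev
  | one => simp [c.gd_one]
  | mul g h _ _ hg hh =>
    refine ((hg.preimage (pr h).injective.injOn).union hh).subset fun z hz => ?_
    have e := hz.2
    rw [map_mul, c.gd_mul _ (pr_GG L g) (pr_GG L h)] at e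
    by_cases q : c.gd (c.ee i) (pr h) z = 0
    · exact Or.inl ⟨c.S_perm (pr_GG L h) hz.1, fun q' => e (by rw [q, q']; rfl)⟩
    · exact Or.inr ⟨hz.1, q⟩

theorem conj_mem (n : ℕ) (γ : Γ) {s : X → Prop} {A B C : Leg} (hs : Df s) (h : Ok s A B C)
    (ha : ∀ j < n, ∀ x, s x → c.S j x →
      c.gd (c.ee j) (pr γ) (A.at x) + c.wd (c.ee j) A.1 x =
        c.gd (c.ee j) (pr γ) (B.at x) + c.wd (c.ee j) B.1 x ∧
      c.gd (c.ee j) (pr γ) (B.at x) + c.wd (c.ee j) B.1 x =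
        c.gd (c.ee j) (pr γ) (C.at x) + c.wd (c.ee j) C.1 x) :
    γ * cs L s A B C * γ⁻¹ ∈ c.GN L n := by
  refine df_ind (fun r => γ * cs L r A B C * γ⁻¹ ∈ c.GN L n) hs (fun r hr => ?_)
    (fun r u a b d e1 e2 => ?_) fun x hx => ?_
  · simp only [cs_empty L hr]; simp
  · rw [cs_add L a (h.mono d) b]
    simpa [mul_assoc] using mul_mem e1 e2
  obtain ⟨A', hA⟩ := c.leg_chart (pr_GG L γ) A (h.a x hx)
  obtain ⟨B', hB⟩ := c.leg_chart (pr_GG L γ) B (h.b x hx)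
  obtain ⟨C', hC⟩ := c.leg_chart (pr_GG L γ) C (h.c x hx)
  refine ⟨_, hA.and (hB.and hC), fun r hr e => ?_⟩
  have o := h.mono fun y hy => (e y hy).2
  have dj : ∀ {D E D' E' : Leg}, Dj r D E → (∀ y, r y → pr γ (D.at y) = D'.at y) →
      (∀ y, r y → pr γ (E.at y) = E'.at y) → Dj r D' E' := fun q a b x y hx hy q' =>
    q x y hx hy ((pr γ).injective (by rw [a x hx, b y hy, q']))
  have a1 := fun y hy => (e y hy).1.1.2.1
  have a2 := fun y hy => (e y hy).1.2.1.2.1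
  have a3 := fun y hy => (e y hy).1.2.2.2.1
  have o' : Ok r A' B' C' := ⟨fun y hy => (e y hy).1.1.1, fun y hy => (e y hy).1.2.1.1,
    fun y hy => (e y hy).1.2.2.1, dj o.ab a1 a2, dj o.bc a2 a3, dj o.ac a1 a3⟩
  rw [cs_conj' L hr o o' γ a1 a2 a3]
  refine c.cs_mem L hr o' fun j hj y hy hS => ?_
  rw [(e y hy).1.1.2.2, (e y hy).1.2.1.2.2, (e y hy).1.2.2.2.2]
  exact ha j hj y (e y hy).2 hS

end Coc

end Vale.Agent.P196.Ker
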