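import Vale.Agent.P196.KerBase

/-! The bottom of the filtration meets the kernel trivially. -/

namespace Vale.Agent.P196.Ker

open Filter

/-- A base predicate with three legs. -/
structure Tup where
  s : X → Prop
  A : Leg
  B : Leg
  C : Leg

/-- The permutation of a tuple. -/
noncomputable def Tup.p (T : Tup) : Equiv.Perm Z := cyc T.s T.A T.B T.C

/-- Definable subsets of `Z`. -/
def DfZ (W : Z → Prop) : Prop := ∀ j, Df fun x => W (x, j)

theorem DfZ.leg {W : Z → Prop} (h : DfZ W) {s : X → Prop} {A : Leg} (hs : Df s) (hA : Dm s A) :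
    Df fun x => s x ∧ W (A.at x) :=
  (hs.and ((h A.2).pre A.1)).congr fun x => ⟨fun e => ⟨e.1, e.2.2⟩, fun e => ⟨e.1, hA x e.1, e.2⟩⟩

theorem dfZ_img {s : X → Prop} {D : Leg} (hs : Df s) (hD : Dm s D) :
    DfZ fun z => ∃ y, s y ∧ D.at y = z := fun j =>
  ((hs.img D.1).and (df_const (D.2 = j))).congr fun x =>
    ⟨fun ⟨⟨y, a, _, b⟩, e⟩ => ⟨y, a, Prod.ext b e⟩,
      fun ⟨y, a, b⟩ => ⟨⟨y, a, hD y a, congrArg Prod.fst b⟩, congrArg Prod.snd b⟩⟩

theorem list_prod_split {Γ α : Type} [Group Γ] (l : List α) (f g h : α → Γ)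
    (h1 : ∀ T ∈ l, f T = g T * h T) (h2 : ∀ T ∈ l, ∀ T' ∈ l, Commute (h T) (g T')) :
    (l.map f).prod = (l.map g).prod * (l.map h).prod := by
  induction l with
  | nil => simp
  | cons T l ih =>
    have hc : Commute (h T) (l.map g).prod := Commute.list_prod_right _ _ fun y hy => by
      obtain ⟨T', hT', rfl⟩ := List.mem_map.1 hy
      exact h2 T (by simp) T' (by simp [hT'])
    simp only [List.map_cons, List.prod_cons]
    rw [ih (fun T hT => h1 T (by simp [hT])) (fun T hT T' hT' => h2 T (by simp [hT]) T'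
      (by simp [hT'])), h1 T (by simp), mul_assoc, ← mul_assoc (h T), hc.eq, mul_assoc, mul_assoc]

namespace Coc

variable (c : Coc)

include c in
theorem ev_dj {A B : Leg} {x : X} (hA : wdom A.1 x) (hB : wdom B.1 x) (h : A.at x ≠ B.at x) :
    ∀ᶠ s in SF x, Dj s A B := by
  by_cases e : A.2 = B.2
  swap
  · exact Eventually.of_forall fun _ => dj_of_ne e
  have h1 : wact (B.1 ++ winv A.1) (wact A.1 x) = wact B.1 x := by rw [wact_append, wact_inv hA]
  obtain ⟨t, a1, a2, a3⟩ := c.SEP (w := B.1 ++ winv A.1) (x := wact A.1 x)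
    ((wdom_append _ _ _).2 ⟨wdom_inv hA, by rwa [wact_inv hA]⟩)
    (by rw [h1]; exact fun q => h (Prod.ext q.symm e))
  rw [h1] at a3
  filter_upwards [SF_all (ev_act hA (a1.ev a2)), SF_all (ev_act hB (a1.not.ev a3))]
    with s b1 b2 y y' hy hy' q
  have q' : wact A.1 y = wact B.1 y' := congrArg Prod.fst q
  exact b2 y' hy' (q' ▸ b1 y hy)

variable {Γ : Type} [Group Γ] {pr : Γ →* Equiv.Perm Z} (L : Lift Γ pr)

theorem fix_near {γ : Γ} (hγ : γ ∈ c.GN L 4) {x : X} {j : Sh} (h : pr γ (x, j) = (x, j)) :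
    ∀ᶠ y in NF x, pr γ (y, j) = (y, j) := by
  obtain ⟨w, hw⟩ := exists_ch (pr_GG L γ) (x, j)
  have h1 := hw.apply
  rw [h] at h1
  have h2 := c.PR4 h1.1 (by
    filter_upwards [hw.near] with y hy n hn hS
    rw [← c.GN_flat L hγ n hn (y, j) hS, c.gd_eq _ hy]) h1.2.symm
  obtain ⟨j', h3⟩ := hw
  have h4 : j = j' := congrArg Prod.snd (h.symm.trans (NF_self h3).2)
  filter_upwards [h2, h3] with y a b
  rw [b.2, a, h4]

/-- Valid tuples of the bottom level. -/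
def V4 (T : Tup) : Prop := Df T.s ∧ Ok T.s T.A T.B T.C ∧ c.Adm 4 T.s T.A T.B T.C

theorem flat_chart {T : Tup} (hT : c.V4 T) (x : X) (i : Sh) : ∃ w j, ∀ᶠ y in NF x,
    wdom w y ∧ T.p (y, i) = (wact w y, j) ∧ ∀ n < 4, c.S n y → c.wd (c.ee n) w y = 0 := by
  obtain ⟨w, hw⟩ := exists_ch (cyc_GG hT.1 hT.2.1) (x, i)
  have h1 := hw.near
  obtain ⟨j, h2⟩ := hw
  refine ⟨w, j, ?_⟩
  filter_upwards [h1, h2] with y a b
  refine ⟨b.1, b.2, fun n hn hS => ?_⟩
  by_contra e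
  rw [← show c.gd _ _ (y, i) = _ from c.gd_eq _ a] at e
  obtain ⟨x', h3, h4, h5⟩ := c.gd_cyc_cases _ hT.1 hT.2.1 e
  exact h5 (hT.2.2 n hn x' h3 (c.S_of_leg hT.2.1 h3 h4 hS))

end Coc

section

variable {Γ : Type} [Group Γ] {pr : Γ →* Equiv.Perm Z} (L : Lift Γ pr)

/-- The part of a lifted cycle inside `W`. -/
noncomputable def cut (W : Z → Prop) (T : Tup) : Γ :=
  cs L (fun x => T.s x ∧ W (T.A.at x)) T.A T.B T.C

/-- Invariance under the permutations of a list of tuples. -/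
def Inv (l : List Tup) (W : Z → Prop) : Prop := ∀ T ∈ l, ∀ z, W (T.p z) ↔ W z

theorem inv_legs {T : Tup} (h : Ok T.s T.A T.B T.C) {W : Z → Prop} (hW : ∀ z, W (T.p z) ↔ W z)
    {x : X} (hx : T.s x) : (W (T.B.at x) ↔ W (T.A.at x)) ∧ (W (T.C.at x) ↔ W (T.A.at x)) := by
  have h1 := hW (T.A.at x)
  have h2 := hW (T.B.at x)
  rw [Tup.p, cyc_A h hx] at h1
  rw [Tup.p, cyc_B h hx] at h2
  exact ⟨h1, h2.trans h1⟩

theorem pr_cut_out {T : Tup} (hs : Df T.s) (h : Ok T.s T.A T.B T.C) {W : Z → Prop} (hd : DfZ W)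
    (hW : ∀ z, W (T.p z) ↔ W z) {z : Z} (hz : ¬ W z) : pr (cut L W T) z = z := by
  rw [cut, pr_cs L (hd.leg hs h.a) (h.mono fun _ e => e.1)]
  refine cyc_off fun x hx => ⟨?_, ?_, ?_⟩ <;> rintro rfl
  exacts [hz hx.2, hz ((inv_legs h hW hx.1).1.2 hx.2), hz ((inv_legs h hW hx.1).2.2 hx.2)]

theorem pr_cut_in {T : Tup} (hs : Df T.s) (h : Ok T.s T.A T.B T.C) {W : Z → Prop} (hd : DfZ W)
    (hW : ∀ z, W (T.p z) ↔ W z) {z : Z} (hz : W z) : pr (cut L W T) z = T.p z := by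
  have o := h.mono (s := fun x => T.s x ∧ W (T.A.at x)) fun _ e => e.1
  rw [cut, pr_cs L (hd.leg hs h.a) o, Tup.p]
  rcases z_cases T.s T.A T.B T.C z with ⟨x, hx, rfl⟩ | ⟨x, hx, rfl⟩ | ⟨x, hx, rfl⟩ | e
  · rw [cyc_A h hx, cyc_A o ⟨hx, hz⟩]
  · rw [cyc_B h hx, cyc_B o ⟨hx, (inv_legs h hW hx).1.1 hz⟩]
  · rw [cyc_C h hx, cyc_C o ⟨hx, (inv_legs h hW hx).2.1 hz⟩]
  · rw [cyc_off e, cyc_off fun x hx => e x hx.1]

variable (c : Coc) {l : List Tup} (hl : ∀ T ∈ l, c.V4 T)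
include hl

theorem res_add {W V : Z → Prop} (h1 : DfZ W) (h2 : DfZ V) (i1 : Inv l W) (i2 : Inv l V) :
    (l.map (cut L W)).prod =
      (l.map (cut L fun z => W z ∧ V z)).prod * (l.map (cut L fun z => W z ∧ ¬ V z)).prod := by
  refine list_prod_split l _ _ _ (fun T hT => ?_) fun T hT T' hT' => ?_
  · obtain ⟨a, b, -⟩ := hl T hT
    rw [cut, cs_add L (h1.leg a b.a) (b.mono fun _ e => e.1) (h2.leg a b.a), cut, cut]
    congr 1 <;> exact cs_congr L fun x => by tauto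
  · obtain ⟨a, b, -⟩ := hl T hT
    obtain ⟨a', b', -⟩ := hl T' hT'
    have d1 : DfZ fun z => W z ∧ V z := fun j => (h1 j).and (h2 j)
    have d2 : DfZ fun z => W z ∧ ¬ V z := fun j => (h1 j).and (h2 j).not
    have k : ∀ z, V z → pr (cut L (fun z => W z ∧ ¬ V z) T) z = z := fun z hz =>
      pr_cut_out L a b d2 (fun z => by rw [i1 T hT, i2 T hT]) fun e => e.2 hz
    exact cs_comm L (d1.leg a' b'.a) (b'.mono fun _ e => e.1) _ (fun x hx => k _ hx.2.2)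
      (fun x hx => k _ ((inv_legs b' (i2 T' hT') hx.1).1.2 hx.2.2))
      fun x hx => k _ ((inv_legs b' (i2 T' hT') hx.1).2.2 hx.2.2)

theorem pr_res {W : Z → Prop} (h1 : DfZ W) (i1 : Inv l W) {z : Z} (hz : W z) :
    pr (l.map (cut L W)).prod z = (l.map Tup.p).prod z ∧ W ((l.map Tup.p).prod z) := by
  induction l with
  | nil => simpa using hz
  | cons T l ih =>
    obtain ⟨e1, e2⟩ := ih (fun T hT => hl T (by simp [hT])) (fun T hT => i1 T (by simp [hT]))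
    obtain ⟨a, b, -⟩ := hl T (by simp)
    simp only [List.map_cons, List.prod_cons, map_mul, Equiv.Perm.mul_apply]
    rw [e1, pr_cut_in L a b h1 (i1 T (by simp)) e2]
    exact ⟨rfl, (i1 T (by simp) _).2 e2⟩

theorem local_good (hp : (l.map Tup.p).prod = 1) (x0 : X) (j0 : Sh) :
    ∃ W0, DfZ W0 ∧ Inv l W0 ∧ W0 (x0, j0) ∧ ∀ W, DfZ W → Inv l W → (∀ z, W z → W0 z) →
      (l.map (cut L W)).prod = 1 := by
  classical
  set H := Subgroup.closure ((l.map Tup.p).toFinset : Set (Equiv.Perm Z)) with hH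
  have hfin := c.BND (l.map Tup.p).toFinset (fun g hg => by
    obtain ⟨T, hT, rfl⟩ := List.mem_map.1 (List.mem_toFinset.1 hg)
    exact c.flat_chart (hl T hT)) (x0, j0)
  have hpH : ∀ T ∈ l, T.p ∈ H := fun T hT =>
    Subgroup.subset_closure (List.mem_toFinset.2 (List.mem_map_of_mem hT))
  have hHG : H ≤ (c.GN L 4).map pr := by
    rw [hH, Subgroup.closure_le]
    intro g hg
    obtain ⟨T, hT, rfl⟩ := List.mem_map.1 (List.mem_toFinset.1 hg)
    obtain ⟨a, b, d⟩ := hl T hT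
    exact ⟨_, c.cs_mem L a b d, pr_cs L a b⟩
  set F := hfin.toFinset
  have hF : ∀ a, a ∈ F ↔ ∃ g ∈ H, g (x0, j0) = a := fun a => by
    simp only [F, Set.Finite.mem_toFinset, MulAction.mem_orbit_iff]
    exact ⟨fun ⟨g, e⟩ => ⟨g.1, g.2, e⟩, fun ⟨g, h, e⟩ => ⟨⟨g, h⟩, e⟩⟩
  have hFm : ∀ g ∈ H, ∀ a ∈ F, g a ∈ F := fun g hg a ha => by
    obtain ⟨g', h1, rfl⟩ := (hF a).1 ha
    exact (hF _).2 ⟨g * g', mul_mem hg h1, rfl⟩
  have hch : ∀ a ∈ F, ∃ g ∈ H, ∃ D : Leg, g (x0, j0) = a ∧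
      ∀ᶠ y in NF x0, wdom D.1 y ∧ g (y, j0) = D.at y := by
    intro a ha
    obtain ⟨g, h1, h2⟩ := (hF a).1 ha
    obtain ⟨γ, -, e⟩ := hHG h1
    obtain ⟨w, j, h3⟩ := exists_ch (e ▸ pr_GG L γ : g ∈ GG) (x0, j0)
    exact ⟨g, h1, (w, j), h2, h3⟩
  choose! g hgH Lg hg0 hgL using hch
  have hL0 : ∀ a ∈ F, (Lg a).at x0 = a := fun a ha => by rw [← (NF_self (hgL a ha)).2, hg0 a ha]
  have e2 : ∀ᶠ s in SF x0, ∀ a ∈ F, ∀ y, s y → wdom (Lg a).1 y ∧ g a (y, j0) = (Lg a).at y :=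
    (eventually_all_finset F).2 fun a ha => SF_all (hgL a ha)
  have e3 : ∀ᶠ s in SF x0, ∀ a ∈ F, ∀ b ∈ F, a ≠ b → Dj s (Lg a) (Lg b) :=
    (eventually_all_finset F).2 fun a ha => (eventually_all_finset F).2 fun b hb => by
      by_cases e : a = b
      · simp [e]
      · filter_upwards [c.ev_dj (NF_self (hgL a ha)).1 (NF_self (hgL b hb)).1
          (by rwa [hL0 a ha, hL0 b hb])] with s hs _ using hs
  have e4 : ∀ᶠ s in SF x0, ∀ T ∈ l.toFinset, ∀ a ∈ F, ∀ y, s y →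
      T.p ((Lg a).at y) = (Lg (T.p a)).at y :=
    (eventually_all_finset _).2 fun T hT => (eventually_all_finset F).2 fun a ha => by
      have hT' := hpH T (List.mem_toFinset.1 hT)
      have hb := hFm _ hT' a ha
      obtain ⟨γ, h1, e⟩ := hHG (mul_mem (inv_mem (hgH _ hb)) (mul_mem hT' (hgH a ha)))
      have h2 := c.fix_near L h1 (x := x0) (j := j0) (by
        rw [e, Equiv.Perm.mul_apply, Equiv.Perm.mul_apply, hg0 a ha, Equiv.Perm.inv_eq_iff_eq,
          hg0 _ hb])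
      refine SF_all ?_
      filter_upwards [h2, hgL a ha, hgL _ hb] with y q1 q2 q3
      rw [e, Equiv.Perm.mul_apply, Equiv.Perm.mul_apply, Equiv.Perm.inv_eq_iff_eq] at q1
      rw [← q2.2, q1, q3.2]
  have e5 : ∀ᶠ s in SF x0, ∀ T ∈ l.toFinset, ∀ a ∈ F,
      (∀ y, s y → ∃ x, T.s x ∧ T.A.at x = (Lg a).at y) ∨
      (∀ y, s y → ¬ ∃ x, T.s x ∧ T.A.at x = (Lg a).at y) :=
    (eventually_all_finset _).2 fun T hT => (eventually_all_finset F).2 fun a ha => by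
      obtain ⟨q1, q2, -⟩ := hl T (List.mem_toFinset.1 hT)
      have d := (dfZ_img q1 q2.a).leg (df_dom (Lg a).1) fun _ e => e
      by_cases e : ∃ x, T.s x ∧ T.A.at x = (Lg a).at x0
      · filter_upwards [SF_all (d.ev ⟨(NF_self (hgL a ha)).1, e⟩)] with s hs
        exact Or.inl fun y hy => (hs y hy).2
      · filter_upwards [SF_all (d.not.ev (x := x0) fun q => e q.2), SF_all (hgL a ha)] with s hs hs'
        exact Or.inr fun y hy q => hs y hy ⟨(hs' y hy).1, q⟩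
  obtain ⟨s, ⟨hs, hs0⟩, h2, h3, h4, h5⟩ := SF_ex ((SF_df x0).and (e2.and (e3.and (e4.and e5))))
  have hz0 : (x0, j0) ∈ F := (hF _).2 ⟨1, one_mem _, rfl⟩
  refine ⟨fun z => ∃ a ∈ F, ∃ y, s y ∧ (Lg a).at y = z, fun j => df_exists F fun a ha =>
    dfZ_img hs (fun y hy => (h2 a ha y hy).1) j, fun T hT z => ⟨?_, ?_⟩,
    ⟨_, hz0, x0, hs0, hL0 _ hz0⟩, fun W hW iW hsub => ?_⟩
  · rintro ⟨b, hb, y, hy, e⟩
    have ha := hFm _ (inv_mem (hpH T hT)) b hb
    refine ⟨_, ha, y, hy, T.p.injective ?_⟩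
    rw [h4 T (List.mem_toFinset.2 hT) _ ha y hy, p_app_inv, e]
  · rintro ⟨a, ha, y, hy, rfl⟩
    exact ⟨_, hFm _ (hpH T hT) a ha, y, hy, (h4 T (List.mem_toFinset.2 hT) a ha y hy).symm⟩
  have iH : ∀ h ∈ H, ∀ z, W (h z) ↔ W z := by
    intro h hh
    induction hh using Subgroup.closure_induction with
    | mem h hh =>
      obtain ⟨T, hT, rfl⟩ := List.mem_map.1 (List.mem_toFinset.1 hh)
      exact iW T hT
    | one => simp
    | mul h h' _ _ a b => intro z; rw [Equiv.Perm.mul_apply, a, b]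
    | inv h _ a => intro z; rw [← a, p_app_inv]
  have hWL : ∀ a ∈ F, ∀ y, s y → (W ((Lg a).at y) ↔ W (y, j0)) := fun a ha y hy => by
    rw [← (h2 a ha y hy).2, iH _ (hgH a ha)]
  let s' : X → Prop := fun y => s y ∧ W (y, j0)
  have hs' : Df s' := hs.and (hW j0)
  by_cases hne : ∃ x1, s' x1
  swap
  · refine List.prod_eq_one fun q hq => ?_
    obtain ⟨T, -, rfl⟩ := List.mem_map.1 hq
    refine cs_empty L fun x hx => ?_
    obtain ⟨a, ha, y, hy, e⟩ := hsub _ hx.2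
    exact hne ⟨y, hy, (hWL a ha y hy).1 (e ▸ hx.2)⟩
  obtain ⟨x1, hx1⟩ := hne
  have hm : ∀ a ∈ F, Dm s' (Lg a) := fun a ha y hy => (h2 a ha y hy.1).1
  have hj : ∀ a ∈ F, ∀ b ∈ F, a ≠ b → Dj s' (Lg a) (Lg b) := fun a ha b hb e =>
    (h3 a ha b hb e).mono fun _ q => q.1
  refine HF_inj L hs' hx1 Lg F hm hj (Subgroup.list_prod_mem _ fun q hq => ?_) fun a ha => ?_
  swap
  · rw [(pr_res L c hl hW iW ((hWL a ha x1 hx1.1).2 hx1.2)).1, hp]; rfl
  obtain ⟨T, hT, rfl⟩ := List.mem_map.1 hq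
  obtain ⟨q1, q2, -⟩ := hl T hT
  have piece : ∀ a ∈ F, cs L (fun x => T.s x ∧ ∃ y, s' y ∧ (Lg a).at y = T.A.at x) T.A T.B T.C ∈
      HF L s' Lg F := by
    intro a ha
    rcases h5 T (List.mem_toFinset.2 hT) a ha with e | e
    swap
    · rw [cs_empty L fun x ⟨b1, y, b2, b3⟩ => e y b2.1 ⟨x, b1, b3.symm⟩]
      exact one_mem _
    choose! f hf1 hf2 using e
    have hb := hFm _ (hpH T hT) a ha
    have hc := hFm _ (hpH T hT) _ hb
    have eB : ∀ y, s y → (Lg (T.p a)).at y = T.B.at (f y) := fun y hy => by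
      rw [← h4 T (List.mem_toFinset.2 hT) a ha y hy, ← hf2 y hy, Tup.p, cyc_A q2 (hf1 y hy)]
    have eC : ∀ y, s y → (Lg (T.p (T.p a))).at y = T.C.at (f y) := fun y hy => by
      rw [← h4 T (List.mem_toFinset.2 hT) _ hb y hy, eB y hy, Tup.p, cyc_B q2 (hf1 y hy)]
    have n1 : a ≠ T.p a := fun q => q2.ab _ _ (hf1 x0 hs0) (hf1 x0 hs0) (by
      rw [hf2 x0 hs0, ← eB x0 hs0, ← q])
    have n2 : T.p a ≠ T.p (T.p a) := fun q => n1 (T.p.injective q)
    have n3 : a ≠ T.p (T.p a) := fun q => q2.ac _ _ (hf1 x0 hs0) (hf1 x0 hs0) (by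
      rw [hf2 x0 hs0, ← eC x0 hs0, ← q])
    rw [← cs_rebase L hs' ((dfZ_img hs' (hm a ha)).leg q1 q2.a)
      ⟨hm _ ha, hm _ hb, hm _ hc, hj _ ha _ hb n1, hj _ hb _ hc n2, hj _ ha _ hc n3⟩
      (q2.mono fun _ q => q.1) f (fun y hy => ⟨hf1 y hy.1, y, hy, (hf2 y hy.1).symm⟩)
      (fun x ⟨b1, y, b2, b3⟩ => ⟨y, b2, q2.a.inj (hf1 y b2.1) b1 ((hf2 y b2.1).trans b3)⟩)
      (fun y hy => (hf2 y hy.1).symm) (fun y hy => eB y hy.1) fun y hy => eC y hy.1]
    exact Subgroup.subset_closure ⟨_, ha, _, hb, _, hc, n1, n2, n3, rfl⟩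
  have all : ∀ F' : Finset Z, F' ⊆ F →
      cs L (fun x => T.s x ∧ ∃ a ∈ F', ∃ y, s' y ∧ (Lg a).at y = T.A.at x) T.A T.B T.C ∈
        HF L s' Lg F := by
    intro F' hF'
    induction F' using Finset.induction_on with
    | empty => rw [cs_empty L (by simp)]; exact one_mem _
    | insert a F' ha ih =>
      have haF := hF' (Finset.mem_insert_self _ _)
      have d : DfZ fun z => ∃ b ∈ insert a F', ∃ y, s' y ∧ (Lg b).at y = z := fun j =>
        df_exists _ fun b hb => dfZ_img hs' (hm b (hF' hb)) j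
      rw [cs_add L (d.leg q1 q2.a) (q2.mono fun _ q => q.1) ((dfZ_img hs' (hm a haF)).leg q1 q2.a)]
      refine mul_mem ?_ ?_
      · convert piece a haF using 1
        exact cs_congr L fun x => ⟨fun q => q.2, fun q => ⟨⟨q.1, a, by simp, q.2⟩, q⟩⟩
      · convert ih (fun b hb => hF' (Finset.mem_insert_of_mem hb)) using 1
        refine cs_congr L fun x => ⟨fun ⟨⟨b1, b, b2, b3⟩, b4⟩ => ⟨b1, b, ?_, b3⟩,
          fun ⟨b1, b, b2, y, b3, b4⟩ => ⟨⟨b1, b, by simp [b2], y, b3, b4⟩, ?_⟩⟩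
        · rcases Finset.mem_insert.1 b2 with rfl | b2
          exacts [absurd ⟨b1, b3⟩ b4, b2]
        · rintro ⟨-, y', b5, b6⟩
          exact hj a haF b (hF' (Finset.mem_insert_of_mem b2)) (fun q => ha (q ▸ b2)) _ _ b5 b3
            (b6.trans b4.symm)
  convert all F subset_rfl using 1
  refine cs_congr L fun x => and_congr_right fun _ => ⟨fun e => ?_, ?_⟩
  · obtain ⟨a, ha, y, hy, e'⟩ := hsub _ e
    exact ⟨a, ha, y, ⟨hy, (hWL a ha y hy).1 (e' ▸ e)⟩, e'⟩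
  · rintro ⟨a, ha, y, hy, e⟩
    exact e ▸ (hWL a ha y hy.1).2 hy.2

omit hl in
theorem ker_bot {γ : Γ} (hγ : γ ∈ c.GN L 4) (h1 : pr γ = 1) : γ = 1 := by
  have : ∃ l : List Tup, (∀ T ∈ l, c.V4 T) ∧ γ = (l.map (cut L fun _ => True)).prod := by
    have e : ∀ T : Tup, cut L (fun _ => True) T = cs L T.s T.A T.B T.C := fun T =>
      cs_congr L (by simp)
    clear h1
    induction hγ using Subgroup.closure_induction'' with
    | mem g hg =>
      obtain ⟨s, A, B, C, a, b, d, rfl⟩ := hg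
      exact ⟨[⟨s, A, B, C⟩], by simpa using ⟨a, b, d⟩, by simp [e]⟩
    | inv_mem g hg =>
      obtain ⟨s, A, B, C, a, b, d, rfl⟩ := hg
      exact ⟨[⟨s, C, B, A⟩], by simpa using ⟨a, b.rev, d.rev⟩, by simp [e, cs_rev L a b]⟩
    | one => exact ⟨[], by simp, rfl⟩
    | mul g h _ _ hg hh =>
      obtain ⟨l, a, rfl⟩ := hg
      obtain ⟨l', b, rfl⟩ := hh
      exact ⟨l ++ l', fun T hT => (List.mem_append.1 hT).elim (a T) (b T), by simp⟩
  obtain ⟨l, hl, rfl⟩ := this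
  have dT : DfZ fun _ => True := fun _ => df_const True
  have iT : Inv l fun _ => True := fun _ _ _ => Iff.rfl
  have hp : (l.map Tup.p).prod = 1 := by
    ext1 z
    rw [← (pr_res L c hl dT iT (z := z) trivial).1, h1]
  let Good : (Z → Prop) → Prop := fun W0 => DfZ W0 ∧ Inv l W0 ∧
    ∀ W, DfZ W → Inv l W → (∀ z, W z → W0 z) → (l.map (cut L W)).prod = 1
  have g0 : Good fun _ => False := ⟨fun _ => df_const False, fun _ _ _ => Iff.rfl,
    fun W _ _ h => List.prod_eq_one fun q hq => by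
      obtain ⟨T, -, rfl⟩ := List.mem_map.1 hq
      exact cs_empty L fun x hx => h _ hx.2⟩
  have g1 : ∀ {U V}, Good U → Good V → Good fun z => U z ∨ V z := by
    intro U V hU hV
    refine ⟨fun j => (hU.1 j).or (hV.1 j), fun T hT z => or_congr (hU.2.1 T hT z) (hV.2.1 T hT z),
      fun W a b d => ?_⟩
    rw [res_add L c hl a hU.1 b hU.2.1,
      hU.2.2 _ (fun j => (a j).and (hU.1 j)) (fun T hT z => and_congr (b T hT z) (hU.2.1 T hT z))
        fun z e => e.2,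
      hV.2.2 _ (fun j => (a j).and (hU.1 j).not)
        (fun T hT z => and_congr (b T hT z) (not_congr (hU.2.1 T hT z)))
        fun z e => (d z e.1).resolve_left e.2, one_mul]
  have g2 : ∀ j, ∃ W, Good W ∧ ∀ x, W (x, j) := by
    intro j
    obtain ⟨m, a, b⟩ := compact_cover (fun t => ∃ W, Good W ∧ ∀ x, t.sh x → W (x, j)) fun x => by
      obtain ⟨W, a, b, d, e⟩ := local_good L c hl hp x j
      obtain ⟨t, ht⟩ := a j
      exact ⟨t, by rw [ht]; exact d, W, ⟨a, b, e⟩, fun y hy => by rwa [ht] at hy⟩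
    have : ∃ W, Good W ∧ ∀ t ∈ m, ∀ x, t.sh x → W (x, j) := by
      clear b
      induction m with
      | nil => exact ⟨_, g0, by simp⟩
      | cons t m ih =>
        obtain ⟨W, d, e⟩ := ih fun t ht => a t (by simp [ht])
        obtain ⟨W', d', e'⟩ := a t (by simp)
        refine ⟨_, g1 d' d, fun u hu x hx => ?_⟩
        rcases List.mem_cons.1 hu with rfl | hu
        exacts [Or.inl (e' x hx), Or.inr (e u hu x hx)]
    obtain ⟨W, d, e⟩ := this
    exact ⟨W, d, fun x => let ⟨t, h1, h2⟩ := b x; e t h1 x h2⟩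
  have g3 : ∀ J : Finset Sh, ∃ W, Good W ∧ ∀ j ∈ J, ∀ x, W (x, j) := by
    intro J
    induction J using Finset.induction_on with
    | empty => exact ⟨_, g0, by simp⟩
    | insert j J _ ih =>
      obtain ⟨W, d, e⟩ := ih
      obtain ⟨W', d', e'⟩ := g2 j
      refine ⟨_, g1 d' d, fun u hu x => ?_⟩
      rcases Finset.mem_insert.1 hu with rfl | hu
      exacts [Or.inl (e' x), Or.inr (e u hu x)]
  obtain ⟨W, d, e⟩ := g3 Finset.univ
  exact d.2.2 _ dT iT fun z _ => e z.2 (Finset.mem_univ _) z.1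

end

end Vale.Agent.P196.Ker
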