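import Vale.Agent.P196.Spec
import Vale.Agent.P196.KerAlg

/-! Lifted three-cycles indexed by definable predicates; the finite alternating lemma. -/

namespace Vale.Agent.P196.Ker

/-- Definable predicates. -/
def Df (s : X → Prop) : Prop := ∃ t : Tm, t.sh = s

theorem Df.of_iff {s : X → Prop} (t : Tm) (h : ∀ x, t.sh x ↔ s x) : Df s :=
  ⟨t, funext fun x => propext (h x)⟩

theorem df_sh (t : Tm) : Df t.sh := ⟨t, rfl⟩

theorem Df.congr {s r : X → Prop} (h : Df s) (e : ∀ x, s x ↔ r x) : Df r := by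
  obtain ⟨t, rfl⟩ := h
  exact Df.of_iff t e

theorem Df.and {s r : X → Prop} (h : Df s) (h' : Df r) : Df fun x => s x ∧ r x := by
  obtain ⟨t, rfl⟩ := h
  obtain ⟨u, rfl⟩ := h'
  exact ⟨.an t u, rfl⟩

theorem Df.not {s : X → Prop} (h : Df s) : Df fun x => ¬ s x := by
  obtain ⟨t, rfl⟩ := h
  exact ⟨.nt t, rfl⟩

theorem Df.or {s r : X → Prop} (h : Df s) (h' : Df r) : Df fun x => s x ∨ r x :=
  (h.not.and h'.not).not.congr fun x => by tauto

theorem df_const (p : Prop) : Df fun _ => p := by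
  by_cases h : p
  · exact Df.of_iff Tm.tt (by simp [h])
  · exact Df.of_iff Tm.ff (by simp [h])

theorem Df.pre {s : X → Prop} (h : Df s) (w : Wd) : Df fun y => wdom w y ∧ s (wact w y) := by
  obtain ⟨t, rfl⟩ := h
  exact Df.of_iff (Tm.pre w t) (Tm.sh_pre w t)

theorem df_dom (w : Wd) : Df (wdom w) := ((df_const True).pre w).congr (by simp)

theorem Df.img {s : X → Prop} (h : Df s) (w : Wd) :
    Df fun y => ∃ x, s x ∧ wdom w x ∧ wact w x = y := by
  refine (h.pre (winv w)).congr fun y => ⟨fun e => ⟨_, e.2, wdom_inv' e.1, wact_inv' e.1⟩, ?_⟩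
  rintro ⟨x, h1, h2, rfl⟩
  exact ⟨wdom_inv h2, by rwa [wact_inv h2]⟩

theorem df_exists {ι : Type} (F : Finset ι) {s : ι → X → Prop} (h : ∀ a ∈ F, Df (s a)) :
    Df fun x => ∃ a ∈ F, s a x := by
  classical
  induction F using Finset.induction_on with
  | empty => exact (df_const False).congr (by simp)
  | insert a F _ ih =>
    exact ((h a (by simp)).or (ih fun b hb => h b (by simp [hb]))).congr (by simp)

section

variable {Γ : Type} [Group Γ] {pr : Γ →* Equiv.Perm Z} (L : Lift Γ pr)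

open Classical in
/-- The lifted cycle over a definable predicate. -/
noncomputable def cs (s : X → Prop) (A B C : Leg) : Γ :=
  if h : Df s then L.c h.choose A B C else 1

variable {s s' : X → Prop} {A B C A' B' C' D : Leg}

theorem c_eq_cs (t : Tm) (h : Ok t.sh A B C) : L.c t A B C = cs L t.sh A B C := by
  have hd := df_sh t
  have e := hd.choose_spec
  rw [cs, dif_pos hd]
  have := L.conj (t := t) (t' := hd.choose) 1 id h (by rw [e]; exact h) (by rw [e]; simp)
    (by rw [e]; simp) (by simp) (by simp) (by simp)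
  simpa using this

theorem pr_cs (hs : Df s) (h : Ok s A B C) : pr (cs L s A B C) = cyc s A B C := by
  obtain ⟨t, rfl⟩ := hs
  rw [← c_eq_cs L t h, L.pr_c h]

theorem cs_conj (hs : Df s) (hs' : Df s') (h : Ok s A B C) (h' : Ok s' A' B' C') (γ : Γ)
    (f : X → X) (hf : ∀ x, s x → s' (f x)) (hf' : ∀ y, s' y → ∃ x, s x ∧ f x = y)
    (h1 : ∀ x, s x → pr γ (A.at x) = A'.at (f x)) (h2 : ∀ x, s x → pr γ (B.at x) = B'.at (f x))
    (h3 : ∀ x, s x → pr γ (C.at x) = C'.at (f x)) :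
    γ * cs L s A B C * γ⁻¹ = cs L s' A' B' C' := by
  obtain ⟨t, rfl⟩ := hs
  obtain ⟨t', rfl⟩ := hs'
  rw [← c_eq_cs L t h, ← c_eq_cs L t' h']
  exact L.conj γ f h h' hf hf' h1 h2 h3

theorem cs_conj' (hs : Df s) (h : Ok s A B C) (h' : Ok s A' B' C') (γ : Γ)
    (h1 : ∀ x, s x → pr γ (A.at x) = A'.at x) (h2 : ∀ x, s x → pr γ (B.at x) = B'.at x)
    (h3 : ∀ x, s x → pr γ (C.at x) = C'.at x) :
    γ * cs L s A B C * γ⁻¹ = cs L s A' B' C' :=
  cs_conj L hs hs h h' γ id (fun _ e => e) (fun y e => ⟨y, e, rfl⟩) h1 h2 h3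

theorem cs_rebase (hs : Df s) (hs' : Df s') (h : Ok s A B C) (h' : Ok s' A' B' C')
    (f : X → X) (hf : ∀ x, s x → s' (f x)) (hf' : ∀ y, s' y → ∃ x, s x ∧ f x = y)
    (h1 : ∀ x, s x → A.at x = A'.at (f x)) (h2 : ∀ x, s x → B.at x = B'.at (f x))
    (h3 : ∀ x, s x → C.at x = C'.at (f x)) : cs L s A B C = cs L s' A' B' C' := by
  simpa using cs_conj L hs hs' h h' 1 f hf hf' (by simpa using h1) (by simpa using h2)
    (by simpa using h3)

theorem cs_comm (hs : Df s) (h : Ok s A B C) (γ : Γ)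
    (h1 : ∀ x, s x → pr γ (A.at x) = A.at x) (h2 : ∀ x, s x → pr γ (B.at x) = B.at x)
    (h3 : ∀ x, s x → pr γ (C.at x) = C.at x) : Commute γ (cs L s A B C) := by
  have := cs_conj' L hs h h γ h1 h2 h3
  rwa [mul_inv_eq_iff_eq_mul] at this

theorem cs_add (hs : Df s) (h : Ok s A B C) {r : X → Prop} (hr : Df r) :
    cs L s A B C = cs L (fun x => s x ∧ r x) A B C * cs L (fun x => s x ∧ ¬ r x) A B C := by
  obtain ⟨t, rfl⟩ := hs
  obtain ⟨u, rfl⟩ := hr
  rw [← c_eq_cs L t h, L.add u h, c_eq_cs L (.an t u) (h.mono fun _ e => e.1),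
    c_eq_cs L (.an t (.nt u)) (h.mono fun _ e => e.1)]
  rfl

theorem cs_congr (e : ∀ x, s x ↔ s' x) : cs L s A B C = cs L s' A B C := by
  rw [show s = s' from funext fun x => propext (e x)]

theorem ok_empty (e : ∀ x, ¬ s x) : Ok s A B C :=
  ⟨fun x h => absurd h (e x), fun x h => absurd h (e x), fun x h => absurd h (e x),
    fun x _ h => absurd h (e x), fun x _ h => absurd h (e x), fun x _ h => absurd h (e x)⟩

theorem cs_empty (e : ∀ x, ¬ s x) : cs L s A B C = 1 := by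
  have hs : Df s := (df_const False).congr (by simpa using e)
  have := cs_add L hs (ok_empty (A := A) (B := B) (C := C) e) hs
  rw [cs_congr L (s := fun x => s x ∧ s x) (s' := s) (by simp),
    cs_congr L (s := fun x => s x ∧ ¬ s x) (s' := s) (by simpa using e)] at this
  simpa using this

theorem cs_rot (hs : Df s) (h : Ok s A B C) : cs L s A B C = cs L s B C A := by
  obtain ⟨t, rfl⟩ := hs
  rw [← c_eq_cs L t h, ← c_eq_cs L t h.rot, L.rot h]

theorem cs_rev (hs : Df s) (h : Ok s A B C) : cs L s C B A = (cs L s A B C)⁻¹ := by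
  obtain ⟨t, rfl⟩ := hs
  rw [← c_eq_cs L t h, ← c_eq_cs L t h.rev, L.rev h]

theorem cs_cube (hs : Df s) (h : Ok s A B C) : cs L s A B C ^ 3 = 1 := by
  obtain ⟨t, rfl⟩ := hs
  rw [← c_eq_cs L t h, L.cube h]

theorem cs_a4 (hs : Df s) (h : Ok s A B C) (hD : Dm s D) (h1 : Dj s D A) (h2 : Dj s D B)
    (h3 : Dj s D C) : cs L s B A C = cs L s A C D * (cs L s B C D)⁻¹ := by
  obtain ⟨t, rfl⟩ := hs
  have o1 : Ok t.sh A C D := ⟨h.a, h.c, hD, h.ac, h3.symm, h1.symm⟩
  have o2 : Ok t.sh B C D := ⟨h.b, h.c, hD, h.bc, h3.symm, h2.symm⟩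
  rw [← c_eq_cs L t h.rev.rot, ← c_eq_cs L t o1, ← c_eq_cs L t o2, L.a4 h hD h1 h2 h3]

theorem cs_ind {p : Γ → Prop} (h1 : ∀ s A B C, Df s → Ok s A B C → p (cs L s A B C)) (h2 : p 1)
    (h3 : ∀ x y, p x → p y → p (x * y)) (h4 : ∀ x, p x → p x⁻¹) (g : Γ) : p g := by
  have hg : g ∈ Subgroup.closure {g | ∃ t A B C, Ok (Tm.sh t) A B C ∧ g = L.c t A B C} := by
    rw [L.gen]; trivial
  induction hg using Subgroup.closure_induction with
  | mem x hx =>
    obtain ⟨t, A, B, C, h, rfl⟩ := hx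
    rw [c_eq_cs L t h]
    exact h1 _ A B C (df_sh t) h
  | one => exact h2
  | mul x y _ _ hx hy => exact h3 x y hx hy
  | inv x _ hx => exact h4 x hx

include L in
theorem ker_central {k : Γ} (hk : pr k = 1) (g : Γ) : Commute k g := by
  induction g using cs_ind L with
  | h1 s A B C hs h => exact cs_comm L hs h k (by simp [hk]) (by simp [hk]) (by simp [hk])
  | h2 => exact Commute.one_right k
  | h3 x y hx hy => exact hx.mul_right hy
  | h4 x hx => exact hx.inv_right

/-- The subgroup generated by the cycles among a finite family of legs over `s`. -/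
def HF {ι : Type} (s : X → Prop) (l : ι → Leg) (F : Finset ι) : Subgroup Γ :=
  Subgroup.closure {g | ∃ a ∈ F, ∃ b ∈ F, ∃ c ∈ F, a ≠ b ∧ b ≠ c ∧ a ≠ c ∧
    g = cs L s (l a) (l b) (l c)}

theorem HF_inj {ι : Type} [DecidableEq ι] (hs : Df s) {x0 : X} (hx0 : s x0) (l : ι → Leg)
    (F : Finset ι) (hm : ∀ a ∈ F, Dm s (l a)) (hj : ∀ a ∈ F, ∀ b ∈ F, a ≠ b → Dj s (l a) (l b))
    {γ : Γ} (hγ : γ ∈ HF L s l F) (h1 : ∀ a ∈ F, pr γ ((l a).at x0) = (l a).at x0) : γ = 1 := by
  induction F using Finset.induction_on generalizing γ with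
  | empty => simpa [HF] using hγ
  | insert n F hn ih =>
    have hF : ∀ {a}, a ∈ F → a ∈ insert n F := Finset.mem_insert_of_mem
    have hN : n ∈ insert n F := Finset.mem_insert_self n F
    have hne : ∀ {a}, a ∈ F → n ≠ a := fun ha e => hn (e ▸ ha)
    have ok : ∀ {a b c}, a ∈ insert n F → b ∈ insert n F → c ∈ insert n F → a ≠ b → b ≠ c →
        a ≠ c → Ok s (l a) (l b) (l c) := fun ha hb hc e1 e2 e3 =>
      ⟨hm _ ha, hm _ hb, hm _ hc, hj _ ha _ hb e1, hj _ hb _ hc e2, hj _ ha _ hc e3⟩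
    let c3 : ι → ι → ι → Γ := fun a b c => cs L s (l a) (l b) (l c)
    have memH : ∀ {a b c}, a ∈ F → b ∈ F → c ∈ F → a ≠ b → b ≠ c → a ≠ c →
        c3 a b c ∈ HF L s l F := fun ha hb hc e1 e2 e3 =>
      Subgroup.subset_closure ⟨_, ha, _, hb, _, hc, e1, e2, e3, rfl⟩
    have fixn : ∀ h ∈ HF L s l F, ∀ x, s x → pr h ((l n).at x) = (l n).at x := by
      intro h hh x hx
      induction hh using Subgroup.closure_induction with
      | mem g hg =>
        obtain ⟨a, ha, b, hb, c, hc, e1, e2, e3, rfl⟩ := hg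
        rw [pr_cs L hs (ok (hF ha) (hF hb) (hF hc) e1 e2 e3)]
        exact cyc_off fun y hy => ⟨hj _ (hF ha) _ hN (hne ha).symm _ _ hy hx,
          hj _ (hF hb) _ hN (hne hb).symm _ _ hy hx, hj _ (hF hc) _ hN (hne hc).symm _ _ hy hx⟩
      | one => simp
      | mul g g' _ _ e e' => simp [e, e']
      | inv g _ e => rw [map_inv, Equiv.Perm.inv_eq_iff_eq, e]
    let 𝒞 : Γ → Prop := fun g => g ∈ HF L s l F ∨
      ∃ d ∈ F, ∃ e ∈ F, d ≠ e ∧ ∃ h ∈ HF L s l F, g = c3 n d e * h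
    have inv3 : ∀ {d e}, d ∈ F → e ∈ F → d ≠ e → c3 n e d = (c3 n d e)⁻¹ := by
      intro d e hd he hde
      rw [← cs_rev L hs (ok hN (hF hd) (hF he) (hne hd) hde (hne he))]
      exact cs_rot L hs (ok hN (hF he) (hF hd) (hne he) hde.symm (hne hd))
    have chg : ∀ {d e e'}, d ∈ F → e ∈ F → e' ∈ F → d ≠ e → d ≠ e' →
        ∃ h ∈ HF L s l F, c3 n d e = c3 n d e' * h := by
      intro d e e' hd he he' h1 h2
      by_cases hee : e = e'
      · exact ⟨1, one_mem _, by simp [hee]⟩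
      refine ⟨c3 e e' d, memH he he' hd hee h2.symm h1.symm, ?_⟩
      have a4 := cs_a4 L hs (ok (hF he') (hF he) (hF hd) (Ne.symm hee) h1.symm h2.symm) (hm _ hN)
        (hj _ hN _ (hF he') (hne he')) (hj _ hN _ (hF he) (hne he)) (hj _ hN _ (hF hd) (hne hd))
      rw [cs_rev L hs (ok hN (hF hd) (hF he') (hne hd) h2 (hne he')),
        cs_rev L hs (ok hN (hF hd) (hF he) (hne hd) h1 (hne he))] at a4
      simp only [c3, a4]
      group
    have genN : ∀ {b c}, b ∈ F → c ∈ F → b ≠ c → ∀ g, 𝒞 g → 𝒞 (c3 n b c * g) := by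
      intro b c hb hc hbc g hg
      rcases hg with hg | ⟨d, hd, e, he, hde, h, hh, rfl⟩
      · exact Or.inr ⟨b, hb, c, hc, hbc, g, hg, rfl⟩
      by_cases e1 : d = c
      · subst e1
        obtain ⟨h', hh', e2⟩ := chg hd he hb hde hbc.symm
        left
        rw [e2, inv3 hb hd hbc]
        simpa [mul_assoc] using mul_mem hh' hh
      by_cases e2 : d = b
      · subst e2
        obtain ⟨h', hh', e3⟩ := chg hd he hc hde hbc
        refine Or.inr ⟨c, hc, d, hd, hbc.symm, h' * h, mul_mem hh' hh, ?_⟩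
        have cube := cs_cube L hs (ok hN (hF hd) (hF hc) (hne hd) hbc (hne hc))
        rw [e3, inv3 hd hc hbc, ← mul_assoc, ← mul_assoc, mul_assoc _ h']
        congr 1
        rw [eq_inv_iff_mul_eq_one, ← cube, pow_three']
      · obtain ⟨h', hh', e3⟩ := chg hd he hb hde e2
        refine Or.inr ⟨d, hd, c, hc, e1, h' * h, mul_mem hh' hh, ?_⟩
        have a4 := cs_a4 L hs (ok (hF hc) (hF hd) hN (Ne.symm e1) (hne hd).symm (hne hc).symm)
          (hm _ (hF hb)) (hj _ (hF hb) _ (hF hc) hbc) (hj _ (hF hb) _ (hF hd) (Ne.symm e2))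
          (hj _ (hF hb) _ hN (hne hb).symm)
        rw [← cs_rot L hs (ok hN (hF hd) (hF hc) (hne hd) e1 (hne hc)),
          cs_rot L hs (ok (hF hc) hN (hF hb) (hne hc).symm (hne hb) hbc.symm),
          cs_rot L hs (ok (hF hd) hN (hF hb) (hne hd).symm (hne hb) e2)] at a4
        have i3 := inv3 hb hd (Ne.symm e2)
        simp only [c3] at i3 e3 ⊢
        rw [e3, a4, i3]
        group
    have genF : ∀ {a b c}, a ∈ F → b ∈ F → c ∈ F → a ≠ b → b ≠ c → a ≠ c →
        ∀ g, 𝒞 g → 𝒞 (c3 a b c * g) := by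
      intro a b c ha hb hc e1 e2 e3 g hg
      have hm3 := memH ha hb hc e1 e2 e3
      rcases hg with hg | ⟨d, hd, e, he, hde, h, hh, rfl⟩
      · exact Or.inl (mul_mem hm3 hg)
      have o3 := ok (hF ha) (hF hb) (hF hc) e1 e2 e3
      have mv : ∀ d ∈ F, ∃ d' ∈ F, ∀ x, s x → pr (c3 a b c) ((l d).at x) = (l d').at x := by
        intro d hd
        simp only [c3, pr_cs L hs o3]
        by_cases q1 : d = a
        · exact ⟨b, hb, fun x hx => by rw [q1, cyc_A o3 hx]⟩
        by_cases q2 : d = b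
        · exact ⟨c, hc, fun x hx => by rw [q2, cyc_B o3 hx]⟩
        by_cases q3 : d = c
        · exact ⟨a, ha, fun x hx => by rw [q3, cyc_C o3 hx]⟩
        exact ⟨d, hd, fun x hx => cyc_off fun y hy => ⟨hj _ (hF ha) _ (hF hd) (Ne.symm q1) _ _ hy hx,
          hj _ (hF hb) _ (hF hd) (Ne.symm q2) _ _ hy hx,
          hj _ (hF hc) _ (hF hd) (Ne.symm q3) _ _ hy hx⟩⟩
      obtain ⟨d', hd', q1⟩ := mv d hd
      obtain ⟨e', he', q2⟩ := mv e he
      have hde' : d' ≠ e' := by
        rintro rfl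
        exact hj _ (hF hd) _ (hF he) hde _ _ hx0 hx0
          ((pr (c3 a b c)).injective ((q1 x0 hx0).trans (q2 x0 hx0).symm))
      refine Or.inr ⟨d', hd', e', he', hde', c3 a b c * h, mul_mem hm3 hh, ?_⟩
      have := cs_conj' L hs (ok hN (hF hd) (hF he) (hne hd) hde (hne he))
        (ok hN (hF hd') (hF he') (hne hd') hde' (hne he')) (c3 a b c) (fixn _ hm3) q1 q2
      simp only [c3] at this ⊢
      rw [← this]
      group
    have gen : ∀ {a b c}, a ∈ insert n F → b ∈ insert n F → c ∈ insert n F → a ≠ b → b ≠ c →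
        a ≠ c → ∀ g, 𝒞 g → 𝒞 (c3 a b c * g) := by
      intro a b c ha hb hc e1 e2 e3
      have o3 := ok ha hb hc e1 e2 e3
      have mF : ∀ {a}, a ∈ insert n F → a ≠ n → a ∈ F := fun ha e =>
        (Finset.mem_insert.1 ha).resolve_left e
      by_cases q1 : a = n
      · subst q1; exact genN (mF hb e1.symm) (mF hc e3.symm) e2
      by_cases q2 : b = n
      · subst q2
        simp only [c3]
        rw [cs_rot L hs o3]
        exact genN (mF hc e2.symm) (mF ha e1) e3.symm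
      by_cases q3 : c = n
      · subst q3
        simp only [c3]
        rw [cs_rot L hs o3, cs_rot L hs o3.rot]
        exact genN (mF ha e3) (mF hb e2) e1
      exact genF (mF ha q1) (mF hb q2) (mF hc q3) e1 e2 e3
    have hC : 𝒞 γ := by
      clear h1
      induction hγ using Subgroup.closure_induction_left with
      | one => exact Or.inl (one_mem _)
      | mul_left g hg y _ hy =>
        obtain ⟨a, ha, b, hb, c, hc, e1, e2, e3, rfl⟩ := hg
        exact gen ha hb hc e1 e2 e3 y hy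
      | inv_mul_cancel g hg y _ hy =>
        obtain ⟨a, ha, b, hb, c, hc, e1, e2, e3, rfl⟩ := hg
        rw [← cs_rev L hs (ok ha hb hc e1 e2 e3)]
        exact gen hc hb ha e2.symm e1.symm e3.symm y hy
    rcases hC with hC | ⟨d, hd, e, he, hde, h, hh, rfl⟩
    · exact ih (fun a ha => hm a (hF ha)) (fun a ha b hb => hj a (hF ha) b (hF hb)) hC
        fun a ha => h1 a (hF ha)
    · exfalso
      have := h1 n hN
      have o3 := ok hN (hF hd) (hF he) (hne hd) hde (hne he)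
      rw [map_mul, Equiv.Perm.mul_apply, fixn h hh x0 hx0, pr_cs L hs o3, cyc_A o3 hx0] at this
      exact o3.ab _ _ hx0 hx0 this.symm

end

end Vale.Agent.P196.Ker
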