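import Vale.Agent.P196.KerBot

/-! Limits of shrinking cycles acting on cosets of the next filtration step. -/

namespace Vale.Agent.P196.Ker

open Filter

/-- Precomposition of a leg with a word. -/
def Leg.pre (A : Leg) (τ : Wd) : Leg := (A.1 ++ τ, A.2)

theorem Leg.pre_at (A : Leg) (τ : Wd) (x : X) : (Leg.pre A τ).at x = A.at (wact τ x) := by
  simp [Leg.pre, Leg.at]

namespace Coc

variable (c : Coc) {Γ : Type} [Group Γ] {pr : Γ →* Equiv.Perm Z} (L : Lift Γ pr) (i : ℕ)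

/-- The label function of a coset representative. -/
noncomputable def psi (pr : Γ →* Equiv.Perm Z) (i : ℕ) (γ : Γ) (z : Z) : ℤ :=
  c.gd (c.ee i) (pr γ⁻¹) z

/-- The three legs carry the same label at `x`. -/
def Good (pr : Γ →* Equiv.Perm Z) (i : ℕ) (γ : Γ) (A B C : Leg) (x : X) : Prop :=
  c.psi pr i γ (A.at x) + c.wd (c.ee i) A.1 x = c.psi pr i γ (B.at x) + c.wd (c.ee i) B.1 x ∧
  c.psi pr i γ (B.at x) + c.wd (c.ee i) B.1 x = c.psi pr i γ (C.at x) + c.wd (c.ee i) C.1 x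

/-- Valid admissible data. -/
def Va (s : X → Prop) (A B C : Leg) : Prop := Df s ∧ Ok s A B C ∧ c.Adm i s A B C

variable {c i}

theorem Va.mono {s r A B C} (h : c.Va i s A B C) (hr : Df r) (e : ∀ x, r x → s x) :
    c.Va i r A B C := ⟨hr, h.2.1.mono e, h.2.2.mono e⟩

theorem Va.mem {s A B C} (h : c.Va i s A B C) : cs L s A B C ∈ c.GN L i :=
  c.cs_mem L h.1 h.2.1 h.2.2

theorem psi_one (z : Z) : c.psi pr i 1 z = 0 := by simp [psi, c.gd_one]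

theorem psi_coset {γ γ' : Γ} (h : (γ : Γ ⧸ c.GN L (i + 1)) = γ') {z : Z} (hz : c.S i z.1) :
    c.psi pr i γ' z = c.psi pr i γ z := by
  have h1 := c.GN_flat L (inv_mem (QuotientGroup.eq.1 h)) i (by omega) _
    (c.S_perm (pr_GG L γ⁻¹) hz)
  have h2 := c.gd_mul (c.ee i) (pr_GG L (γ⁻¹ * γ')⁻¹) (pr_GG L γ⁻¹) z
  rw [h1, ← map_mul] at h2
  simpa [psi] using h2

theorem psi_mul_off {s A B C} (hs : Df s) (h : Ok s A B C) (γ : Γ) {z : Z} (hz : Off s A B C z) :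
    c.psi pr i (cs L s A B C * γ) z = c.psi pr i γ z := by
  have hz' : Off s C B A z := fun x hx => ⟨(hz x hx).2.2, (hz x hx).2.1, (hz x hx).1⟩
  rw [psi, mul_inv_rev, ← cs_rev L hs h, map_mul, c.gd_mul _ (pr_GG L _) (pr_GG L _),
    pr_cs L hs h.rev, cyc_off hz', c.gd_off _ hs h.rev hz', add_zero, psi]

theorem psi_mul_B {s A B C} (hs : Df s) (h : Ok s A B C) (γ : Γ) {x : X} (hx : s x) :
    c.psi pr i (cs L s A B C * γ) (B.at x) + c.wd (c.ee i) B.1 x =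
      c.psi pr i γ (A.at x) + c.wd (c.ee i) A.1 x := by
  rw [psi, mul_inv_rev, ← cs_rev L hs h, map_mul, c.gd_mul _ (pr_GG L _) (pr_GG L _),
    pr_cs L hs h.rev, cyc_rot h.rev, cyc_A h.rev.rot hx, c.gd_cyc _ hs h.rev.rot hx, psi]
  ring

theorem fixes {γ : Γ} (hγ : γ ∈ c.GN L i) {s A B C} (h : c.Va i s A B C)
    (hg : ∀ x, s x → c.S i x → c.Good pr i γ A B C x) :
    cs L s A B C • (γ : Γ ⧸ c.GN L (i + 1)) = γ := by
  have := c.conj_mem L (i + 1) γ⁻¹ h.1 h.2.1 fun j hj x hx hS => by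
    rcases Nat.lt_succ_iff_lt_or_eq.1 hj with hj | rfl
    · have k := c.GN_flat L (inv_mem hγ) j hj
      rw [k _ (c.S_act (h.2.1.a x hx) hS), k _ (c.S_act (h.2.1.b x hx) hS),
        k _ (c.S_act (h.2.1.c x hx) hS)]
      simpa using h.2.2 j hj x hx hS
    · exact hg x hx hS
  rw [MulAction.Quotient.smul_coe, smul_eq_mul, eq_comm, QuotientGroup.eq]
  simpa [mul_assoc] using this

theorem shrink {γ : Γ} (hγ : γ ∈ c.GN L i) {r A B C} (h : c.Va i r A B C) {y : X}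
    (hg : ∀ x, r x → c.S i x → x ≠ y → c.Good pr i γ A B C x) {s : X → Prop} (hs : Df s)
    (hy : s y) (e : ∀ x, s x → r x) :
    cs L s A B C • (γ : Γ ⧸ c.GN L (i + 1)) = cs L r A B C • (γ : Γ ⧸ c.GN L (i + 1)) := by
  rw [cs_add L h.1 h.2.1 hs, mul_smul, fixes L hγ (h.mono (h.1.and hs.not) fun _ q => q.1)
    fun x hx hS => hg x hx.1 hS fun q => hx.2 (q ▸ hy),
    cs_congr L (s := fun x => r x ∧ s x) (s' := s) fun x => ⟨fun q => q.2, fun q => ⟨e x q, q⟩⟩]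

theorem bad_fin (hi : i < 4) {γ : Γ} (hγ : γ ∈ c.GN L i) {s A B C} (h : c.Va i s A B C) :
    {x | s x ∧ c.S i x ∧ ¬ c.Good pr i γ A B C x}.Finite := by
  have hF := c.GN_fin L hi (inv_mem hγ)
  refine ((c.bad_finite hi h.1 h.2.1 h.2.2).union ((finite_leg h.2.1.a hF).union
    ((finite_leg h.2.1.b hF).union (finite_leg h.2.1.c hF)))).subset fun x hx => ?_
  obtain ⟨h1, h2, h3⟩ := hx
  by_contra e
  simp only [Set.mem_union, Set.mem_ofPred_eq, not_or, not_and, not_not, ne_eq] at e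
  obtain ⟨e1, e2, e3, e4⟩ := e
  have a := e1 h1 h2
  apply h3
  simp only [Good, psi, e2 h1 (c.S_act (h.2.1.a x h1) h2), e3 h1 (c.S_act (h.2.1.b x h1) h2),
    e4 h1 (c.S_act (h.2.1.c x h1) h2), zero_add]
  tauto

theorem ev_good (hi : i < 4) {γ : Γ} (hγ : γ ∈ c.GN L i) {r A B C} (h : c.Va i r A B C) {y : X}
    (hS : c.S i y) : ∀ᶠ x in NF y, r x → c.S i x → x ≠ y → c.Good pr i γ A B C x := by
  filter_upwards [c.isolate hi hi hS (bad_fin L hi hγ h) fun x hx => hx.2.1] with x hx a b d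
  by_contra e
  exact d (hx ⟨a, b, e⟩)

variable (c i) in
/-- Valid on all small neighbourhoods. -/
def EvT (y : X) (A B C : Leg) : Prop := ∀ᶠ s in SF y, s y ∧ c.Va i s A B C

theorem evT (hi : i < 4) {y : X} (hS : c.S i y) {A B C : Leg} (hA : wdom A.1 y) (hB : wdom B.1 y)
    (hC : wdom C.1 y) (e1 : A.at y ≠ B.at y) (e2 : B.at y ≠ C.at y) (e3 : A.at y ≠ C.at y)
    (h : ∀ j < i, c.S j y → c.wd (c.ee j) A.1 y = c.wd (c.ee j) B.1 y ∧
      c.wd (c.ee j) B.1 y = c.wd (c.ee j) C.1 y) : c.EvT i y A B C := by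
  filter_upwards [SF_df y, SF_all (ev_dom hA), SF_all (ev_dom hB), SF_all (ev_dom hC),
    c.ev_dj hA hB e1, c.ev_dj hB hC e2, c.ev_dj hA hC e3,
    SF_all (c.ev_flat hi hS hA hB i hi.le fun j hj q => (h j hj q).1),
    SF_all (c.ev_flat hi hS hB hC i hi.le fun j hj q => (h j hj q).2)]
    with s a1 a2 a3 a4 a5 a6 a7 a8 a9
  exact ⟨a1.2, a1.1, ⟨a2, a3, a4, a5, a6, a7⟩, fun j hj x hx q => ⟨a8 x hx j hj q, a9 x hx j hj q⟩⟩

theorem Va.evT {r A B C} (h : c.Va i r A B C) {y : X} (hy : r y) : c.EvT i y A B C :=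
  ⟨r, h.1, hy, fun _ a b d => ⟨b, h.mono a d⟩⟩

variable (c i) in
/-- The limit of the action of shrinking cycles on a coset. -/
def Lim (y : X) (A B C : Leg) (ω ω' : Γ ⧸ c.GN L (i + 1)) : Prop :=
  ∀ᶠ s in SF y, cs L s A B C • ω = ω'

theorem lim_unique {y A B C ω ω1 ω2} (h1 : c.Lim L i y A B C ω ω1) (h2 : c.Lim L i y A B C ω ω2) :
    ω1 = ω2 := by
  obtain ⟨s, a, b⟩ := SF_ex (h1.and h2)
  rw [← a, b]

theorem lim_of {γ : Γ} (hγ : γ ∈ c.GN L i) {r A B C} (h : c.Va i r A B C) {y : X} (hy : r y)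
    (hg : ∀ x, r x → c.S i x → x ≠ y → c.Good pr i γ A B C x) :
    c.Lim L i y A B C γ (cs L r A B C • (γ : Γ ⧸ c.GN L (i + 1))) :=
  ⟨r, h.1, hy, fun _ a b d => shrink L hγ h hg a b d⟩

theorem ev_good' (hi : i < 4) {γ : Γ} (hγ : γ ∈ c.GN L i) {y A B C} (hS : c.S i y)
    (h : c.EvT i y A B C) :
    ∀ᶠ s in SF y, ∀ x, s x → c.S i x → x ≠ y → c.Good pr i γ A B C x := by
  obtain ⟨r, h1, h2⟩ := SF_ex h
  filter_upwards [SF_all (ev_good L hi hγ h2 hS), SF_all (h2.1.ev h1)] with s a b x hx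
  exact a x hx (b x hx)

theorem exists_lim (hi : i < 4) {γ : Γ} (hγ : γ ∈ c.GN L i) {y A B C} (hS : c.S i y)
    (h : c.EvT i y A B C) : ∃ γ' ∈ c.GN L i, c.Lim L i y A B C γ (γ' : Γ) := by
  obtain ⟨r, ⟨h1, h2⟩, h3⟩ := SF_ex (h.and (ev_good' L hi hγ hS h))
  exact ⟨_, mul_mem (h2.mem L) hγ, lim_of L hγ h2 h1 h3⟩

theorem lim_congr {y A B C A' B' C' ω ω'} (h : c.EvT i y A B C)
    (e : ∀ᶠ x in NF y, (wdom A'.1 x ∧ A.at x = A'.at x) ∧ (wdom B'.1 x ∧ B.at x = B'.at x) ∧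
      (wdom C'.1 x ∧ C.at x = C'.at x)) (hl : c.Lim L i y A B C ω ω') :
    c.Lim L i y A' B' C' ω ω' := by
  filter_upwards [h, SF_all e, hl] with s a b d
  have o := a.2.2.1
  have dj : ∀ {D E D' E' : Leg}, Dj s D E → (∀ x, s x → D.at x = D'.at x) →
      (∀ x, s x → E.at x = E'.at x) → Dj s D' E' := fun q u v x x' hx hx' =>
    u x hx ▸ v x' hx' ▸ q x x' hx hx'
  have a1 := fun x hx => (b x hx).1.2
  have a2 := fun x hx => (b x hx).2.1.2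
  have a3 := fun x hx => (b x hx).2.2.2
  rw [← d, cs_rebase L a.2.1 a.2.1 o ⟨fun x hx => (b x hx).1.1, fun x hx => (b x hx).2.1.1,
    fun x hx => (b x hx).2.2.1, dj o.ab a1 a2, dj o.bc a2 a3, dj o.ac a1 a3⟩ id (fun _ q => q)
    (fun x q => ⟨x, q, rfl⟩) a1 a2 a3]

theorem ok_pre {s : X → Prop} {τ : Wd} {A B C : Leg} (hd : ∀ x, s x → wdom τ x)
    (h : Ok (img τ s) A B C) : Ok s (Leg.pre A τ) (Leg.pre B τ) (Leg.pre C τ) := by
  have m : ∀ x, s x → img τ s (wact τ x) := fun x hx => ⟨x, hx, hd x hx, rfl⟩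
  have dm : ∀ {D : Leg}, Dm (img τ s) D → Dm s (Leg.pre D τ) := fun q x hx =>
    (wdom_append _ _ _).2 ⟨hd x hx, q _ (m x hx)⟩
  have dj : ∀ {D E : Leg}, Dj (img τ s) D E → Dj s (Leg.pre D τ) (Leg.pre E τ) :=
    fun q x y hx hy => by rw [Leg.pre_at, Leg.pre_at]; exact q _ _ (m x hx) (m y hy)
  exact ⟨dm h.a, dm h.b, dm h.c, dj h.ab, dj h.bc, dj h.ac⟩

theorem lim_reb {y : X} {τ : Wd} (hτ : wdom τ y) {A B C ω ω'} (h : c.EvT i (wact τ y) A B C)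
    (hl : c.Lim L i (wact τ y) A B C ω ω') :
    c.Lim L i y (Leg.pre A τ) (Leg.pre B τ) (Leg.pre C τ) ω ω' := by
  filter_upwards [SF_df y, SF_all (ev_dom hτ), SF_img hτ h, SF_img hτ hl] with s a b d e
  rw [← e, cs_rebase L a.1 d.2.1 (ok_pre b d.2.2.1) d.2.2.1 (wact τ)
    (fun x hx => ⟨x, hx, b x hx, rfl⟩) (fun _ ⟨x, q1, _, q2⟩ => ⟨x, q1, q2⟩)
    (fun x _ => Leg.pre_at _ _ _) (fun x _ => Leg.pre_at _ _ _) fun x _ => Leg.pre_at _ _ _]

theorem evT_reb {y : X} {τ : Wd} (hτ : wdom τ y) {A B C} (h : c.EvT i (wact τ y) A B C) :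
    c.EvT i y (Leg.pre A τ) (Leg.pre B τ) (Leg.pre C τ) := by
  filter_upwards [SF_df y, SF_all (ev_dom hτ), SF_img hτ h] with s a b d
  refine ⟨a.2, a.1, ok_pre b d.2.2.1, fun j hj x hx hS => ?_⟩
  have := d.2.2.2 j hj _ ⟨x, hx, b x hx, rfl⟩ (c.S_act (b x hx) hS)
  simp only [Leg.pre, c.wd_append _ _ (b x hx), this.1, this.2, and_self]

end Coc

end Vale.Agent.P196.Ker
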