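import Vale.Agent.P196.KerOp
import Vale.Agent.P196.Coc3

/-! The kernel of a lift is finitely generated. -/

namespace Vale.Agent.P196

namespace Ker

open Filter

/-- Canonical points without finite particles. -/
def pt (a b : ℕ∞) : X := cons ⊤ (cons a (cons b fun _ => ⊤))

theorem pt_top (a b : ℕ∞) : Top 0 (pt a b) := ⟨rfl, fun _ h => absurd h (by omega)⟩

theorem cn_pt {j : ℕ} {a b : ℕ∞} : Cn j (pt a b) ↔ Ty j a b := by
  refine ⟨fun ⟨m, t, h, _⟩ => ?_, fun h => ⟨0, pt_top a b, h, fun k => ?_⟩⟩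
  · rw [t.uniq (pt_top a b)] at h
    exact h
  · rw [show 0 + 3 + k = k + 1 + 1 + 1 by ring]; rfl

theorem dsp_popW (k : ℕ) {n : ℤ} (h : n ≠ 0) : dsp (SS.popW k) n = 0 := by
  induction k with
  | zero => simp [SS.popW, dsp, Lt.ld]
  | succ k ih => simp [SS.popW, dsp_append, dsp, sw, Lt.ld, Lt.sg, h, ih]

theorem red (m : ℕ) : ∀ z, Top m z → ∃ w, wdom w z ∧ wact w z = (fun k => z (m + k)) ∧
    ∀ e, wd e w z = 0 := by
  induction m with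
  | zero => exact fun z _ => ⟨[], trivial, by simp, fun e => wd_nil e z⟩
  | succ m ih =>
    intro z t
    obtain ⟨k, hk⟩ := ENat.ne_top_iff_exists.1 (t.2 0 (by omega))
    obtain ⟨h1, h2⟩ := SS.popW_spec k z hk.symm
    have e : ∀ n, m ≤ n → pop z n = z (n + 1) := fun n hn => by
      cases n with
      | zero =>
        obtain rfl : m = 0 := by omega
        have := t.1
        simp only [zero_add] at this
        simp [pop_zero, this]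
      | succ n => rfl
    have t' : Top m (pop z) := ⟨(e m le_rfl).trans t.1, fun n hn => by
      cases n with
      | zero => simp [pop_zero, t.2 0 (by omega), t.2 1 (by omega)]
      | succ n => exact t.2 (n + 2) (by omega)⟩
    obtain ⟨w, a1, a2, a3⟩ := ih _ t'
    refine ⟨w ++ SS.popW k, (wdom_append _ _ _).2 ⟨h1, by rwa [h2]⟩, ?_, fun e' => ?_⟩
    · rw [wact_append, h2, a2]
      funext n
      rw [e _ (by omega)]; congr 1; ring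
    · rw [wd_append _ _ h1, h2, a3, t.wd_eq, dsp_popW k (by push_cast; omega)]; rfl

theorem from_pt {i : ℕ} {z : X} (h : Cn i z) : ∃ a b w, Ty i a b ∧ wdom w (pt a b) ∧
    wact w (pt a b) = z ∧ ∀ e, wd e w (pt a b) = 0 := by
  obtain ⟨m, t, h1, h2⟩ := h
  obtain ⟨w, a1, a2, a3⟩ := red m z t
  have e : wact w z = pt (z (m + 1)) (z (m + 2)) := by
    rw [a2]
    refine X.ext4 t.1 rfl rfl (h2 0) fun n => ?_
    exact (congrArg z (by ring)).trans (h2 (n + 1))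
  refine ⟨_, _, winv w, h1, ?_⟩
  rw [← e]
  exact ⟨wdom_inv a1, wact_inv a1, fun e => by rw [wd_inv e a1, a3]; rfl⟩

theorem mv2 (n : ℕ) : ∃ w, wdom w (pt ⊤ 0) ∧ wact w (pt ⊤ 0) = pt ⊤ n ∧ wd 0 w (pt ⊤ 0) = 0 := by
  induction n with
  | zero => exact ⟨[], trivial, rfl, wd_nil _ _⟩
  | succ n ih =>
    obtain ⟨w, h1, h2, h3⟩ := ih
    refine ⟨[.v'] ++ w, (wdom_append _ _ _).2 ⟨h1, by rw [h2]; simp [Lt.dom, pt]⟩, ?_, ?_⟩
    · rw [wact_append, h2]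
      apply X.ext4 <;> simp [Lt.act, pt]
    · rw [wd_append _ _ h1, h3, h2, (pt_top _ _).wd_eq]
      simp [dsp, sw, Lt.ld]

theorem mv3 (n : ℕ) : ∃ w, wdom w (pt 0 ⊤) ∧ wact w (pt 0 ⊤) = pt n ⊤ ∧ wd 1 w (pt 0 ⊤) = 0 := by
  induction n with
  | zero => exact ⟨[], trivial, rfl, wd_nil _ _⟩
  | succ n ih =>
    obtain ⟨w, h1, h2, h3⟩ := ih
    refine ⟨[.u'] ++ w, (wdom_append _ _ _).2 ⟨h1, by rw [h2]; simp [Lt.dom, pt]⟩, ?_, ?_⟩
    · rw [wact_append, h2]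
      apply X.ext4 <;> simp [Lt.act, pt]
    · rw [wd_append _ _ h1, h3, h2, (pt_top _ _).wd_eq]
      simp [dsp, sw, Lt.ld]

theorem orb (i : ℕ) (hi : i < 4) : ∃ y0, Cn i y0 ∧ ∀ z, Cn i z → ∃ w, wdom w y0 ∧ wact w y0 = z ∧
    ∀ j ≤ i, Cn j y0 → wd (ee j) w y0 = 0 := by
  have k : ∀ i, Ty i ⊤ ⊤ → (∀ a b, Ty i a b → a = ⊤ ∧ b = ⊤) → ∃ y0, Cn i y0 ∧ ∀ z, Cn i z →
      ∃ w, wdom w y0 ∧ wact w y0 = z ∧ ∀ j ≤ i, Cn j y0 → wd (ee j) w y0 = 0 := fun i h1 h2 =>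
    ⟨pt ⊤ ⊤, cn_pt.2 h1, fun z hz => by
      obtain ⟨a, b, w, a1, a2, a3, a4⟩ := from_pt hz
      obtain ⟨rfl, rfl⟩ := h2 a b a1
      exact ⟨w, a2, a3, fun _ _ _ => a4 _⟩⟩
  interval_cases i
  · exact k 0 ⟨rfl, rfl⟩ fun _ _ h => h
  · exact k 1 ⟨rfl, rfl⟩ fun _ _ h => h
  · refine ⟨pt ⊤ 0, cn_pt.2 ⟨rfl, by simp⟩, fun z hz => ?_⟩
    obtain ⟨a, b, w, ⟨rfl, a1⟩, a2, a3, a4⟩ := from_pt hz
    obtain ⟨n, rfl⟩ := ENat.ne_top_iff_exists.1 a1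
    obtain ⟨u, b1, b2, b3⟩ := mv2 n
    refine ⟨w ++ u, (wdom_append _ _ _).2 ⟨b1, by rwa [b2]⟩, by rw [wact_append, b2, a3],
      fun j hj h => ?_⟩
    rw [cn_pt] at h
    interval_cases j
    · simp [Ty] at h
    · simp [Ty] at h
    · rw [wd_append _ _ b1, b2, a4]; simpa [ee] using b3
  · refine ⟨pt 0 ⊤, cn_pt.2 ⟨by simp, rfl⟩, fun z hz => ?_⟩
    obtain ⟨a, b, w, ⟨a1, rfl⟩, a2, a3, a4⟩ := from_pt hz
    obtain ⟨n, rfl⟩ := ENat.ne_top_iff_exists.1 a1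
    obtain ⟨u, b1, b2, b3⟩ := mv3 n
    refine ⟨w ++ u, (wdom_append _ _ _).2 ⟨b1, by rwa [b2]⟩, by rw [wact_append, b2, a3],
      fun j hj h => ?_⟩
    rw [cn_pt] at h
    interval_cases j
    · simp [Ty] at h
    · simp [Ty] at h
    · simp [Ty] at h
    · rw [wd_append _ _ b1, b2, a4]; simpa [ee] using b3

theorem cn_inf (i : ℕ) (hi : i < 4) : {x | Cn i x}.Infinite := by
  obtain ⟨a, b, h⟩ : ∃ a b, Ty i a b := by
    interval_cases i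
    exacts [⟨⊤, ⊤, rfl, rfl⟩, ⟨⊤, ⊤, rfl, rfl⟩, ⟨⊤, 0, rfl, by simp⟩, ⟨0, ⊤, by simp, rfl⟩]
  refine Set.infinite_of_injective_forall_mem (f := fun n : ℕ => cons n (pt a b))
    (fun n m e => by simpa using congrFun e 0) fun n => ⟨1, ⟨rfl, fun k hk => ?_⟩, h, fun k => ?_⟩
  · obtain rfl : k = 0 := by omega
    simp
  · rw [show 1 + 3 + k = k + 1 + 1 + 1 + 1 by ring]; rfl

/-- The index of the cocycle used at each step. -/
def eb : ℕ → Bool | 0 => true | 3 => true | _ => false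

theorem eb_eq (j : ℕ) : (eb j).toNat = ee j := by
  match j with
  | 0 | 1 | 2 | 3 => rfl
  | _ + 4 => rfl

theorem ev_tm {x : X} {p : X → Prop} :
    (∀ᶠ y in NF x, p y) ↔ ∃ t : Tm, t.sh x ∧ ∀ y, t.sh y → p y :=
  ⟨fun ⟨_, ⟨t, e⟩, h1, h2⟩ => ⟨t, e ▸ h1, e ▸ h2⟩, fun ⟨t, h1, h2⟩ => ⟨_, df_sh t, h1, h2⟩⟩

/-- The displacement cocycles satisfy the requirements. -/
noncomputable def coc : Coc where
  wd e := wd e.toNat
  S := Cn
  ee := eb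
  wd_append e w _ _ h := by rw [wd_append _ _ h, add_comm]
  WD e _ _ _ h := by
    obtain ⟨t, h1, h2⟩ := ev_tm.1 h
    exact WD h1 h2 _
  S_act h h' := h'.act h
  S_sep _ _ h h' e := by
    obtain ⟨t, h1, h2⟩ := Cn_sep h h' e
    exact ⟨_, df_sh t, h1, h2⟩
  S_inf := cn_inf
  FIN := by
    rintro i _ w - ⟨t, rfl⟩ h1 h2
    simp only [eb_eq] at h2 ⊢
    exact FINw h1 h2
  PR _ _ h1 h2 h3 h4 := by
    obtain ⟨t, a, b⟩ := PR h1 h2 h3 (h4 false) (h4 true)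
    exact ev_tm.2 ⟨t, a, fun y hy => (b y hy).2.2⟩
  PR4 h1 h2 h3 := by
    obtain ⟨t, a, b⟩ := ev_tm.1 h2
    simp only [eb_eq] at b
    obtain ⟨d1, d2⟩ := PR4 a h1 (fun j hj y hy => b y hy j hj) h3
    obtain ⟨s, a', b'⟩ := PR1 h1 h3 d1 d2
    exact ev_tm.2 ⟨s, a', fun y hy => (b' y hy).2⟩
  SEP h1 h2 := by
    obtain ⟨t, a, b⟩ := SEPw h1 h2
    exact ⟨_, df_sh t, a, b⟩
  ORB i hi := by simpa only [eb_eq] using orb i hi
  BND K hK z := by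
    have ch : ∀ g ∈ K, ∀ z : Z, ∃ w j, P196.Ch g z w j ∧ ∀ n < 4, Cn n z.1 → wd (ee n) w z.1 = 0 := by
      intro g hg z
      obtain ⟨w, j, h⟩ := hK g hg z.1 z.2
      obtain ⟨t, a, b⟩ := ev_tm.1 h
      exact ⟨w, j, ⟨t, a, fun y hy => ⟨(b y hy).1, (b y hy).2.1⟩⟩,
        by simpa only [eb_eq] using (b _ a).2.2⟩
    refine (BND K (fun g hg => mem_AA.2 ⟨fun z => ?_, fun n hn z hz => ?_⟩) z).subset ?_
    · obtain ⟨w, j, h, -⟩ := ch g hg z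
      exact ⟨w, j, h⟩
    · obtain ⟨w, j, h, h'⟩ := ch g hg z
      rw [h.gd_eq, h' n hn hz]
    · rintro _ ⟨g, rfl⟩
      exact ⟨g.1, g.2, rfl⟩

end Ker

theorem kStmt : KStmt := fun _ _ _ L => Ker.coc.ker_fg L

end Vale.Agent.P196
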