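import Vale.Agent.P196.KerStep

/-! One step of the filtration: operators on cosets and finite generation. -/

set_option linter.unusedSectionVars false

namespace Vale.Agent.P196.Ker

open Filter

namespace Coc

variable (c : Coc) {Γ : Type} [Group Γ] {pr : Γ →* Equiv.Perm Z} (L : Lift Γ pr) (i : ℕ)

/-- Cosets of the next step inside the current step. -/
abbrev Om := {ω : Γ ⧸ c.GN L (i + 1) // ∃ γ ∈ c.GN L i, ω = (γ : Γ ⧸ c.GN L (i + 1))}

/-- The base coset. -/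
def om0 : c.Om L i := ⟨((1 : Γ) : Γ ⧸ c.GN L (i + 1)), 1, one_mem _, rfl⟩

/-- Left multiplication on cosets. -/
def lm (g : c.GN L i) (ω : c.Om L i) : c.Om L i := ⟨g.1 • ω.1, by
  obtain ⟨γ, h, e⟩ := ω.2
  exact ⟨g.1 * γ, mul_mem g.2 h, by rw [e]; rfl⟩⟩

/-- Left multiplication as a homomorphism. -/
def lmH : c.GN L i →* Equiv.Perm (c.Om L i) :=
  MonoidHom.toHomPerm
    { toFun := c.lm L i
      map_one' := funext fun _ => Subtype.ext (one_smul _ _)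
      map_mul' := fun _ _ => funext fun _ => Subtype.ext (mul_smul _ _ _) }

theorem lmH_val (g : c.GN L i) (ω : c.Om L i) : (c.lmH L i g ω).1 = g.1 • ω.1 := rfl

/-- The label function of a coset. -/
noncomputable def Ps (ω : c.Om L i) (z : PP c i) : ℤ := c.psi pr i ω.2.choose z.1

variable {c i}

theorem Ps_eq {ω : c.Om L i} {γ : Γ} (e : ω.1 = γ) (z : PP c i) :
    c.Ps L i ω z = c.psi pr i γ z.1 :=
  psi_coset L (e.symm.trans ω.2.choose_spec.2) z.2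

include L in
theorem psi_mul (g γ : Γ) (z : Z) :
    c.psi pr i (g * γ) (pr g z) = c.psi pr i γ z - c.gd (c.ee i) (pr g) z := by
  rw [psi, mul_inv_rev, map_mul, c.gd_mul _ (pr_GG L _) (pr_GG L _), map_inv pr g, p_inv_app,
    c.gd_inv _ (pr_GG L g), psi, sub_eq_add_neg]

end Coc

namespace Base

variable {c : Coc} {i : ℕ} (β : Base c i) {Γ : Type} [Group Γ] {pr : Γ →* Equiv.Perm Z}
  (L : Lift Γ pr) [DecidableEq (PP c i)]

theorem ex_O {A B C} (h : E3 A B C) (ω : c.Om L i) :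
    ∃ ω' : c.Om L i, c.Lim L i β.y (β.Lg A) (β.Lg B) (β.Lg C) ω.1 ω'.1 := by
  obtain ⟨γ, h1, e⟩ := ω.2
  obtain ⟨γ', h2, h3⟩ := Coc.exists_lim L β.hi h1 β.hS (Lg_evT h)
  exact ⟨⟨_, γ', h2, rfl⟩, by rw [e]; exact h3⟩

/-- The limit operator. -/
noncomputable def Of {A B C : PP c i × β.II} (h : E3 A B C) (ω : c.Om L i) : c.Om L i :=
  (β.ex_O L h ω).choose

variable {β}

theorem Of_lim {A B C : PP c i × β.II} (h : E3 A B C) (ω : c.Om L i) :
    c.Lim L i β.y (β.Lg A) (β.Lg B) (β.Lg C) ω.1 (β.Of L h ω).1 := (β.ex_O L h ω).choose_spec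

theorem lim_rep {A' B' C' A B C} (h : E3 A B C) (h1 : β.Rep A' A) (h2 : β.Rep B' B)
    (h3 : β.Rep C' C) (ω : c.Om L i) : c.Lim L i β.y A' B' C' ω.1 (β.Of L h ω).1 :=
  Coc.lim_congr L (Lg_evT h) (((rep_Lg A).germ h1).and (((rep_Lg B).germ h2).and
    ((rep_Lg C).germ h3))) (Of_lim L h ω)

theorem Of_rev {A B C : PP c i × β.II} (h : E3 A B C) (ω : c.Om L i) :
    β.Of L h.rev (β.Of L h ω) = ω := by
  obtain ⟨s, h1, h2, h3⟩ := SF_ex ((Lg_evT h).and ((Of_lim L h ω).and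
    (Of_lim L h.rev (β.Of L h ω))))
  apply Subtype.ext
  rw [← h3, ← h2, cs_rev L h1.2.1 h1.2.2.1, inv_smul_smul]

variable (β) in
/-- The limit operator as a permutation. -/
noncomputable def OE {A B C : PP c i × β.II} (h : E3 A B C) : Equiv.Perm (c.Om L i) :=
  ⟨β.Of L h, β.Of L h.rev, Of_rev L h, Of_rev L h.rev⟩

theorem Of_rot {A B C : PP c i × β.II} (h : E3 A B C) (ω : c.Om L i) :
    β.Of L h ω = β.Of L h.rot ω := by
  obtain ⟨s, h1, h2, h3⟩ := SF_ex ((Lg_evT h).and ((Of_lim L h ω).and (Of_lim L h.rot ω)))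
  apply Subtype.ext
  rw [← h3, ← h2, cs_rot L h1.2.1 h1.2.2.1]

theorem Of_shift {A B C : PP c i × β.II} (h : E3 A B C) (l : β.II)
    (h' : E3 (sf A l) (sf B l) (sf C l)) (ω : c.Om L i) : β.Of L h' ω = β.Of L h ω := by
  obtain ⟨τ, h1, h2, h3⟩ := l.2
  have := Coc.lim_reb L h1.1 (by rw [h2]; exact Lg_evT h) (by rw [h2]; exact Of_lim L h ω)
  exact Subtype.ext (Coc.lim_unique L (lim_rep L h' ((rep_Lg A).pre h1.1 h2 h3)
    ((rep_Lg B).pre h1.1 h2 h3) ((rep_Lg C).pre h1.1 h2 h3) ω) this)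

theorem Of_conj {A B C D E F : PP c i × β.II} (h : E3 A B C) (h' : E3 D E F) (ω : c.Om L i) :
    β.Of L h (β.Of L h' ω) = β.Of L (h.tri h') (β.Of L h ω) := by
  obtain ⟨s, ⟨h1, h2, h3⟩, t1, t2, t3⟩ := SF_ex (((Lg_evT h).and ((Of_lim L h ω).and
    (Of_lim L h (β.Of L h' ω)))).and ((ev_tri h D).and ((ev_tri h E).and (ev_tri h F))))
  have hg := cyc_GG h1.2.1 h1.2.2.1
  have key : ∀ D, (cyc s (β.Lg A) (β.Lg B) (β.Lg C) D.1.1 = (tri A B C D).1.1 ∧
      ∀ e, c.gd e (cyc s (β.Lg A) (β.Lg B) (β.Lg C)) D.1.1 + (c.wd e (β.b D.1.1.1) β.y + D.2.1 e) =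
        c.wd e (β.b (tri A B C D).1.1.1) β.y + (tri A B C D).2.1 e) →
      ∃ D', β.Rep D' (tri A B C D) ∧ ∀ᶠ r in SF β.y, ∀ y, r y →
        pr (cs L s (β.Lg A) (β.Lg B) (β.Lg C)) ((β.Lg D).at y) = D'.at y := by
    intro D t
    obtain ⟨D', hD⟩ := c.leg_chart hg (β.Lg D) (rep_Lg D).1
    have e := NF_self hD
    rw [(rep_Lg D).2.1] at e
    refine ⟨D', ⟨e.1, e.2.1.symm.trans t.1, fun e' => by rw [e.2.2, (rep_Lg D).2.2, t.2]⟩, ?_⟩
    rw [pr_cs L h1.2.1 h1.2.2.1]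
    exact SF_all (hD.mono fun y hy => hy.2.1)
  obtain ⟨D', d1, d2⟩ := key D t1
  obtain ⟨E', e1, e2⟩ := key E t2
  obtain ⟨F', f1, f2⟩ := key F t3
  obtain ⟨r, ⟨a1, a2, a3, a4⟩, a5, a6, a7⟩ := SF_ex (((Lg_evT h').and
    ((rep_evT (h.tri h') d1 e1 f1).and ((Of_lim L h' ω).and
    (lim_rep L (h.tri h') d1 e1 f1 (β.Of L h ω))))).and (d2.and (e2.and f2)))
  apply Subtype.ext
  rw [← h3, ← a3, ← a4, ← h2, ← cs_conj' L a1.2.1 a1.2.2.1 a2.2.2.1 _ a5 a6 a7]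
  simp only [mul_smul, inv_smul_smul]

theorem Of_Ps {A B C : PP c i × β.II} (h : E3 A B C) (ω : c.Om L i) (D : PP c i × β.II) :
    β.δ (tri A B C D).2 + c.Ps L i (β.Of L h ω) (tri A B C D).1 = β.δ D.2 + c.Ps L i ω D.1 := by
  obtain ⟨s, h1, h2, t1, t2⟩ := SF_ex ((Lg_evT h).and ((Of_lim L h ω).and (ev_tri h D)))
  obtain ⟨γ, -, e⟩ := ω.2
  have t := t2 (c.ee i)
  rw [β.flat D.1.2 i le_rfl β.hS, β.flat (tri A B C D).1.2 i le_rfl β.hS] at t
  rw [Coc.Ps_eq L e, Coc.Ps_eq L (γ := cs L s (β.Lg A) (β.Lg B) (β.Lg C) * γ)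
    (by rw [← h2, e]; rfl), ← t1, ← pr_cs L h1.2.1 h1.2.2.1, Coc.psi_mul L,
    pr_cs L h1.2.1 h1.2.2.1]
  change (tri A B C D).2.1 (c.ee i) + _ = D.2.1 (c.ee i) + _
  linarith

theorem Of_om0 {A B C : PP c i × β.II} (h : E3 A B C) (e1 : β.δ A.2 = β.δ B.2)
    (e2 : β.δ B.2 = β.δ C.2) : β.Of L h (c.om0 L i) = c.om0 L i := by
  obtain ⟨s, h1, h2, h3⟩ := SF_ex ((Lg_evT h).and ((Of_lim L h (c.om0 L i)).and
    (Coc.ev_good' L β.hi (one_mem _) β.hS (Lg_evT h))))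
  apply Subtype.ext
  rw [← h2]
  refine Coc.fixes L (one_mem _) h1.2 fun x hx hS => ?_
  by_cases e : x = β.y
  · subst e
    simp only [Coc.Good, Coc.psi_one, (rep_Lg _).top, e1, e2, and_self]
  · exact h3 x hx hS e

theorem Of_comm {A B C : PP c i × β.II} (h : E3 A B C) (k : c.GN L i) (hk : pr k.1 = 1)
    (ω : c.Om L i) : β.Of L h (c.lmH L i k ω) = c.lmH L i k (β.Of L h ω) := by
  obtain ⟨s, h2, h3⟩ := SF_ex ((Of_lim L h ω).and (Of_lim L h (c.lmH L i k ω)))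
  apply Subtype.ext
  rw [← h3, Coc.lmH_val, Coc.lmH_val, ← h2, ← mul_smul, ← mul_smul, (ker_central L hk _).eq]

theorem Of_single {s A B C} {y : X} (h : c.Va i s A B C) (hy : s y) (hS : c.S i y)
    (ω ω' : c.Om L i) (hl : c.Lim L i y A B C ω.1 ω'.1) :
    ∃ A' B' C' : PP c i × β.II, ∃ h : E3 A' B' C', β.Of L h ω = ω' := by
  have o := h.2.1
  have hS' := c.S_act (o.a y hy) hS
  have d := winv_spec (o.a y hy)
  have hτ : wdom (winv A.1 ++ β.b (wact A.1 y)) β.y :=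
    (wdom_append _ _ _).2 ⟨β.dom hS', by rw [β.act hS']; exact d.1⟩
  have aτ : wact (winv A.1 ++ β.b (wact A.1 y)) β.y = y := by rw [wact_append, β.act hS', d.2]
  have wτ : ∀ e, c.wd e (winv A.1 ++ β.b (wact A.1 y)) β.y =
      - c.wd e A.1 y + c.wd e (β.b (wact A.1 y)) β.y := fun e => by
    rw [c.wd_append _ _ (β.dom hS'), β.act hS', c.wd_inv e (o.a y hy)]
  generalize winv A.1 ++ β.b (wact A.1 y) = τ at hτ aτ wτ
  have f0 : ∀ D : Leg, wdom D.1 y → (∀ j < i, c.S j y → c.wd (c.ee j) D.1 y = c.wd (c.ee j) A.1 y) →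
      β.F0 (Leg.pre D τ).1 := fun D h1 h2 =>
    ⟨(wdom_append _ _ _).2 ⟨hτ, by rwa [aτ]⟩, fun j hj q => by
      have := c.S_act hτ q
      rw [aτ] at this
      simp only [Leg.pre]
      rw [c.wd_append _ _ hτ, aτ, wτ, h2 j hj this, β.flat hS' j hj.le q]; ring⟩
  obtain ⟨A', a⟩ := exists_rep (f0 A (o.a y hy) fun _ _ _ => rfl)
  obtain ⟨B', b⟩ := exists_rep (f0 B (o.b y hy) fun j hj q => (h.2.2 j hj y hy q).1.symm)
  obtain ⟨C', d⟩ := exists_rep (f0 C (o.c y hy) fun j hj q =>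
    ((h.2.2 j hj y hy q).1.trans (h.2.2 j hj y hy q).2).symm)
  have ne : ∀ {D E : Leg} {D' E'}, β.Rep (Leg.pre D τ) D' → β.Rep (Leg.pre E τ) E' → Dj s D E →
      D'.1 ≠ E'.1 := fun u v q e => q y y hy hy (by
    have := u.2.1.trans ((congrArg Subtype.val e).trans v.2.1.symm)
    rwa [Leg.pre_at, Leg.pre_at, aτ] at this)
  have h3 : E3 A' B' C' := ⟨ne a b o.ab, ne b d o.bc, ne a d o.ac⟩
  exact ⟨A', B', C', h3, Subtype.ext (Coc.lim_unique L (lim_rep L h3 a b d ω)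
    (Coc.lim_reb L hτ (by rw [aτ]; exact h.evT hy) (by rw [aτ]; exact hl)))⟩

variable (β) in
/-- The group of operators. -/
def Lam : Subgroup (Equiv.Perm (c.Om L i) × Equiv.Perm (PP c i × β.II)) :=
  Subgroup.closure {g | ∃ A B C, ∃ h : E3 A B C, g = (β.OE L h, TE h)}

theorem Lam_gen {A B C : Leg} (F : Finset X) : ∀ s (ω : c.Om L i) (γ : Γ) (h : c.Va i s A B C),
    γ ∈ c.GN L i → ω.1 = γ → (∀ x, s x → c.S i x → ¬ c.Good pr i γ A B C x → x ∈ F) →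
    ∃ g ∈ β.Lam L, g.1 ω = c.lmH L i ⟨_, h.mem L⟩ ω := by
  classical
  induction F using Finset.induction_on with
  | empty =>
    intro s ω γ h hγ e hF
    refine ⟨1, one_mem _, Subtype.ext ?_⟩
    rw [Coc.lmH_val, e, Coc.fixes L hγ h fun x hx hS => by simpa using hF x hx hS]
    exact e
  | insert y F _ ih =>
    intro s ω γ h hγ e hF
    by_cases hy : s y ∧ c.S i y
    swap
    · refine ih s ω γ h hγ e fun x a b d => (Finset.mem_insert.1 (hF x a b d)).resolve_left ?_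
      rintro rfl
      exact hy ⟨a, b⟩
    obtain ⟨r, ⟨r1, r2⟩, r3⟩ := SF_ex ((SF_df y).and (Coc.ev_good' L β.hi hγ hy.2 (h.evT hy.1)))
    have v1 := h.mono (h.1.and r1) fun _ q => q.1
    have v2 := h.mono (h.1.and r1.not) fun _ q => q.1
    obtain ⟨g, g1, g2⟩ := ih _ ω γ v2 hγ e fun x a b d =>
      (Finset.mem_insert.1 (hF x a.1 b d)).resolve_left (by rintro rfl; exact a.2 r2)
    have o := h.2.1
    have hl := Coc.lim_of L (mul_mem (v2.mem L) hγ) v1 (y := y) ⟨hy.1, r2⟩ fun x hx hS ne => by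
      have k : ∀ {D E G : Leg}, Ok s D E G → Off (fun x => s x ∧ ¬ r x) D E G (D.at x) :=
        fun o z hz => ⟨fun q => hz.2 (o.a.inj hz.1 hx.1 q ▸ hx.2), o.ab.symm _ _ hz.1 hx.1,
          o.ac.symm _ _ hz.1 hx.1⟩
      have rt : ∀ {D E G : Leg} {z}, Off (fun x => s x ∧ ¬ r x) D E G z →
          Off (fun x => s x ∧ ¬ r x) E G D z := fun q z hz => ⟨(q z hz).2.1, (q z hz).2.2, (q z hz).1⟩
      have := r3 x hx.2 hS ne
      unfold Coc.Good at this ⊢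
      rwa [Coc.psi_mul_off L v2.1 v2.2.1 γ (k o), Coc.psi_mul_off L v2.1 v2.2.1 γ (rt (rt (k o.rot))),
        Coc.psi_mul_off L v2.1 v2.2.1 γ (rt (k o.rot.rot))]
    have e2 : (g.1 ω).1 = ((cs L (fun x => s x ∧ ¬ r x) A B C * γ : Γ) : Γ ⧸ c.GN L (i + 1)) := by
      rw [g2, Coc.lmH_val, e]; rfl
    obtain ⟨A', B', C', h3, e3⟩ := Of_single (β := β) L v1 ⟨hy.1, r2⟩ hy.2 (g.1 ω)
      (c.lmH L i ⟨_, h.mem L⟩ ω) (by
        rw [e2, Coc.lmH_val, e]
        simp only []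
        rw [cs_add L h.1 o r1, mul_smul]
        exact hl)
    exact ⟨(β.OE L h3, TE h3) * g, mul_mem (Subgroup.subset_closure ⟨_, _, _, h3, rfl⟩) g1, e3⟩

theorem Lam_trans {γ : Γ} (hγ : γ ∈ c.GN L i) :
    ∀ ω : c.Om L i, ∃ g ∈ β.Lam L, (g.1 ω).1 = γ • ω.1 := by
  have k : ∀ s A B C, c.Va i s A B C →
      ∀ ω : c.Om L i, ∃ g ∈ β.Lam L, (g.1 ω).1 = cs L s A B C • ω.1 := by
    intro s A B C h ω
    obtain ⟨γ, h1, e⟩ := ω.2
    obtain ⟨g, g1, g2⟩ := Lam_gen (β := β) L (Coc.bad_fin L β.hi h1 h).toFinset s ω γ h h1 e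
      fun x a b d => by simpa using ⟨a, b, d⟩
    exact ⟨g, g1, by rw [g2]; rfl⟩
  induction hγ using Subgroup.closure_induction'' with
  | mem g hg =>
    obtain ⟨s, A, B, C, h1, h2, h3, rfl⟩ := hg
    exact k s A B C ⟨h1, h2, h3⟩
  | inv_mem g hg =>
    obtain ⟨s, A, B, C, h1, h2, h3, rfl⟩ := hg
    rw [← cs_rev L h1 h2]
    exact k s C B A ⟨h1, h2.rev, h3.rev⟩
  | one => exact fun ω => ⟨1, one_mem _, by simp⟩
  | mul g h _ _ hg hh =>
    intro ω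
    obtain ⟨u, u1, u2⟩ := hh ω
    obtain ⟨v, v1, v2⟩ := hg (u.1 ω)
    exact ⟨v * u, mul_mem v1 u1, by rw [mul_smul, ← u2, ← v2]; rfl⟩

open Classical in
variable (β) in
/-- The operators satisfy the hypotheses of the algebraic lemma. -/
noncomputable def ald : ALData (PP c i) β.II (β.Lam L) where
  σ := (MonoidHom.snd _ _).comp (β.Lam L).subtype
  O A B C := if h : E3 A B C then
    ⟨(β.OE L h, TE h), Subgroup.subset_closure ⟨_, _, _, h, rfl⟩⟩ else 1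
  gen := by
    refine eq_top_iff.2 ((Subgroup.closure_preimage_eq_top _).ge.trans (Subgroup.closure_mono ?_))
    rintro g ⟨A, B, C, h, e⟩
    exact ⟨A, B, C, h, by rw [dif_pos h]; exact Subtype.ext e⟩
  σO h D := by rw [dif_pos h]; rfl
  conj0 h h' := by
    rw [dif_pos h, dif_pos h', dif_pos (h.tri h'), mul_inv_eq_iff_eq_mul]
    exact Subtype.ext (Prod.ext (Equiv.ext (Of_conj L h h')) (Equiv.ext (tri_conj h h')))
  shift := fun {A B C} l h => by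
    have h' : E3 (sf A l) (sf B l) (sf C l) := h
    rw [dif_pos h, dif_pos h']
    exact Subtype.ext (Prod.ext (Equiv.ext (Of_shift L h l h')) (Equiv.ext (tri_shift h l)))
  rot h := by
    rw [dif_pos h, dif_pos h.rot]
    exact Subtype.ext (Prod.ext (Equiv.ext (Of_rot L h)) (Equiv.ext (tri_rot h)))

theorem ald_O {A B C : PP c i × β.II} (h : E3 A B C) (ω : c.Om L i) :
    ((β.ald L).O A B C).1.1 ω = β.Of L h ω := by
  simp only [ald, dif_pos h]; rfl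

theorem ald_Ps (g : β.Lam L) : ∀ (ω : c.Om L i) (D : PP c i × β.II),
    β.δ ((β.ald L).σ g D).2 + c.Ps L i (g.1.1 ω) ((β.ald L).σ g D).1 =
      β.δ D.2 + c.Ps L i ω D.1 := by
  induction g using (β.ald L).ind with
  | h1 A B C h => intro ω D; rw [(β.ald L).σO h, ald_O L h, Of_Ps]
  | h2 => intro ω D; rfl
  | h3 x y hx hy => intro ω D; rw [← hy ω D, ← hx (y.1.1 ω), map_mul]; rfl
  | h4 x hx =>
    intro ω D
    rw [← hx, map_inv, p_app_inv]
    congr 2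
    exact p_app_inv x.1.1 ω

theorem ald_comm (k : c.GN L i) (hk : pr k.1 = 1) (g : β.Lam L) : Commute (c.lmH L i k) g.1.1 := by
  induction g using (β.ald L).ind with
  | h1 A B C h =>
    refine Equiv.ext fun ω => ?_
    rw [Equiv.Perm.mul_apply, Equiv.Perm.mul_apply, ald_O L h, ald_O L h, Of_comm L h k hk]
  | h2 => exact Commute.one_right _
  | h3 x y hx hy => exact hx.mul_right hy
  | h4 x hx => exact hx.inv_right

theorem ald_L0 {g : β.Lam L} (hg : g ∈ (β.ald L).L0 β.δ) : g.1.1 (c.om0 L i) = c.om0 L i := by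
  induction hg using Subgroup.closure_induction with
  | mem x hx =>
    obtain ⟨A, B, C, h, e1, e2, rfl⟩ := hx
    rw [ald_O L h, Of_om0 L h e1 e2]
  | one => rfl
  | mul x y _ _ hx hy => exact (congrArg x.1.1 hy).trans hx
  | inv x _ hx => exact (Equiv.Perm.inv_eq_iff_eq.2 hx.symm : x.1.1⁻¹ _ = _)

end Base

theorem Coc.step (c : Coc) {Γ : Type} [Group Γ] {pr : Γ →* Equiv.Perm Z} (L : Lift Γ pr) {i : ℕ}
    (hi : i < 4) (h : (pr.ker ⊓ c.GN L (i + 1)).FG) : (pr.ker ⊓ c.GN L i).FG := by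
  classical
  obtain ⟨β⟩ := c.exists_base hi
  have := β.II_fg
  have : Infinite (PP c i) := by
    have := (c.S_inf i hi).to_subtype
    exact Infinite.of_injective (fun x : {x | c.S i x} => (⟨(x.1, 0), x.2⟩ : PP c i))
      fun x y e => Subtype.ext (congrArg (fun z : PP c i => z.1.1) e)
  obtain ⟨Z0, hf, hz, hAL⟩ := (β.ald L).AL β.δ
  let f : β.Lam L →* Equiv.Perm (c.Om L i) := (MonoidHom.fst _ _).comp (β.Lam L).subtype
  let θ := (c.lmH L i).comp (Subgroup.inclusion (inf_le_right : pr.ker ⊓ c.GN L i ≤ c.GN L i))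
  refine fg_ext (inf_le_inf_left _ (c.GN_succ_le L i)) h θ (fun a e => ⟨a.2.1, ?_⟩)
    (fg_of_le_closure_comm (hf.image f) ?_ ?_)
  · have := congrArg (fun g : Equiv.Perm (c.Om L i) => (g (c.om0 L i)).1) e
    have := QuotientGroup.eq.1 (show ((1 : Γ) : Γ ⧸ c.GN L (i + 1)) = (a.1 * 1 : Γ) from this.symm)
    simpa using this
  · rintro _ ⟨x, hx, rfl⟩ _ ⟨y, -, rfl⟩
    rw [← map_mul, ← map_mul, (β.ald L).central (hz x hx)]
  · rintro _ ⟨k, rfl⟩
    have hk : pr k.1 = 1 := k.2.1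
    obtain ⟨g, g1, g2⟩ := Base.Lam_trans (β := β) L k.2.2 (c.om0 L i)
    obtain ⟨z, z1, g0, h0, e⟩ := hAL ⟨g, g1⟩ fun D => by
      have := Base.ald_Ps L ⟨g, g1⟩ (c.om0 L i) D
      rw [Coc.Ps_eq L (γ := 1) (ω := c.om0 L i) rfl, Coc.Ps_eq L (γ := k.1 * 1) g2, Coc.psi_one,
        Coc.psi] at this
      simpa [hk, c.gd_one] using this
    have hσ : (β.ald L).σ z = 1 := by
      have : Subgroup.closure Z0 ≤ (β.ald L).σ.ker := (Subgroup.closure_le _).2 hz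
      exact this z1
    have e0 : z.1.1 (c.om0 L i) = θ k (c.om0 L i) := by
      apply Subtype.ext
      have e1 : g = z.1 * g0.1 := congrArg Subtype.val e
      rw [← Base.ald_L0 L h0]
      exact (by rw [e1]; rfl : _ = (g.1 (c.om0 L i)).1).trans (by rw [Base.ald_L0 L h0]; exact g2)
    have : θ k = f z := by
      refine Equiv.ext fun ω => ?_
      obtain ⟨γ, h1, e1⟩ := ω.2
      obtain ⟨u, u1, u2⟩ := Base.Lam_trans (β := β) L h1 (c.om0 L i)
      have e2 : ω = u.1 (c.om0 L i) := Subtype.ext (by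
        rw [u2, e1]; exact congrArg _ (mul_one γ).symm)
      have c1 := Equiv.congr_fun (Base.ald_comm L ⟨k.1, k.2.2⟩ hk ⟨u, u1⟩).eq (c.om0 L i)
      have c2 := Equiv.congr_fun (congrArg f ((β.ald L).central hσ ⟨u, u1⟩)) (c.om0 L i)
      rw [e2]
      exact c1.trans ((congrArg u.1 e0.symm).trans c2.symm)
    rw [this, ← MonoidHom.map_closure]
    exact Subgroup.mem_map_of_mem f z1

theorem Coc.ker_fg (c : Coc) {Γ : Type} [Group Γ] {pr : Γ →* Equiv.Perm Z} (L : Lift Γ pr) :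
    pr.ker.FG := by
  have h4 : (pr.ker ⊓ c.GN L 4).FG := by
    rw [show pr.ker ⊓ c.GN L 4 = ⊥ from eq_bot_iff.2 fun γ h => ker_bot L c h.2 h.1]
    exact ⟨∅, by simp⟩
  have := c.step L (i := 0) (by omega) (c.step L (i := 1) (by omega) (c.step L (i := 2) (by omega)
    (c.step L (i := 3) (by omega) h4)))
  rwa [c.GN_zero, inf_top_eq] at this

end Vale.Agent.P196.Ker
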