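import Vale.Agent.P196.KerLim

/-! One step of the filtration: coordinates of germs and operators on cosets. -/

set_option linter.unusedSectionVars false

namespace Vale.Agent.P196.Ker

open Filter

section alg

variable {P I : Type} [DecidableEq P] [AddCommGroup I]

theorem E3.rev {A B C : P × I} (h : E3 A B C) : E3 C B A := ⟨h.2.1.symm, h.1.symm, h.2.2.symm⟩

theorem tri_sfA {A B C : P × I} (l : I) : tri A B C (sf A l) = sf B l := by
  rw [tri_A (by rfl)]; ext <;> simp; abel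

theorem tri_sfB {A B C : P × I} (h : E3 A B C) (l : I) : tri A B C (sf B l) = sf C l := by
  rw [tri_B h (by rfl)]; ext <;> simp; abel

theorem tri_sfC {A B C : P × I} (h : E3 A B C) (l : I) : tri A B C (sf C l) = sf A l := by
  rw [tri_C h (by rfl)]; ext <;> simp; abel

theorem tri_cases' (A B C D : P × I) : (∃ l, D = sf A l) ∨ (∃ l, D = sf B l) ∨ (∃ l, D = sf C l) ∨
    (D.1 ≠ A.1 ∧ D.1 ≠ B.1 ∧ D.1 ≠ C.1) := by
  rcases tri_cases A B C D with e | e | e | e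
  exacts [Or.inl ⟨_, eq_sf e.symm⟩, Or.inr (Or.inl ⟨_, eq_sf e.symm⟩),
    Or.inr (Or.inr (Or.inl ⟨_, eq_sf e.symm⟩)), Or.inr (Or.inr (Or.inr e))]

theorem tri_rev {A B C : P × I} (h : E3 A B C) (D : P × I) : tri C B A (tri A B C D) = D := by
  rcases tri_cases' A B C D with ⟨l, rfl⟩ | ⟨l, rfl⟩ | ⟨l, rfl⟩ | ⟨e1, e2, e3⟩
  · rw [tri_sfA, tri_sfB h.rev]
  · rw [tri_sfB h, tri_sfA]
  · rw [tri_sfC h, tri_sfC h.rev]
  · rw [tri_off e1 e2 e3, tri_off e3 e2 e1]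

theorem tri_rot {A B C : P × I} (h : E3 A B C) (D : P × I) : tri A B C D = tri B C A D := by
  rcases tri_cases' A B C D with ⟨l, rfl⟩ | ⟨l, rfl⟩ | ⟨l, rfl⟩ | ⟨e1, e2, e3⟩
  · rw [tri_sfA, tri_sfC h.rot]
  · rw [tri_sfB h, tri_sfA]
  · rw [tri_sfC h, tri_sfB h.rot]
  · rw [tri_off e1 e2 e3, tri_off e2 e3 e1]

theorem tri_shift {A B C : P × I} (h : E3 A B C) (l : I) (D : P × I) :
    tri (sf A l) (sf B l) (sf C l) D = tri A B C D := by
  have h' : E3 (sf A l) (sf B l) (sf C l) := h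
  rcases tri_cases A B C D with e | e | e | ⟨e1, e2, e3⟩
  · rw [tri_A e, tri_A (A := sf A l) e]; ext <;> simp; abel
  · rw [tri_B h e, tri_B h' e]; ext <;> simp; abel
  · rw [tri_C h e, tri_C h' e]; ext <;> simp; abel
  · rw [tri_off e1 e2 e3, tri_off (A := sf A l) (B := sf B l) (C := sf C l) e1 e2 e3]

theorem tri_sf {A B C : P × I} (h : E3 A B C) (D : P × I) (l : I) :
    tri A B C (sf D l) = sf (tri A B C D) l := by
  rcases tri_cases' A B C D with ⟨k, rfl⟩ | ⟨k, rfl⟩ | ⟨k, rfl⟩ | ⟨e1, e2, e3⟩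
  · simp only [sf_sf, tri_sfA]
  · simp only [sf_sf, tri_sfB h]
  · simp only [sf_sf, tri_sfC h]
  · rw [tri_off e1 e2 e3, tri_off (D := sf D l) e1 e2 e3]

/-- The labelled three-cycle as a permutation. -/
def TE {A B C : P × I} (h : E3 A B C) : Equiv.Perm (P × I) :=
  ⟨tri A B C, tri C B A, tri_rev h, tri_rev h.rev⟩

theorem tri_ne {A B C : P × I} (h : E3 A B C) {D D' : P × I} (e : D.1 ≠ D'.1) :
    (tri A B C D).1 ≠ (tri A B C D').1 := by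
  intro q
  have := eq_sf q
  rw [← tri_sf h] at this
  have := (TE h).injective this
  exact e (by rw [this]; rfl)

theorem E3.tri {A B C D E F : P × I} (h : E3 A B C) (h' : E3 D E F) :
    E3 (tri A B C D) (tri A B C E) (tri A B C F) :=
  ⟨tri_ne h h'.1, tri_ne h h'.2.1, tri_ne h h'.2.2⟩

theorem tri_conj {A B C D E F : P × I} (h : E3 A B C) (h' : E3 D E F) (G : P × I) :
    tri A B C (tri D E F G) = tri (tri A B C D) (tri A B C E) (tri A B C F) (tri A B C G) := by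
  rcases tri_cases' D E F G with ⟨l, rfl⟩ | ⟨l, rfl⟩ | ⟨l, rfl⟩ | ⟨e1, e2, e3⟩
  · rw [tri_sfA, tri_sf h, tri_sf h, tri_sfA]
  · rw [tri_sfB h', tri_sf h, tri_sf h, tri_sfB (h.tri h')]
  · rw [tri_sfC h', tri_sf h, tri_sf h, tri_sfC (h.tri h')]
  · rw [tri_off e1 e2 e3, tri_off (tri_ne h e1) (tri_ne h e2) (tri_ne h e3)]

end alg

/-- A base point with base words. -/
structure Base (c : Coc) (i : ℕ) where
  hi : i < 4
  y : X
  hS : c.S i y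
  b : X → Wd
  dom : ∀ {z}, c.S i z → wdom (b z) y
  act : ∀ {z}, c.S i z → wact (b z) y = z
  flat : ∀ {z}, c.S i z → ∀ j ≤ i, c.S j y → c.wd (c.ee j) (b z) y = 0

theorem Coc.exists_base (c : Coc) {i : ℕ} (hi : i < 4) : Nonempty (Base c i) := by
  obtain ⟨y, h1, h2⟩ := c.ORB i hi
  choose! b h3 h4 h5 using h2
  exact ⟨⟨hi, y, h1, b, h3 _, h4 _, h5 _⟩⟩

/-- Canonical points on all sheets. -/
abbrev PP (c : Coc) (i : ℕ) := {z : Z // c.S i z.1}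

namespace Base

variable {c : Coc} {i : ℕ} (β : Base c i)

/-- Words that are flat at the base point. -/
def F0 (w : Wd) : Prop := wdom w β.y ∧ ∀ j < i, c.S j β.y → c.wd (c.ee j) w β.y = 0

/-- The group of germs of flat loops. -/
def II : AddSubgroup (Bool → ℤ) where
  carrier := {k | ∃ σ, β.F0 σ ∧ wact σ β.y = β.y ∧ ∀ e, c.wd e σ β.y = k e}
  zero_mem' := ⟨[], ⟨trivial, fun _ _ _ => c.wd_nil _ _⟩, rfl, fun e => c.wd_nil _ _⟩
  add_mem' := by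
    rintro k l ⟨σ, h1, h2, h3⟩ ⟨τ, g1, g2, g3⟩
    have e : ∀ e, c.wd e (σ ++ τ) β.y = c.wd e σ β.y + c.wd e τ β.y := fun e => by
      rw [c.wd_append _ _ g1.1, g2]
    refine ⟨σ ++ τ, ⟨(wdom_append _ _ _).2 ⟨g1.1, by rw [g2]; exact h1.1⟩, fun j hj q => ?_⟩,
      by rw [wact_append, g2, h2], fun e' => by rw [e, h3, g3]; rfl⟩
    rw [e, h1.2 j hj q, g1.2 j hj q]; rfl
  neg_mem' := by
    rintro k ⟨σ, h1, h2, h3⟩
    have e : ∀ e, c.wd e (winv σ) β.y = - c.wd e σ β.y := fun e => by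
      rw [← c.wd_inv e h1.1, h2]
    have d := winv_spec h1.1
    rw [h2] at d
    exact ⟨winv σ, ⟨d.1, fun j hj q => by rw [e, h1.2 j hj q]; rfl⟩, d.2,
      fun e' => by rw [e, h3]; rfl⟩

theorem II_fg : AddGroup.FG β.II :=
  (AddGroup.fg_iff_addSubgroup_fg _).2
    ((Submodule.fg_iff_addSubgroup_fg (AddSubgroup.toIntSubmodule β.II)).1
      (IsNoetherian.noetherian _))

/-- The relevant coordinate. -/
def δ : β.II →+ ℤ where
  toFun k := k.1 (c.ee i)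
  map_zero' := rfl
  map_add' _ _ := rfl

/-- The leg `A'` has the germ with coordinates `A`. -/
def Rep (A' : Leg) (A : PP c i × β.II) : Prop :=
  wdom A'.1 β.y ∧ A'.at β.y = A.1.1 ∧ ∀ e, c.wd e A'.1 β.y = c.wd e (β.b A.1.1.1) β.y + A.2.1 e

variable {β}

theorem Rep.pre {A' A} (h : β.Rep A' A) {l : β.II} {τ : Wd} (h1 : wdom τ β.y)
    (h2 : wact τ β.y = β.y) (h3 : ∀ e, c.wd e τ β.y = l.1 e) : β.Rep (Leg.pre A' τ) (sf A l) := by
  refine ⟨(wdom_append _ _ _).2 ⟨h1, by rw [h2]; exact h.1⟩, by rw [Leg.pre_at, h2, h.2.1]; rfl,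
    fun e => ?_⟩
  simp only [Leg.pre, c.wd_append _ _ h1, h2, h.2.2, h3, sf, add_assoc]
  rfl

theorem exists_leg (A : PP c i × β.II) : ∃ A', β.Rep A' A := by
  obtain ⟨σ, h1, h2, h3⟩ := A.2.2
  have : β.Rep (β.b A.1.1.1, A.1.1.2) (A.1, 0) :=
    ⟨β.dom A.1.2, Prod.ext (β.act A.1.2) rfl, fun e => by simp⟩
  exact ⟨_, by simpa [sf] using this.pre h1.1 h2 h3⟩

variable (β) in
/-- A leg with prescribed coordinates. -/
noncomputable def Lg (A : PP c i × β.II) : Leg := (exists_leg A).choose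

theorem rep_Lg (A : PP c i × β.II) : β.Rep (β.Lg A) A := (exists_leg A).choose_spec

theorem Rep.germ {A1 A2 A} (h1 : β.Rep A1 A) (h2 : β.Rep A2 A) :
    ∀ᶠ x in NF β.y, wdom A2.1 x ∧ A1.at x = A2.at x := by
  have e := h1.2.1.trans h2.2.1.symm
  filter_upwards [ev_dom h2.1, c.PR β.hi β.hS h1.1 h2.1 (congrArg Prod.fst e)
    fun e => (h1.2.2 e).trans (h2.2.2 e).symm] with x a b
  exact ⟨a, Prod.ext b (congrArg Prod.snd e :)⟩

theorem exists_rep {A' : Leg} (h : β.F0 A'.1) : ∃ A, β.Rep A' A := by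
  have hS : c.S i (A'.at β.y).1 := c.S_act h.1 β.hS
  have d := winv_spec (β.dom hS)
  have d' := fun e => c.wd_inv e (β.dom hS)
  rw [β.act hS] at d d'
  have e : ∀ e, c.wd e (winv (β.b (A'.at β.y).1) ++ A'.1) β.y =
      - c.wd e (β.b (A'.at β.y).1) β.y + c.wd e A'.1 β.y := fun e => by
    rw [c.wd_append _ _ h.1, ← d']; rfl
  refine ⟨(⟨_, hS⟩, ⟨fun e => c.wd e (winv (β.b (A'.at β.y).1) ++ A'.1) β.y, _,
    ⟨(wdom_append _ _ _).2 ⟨h.1, d.1⟩, fun j hj q => ?_⟩, ?_, fun _ => rfl⟩), h.1, rfl,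
    fun e' => ?_⟩
  · rw [e, β.flat hS j hj.le q, h.2 j hj q]; rfl
  · rw [wact_append]; exact d.2
  · simp only [e]; ring

theorem Rep.flat {A' A} (h : β.Rep A' A) {j : ℕ} (hj : j < i) (q : c.S j β.y) :
    c.wd (c.ee j) A'.1 β.y = 0 := by
  obtain ⟨σ, h1, -, h3⟩ := A.2.2
  rw [h.2.2, β.flat A.1.2 j hj.le q, ← h3, h1.2 j hj q]; rfl

theorem Rep.top {A' A} (h : β.Rep A' A) : c.wd (c.ee i) A'.1 β.y = β.δ A.2 := by
  rw [h.2.2, β.flat A.1.2 i le_rfl β.hS, zero_add]; rfl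

theorem Rep.ne {A' A B' B} (h : β.Rep A' A) (h' : β.Rep B' B) (e : A.1 ≠ B.1) :
    A'.at β.y ≠ B'.at β.y := by
  rw [h.2.1, h'.2.1]
  exact fun q => e (Subtype.ext q)

theorem rep_evT {A' B' C' A B C} (h : E3 A B C) (h1 : β.Rep A' A) (h2 : β.Rep B' B)
    (h3 : β.Rep C' C) : c.EvT i β.y A' B' C' :=
  Coc.evT β.hi β.hS h1.1 h2.1 h3.1 (h1.ne h2 h.1) (h2.ne h3 h.2.1) (h1.ne h3 h.2.2)
    fun _ hj q => by rw [h1.flat hj q, h2.flat hj q, h3.flat hj q]; exact ⟨rfl, rfl⟩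

theorem Lg_evT {A B C} (h : E3 A B C) : c.EvT i β.y (β.Lg A) (β.Lg B) (β.Lg C) :=
  rep_evT h (rep_Lg A) (rep_Lg B) (rep_Lg C)

variable [DecidableEq (PP c i)]

theorem ev_tri {A B C} (h : E3 A B C) (D : PP c i × β.II) : ∀ᶠ s in SF β.y,
    cyc s (β.Lg A) (β.Lg B) (β.Lg C) D.1.1 = (tri A B C D).1.1 ∧
    ∀ e, c.gd e (cyc s (β.Lg A) (β.Lg B) (β.Lg C)) D.1.1 + (c.wd e (β.b D.1.1.1) β.y + D.2.1 e) =
      c.wd e (β.b (tri A B C D).1.1.1) β.y + (tri A B C D).2.1 e := by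
  have key : ∀ {A B C}, E3 A B C → ∀ l, ∀ᶠ s in SF β.y,
      cyc s (β.Lg A) (β.Lg B) (β.Lg C) (sf A l).1.1 = (tri A B C (sf A l)).1.1 ∧
      ∀ e, c.gd e (cyc s (β.Lg A) (β.Lg B) (β.Lg C)) (sf A l).1.1 +
        (c.wd e (β.b (sf A l).1.1.1) β.y + (sf A l).2.1 e) =
        c.wd e (β.b (tri A B C (sf A l)).1.1.1) β.y + (tri A B C (sf A l)).2.1 e := by
    intro A B C h l
    filter_upwards [Lg_evT h] with s hs
    rw [tri_sfA, sf_fst, sf_fst, ← (rep_Lg A).2.1, ← (rep_Lg B).2.1]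
    refine ⟨cyc_A hs.2.2.1 hs.1, fun e => ?_⟩
    rw [c.gd_cyc e hs.2.1 hs.2.2.1 hs.1, (rep_Lg A).2.2, (rep_Lg B).2.2, (rep_Lg A).2.1,
      (rep_Lg B).2.1]
    simp only [sf_snd, AddSubgroup.coe_add, Pi.add_apply]
    ring
  rcases tri_cases' A B C D with ⟨l, rfl⟩ | ⟨l, rfl⟩ | ⟨l, rfl⟩ | ⟨e1, e2, e3⟩
  · exact key h l
  · filter_upwards [key h.rot l, Lg_evT h] with s a b
    rwa [cyc_rot b.2.2.1, tri_rot h]
  · filter_upwards [key h.rot.rot l, Lg_evT h] with s a b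
    rwa [cyc_rot b.2.2.1, tri_rot h, cyc_rot b.2.2.1.rot, tri_rot h.rot]
  · have dj := fun {E} (e : D.1 ≠ E.1) =>
      c.ev_dj (rep_Lg E).1 (rep_Lg D).1 ((rep_Lg E).ne (rep_Lg D) e.symm)
    filter_upwards [Lg_evT h, dj e1, dj e2, dj e3] with s a b1 b2 b3
    have o : Off s (β.Lg A) (β.Lg B) (β.Lg C) D.1.1 := by
      rw [← (rep_Lg D).2.1]
      exact fun x hx => ⟨b1 _ _ hx a.1, b2 _ _ hx a.1, b3 _ _ hx a.1⟩
    rw [tri_off e1 e2 e3, cyc_off o]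
    exact ⟨rfl, fun e => by rw [c.gd_off e a.2.1 a.2.2.1 o, zero_add]⟩

end Base

end Vale.Agent.P196.Ker
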