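import Vale.Agent.P196.Idm

/-! Compatibility, meets, and the closure lemma. -/

namespace Vale.Agent.P196
variable {Γ : Type*} [Group Γ] {F : Frame Γ}
namespace Idm

def IsMeet (w p q : Idm F) : Prop := Le w p ∧ Le w q ∧ Perp (p.sub w) q
def Compat (p q : Idm F) : Prop := ∃ w, IsMeet w p q

lemma IsMeet.symm {w p q : Idm F} (h : IsMeet w p q) : IsMeet w q p :=
  ⟨h.2.1, h.1, perp_of_split h.1 (perp_sub h.2.1).symm (h.2.2.symm.mono_left (sub_le h.2.1))⟩
lemma Compat.symm {p q : Idm F} (h : Compat p q) : Compat q p := h.imp fun _ h => h.symm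

lemma perp_compl_of {s p w : Idm F} (hw : Le w p) (h1 : Le s p) (h2 : Perp s (p.sub w)) :
    Le s w := by
  intro i j k a b c d1 d2
  have : w.compl.p a b c = (p.sub w).p a b c * p.compl.p a b c := by
    have e := one_eq w a b c
    rw [one_eq p, sub_val hw, mul_assoc] at e
    exact (mul_left_cancel e).symm
  rw [this]
  exact (h2 _ _ _ _ _ _ d1 d2).mul_right (h1 _ _ _ _ _ _ d1 d2)

lemma IsMeet.glb {w p q s : Idm F} (h : IsMeet w p q) (h1 : Le s p) (h2 : Le s q) : Le s w :=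
  perp_compl_of h.1 h1 (h.2.2.mono h2).symm

lemma sub_sub {p w : Idm F} (h : Le w p) : p.sub (p.sub w) = w := by
  refine ext' fun i j k d => ?_
  have e1 := sub_val (sub_le h) i j k
  rw [sub_val h i j k, (perp_sub h _ _ _ _ _ _ d d).eq] at e1
  exact (mul_left_cancel e1).symm

lemma IsMeet.compl {w p q : Idm F} (h : IsMeet w p q) : IsMeet (p.sub w) p q.compl :=
  ⟨sub_le h.1, perp_iff_le.1 h.2.2, by rw [sub_sub h.1]; exact h.2.1⟩
lemma Compat.compl {p q : Idm F} (h : Compat p q) : Compat p q.compl := by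
  obtain ⟨w, h⟩ := h; exact ⟨_, h.compl⟩
lemma Compat.compl_left {p q : Idm F} (h : Compat p q) : Compat p.compl q := h.symm.compl.symm

lemma sub_self (p : Idm F) : p.sub p = zero F := eq_zero_of_perp
  ((perp_sub (le_refl p)).mono_left (sub_le (le_refl p)))
lemma isMeet_of_le {p q : Idm F} (h : Le p q) : IsMeet p p q :=
  ⟨le_refl p, h, by rw [sub_self]; exact (perp_zero q).symm⟩
lemma compat_of_le {p q : Idm F} (h : Le p q) : Compat p q := ⟨_, isMeet_of_le h⟩
lemma compat_of_perp {p q : Idm F} (h : Perp p q) : Compat p q := by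
  have := (compat_of_le (perp_iff_le.1 h)).compl
  rwa [compl_compl] at this
lemma compat_refl (p : Idm F) : Compat p p := compat_of_le (le_refl p)

open Classical in
noncomputable def meet (p q : Idm F) : Idm F := if h : Compat p q then h.choose else zero F

lemma Compat.isMeet {p q : Idm F} (h : Compat p q) : IsMeet (meet p q) p q := by
  simp only [meet, h, dif_pos]; exact h.choose_spec
lemma meet_le_left (p q : Idm F) : Le (meet p q) p := by
  by_cases h : Compat p q
  · exact h.isMeet.1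
  · simp only [meet, h, dif_neg, not_false_eq_true]; exact zero_le _
lemma meet_le_right (p q : Idm F) : Le (meet p q) q := by
  by_cases h : Compat p q
  · exact h.isMeet.2.1
  · simp only [meet, h, dif_neg, not_false_eq_true]; exact zero_le _
lemma Compat.le_meet {p q s : Idm F} (h : Compat p q) (h1 : Le s p) (h2 : Le s q) :
    Le s (meet p q) := h.isMeet.glb h1 h2
lemma IsMeet.eq {w p q : Idm F} (h : IsMeet w p q) : meet p q = w :=
  le_antisymm (h.glb (meet_le_left _ _) (meet_le_right _ _)) (Compat.le_meet ⟨w, h⟩ h.1 h.2.1)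
lemma meet_comm (p q : Idm F) : meet p q = meet q p := by
  by_cases h : Compat p q
  · exact (h.isMeet.symm.eq).symm
  · have h' : ¬ Compat q p := fun e => h e.symm
    simp [meet, h, h']
lemma meet_of_le {p q : Idm F} (h : Le p q) : meet p q = p := (isMeet_of_le h).eq
lemma Compat.meet_compl {p q : Idm F} (h : Compat p q) : meet p q.compl = p.sub (meet p q) :=
  h.isMeet.compl.eq
lemma Compat.val {p q : Idm F} (h : Compat p q) (i j k : Sh) :
    p.p i j k = (meet p q).p i j k * (meet p q.compl).p i j k := by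
  rw [h.meet_compl]; exact sub_val (meet_le_left _ _) i j k
lemma Compat.split {r p s : Idm F} (h : Compat r p) (h1 : Perp s (meet r p))
    (h2 : Perp s (meet r p.compl)) : Perp s r :=
  perp_of_split (meet_le_left r p) h1 (h.meet_compl ▸ h2)
lemma sub_eq_meet {p q : Idm F} (h : Le q p) : p.sub q = meet p q.compl := by
  rw [(compat_of_le h).symm.meet_compl, meet_comm, meet_of_le h]
lemma meet_eq_zero {p q : Idm F} (h : Perp p q) : meet p q = zero F :=
  eq_zero_of_perp ((h.mono (meet_le_right p q)).mono_left (meet_le_left p q))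
lemma perp_of_meet_zero {p q : Idm F} (h : Compat p q) (h0 : meet p q = zero F) : Perp p q :=
  (h.split (h0 ▸ perp_zero q) ((perp_compl q).mono (meet_le_right _ _))).symm

/-- if `p ≤ r`, `r ~ q` and `p ~ r ⊓ q` then `p ~ q` -/
lemma compat_of_local {p r q : Idm F} (h1 : Le p r) (h2 : Compat r q) (h3 : Compat p (meet r q)) :
    Compat p q := by
  refine ⟨meet p (meet r q), meet_le_left _ _, (meet_le_right _ _).trans (meet_le_right _ _), ?_⟩
  rw [← h3.meet_compl]
  have a1 : Le (meet p (meet r q).compl) (meet r q.compl) := by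
    rw [h2.meet_compl]
    refine perp_compl_of (sub_le (meet_le_left _ _)) ((meet_le_left _ _).trans h1) ?_
    rw [sub_sub (meet_le_left _ _)]
    exact perp_iff_le.2 (meet_le_right _ _)
  exact perp_iff_le.2 (a1.trans (meet_le_right _ _))

def cm (g h : Γ) : Γ := g * h * g⁻¹ * h⁻¹

lemma cm_left {x u h : Γ} (e : Commute u h) : cm (x * u) (h) = cm (x) (h) := by
  simp only [cm]; rw [mul_assoc x u h, e.eq]; group
lemma cm_right {y v g : Γ} (e : Commute g v) : cm (g) (y * v) = cm (g) (y) := by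
  simp only [cm]
  rw [mul_assoc g (y * v), mul_assoc y v, e.symm.inv_right.eq]; group

lemma triA {U V W x y z : Idm F} (hy : IsMeet y V U) (hz : IsMeet z V W) (h1 : Le x U)
    (h2 : Le x W) {i j k a b c : Sh} (s : D3 i j k) (t : D3 a b c) :
    cm (x.p i j k) (y.p a b c) = cm (x.p i j k) (z.p a b c) ∧
    cm (y.p a b c) (x.p i j k) = cm (z.p a b c) (x.p i j k) ∧
    cm (y.p a b c) (x.p i j k) = cm (V.p a b c) (x.p i j k) := by
  have c1 := (hy.2.2.mono h1) _ _ _ _ _ _ t s
  have c2 := (hz.2.2.mono h2) _ _ _ _ _ _ t s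
  refine ⟨?_, ?_, ?_⟩
  · rw [← cm_right c1.symm, ← sub_val hy.1, sub_val hz.1, cm_right c2.symm]
  · rw [← cm_left c1, ← sub_val hy.1, sub_val hz.1, cm_left c2]
  · rw [← cm_left c1, ← sub_val hy.1]

def Aux (i j k a b : Sh) : Prop := D3 i a j ∧ D3 j k b ∧ a ≠ k ∧ a ≠ b ∧ b ≠ i

lemma br_left {x y : T3 Γ} (hx : Pre F.toSheets x) (hy : Pre F.toSheets y) {i j k a a' b : Sh}
    (hd : D3 i j k) (h : Aux i j k a b) (h' : Aux i j k a' b) :
    cm (x i a' j) (y j k b) = cm (x i a j) (y j k b) := by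
  by_cases e : a = a'
  · rw [e]
  obtain ⟨d1, d2, e1, e2, e3⟩ := h
  obtain ⟨d1', -, e1', e2', -⟩ := h'
  have d3 : D3 a a' i := ⟨e, d1'.1.symm, d1.1.symm⟩
  have k1 := hx.a4 a a' i j d3 d1.2.1.symm d1'.2.1.symm d1.2.2.symm
  rw [← hx.cyc j a i d1.rev, ← hx.cyc j a' i d1'.rev, hx.inv _ _ _ d1, hx.inv _ _ _ d1'] at k1
  have : x i a' j = x i a j * x a' a i := by rw [k1]; group
  rw [this]
  refine cm_left ((hx.supp _ _ _ (D3.swap12 d3)).commute (hy.supp _ _ _ d2) ?_ (by simp) (by simp))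
  simp [d1'.2.1, e1', e2', d1.2.1, e1, e2, hd.1, hd.2.2, e3.symm]

lemma br_right {x y : T3 Γ} (hx : Pre F.toSheets x) (hy : Pre F.toSheets y) {i j k a b b' : Sh}
    (hd : D3 i j k) (h : Aux i j k a b) (h' : Aux i j k a b') :
    cm (x i a j) (y j k b') = cm (x i a j) (y j k b) := by
  by_cases e : b = b'
  · rw [e]
  obtain ⟨d1, d2, e1, e2, e3⟩ := h
  obtain ⟨-, d2', -, e2', e3'⟩ := h'
  have d3 : D3 b b' k := ⟨e, d2'.2.1.symm, d2.2.1.symm⟩
  have k1 := hy.a4 b b' k j d3 d2.2.2 d2'.2.2 d2.1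
  rw [hy.inv _ _ _ d2, hy.inv _ _ _ d2'] at k1
  have : y j k b' = y j k b * y b' b k := by rw [k1]; group
  rw [this]
  refine cm_right ((hx.supp _ _ _ d1).commute (hy.supp _ _ _ (D3.swap12 d3)) ?_ (by simp) (by simp))
  simp [e3.symm, e3'.symm, hd.2.2, e1, e2, e2', d2.1, d2.2.2, d2'.2.2]

lemma br_indep {x y : T3 Γ} (hx : Pre F.toSheets x) (hy : Pre F.toSheets y) {i j k a b a' b' : Sh}
    (hd : D3 i j k) (h : Aux i j k a b) (h' : Aux i j k a' b') :
    cm (x i a' j) (y j k b') = cm (x i a j) (y j k b) := by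
  obtain ⟨c, hc⟩ := fresh [i, j, k, b, b'] (by simp)
  simp only [List.mem_cons, not_or] at hc
  have h1 : Aux i j k c b := ⟨⟨Ne.symm hc.1, hc.2.1, hd.1⟩, h.2.1, hc.2.2.1, hc.2.2.2.1, h.2.2.2.2⟩
  have h2 : Aux i j k c b' :=
    ⟨⟨Ne.symm hc.1, hc.2.1, hd.1⟩, h'.2.1, hc.2.2.1, hc.2.2.2.2.1, h'.2.2.2.2⟩
  rw [br_left hx hy hd h2 h', br_right hx hy hd h1 h2, br_left hx hy hd h h1]

lemma IsMeet.br {w p q : Idm F} (h : IsMeet w p q) {i j k a b : Sh} (hd : D3 i j k)
    (ha : Aux i j k a b) : w.p j i k = cm (p.p i a j) (q.p j k b) := by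
  obtain ⟨d1, d2, e1, e2, e3⟩ := ha
  rw [sub_val h.1, cm_left (h.2.2 _ _ _ _ _ _ d1 d2), sub_val h.2.1,
    cm_right ((perp_sub h.2.1) _ _ _ _ _ _ d1 d2)]
  exact w.pre.comm_eq hd d1 d2 e1 e2 e3

end Idm
end Vale.Agent.P196
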