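import Vale.Agent.P196.Cyc

/-! Bookkeeping of particles along words. -/

namespace Vale.Agent.P196

/-- `b = a + d` in the extended naturals -/
def Rl (a : ℕ∞) (d : ℤ) (b : ℕ∞) : Prop :=
  (a = ⊤ ∧ b = ⊤) ∨ ∃ i j : ℕ, a = i ∧ b = j ∧ (j : ℤ) = i + d

namespace Rl
lemma zero_iff {a b : ℕ∞} : Rl a 0 b ↔ a = b := by
  constructor
  · rintro (⟨h1, h2⟩ | ⟨i, j, h1, h2, h⟩)
    · rw [h1, h2]
    · rw [h1, h2]; congr 1; omega
  · rintro rfl
    induction a using ENat.recTopCoe with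
    | top => exact Or.inl ⟨rfl, rfl⟩
    | coe a => exact Or.inr ⟨a, a, rfl, rfl, by simp⟩
lemma refl (a : ℕ∞) : Rl a 0 a := zero_iff.2 rfl
lemma of_eq {a b : ℕ∞} {d : ℤ} (hd : d = 0) (h : a = b) : Rl a d b := by
  subst hd; exact zero_iff.2 h
lemma eq {a b : ℕ∞} {d : ℤ} (h : Rl a d b) (hd : d = 0) : b = a := by
  subst hd; exact (zero_iff.1 h).symm
lemma congr {a b : ℕ∞} {d d' : ℤ} (h : Rl a d b) (e : d = d') : Rl a d' b := e ▸ h
lemma top_iff {a b : ℕ∞} {d : ℤ} (h : Rl a d b) : a = ⊤ ↔ b = ⊤ := by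
  rcases h with ⟨h1, h2⟩ | ⟨i, j, h1, h2, -⟩ <;> simp [h1, h2]
lemma trans {a b c : ℕ∞} {d d' : ℤ} (h : Rl a d b) (h' : Rl b d' c) : Rl a (d + d') c := by
  rcases h with ⟨h1, h2⟩ | ⟨i, j, h1, h2, h3⟩
  · exact Or.inl ⟨h1, h'.top_iff.1 h2⟩
  · rcases h' with ⟨h4, -⟩ | ⟨i', j', h4, h5, h6⟩
    · simp [h2] at h4
    · refine Or.inr ⟨i, j', h1, h5, ?_⟩
      have : j = i' := by rw [h2] at h4; exact_mod_cast h4
      omega
lemma add {a b a' b' : ℕ∞} {d d' : ℤ} (h : Rl a d b) (h' : Rl a' d' b') :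
    Rl (a + a') (d + d') (b + b') := by
  rcases h with ⟨h1, h2⟩ | ⟨i, j, h1, h2, h3⟩
  · exact Or.inl ⟨by simp [h1], by simp [h2]⟩
  · rcases h' with ⟨h4, h5⟩ | ⟨i', j', h4, h5, h6⟩
    · exact Or.inl ⟨by simp [h4], by simp [h5]⟩
    · exact Or.inr ⟨i + i', j + j', by simp [h1, h4], by simp [h2, h5], by push_cast; omega⟩
lemma le {a b : ℕ∞} {d : ℤ} (h : Rl a d b) {k l : ℕ} (hk : (k : ℕ∞) ≤ a) (hl : (l : ℤ) ≤ k + d) :
    (l : ℕ∞) ≤ b := by
  rcases h with ⟨-, h2⟩ | ⟨i, j, h1, h2, h3⟩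
  · simp [h2]
  · rw [h1] at hk; rw [h2]
    have : k ≤ i := by exact_mod_cast hk
    have : l ≤ j := by omega
    exact_mod_cast this
lemma ge {a b : ℕ∞} {d : ℤ} (h : Rl a d b) {k l : ℕ} (hk : a ≤ k) (hl : (k : ℤ) + d ≤ l) :
    b ≤ l := by
  rcases h with ⟨h1, -⟩ | ⟨i, j, h1, h2, h3⟩
  · simp [h1] at hk
  · rw [h1] at hk; rw [h2]
    have : i ≤ k := by exact_mod_cast hk
    have : j ≤ l := by omega
    exact_mod_cast this
lemma uniq {a b : ℕ∞} {d d' : ℤ} (h : Rl a d b) (h' : Rl a d' b) (ha : a ≠ ⊤) : d = d' := by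
  rcases h with ⟨h1, -⟩ | ⟨i, j, h1, h2, h3⟩
  · exact absurd h1 ha
  rcases h' with ⟨h1, -⟩ | ⟨i', j', h4, h5, h6⟩
  · exact absurd h1 ha
  have : i = i' := by rw [h1] at h4; exact_mod_cast h4
  have : j = j' := by rw [h2] at h5; exact_mod_cast h5
  omega
lemma nat {a b : ℕ∞} {d : ℤ} (h : Rl a d b) {i : ℕ} (ha : a = i) :
    ∃ j : ℕ, b = j ∧ (j : ℤ) = i + d := by
  rcases h with ⟨h1, -⟩ | ⟨i', j, h1, h2, h3⟩
  · simp [h1] at ha
  · have : i = i' := by rw [h1] at ha; exact_mod_cast ha.symm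
    exact ⟨j, h2, by omega⟩
lemma succ (a : ℕ∞) : Rl a 1 (a + 1) := by
  induction a using ENat.recTopCoe with
  | top => exact Or.inl ⟨rfl, rfl⟩
  | coe a => exact Or.inr ⟨a, a + 1, rfl, by simp, by simp⟩
lemma pred {a : ℕ∞} (h : 1 ≤ a) : Rl a (-1) (a - 1) := by
  induction a using ENat.recTopCoe with
  | top => exact Or.inl ⟨rfl, rfl⟩
  | coe a =>
    have : 1 ≤ a := by exact_mod_cast h
    exact Or.inr ⟨a, a - 1, rfl, by simp, by omega⟩
end Rl

/-- one more than the position of particle `n - 1` -/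
noncomputable def lev (x : X) (n : ℕ) : ℕ∞ := ∑ k ∈ Finset.range n, (x k + 1)
@[simp] lemma lev_zero (x : X) : lev x 0 = 0 := rfl
lemma lev_succ (x : X) (n : ℕ) : lev x (n + 1) = lev x n + (x n + 1) := Finset.sum_range_succ _ _
lemma lev_mono (x : X) {n k : ℕ} (h : n ≤ k) : lev x n ≤ lev x k := by
  induction h with
  | refl => exact le_rfl
  | step _ ih => rw [lev_succ]; exact ih.trans le_self_add
lemma le_lev (x : X) (n : ℕ) : (n : ℕ∞) ≤ lev x n := by
  induction n with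
  | zero => simp
  | succ n ih => rw [lev_succ]; push_cast; exact add_le_add ih le_add_self
lemma lt_lev {x : X} {k n : ℕ} (h : k < n) : x k + 1 ≤ lev x n :=
  (le_add_self.trans_eq (lev_succ x k).symm).trans (lev_mono x h)
lemma lev_top {x : X} {n : ℕ} : lev x n = ⊤ ↔ ∃ k < n, x k = ⊤ := by
  induction n with
  | zero => simp
  | succ n ih =>
    rw [lev_succ, ENat.add_eq_top, ih]
    constructor
    · rintro (⟨k, hk, e⟩ | e)
      · exact ⟨k, by omega, e⟩
      · exact ⟨n, by omega, by simpa using e⟩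
    · rintro ⟨k, hk, e⟩
      rcases Nat.lt_succ_iff_lt_or_eq.1 hk with h | rfl
      · exact Or.inl ⟨k, h, e⟩
      · exact Or.inr (by simp [e])
lemma lev_ne_top {x : X} {n : ℕ} (h : ∀ k < n, x k ≠ ⊤) : lev x n ≠ ⊤ :=
  fun e => by obtain ⟨k, hk, e⟩ := lev_top.1 e; exact h k hk e
lemma lev_congr {x y : X} {n : ℕ} (h : ∀ k < n, x k = y k) : lev x n = lev y n :=
  Finset.sum_congr rfl fun k hk => by rw [h k (Finset.mem_range.1 hk)]
lemma lev_lt {x : X} {n k : ℕ} (h : n < k) (hn : lev x n ≠ ⊤) : lev x n < lev x k := by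
  refine lt_of_lt_of_le ?_ (lev_mono x h)
  rw [lev_succ]
  exact ENat.lt_add_one_iff hn |>.2 le_rfl |>.trans_le (by gcongr; exact le_add_self)
lemma lev_inj {x : X} {n k : ℕ} (hn : lev x n ≠ ⊤) (e : lev x n = lev x k) : n = k := by
  rcases lt_trichotomy n k with h | h | h
  · exact absurd e (lev_lt h hn).ne
  · exact h
  · exact absurd e (lev_lt h (e ▸ hn)).ne'

def Lt.sg : Lt → ℤ | .c => 1 | .c' => -1 | _ => 0
def Lt.ld : Lt → ℤ → ℤ
  | .u, n => if n = 0 then 1 else 0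
  | .u', n => if n = 0 then -1 else 0
  | .v, n => if n = 1 then 1 else 0
  | .v', n => if n = 1 then -1 else 0
  | _, _ => 0
/-- net number of created particles -/
def sw : Wd → ℤ | [] => 0 | a :: w => sw w + a.sg
/-- net displacement of the particle with initial index `n` -/
def dsp : Wd → ℤ → ℤ | [], _ => 0 | a :: w, n => dsp w n + a.ld (n + sw w)

lemma sw_append (w w' : Wd) : sw (w ++ w') = sw w' + sw w := by
  induction w with
  | nil => simp [sw]
  | cons a w ih => simp [sw, ih, add_assoc]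
lemma dsp_append (w w' : Wd) (n : ℤ) : dsp (w ++ w') n = dsp w' n + dsp w (n + sw w') := by
  induction w with
  | nil => simp [dsp]
  | cons a w ih => simp [dsp, ih, sw_append, add_assoc]
lemma Lt.sg_inv (a : Lt) : a.inv.sg = -a.sg := by cases a <;> simp [sg, inv]
lemma Lt.ld_inv (a : Lt) (n : ℤ) : a.inv.ld (n + a.sg) = -a.ld n := by
  cases a <;> simp [sg, inv, ld] <;> split_ifs <;> simp
lemma sw_inv (w : Wd) : sw (winv w) = -sw w := by
  induction w with
  | nil => simp [sw]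
  | cons a w ih => simp [winv_cons, sw_append, sw, ih, Lt.sg_inv]
lemma dsp_inv (w : Wd) (n : ℤ) : dsp (winv w) (n + sw w) = -dsp w n := by
  induction w with
  | nil => simp [dsp]
  | cons a w ih =>
    rw [winv_cons, dsp_append]
    simp only [dsp, sw, Lt.sg_inv, zero_add, add_zero]
    rw [show n + (sw w + a.sg) + -a.sg = n + sw w by ring, ih, ← add_assoc, Lt.ld_inv]; ring
lemma Lt.abs_ld (a : Lt) (n : ℤ) : |a.ld n| ≤ 1 := by
  cases a <;> simp only [ld] <;> (try split_ifs) <;> simp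
lemma abs_dsp (w : Wd) (n : ℤ) : |dsp w n| ≤ w.length := by
  induction w with
  | nil => simp [dsp]
  | cons a w ih =>
    simp only [dsp, List.length_cons]; push_cast
    exact (abs_add_le _ _).trans (add_le_add ih (a.abs_ld _))
lemma Lt.ld_two (a : Lt) {n : ℤ} (h : 2 ≤ n) : a.ld n = 0 := by
  cases a <;> simp only [ld] <;> (try rw [if_neg (by omega)])

structure Pos (w : Wd) (x : X) (n n' : ℕ) : Prop where
  ix : (n' : ℤ) = n + sw w
  lv : Rl (lev x (n + 1)) (dsp w n) (lev (wact w x) (n' + 1))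
  gp : ∀ k : ℕ, Rl (x (n + 1 + k)) (dsp w (n + 1 + k) - dsp w (n + k)) (wact w x (n' + 1 + k))
  z : ∀ k : ℤ, n + 2 ≤ k → dsp w k = 0

lemma gap_mv {a : Lt} {x : X} (h : a.dom x) (h0 : a ≠ .c) (h1 : a ≠ .c') (k : ℕ) :
    Rl (x k) (a.ld k - a.ld (k - 1)) (a.act x k) := by
  match k with
  | 0 => cases a <;> simp_all [Lt.ld, Lt.act, Lt.dom, Rl.succ, Rl.pred, Rl.refl]
  | 1 => cases a <;> simp_all [Lt.ld, Lt.act, Lt.dom, Rl.succ, Rl.pred, Rl.refl]
  | 2 => cases a <;> simp_all [Lt.ld, Lt.act, Lt.dom, Rl.succ, Rl.pred, Rl.refl]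
  | k + 3 =>
    rw [a.ld_two (by push_cast; omega), a.ld_two (by push_cast; omega)]
    cases a <;> simp_all [Lt.act, Rl.refl]

lemma lev_mv {a : Lt} {x : X} (h : a.dom x) (h0 : a ≠ .c) (h1 : a ≠ .c') (n : ℕ) :
    Rl (lev x n) (a.ld (n - 1)) (lev (a.act x) n) := by
  induction n with
  | zero => exact Rl.of_eq (by cases a <;> simp [Lt.ld]) rfl
  | succ n ih =>
    rw [lev_succ, lev_succ]
    exact (ih.add ((gap_mv h h0 h1 n).add (Rl.refl 1))).congr (by push_cast; ring_nf)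

lemma lev_c {x : X} (h : Lt.c.dom x) (n : ℕ) : lev (Lt.c.act x) (n + 2) = lev x (n + 1) := by
  induction n with
  | zero =>
    simp only [lev_succ, lev_zero, Lt.act, Lt.dom, cons_0, cons_1, zero_add] at h ⊢
    generalize x 0 = a at *; enat_to_nat <;> first | omega | simp_all
  | succ n ih => rw [lev_succ, ih, lev_succ x (n + 1)]; rfl

lemma lev_c' {x : X} (h : Lt.c'.dom x) (n : ℕ) : lev (Lt.c'.act x) (n + 1) = lev x (n + 2) := by
  rw [← lev_c (Lt.dom_inv h), show Lt.c.act (Lt.c'.act x) = x from Lt.act_inv h]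

lemma pos_one {a : Lt} {x : X} (h : a.dom x) {n : ℕ} (hn : ((2 : ℕ) : ℕ∞) ≤ lev x (n + 1)) :
    ∃ n' : ℕ, (n' : ℤ) = n + a.sg ∧ Rl (lev x (n + 1)) (a.ld n) (lev (a.act x) (n' + 1)) ∧
      ∀ k : ℕ, Rl (x (n + 1 + k)) (a.ld (n + 1 + k) - a.ld (n + k)) (a.act x (n' + 1 + k)) := by
  by_cases h0 : a = .c
  · subst h0
    refine ⟨n + 1, by simp [Lt.sg], Rl.of_eq rfl (lev_c h n).symm, fun k => Rl.of_eq (by simp [Lt.ld]) ?_⟩
    rw [show n + 1 + 1 + k = (n + k) + 1 + 1 by ring, show n + 1 + k = n + k + 1 by ring]; rfl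
  by_cases h1 : a = .c'
  · subst h1
    cases n with
    | zero =>
      simp only [lev_succ, lev_zero, Lt.dom, zero_add] at h hn
      generalize x 0 = a at *; enat_to_nat <;> first | omega | simp_all
    | succ n =>
      refine ⟨n, by simp [Lt.sg], Rl.of_eq rfl (lev_c' h n).symm, fun k => Rl.of_eq (by simp [Lt.ld]) ?_⟩
      rw [show n + 1 + 1 + k = (n + k) + 1 + 1 by ring, show n + 1 + k = n + k + 1 by ring]; rfl
  · refine ⟨n, by cases a <;> simp_all [Lt.sg], (lev_mv h h0 h1 (n + 1)).congr (by simp), fun k =>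
      (gap_mv h h0 h1 (n + 1 + k)).congr ?_⟩
    push_cast; ring_nf

theorem pos {w : Wd} {x : X} (h : wdom w x) {n : ℕ} (hn : ((w.length + 1 : ℕ) : ℕ∞) ≤ lev x (n + 1)) :
    ∃ n', Pos w x n n' := by
  suffices H : ∀ (r : ℕ), ((w.length + r : ℕ) : ℕ∞) ≤ lev x (n + 1) → 1 ≤ r → ∃ n', Pos w x n n' from
    H 1 hn le_rfl
  clear hn
  induction w with
  | nil => exact fun _ _ _ => ⟨n, by simp [sw], Rl.refl _, fun k => Rl.of_eq (by simp [dsp]) rfl, fun _ _ => rfl⟩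
  | cons a w ih =>
    intro r hr h1
    obtain ⟨n', p⟩ := ih h.1 (r + 1) (by rw [List.length_cons] at hr; convert hr using 2; ring) (by omega)
    have := abs_le.1 (abs_dsp w n)
    obtain ⟨n'', e1, e2, e3⟩ := pos_one h.2 (n := n')
      (p.lv.le hr (by rw [List.length_cons]; push_cast; omega))
    refine ⟨n'', by simp only [sw]; rw [e1, p.ix]; ring, (p.lv.trans e2).congr (by simp [dsp, p.ix]),
      fun k => ((p.gp k).trans (e3 k)).congr ?_, fun k hk => ?_⟩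
    · simp only [dsp, p.ix]; ring_nf
    · simp only [dsp]
      rw [p.z k hk, a.ld_two (by have := p.ix; omega)]; rfl

lemma Pos.tail {w x n n'} (p : Pos w x n n') (k : ℕ) : wact w x (n' + 3 + k) = x (n + 3 + k) := by
  have := (p.gp (k + 2)).eq (by rw [p.z _ (by push_cast; omega), p.z _ (by push_cast; omega)]; rfl)
  rwa [show n' + 1 + (k + 2) = n' + 3 + k by ring, show n + 1 + (k + 2) = n + 3 + k by ring] at this
lemma Pos.g1 {w x n n'} (p : Pos w x n n') :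
    Rl (x (n + 1)) (dsp w (n + 1) - dsp w n) (wact w x (n' + 1)) := by simpa using p.gp 0
lemma Pos.g2 {w x n n'} (p : Pos w x n n') : Rl (x (n + 2)) (-dsp w (n + 1)) (wact w x (n' + 2)) := by
  refine (p.gp 1).congr ?_
  rw [p.z _ (by push_cast; omega)]; simp

end Vale.Agent.P196
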