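import Vale.Agent.P196.Wrd

/-! Rigidity, part 1: the internal threshold idempotents. -/

namespace Vale.Agent.P196
open Equiv Idm

lemma le_meet_iff {p q : ID} (h : Compat p q) (s : ID) : Le s (meet p q) ↔ Le s p ∧ Le s q :=
  ⟨fun e => ⟨e.trans (meet_le_left _ _), e.trans (meet_le_right _ _)⟩, fun e => h.le_meet e.1 e.2⟩
lemma eq_of_le_iff {p q : ID} (h : ∀ s, Le s p ↔ Le s q) : p = q :=
  le_antisymm ((h p).1 (le_refl p)) ((h q).2 (le_refl q))
lemma compat_top (p : ID) : Compat p (top FF) := compat_of_le (le_top p)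
lemma meet_top (p : ID) : meet p (top FF) = p := meet_of_le (le_top p)
lemma top_meet (p : ID) : meet (top FF) p = p := by rw [meet_comm, meet_top]
lemma meet_of_ge {p q : ID} (h : Le q p) : meet p q = q := by rw [meet_comm, meet_of_le h]
lemma Idm.Compat.meet_right {U V W : ID} (h : Compat U V) (h1 : Compat W U) (h2 : Compat W V) :
    Compat W (meet U V) := (h.meet_left h1.symm h2.symm).symm
lemma meet_absorb {p r q : ID} (h1 : Le p r) (h2 : Compat r q) (h3 : Compat p (meet r q)) :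
    meet p (meet r q) = meet p q :=
  eq_of_le_iff fun s => by
    rw [le_meet_iff h3, le_meet_iff h2, le_meet_iff (compat_of_local h1 h2 h3)]
    exact ⟨fun e => ⟨e.1, e.2.2⟩, fun e => ⟨e.1, e.1.trans h1, e.2⟩⟩
lemma T0_zero (a : Lt) : T0 a (zero FF) = zero FF :=
  eq_zero_of_perp ((T0_perp_iff (zero_le _) (zero_le _)).2 (perp_zero _))
lemma TT_zero (a : Lt) : TT a (zero FF) = zero FF := by rw [TT_of_le (zero_le _), T0_zero]
lemma dm_compat (a b : Lt) : Compat (dmI a) (dmI b) := phi_compat (isLoc_dom a) (isLoc_dom b)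

lemma domI2 {a b : Lt} {V} (hV : IsLoc V) (e : ∀ y, V y ↔ b.dom y ∧ a.dom (b.act y)) {p}
    (hp : Le p (phi V)) : DomI [a, b] p := by
  have l : Le (phi V) (dmI b) := phi_le hV (isLoc_dom b) fun y hy => ((e y).1 hy).1
  refine ⟨⟨trivial, hp.trans l⟩, (T0_mono l hp).trans ?_⟩
  have := TT_phi (a := b.inv) (isLoc_dom a) hV (by simpa using e)
  have e2 := TT_inv b.inv (phi a.dom)
  rw [this, Lt.inv_inv, TT_of_le l] at e2
  rw [e2]; exact meet_le_left _ _
lemma T0_sq {a b a' b' : Lt} {C V V'} (hC : IsLoc C) (hV : IsLoc V) (hV' : IsLoc V')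
    (e : ∀ y, V y ↔ b.dom y ∧ a.dom (b.act y)) (e' : ∀ y, V' y ↔ b'.dom y ∧ a'.dom (b'.act y))
    (h : ∀ x, C x → V x ∧ V' x ∧ a.act (b.act x) = a'.act (b'.act x)) {p} (hp : Le p (phi C)) :
    WE p [a, b] [a', b'] :=
  we_local hC (by simp) (fun x hx => by simpa [← e, ← e'] using h x hx) hp
    (domI2 hV e (hp.trans (phi_le hC hV fun x hx => (h x hx).1)))
    (domI2 hV' e' (hp.trans (phi_le hC hV' fun x hx => (h x hx).2.1)))

/-- `a` respects the domain of `b` -/
lemma TT_keep {a b : Lt} {p} (e : TT a (dmI b) = meet (dmI a.inv) (dmI b)) (h1 : Compat p (dmI a))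
    (h2 : Compat p (dmI b)) : Compat (TT a p) (dmI b) ∧
      meet (TT a p) (dmI b) = T0 a (meet (meet p (dmI b)) (dmI a)) := by
  have c := TT_compat h2 h1 (dm_compat b a)
  rw [e] at c
  refine ⟨compat_of_local (TT_le a p) (dm_compat _ _) c, ?_⟩
  rw [← meet_absorb (TT_le a p) (dm_compat _ _) c, ← e, ← TT_meet h2 h1 (dm_compat b a)]; rfl

structure Pair (a b : Lt) (J2 : ID) : Prop where
  e : dmI b.inv = dmI a
  f1 : TT a J2 = meet (dmI a.inv) (dmI a)
  f2 : TT b (dmI a) = J2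
  f3 : TT a (dmI b) = meet (dmI a.inv) (dmI b)
  cm : ∀ p, Le p (dmI a) → Le p (dmI b) → WE p [b, a] [a, b]

lemma Pair.swap {a b J2} (h : Pair a b J2) {r} (h1 : Compat r (dmI a)) (h2 : Compat r (dmI b)) :
    TT b (TT a r) = meet (TT a (TT b r)) (dmI a) ∧ Compat (TT b r) J2 ∧
      Compat (TT a (TT b r)) (dmI a) := by
  have c1 := TT_compat h1 h2 (dm_compat a b)
  rw [h.f2] at c1
  have l1 : Le (TT b r) (dmI a) := h.e ▸ TT_le b r
  have l2 : Le J2 (dmI a) := by rw [← h.f2, ← h.e]; exact TT_le _ _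
  have c2 := TT_compat c1 (compat_of_le l1) (compat_of_le l2)
  rw [h.f1] at c2
  refine ⟨?_, c1, compat_of_local (TT_le _ _) (dm_compat _ _) c2⟩
  have e1 : T0 b (meet (meet r (dmI b)) (dmI a)) = meet (TT b r) J2 := by
    rw [← h.f2, ← TT_meet h1 h2 (dm_compat a b), TT]
    congr 1
    exact eq_of_le_iff fun s => by
      simp only [le_meet_iff (h2.meet_left h1 (dm_compat _ _)), le_meet_iff h1, le_meet_iff h2,
        le_meet_iff (h1.meet_left h2 (dm_compat _ _))]; tauto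
  have e2 := (h.cm (meet (meet r (dmI b)) (dmI a)) (meet_le_right _ _)
    ((meet_le_left _ _).trans (meet_le_right _ _))).T0w
  simp only [T0w] at e2
  rw [TT, (TT_keep h.f3 h1 h2).2, e2, e1, ← TT_of_le ((meet_le_left _ _).trans l1),
    TT_meet c1 (compat_of_le l1) (compat_of_le l2), h.f1, meet_absorb (TT_le _ _) (dm_compat _ _) c2]

noncomputable def itr (a : Lt) : ℕ → ID
  | 0 => top FF
  | k + 1 => TT a (itr a k)
lemma Pair.itr {a b J2} (h : Pair a b J2) (k : ℕ) : Compat (itr a k) (dmI a) ∧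
    Compat (itr a k) (dmI b) ∧ TT b (itr a k) = meet (itr a k) (dmI a) := by
  induction k with
  | zero => exact ⟨(compat_top _).symm, (compat_top _).symm, by
      simp only [P196.itr]; rw [TT_top, top_meet, h.e]⟩
  | succ k ih =>
    obtain ⟨h1, h2, h3⟩ := ih
    obtain ⟨e1, -, e3⟩ := h.swap h1 h2
    rw [h3, TT_meet_dm] at e1 e3
    exact ⟨e3, (TT_keep h.f3 h1 h2).1, e1⟩
lemma itr_succ_le {a} (h : ∀ k, Compat (itr a k) (dmI a)) (k) : Le (itr a (k + 1)) (itr a k) := by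
  induction k with
  | zero => exact le_top _
  | succ k ih => exact TT_mono (h k) ih
lemma itr_le {a} (h : ∀ k, Compat (itr a k) (dmI a)) {k l} (e : k ≤ l) : Le (itr a l) (itr a k) := by
  induction e with
  | refl => exact le_refl _
  | step _ ih => exact (itr_succ_le h _).trans ih
lemma itr_compat {a} (h : ∀ k, Compat (itr a k) (dmI a)) (k l) : Compat (itr a k) (itr a l) := by
  rcases le_total k l with e | e
  exacts [(compat_of_le (itr_le h e)).symm, compat_of_le (itr_le h e)]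

def th (n k : ℕ) : X → Prop := fun x => (k : ℕ∞) ≤ x n
lemma th_loc (n k : ℕ) (hn : n < 3) (hk : k ≤ 3) : IsLoc (th n k) :=
  isLoc_le n k hn hk
lemma dm_meet (a b : Lt) : meet (dmI a) (dmI b) = phi fun x => a.dom x ∧ b.dom x :=
  phi_meet (isLoc_dom a) (isLoc_dom b)
lemma le_dm2 {a b : Lt} {p} (h1 : Le p (dmI a)) (h2 : Le p (dmI b)) :
    Le p (phi fun x => a.dom x ∧ b.dom x) := dm_meet a b ▸ (dm_compat a b).le_meet h1 h2
lemma loc2 (a b : Lt) : IsLoc fun x => a.dom x ∧ b.dom x := (isLoc_dom a).and (isLoc_dom b)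

lemma en1 (a : ℕ∞) : 1 ≤ a + 1 := le_add_self
lemma en2 (a : ℕ∞) : 2 ≤ a + 1 ↔ 1 ≤ a := by enat_to_nat <;> first | omega | simp_all
lemma en3 (a : ℕ∞) : 1 ≤ a - 1 ↔ 2 ≤ a := by enat_to_nat <;> first | omega | simp_all
lemma en4 {a : ℕ∞} (h : 2 ≤ a) : 1 ≤ a := le_trans (by simp) h
lemma en5 {a : ℕ∞} (h : 1 ≤ a) : a - 1 + 1 = a := by enat_to_nat <;> first | omega | simp_all
lemma en6 (a : ℕ∞) : a + 1 - 1 = a := by enat_to_nat <;> first | omega | simp_all

lemma pair_uv : Pair .u .v (phi (th 1 2)) where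
  e := rfl
  f1 := by
    rw [dm_meet]; exact TT_phi (th_loc 1 2 (by omega) (by omega)) (loc2 _ _) fun y => by
      simp [th, Lt.dom, Lt.act, Lt.inv, en2]
  f2 := TT_phi (isLoc_dom _) (th_loc 1 2 (by omega) (by omega)) fun y => by
    simp only [th, Lt.dom, Lt.act, Lt.inv, cons_1, cons_0, en3]; exact ⟨fun h => ⟨en4 h, h⟩, fun h => h.2⟩
  f3 := by
    rw [dm_meet]; exact TT_phi (isLoc_dom _) (loc2 _ _) fun y => by simp [Lt.dom, Lt.act, Lt.inv]
  cm p h1 h2 := T0_sq (loc2 .u .v) (loc2 .u .v) (isLoc_dom .v)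
    (fun y => by simp [Lt.dom, Lt.act]) (fun y => by simp [Lt.dom, Lt.act])
    (fun x hx => ⟨hx, hx.2, by
      have : 1 ≤ x 1 := hx.1
      apply X.ext4 <;> simp [Lt.act, en5 this, en6]⟩) (le_dm2 h1 h2)
lemma pair_vu : Pair .v' .u' (phi (th 1 2)) where
  e := rfl
  f1 := by
    rw [dm_meet]; exact TT_phi (th_loc 1 2 (by omega) (by omega)) (loc2 _ _) fun y => by
      simp [th, Lt.dom, Lt.act, Lt.inv, en2]
  f2 := TT_phi (isLoc_dom _) (th_loc 1 2 (by omega) (by omega)) fun y => by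
    simp only [th, Lt.dom, Lt.act, Lt.inv, cons_1, cons_0, en3, tl_app]
    exact ⟨fun h => ⟨en4 h, h⟩, fun h => h.2⟩
  f3 := by
    rw [dm_meet]; exact TT_phi (isLoc_dom _) (loc2 _ _) fun y => by simp [Lt.dom, Lt.act, Lt.inv]
  cm p h1 h2 := T0_sq (loc2 .v' .u') (loc2 .v' .u') (isLoc_dom .u')
    (fun y => by simp [Lt.dom, Lt.act]) (fun y => by simp [Lt.dom, Lt.act])
    (fun x hx => ⟨hx, hx.2, by
      have : 1 ≤ x 1 := hx.1
      apply X.ext4 <;> simp [Lt.act, en5 this, en6]⟩) (le_dm2 h1 h2)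

lemma itrJ (i : ℕ) : Compat (itr .v i) (dmI .u') ∧ Compat (itr .v i) (dmI .v) ∧
    TT .u' (itr .v i) = itr .v (i + 1) := by
  have k1 : TT .u' (dmI .v) = meet (dmI Lt.u'.inv) (dmI .v) := by
    rw [dm_meet]; exact TT_phi (isLoc_dom _) (loc2 _ _) fun y => by simp [Lt.dom, Lt.act, Lt.inv]
  have k2 : TT .v (dmI .u') = meet (dmI Lt.v.inv) (dmI .u') := by
    rw [dm_meet]; exact TT_phi (isLoc_dom _) (loc2 _ _) fun y => by simp [Lt.dom, Lt.act, Lt.inv]
  induction i with
  | zero => exact ⟨(compat_top _).symm, (compat_top _).symm, by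
      simp only [itr]; rw [TT_top, TT_top]; rfl⟩
  | succ i ih =>
    obtain ⟨h1, h2, h3⟩ := ih
    refine ⟨(TT_keep k2 h2 h1).1, h3 ▸ (TT_keep k1 h1 h2).1, ?_⟩
    show TT .u' (TT .v (itr .v i)) = TT .v (itr .v (i + 1))
    rw [← h3, TT, (TT_keep k2 h2 h1).2, TT, (TT_keep k1 h1 h2).2]
    have e : meet (meet (itr .v i) (dmI .v)) (dmI .u') = meet (meet (itr .v i) (dmI .u')) (dmI .v) :=
      eq_of_le_iff fun s => by
        simp only [le_meet_iff (h2.meet_left h1 (dm_compat _ _)), le_meet_iff h1, le_meet_iff h2,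
          le_meet_iff (h1.meet_left h2 (dm_compat _ _))]; tauto
    rw [e]
    exact (T0_sq (loc2 .u' .v) (loc2 .v .u') (loc2 .u' .v)
      (fun y => by simp [Lt.dom, Lt.act]) (fun y => by simp [Lt.dom, Lt.act])
      (fun x hx => ⟨hx.symm, hx, by apply X.ext4 <;> simp [Lt.act]⟩)
      (le_dm2 ((meet_le_left _ _).trans (meet_le_right _ _)) (meet_le_right _ _))).T0w

noncomputable abbrev qI := itr .u
noncomputable abbrev jI := itr .v
noncomputable abbrev kI := itr .v'
lemma jI_F (i) : Compat (jI i) (dmI .u) := by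
  cases i
  exacts [(compat_top _).symm, compat_of_le (TT_le .v _)]
lemma itr_jI {a : Lt} (e : dmI a = dmI .u) (h : ∀ k, Compat (itr a k) (dmI a))
    (h1 : ∀ i, TT a.inv (jI i) = jI (i + 1)) (h2 : ∀ i, Compat (jI i) (dmI a.inv)) (k i) :
    Compat (itr a k) (jI i) := by
  induction k generalizing i with
  | zero => exact (compat_top _).symm
  | succ k ih =>
    have := TT_compat (ih (i + 1)) (h k) (e ▸ jI_F _)
    have e2 := TT_inv a.inv (jI i)
    rw [Lt.inv_inv, h1] at e2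
    rw [e2, meet_comm] at this
    exact compat_of_local (TT_le _ _) (h2 i).symm this
lemma q_j (k i) : Compat (qI k) (jI i) :=
  itr_jI rfl (fun k => (pair_uv.itr k).1) (fun i => (itrJ i).2.2) (fun i => (itrJ i).1) k i
lemma k_j (k i) : Compat (kI k) (jI i) :=
  itr_jI (a := .v') rfl (fun k => (pair_vu.itr k).1) (fun _ => rfl) (fun i => (itrJ i).2.1) k i
lemma TT_u_k (j) : TT .u (kI j) = meet (kI j) (dmI .u') := by
  rw [← TT_meet_dm, show dmI .u = dmI .v' from rfl, ← (pair_vu.itr j).2.2]; exact TT_inv .u' _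
lemma TT_v'_q (k) : TT .v' (qI k) = meet (qI k) (dmI .v) := by
  rw [← TT_meet_dm, show dmI .v' = dmI .u from rfl, ← (pair_uv.itr k).2.2]; exact TT_inv .v _
lemma q_k (k j) : Compat (qI k) (kI j) := by
  induction k with
  | zero => exact (compat_top _).symm
  | succ k ih =>
    have := TT_compat ih (pair_uv.itr k).1 (pair_vu.itr j).1
    rw [TT_u_k, meet_comm] at this
    exact compat_of_local (TT_le _ _) (pair_vu.itr j).2.1.symm this
lemma q_q (k l) : Compat (qI k) (qI l) := itr_compat (fun k => (pair_uv.itr k).1) k l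
lemma j_j (k l) : Compat (jI k) (jI l) := itr_compat (fun k => (itrJ k).2.1) k l
lemma k_k (k l) : Compat (kI k) (kI l) := itr_compat (fun k => (pair_vu.itr k).1) k l
lemma q_le {k l} (e : k ≤ l) : Le (qI l) (qI k) := itr_le (fun k => (pair_uv.itr k).1) e
lemma j_le {k l} (e : k ≤ l) : Le (jI l) (jI k) := itr_le (fun k => (itrJ k).2.1) e
lemma k_le {k l} (e : k ≤ l) : Le (kI l) (kI k) := itr_le (fun k => (pair_vu.itr k).1) e
lemma q_one : qI 1 = dmI .u' := TT_top _
lemma j_one : jI 1 = dmI .u := TT_top _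
lemma k_one : kI 1 = dmI .v := TT_top _

end Vale.Agent.P196
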