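import Vale.Agent.P196.Rig1

/-! Rigidity, part 2: windows. -/

namespace Vale.Agent.P196
open Equiv Idm

lemma meet_compl_meet {p q : ID} (h : Compat p q) : meet p (meet q p).compl = meet p q.compl := by
  rw [h.meet_compl, (compat_of_le (meet_le_right q p)).symm.meet_compl,
    meet_of_ge (meet_le_right q p), meet_comm q p]
def Fx (a : Lt) (p : ID) : Prop :=
  Compat p (dmI a) ∧ Compat p (dmI a.inv) ∧ TT a p = meet p (dmI a.inv)
lemma Fx.compl {a p} (h : Fx a p) : Fx a p.compl := ⟨h.1.compl_left, h.2.1.compl_left, by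
  rw [TT_compl h.1, h.2.2, meet_compl_meet h.2.1.symm, meet_comm]⟩
lemma Fx.meet {a p q} (h : Fx a p) (h' : Fx a q) (c : Compat p q) : Fx a (meet p q) :=
  ⟨c.meet_left h.1 h'.1, c.meet_left h.2.1 h'.2.1, by
    rw [TT_meet c h.1 h'.1, h.2.2, h'.2.2, meet_meet c h.2.1 h'.2.1]⟩
lemma fx_v_q (k) : Fx .v (qI k) := ⟨(pair_uv.itr k).2.1, (pair_uv.itr k).1, (pair_uv.itr k).2.2⟩
lemma fx_v'_q (k) : Fx .v' (qI k) := ⟨(pair_uv.itr k).1, (pair_uv.itr k).2.1, TT_v'_q k⟩

noncomputable def pI (k : ℕ) : ID := meet (qI k) (qI (k + 1)).compl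
lemma fx_v_p (k) : Fx .v (pI k) := (fx_v_q k).meet (fx_v_q _).compl (q_q _ _).compl
lemma fx_v'_p (k) : Fx .v' (pI k) := (fx_v'_q k).meet (fx_v'_q _).compl (q_q _ _).compl
lemma p_c {k p} (h : ∀ l, Compat (qI l) p) : Compat (pI k) p :=
  (q_q _ _).compl.meet_left (h _) (h _).compl_left
lemma p_zero : pI 0 = dmI .c' := by
  rw [pI, q_one]; exact (top_meet _).trans (phi_compl (isLoc_dom .u'))
lemma q_succ (k) : qI (k + 1) = TT .u (qI k) := rfl
lemma j_succ (k) : jI (k + 1) = TT .v (jI k) := rfl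
lemma k_succ (k) : kI (k + 1) = TT .v' (kI k) := rfl
lemma TT_u'_j (i) : TT .u' (jI i) = jI (i + 1) := (itrJ i).2.2
lemma q_F (k) : Compat (qI k) (dmI .u) := (pair_uv.itr k).1
lemma q_E (k) : Compat (qI k) (dmI .u') := by rw [← q_one]; exact q_q k 1
lemma p_F (k) : Compat (pI k) (dmI .u) := (fx_v_p k).2.1
lemma TT_u_p (k) : TT .u (pI k) = pI (k + 1) := by
  have l : Le (qI (k + 1)) (dmI .u') := TT_le .u _
  have c1 := (q_E (k + 1 + 1)).symm.compl
  have c2 := c1.meet_right (compat_of_le l) (q_q _ _).compl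
  rw [pI, TT_meet (q_q _ _).compl (q_F k) (q_F _).compl_left, TT_compl (q_F _), ← q_succ, ← q_succ]
  exact meet_absorb l c1 c2
lemma p_le_q {k l} (h : l ≤ k) : Le (pI k) (qI l) := (meet_le_left _ _).trans (q_le h)
lemma p_perp_q {k l} (h : k < l) : Perp (pI k) (qI l) :=
  (perp_iff_le.2 (meet_le_right _ _)).mono (q_le h)
lemma p_perp_p {k l} (h : k ≠ l) : Perp (pI k) (pI l) := by
  rcases lt_or_gt_of_ne h with e | e
  exacts [(p_perp_q e).mono (meet_le_left _ _), ((p_perp_q e).mono (meet_le_left _ _)).symm]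

lemma q_two : qI 2 = phi (th 0 2) := by
  show TT .u (qI 1) = _
  rw [q_one]; exact TT_phi (isLoc_dom _) (th_loc 0 2 (by omega) (by omega)) fun y => by
    simp only [th, Lt.dom, Lt.act, Lt.inv, cons_0, en3]; exact ⟨fun h => ⟨en4 h, h⟩, fun h => h.2⟩
lemma TT_c_F : TT .c (dmI .u) = meet (dmI Lt.c.inv) (dmI .v) := by
  rw [dm_meet]; exact TT_phi (isLoc_dom _) (loc2 _ _) fun y => by simp [Lt.dom, Lt.act, Lt.inv]
lemma TT_c_q2 : TT .c (qI 2) = meet (dmI Lt.c.inv) (dmI .u) := by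
  rw [dm_meet, q_two]; exact TT_phi (th_loc 0 2 (by omega) (by omega)) (loc2 _ _) fun y => by
    simp [th, Lt.dom, Lt.act, Lt.inv, en2]
lemma vc {p} (h1 : Compat p (dmI .c)) (h2 : Compat p (dmI .u)) :
    TT .v (TT .c p) = meet (TT .c (TT .u p)) (dmI .u) := by
  have c := TT_compat h2 h1 (dm_compat _ _)
  have e1 : meet (TT .c p) (dmI .v) = T0 .c (meet (meet p (dmI .u)) (dmI .c)) := by
    rw [TT_c_F] at c
    rw [← meet_absorb (TT_le .c p) (dm_compat _ _) c, ← TT_c_F, ← TT_meet h2 h1 (dm_compat _ _)]; rfl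
  have e2 := (T0_sq (a := .v) (b := .c) (a' := .c) (b' := .u) (loc2 .u .c) (loc2 .c .u) (isLoc_dom .u)
    (fun y => by simp [Lt.dom, Lt.act]) (fun y => by simp [Lt.dom, Lt.act])
    (fun x hx => ⟨hx.symm, hx.1, by
      have : 1 ≤ x 0 := hx.2
      apply X.ext4 <;> simp [Lt.act, en5 this, en6]⟩) (p := meet (meet p (dmI .u)) (dmI .c))
    (le_dm2 ((meet_le_left _ _).trans (meet_le_right _ _)) (meet_le_right _ _))).T0w
  simp only [T0w] at e2
  have c1 : Compat (TT .u p) (qI 2) := by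
    have := TT_compat h1 h2 (dm_compat _ _)
    rwa [show dmI .c = qI 1 from q_one.symm] at this
  have e3 : T0 .u (meet (meet p (dmI .u)) (dmI .c)) = meet (TT .u p) (qI 2) := by
    show _ = meet _ (TT .u (qI 1))
    rw [q_one, ← TT_meet (q := dmI .u') h1 h2 (dm_compat _ _), TT]
    congr 1
    exact eq_of_le_iff fun s => by
      have h1' : Compat p (dmI .u') := h1
      simp only [le_meet_iff (h2.meet_left h1 (dm_compat _ _)), le_meet_iff h1', le_meet_iff h2,
        le_meet_iff (h1'.meet_left h2 (dm_compat _ _))]; tauto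
  have l1 : Le (TT .u p) (dmI .c) := TT_le .u p
  have l2 : Le (qI 2) (dmI .c) := TT_le .u _
  have c2 := TT_compat c1 (compat_of_le l1) (compat_of_le l2)
  rw [TT_c_q2] at c2
  rw [TT, e1, e2, e3, ← TT_of_le ((meet_le_left _ _).trans l1),
    TT_meet c1 (compat_of_le l1) (compat_of_le l2), TT_c_q2, meet_absorb (TT_le _ _) (dm_compat _ _) c2]

noncomputable def wI : ℕ → ID → ID
  | 0, p => TT .c p
  | k + 1, p => TT .u (wI k p)
lemma qE (k) : Compat (qI k) (dmI .c) := (q_one ▸ q_q k 1 : Compat _ (dmI .u'))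
lemma TT_u_j (i) : TT .u (jI (i + 1)) = meet (jI i) (dmI .u') := by
  rw [← TT_u'_j]; exact TT_inv .u' _
lemma TT_v'_j (i) : TT .v' (jI (i + 1)) = meet (jI i) (dmI .v) := TT_inv .v _
lemma meet_drop {p q r : ID} (c : Compat p q) (cr : Compat q r) (h : Le p r) :
    meet p (meet q r) = meet p q := by
  rw [meet_comm q r]
  exact meet_absorb h cr.symm (cr.symm.meet_right (compat_of_le h) c)
lemma meet_drop' {p q r : ID} (c : Compat p q) (cr : Compat p r) (h : Le q r) :
    meet (meet p r) q = meet p q := by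
  rw [meet_comm, meet_drop c.symm cr h, meet_comm]
lemma w_top (k) : wI k (top FF) = pI k := by
  induction k with
  | zero => exact (TT_top _).trans p_zero.symm
  | succ k ih => rw [wI, ih, TT_u_p]
lemma w_q (k i) : wI k (qI (k + 1 + i)) = meet (pI k) (jI i) := by
  induction k generalizing i with
  | zero =>
    induction i with
    | zero =>
      show TT .c (qI 1) = meet _ (top FF)
      rw [meet_top, q_one, p_zero]; exact (TT_of_le (le_refl _)).trans (T0_dm .c)
    | succ i ih =>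
      have e := vc (qE (0 + 1 + i)) (pair_uv.itr _).1
      have l : Le (TT .c (TT .u (qI (0 + 1 + i)))) (dmI .u) :=
        (TT_mono (qE 2) (q_le (l := 0 + 1 + i + 1) (by omega))).trans (TT_c_q2 ▸ meet_le_right _ _)
      rw [meet_of_le l] at e
      show TT .c (TT .u (qI (0 + 1 + i))) = _
      rw [← e, show TT .c (qI (0 + 1 + i)) = _ from ih,
        TT_meet (p_c fun l => q_j l i) (fx_v_p 0).1 (itrJ i).2.1, (fx_v_p 0).2.2]
      exact meet_drop' (q := jI (i + 1)) (p_c fun l => q_j l _) (p_F 0) (TT_le .v _)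
  | succ k ih =>
    rw [wI, show k + 1 + 1 + i = k + 1 + (i + 1) by omega, ih,
      TT_meet (p_c fun l => q_j l _) (p_F k) (jI_F _), TT_u_p, TT_u_j]
    exact meet_drop (p_c fun l => q_j l _) (itrJ i).1 (q_one ▸ p_le_q (l := 1) (by omega))
lemma w_j (k i) : wI k (jI i) = meet (pI k) (kI i) := by
  induction k with
  | zero =>
    induction i with
    | zero => exact (w_top 0).trans (meet_top _).symm
    | succ i ih =>
      have e := congrArg (TT .v') (vc (p := jI (i + 1)) (itrJ _).1 (jI_F _))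
      have l : Le (TT .c (jI (i + 1))) (dmI .v) :=
        (TT_mono (dm_compat _ _) (TT_le .v _)).trans (TT_c_F ▸ meet_le_right _ _)
      rw [show TT .v' (TT .v _) = _ from TT_inv .v _, meet_of_le l, TT_u_j,
        show dmI .u' = dmI .c from rfl, TT_meet_dm, show dmI .u = dmI .v' from rfl, TT_meet_dm,
        show TT .c (jI i) = _ from ih,
        TT_meet (p_c fun l => q_k l i) (fx_v'_p 0).1 (pair_vu.itr i).1, (fx_v'_p 0).2.2] at e
      exact e.trans (meet_drop' (q := kI (i + 1)) (p_c fun l => q_k l _) (fx_v'_p 0).2.1 (TT_le .v' _))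
  | succ k ih =>
    rw [wI, ih, TT_meet (p_c fun l => q_k l _) (p_F k) (pair_vu.itr i).1, TT_u_p, TT_u_k]
    exact meet_drop (p_c fun l => q_k l _) (pair_vu.itr i).2.1 (q_one ▸ p_le_q (l := 1) (by omega))

def GQ (p : ID) : Prop := ∀ l, Compat p (qI l)
lemma gq_q (k) : GQ (qI k) := q_q k
lemma gq_j (k) : GQ (jI k) := fun l => (q_j l k).symm
lemma gq_top : GQ (top FF) := gq_q 0
def WH (k : ℕ) : Prop := ∀ p q, GQ p → GQ q → Compat p q → Compat (wI k p) (wI k q) ∧
  wI k (meet p q) = meet (wI k p) (wI k q) ∧ wI k p.compl = meet (pI k) (wI k p).compl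
lemma WH.le {k} (h : WH k) {p q} (hp : GQ p) (hq : GQ q) (e : Le p q) : Le (wI k p) (wI k q) := by
  have := (h p q hp hq (compat_of_le e)).2.1
  rw [meet_of_le e] at this
  rw [this]; exact meet_le_right _ _
lemma WH.le_p {k} (h : WH k) {p} (hp : GQ p) : Le (wI k p) (pI k) :=
  w_top k ▸ h.le hp gq_top (le_top _)
lemma WH.cj {k} (h : WH k) {p} (hp : GQ p) (i) : Compat (wI k p) (jI i) :=
  compat_of_local (h.le_p hp) (p_c fun l => q_j l i) (w_q k i ▸ (h _ _ hp (gq_q _) (hp _)).1)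
lemma WH.ck {k} (h : WH k) {p} (hp : GQ p) {i} (c : Compat p (jI i)) : Compat (wI k p) (kI i) :=
  compat_of_local (h.le_p hp) (p_c fun l => q_k l i) (w_j k i ▸ (h _ _ hp (gq_j _) c).1)
lemma wH (k) : WH k := by
  induction k with
  | zero =>
    intro p q hp hq c
    have e : ∀ {p}, GQ p → Compat p (dmI .c) := fun h => (q_one ▸ h 1 : Compat _ (dmI .u'))
    exact ⟨TT_compat c (e hp) (e hq), TT_meet c (e hp) (e hq), p_zero ▸ TT_compl (e hp)⟩
  | succ k ih =>
    intro p q hp hq c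
    obtain ⟨h1, h2, h3⟩ := ih p q hp hq c
    have e : ∀ {p}, GQ p → Compat (wI k p) (dmI .u) := fun h => j_one ▸ ih.cj h 1
    refine ⟨TT_compat h1 (e hp) (e hq), by rw [wI, h2, TT_meet h1 (e hp) (e hq)]; rfl, ?_⟩
    have c1 := (compat_of_le (ih.le_p hp)).symm.compl
    have c2 := TT_compat c1 (p_F k) (e hp).compl_left
    rw [TT_u_p, TT_compl (e hp)] at c2
    rw [wI, h3, TT_meet c1 (p_F k) (e hp).compl_left, TT_u_p, TT_compl (e hp)]
    exact meet_absorb (q_one ▸ p_le_q (l := 1) (by omega) : Le _ (dmI .u'))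
      (compat_of_le (TT_le .u _)).symm.compl c2
lemma w_cq {k p} (hp : GQ p) (l) : Compat (wI k p) (qI l) := by
  rcases le_or_gt l k with e | e
  exacts [compat_of_le (((wH k).le_p hp).trans (p_le_q e)),
    compat_of_perp ((p_perp_q e).mono_left ((wH k).le_p hp))]
lemma w_zero (k) : wI k (zero FF) = zero FF := by
  induction k with
  | zero => exact TT_zero _
  | succ k ih => rw [wI, ih, TT_zero]
lemma w_E (k p) : wI k (meet p (dmI .u')) = wI k p := by
  induction k with
  | zero => exact TT_meet_dm (a := .c)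
  | succ k ih => rw [wI, ih, wI]
lemma w_v (k) {p} (hp : GQ p) (h : Compat p (dmI .u)) :
    TT .v (wI k p) = meet (wI k (TT .u p)) (dmI .u) := by
  induction k with
  | zero => exact vc (q_one ▸ hp 1 : Compat _ (dmI .u')) h
  | succ k ih =>
    rw [wI, (pair_uv.swap (j_one ▸ (wH k).cj hp 1) (k_one ▸ (wH k).ck hp (j_one ▸ h))).1, ih,
      TT_meet_dm, wI]
lemma w_v' (k) {p} (hp : GQ p) : TT .v' (wI k p) = wI k (TT .u' p) := by
  have l : Le (TT .u' p) (dmI .u) := TT_le .u' p
  have g : GQ (TT .u' p) := fun l' => by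
    have := TT_compat (a := .u') (hp (l' + 1)) (q_one ▸ hp 1) (qE _)
    rw [show TT .u' (qI (l' + 1)) = _ from TT_inv .u _, meet_comm] at this
    exact compat_of_local l (pair_uv.itr l').1.symm this
  have e := congrArg (TT .v') (w_v k g (compat_of_le l))
  have l2 : Le (wI k (TT .u' p)) (dmI .v) :=
    ((wH k).le g (gq_j 1) (j_one ▸ l)).trans (w_j k 1 ▸ k_one ▸ meet_le_right _ _)
  rw [show TT .v' (TT .v _) = _ from TT_inv .v _, meet_of_le l2,
    show TT .u (TT .u' p) = _ from TT_inv .u' _, w_E, show dmI .u = dmI .v' from rfl, TT_meet_dm] at e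
  exact e.symm
lemma w_perp {k p} (hp : GQ p) (h : Perp p (qI (k + 1))) : wI k p = zero FF := by
  have e := ((wH k) _ _ hp (gq_q (k + 1)) (hp _)).2.1
  rw [meet_eq_zero h, w_zero, show wI k (qI (k + 1)) = _ from w_q k 0] at e
  rw [e]; exact (meet_of_le (((wH k).le_p hp).trans ((compat_top _).le_meet (le_refl _) (le_top _)))).symm

end Vale.Agent.P196
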