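import Vale.Agent.P196.Rig2

/-! Rigidity, part 3: evaluation of definable sets as idempotents. -/

namespace Vale.Agent.P196
open Equiv Idm

noncomputable def ev : Tm → ID
  | .Q k => qI k | .J k => jI k | .K k => kI k
  | .nt t => (ev t).compl | .an s t => meet (ev s) (ev t) | .W k t => wI k (ev t)
def sz : Tm → ℕ
  | .nt t => sz t + 1 | .an s t => sz s + sz t + 1 | .W _ t => sz t + 1 | _ => 1
lemma sz_pos (t : Tm) : 1 ≤ sz t := by cases t <;> simp [sz]

lemma ev_compat_aux (n : ℕ) : ∀ s t : Tm, sz s + sz t ≤ n → Compat (ev s) (ev t) := by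
  induction n with
  | zero => intro s t h; have := sz_pos s; omega
  | succ n ih =>
    have A : ∀ s s' t : Tm, sz (.an s s') + sz t ≤ n + 1 → Compat (ev (.an s s')) (ev t) := by
      intro s s' t h
      have := sz_pos t; have := sz_pos s; have := sz_pos s'
      simp only [sz] at h
      exact (ih s s' (by omega)).meet_left (ih s t (by omega)) (ih s' t (by omega))
    have N : ∀ s t : Tm, sz (.nt s) + sz t ≤ n + 1 → Compat (ev (.nt s)) (ev t) := fun s t h =>
      (ih s t (by simp only [sz] at h; omega)).compl_left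
    have G : ∀ s : Tm, sz s + 1 ≤ n → GQ (ev s) := fun s h l => ih s (.Q l) h
    have W : ∀ k (s t : Tm), sz (.W k s) + sz t ≤ n + 1 → Compat (ev (.W k s)) (ev t) := by
      intro k s t h
      have := sz_pos t; have := sz_pos s
      have g := G s (by simp only [sz] at h; omega)
      cases t with
      | Q l => exact w_cq g l
      | J l => exact (wH k).cj g l
      | K l => exact (wH k).ck g (ih s (.J l) (by simp only [sz] at h ⊢; omega))
      | nt t => exact (N t _ (by omega)).symm
      | an t t' => exact (A t t' _ (by omega)).symm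
      | W l t =>
        simp only [sz] at h
        have := sz_pos t
        have g' := G t (by omega)
        by_cases e : k = l
        · subst e; exact (wH k _ _ g g' (ih s t (by omega))).1
        · exact compat_of_perp (((p_perp_p e).mono ((wH l).le_p g')).mono_left ((wH k).le_p g))
    intro s t h
    cases s with
    | nt s => exact N s t h
    | an s s' => exact A s s' t h
    | W k s => exact W k s t h
    | Q m => cases t with
      | nt t => exact (N t _ (by omega)).symm
      | an t t' => exact (A t t' _ (by omega)).symm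
      | W l t => exact (W l t _ (by omega)).symm
      | Q l => exact q_q m l
      | J l => exact q_j m l
      | K l => exact q_k m l
    | J m => cases t with
      | nt t => exact (N t _ (by omega)).symm
      | an t t' => exact (A t t' _ (by omega)).symm
      | W l t => exact (W l t _ (by omega)).symm
      | Q l => exact (q_j l m).symm
      | J l => exact j_j m l
      | K l => exact (k_j l m).symm
    | K m => cases t with
      | nt t => exact (N t _ (by omega)).symm
      | an t t' => exact (A t t' _ (by omega)).symm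
      | W l t => exact (W l t _ (by omega)).symm
      | Q l => exact (q_k l m).symm
      | J l => exact k_j m l
      | K l => exact k_k m l
lemma ev_compat (s t : Tm) : Compat (ev s) (ev t) := ev_compat_aux _ s t le_rfl
lemma ev_gq (s : Tm) : GQ (ev s) := fun l => ev_compat s (.Q l)
lemma ev_tt : ev .tt = top FF := rfl
lemma ev_ff : ev .ff = zero FF := compl_top
lemma ev_dm (a : Lt) : ev (.dm a) = dmI a := by
  cases a
  exacts [j_one, q_one, k_one, j_one, q_one, by
    show (qI 1).compl = _
    rw [q_one]; exact phi_compl (isLoc_dom .u')]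
lemma ev_cd (t a) : Compat (ev t) (dmI a) := ev_dm a ▸ ev_compat t _
lemma ev_cp (k t) : Compat (pI k) (ev t) := p_c fun l => (ev_gq t l).symm

lemma ev_pull (k : ℕ) (t : Tm) : meet (pI k) (ev t) = wI k (ev (t.pull k)) := by
  induction t with
  | Q l =>
    simp only [Tm.pull]; split_ifs with e
    · rw [ev_tt, w_top]; exact meet_of_le (p_le_q e)
    · rw [ev_ff, w_zero]; exact meet_eq_zero (p_perp_q (by omega))
  | J i => exact (w_q k i).symm
  | K j => exact (w_j k j).symm
  | nt t ih =>
    simp only [Tm.pull, ev]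
    rw [(wH k _ _ (ev_gq _) (ev_gq _) (compat_refl _)).2.2, ← ih, meet_comm (pI k) (ev t),
      meet_compl_meet (ev_cp k t)]
  | an s t ih1 ih2 =>
    simp only [Tm.pull, ev]
    rw [(wH k _ _ (ev_gq _) (ev_gq _) (ev_compat _ _)).2.1, ← ih1, ← ih2, meet_comm,
      meet_meet (ev_compat s t) (ev_cp k s).symm (ev_cp k t).symm, meet_comm (ev s), meet_comm (ev t)]
  | W l s _ =>
    simp only [Tm.pull]; split_ifs with e
    · subst e; exact meet_of_ge ((wH l).le_p (ev_gq s))
    · rw [ev_ff, w_zero]
      exact meet_eq_zero ((p_perp_p (Ne.symm e)).mono ((wH l).le_p (ev_gq s)))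

lemma ev_trU (t : Tm) : ev t.trU = TT .u (ev t) := by
  induction t with
  | Q k => rfl
  | J i =>
    cases i with
    | zero => exact (meet_top _).trans (q_one.trans (TT_top .u).symm)
    | succ i => exact ((TT_u_j i).trans ((meet_comm _ _).trans (by rw [← q_one]; rfl))).symm
  | K j => exact ((TT_u_k j).trans ((meet_comm _ _).trans (by rw [← q_one]; rfl))).symm
  | nt t ih => simp only [Tm.trU, ev]; rw [ih, q_one, TT_compl (ev_cd t _)]; rfl
  | an s t ih1 ih2 =>
    simp only [Tm.trU, ev]; rw [ih1, ih2, TT_meet (ev_compat s t) (ev_cd _ _) (ev_cd _ _)]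
  | W k t _ => rfl
lemma ev_trU' (t : Tm) : ev t.trU' = TT .u' (ev t) := by
  induction t with
  | Q k =>
    cases k with
    | zero => exact (meet_top _).trans (j_one.trans (TT_top .u').symm)
    | succ i => exact ((TT_inv .u _).trans ((meet_comm _ _).trans (by rw [← j_one]; rfl))).symm
  | J i => exact (TT_u'_j i).symm
  | K j => exact ((pair_vu.itr j).2.2.trans ((meet_comm _ _).trans (by
      rw [show dmI .v' = jI 1 from j_one.symm]; rfl))).symm
  | nt t ih => simp only [Tm.trU', ev]; rw [ih, j_one, TT_compl (ev_cd t _)]; rfl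
  | an s t ih1 ih2 =>
    simp only [Tm.trU', ev]; rw [ih1, ih2, TT_meet (ev_compat s t) (ev_cd _ _) (ev_cd _ _)]
  | W k t _ =>
    cases k with
    | zero =>
      have : Perp (TT .c (ev t)) (dmI .u') :=
        (p_perp_q (k := 0) (l := 1) (by omega)).mono_left ((wH 0).le_p (ev_gq t)) |>.mono
          (q_one ▸ le_refl _)
      show ev .ff = T0 .u' (meet (TT .c (ev t)) (dmI .u'))
      rw [meet_eq_zero this, T0_zero, ev_ff]
    | succ k => exact ((TT_inv .u _).trans ((meet_comm _ _).trans (by rw [← j_one]; rfl))).symm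
lemma ev_trV (t : Tm) : ev t.trV = TT .v (ev t) := by
  induction t with
  | Q k => exact ((pair_uv.itr k).2.2.trans ((meet_comm _ _).trans (by rw [← j_one]; rfl))).symm
  | J i => rfl
  | K j =>
    cases j with
    | zero => exact (meet_top _).trans (j_one.trans (TT_top .v).symm)
    | succ i => exact ((TT_inv .v' _).trans ((meet_comm _ _).trans (by
      rw [show dmI .v' = jI 1 from j_one.symm]; rfl))).symm
  | nt t ih => simp only [Tm.trV, ev]; rw [ih, j_one, TT_compl (ev_cd t _)]; rfl
  | an s t ih1 ih2 =>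
    simp only [Tm.trV, ev]; rw [ih1, ih2, TT_meet (ev_compat s t) (ev_cd _ _) (ev_cd _ _)]
  | W k t _ =>
    simp only [Tm.trV, ev]
    rw [ev_trU, w_v k (ev_gq t) (ev_cd _ _), j_one, meet_comm]
lemma ev_trV' (t : Tm) : ev t.trV' = TT .v' (ev t) := by
  induction t with
  | Q k => exact ((TT_v'_q k).trans ((meet_comm _ _).trans (by rw [← k_one]; rfl))).symm
  | J i =>
    cases i with
    | zero => exact (meet_top _).trans (k_one.trans (TT_top .v').symm)
    | succ i => exact ((TT_v'_j i).trans ((meet_comm _ _).trans (by rw [← k_one]; rfl))).symm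
  | K j => rfl
  | nt t ih => simp only [Tm.trV', ev]; rw [ih, k_one, TT_compl (ev_cd t _)]; rfl
  | an s t ih1 ih2 =>
    simp only [Tm.trV', ev]; rw [ih1, ih2, TT_meet (ev_compat s t) (ev_cd _ _) (ev_cd _ _)]
  | W k t _ => simp only [Tm.trV', ev]; rw [ev_trU', w_v' k (ev_gq t)]
lemma ev_tr (a : Lt) (t : Tm) : ev (t.tr a) = TT a (ev t) := by
  cases a
  exacts [ev_trU t, ev_trU' t, ev_trV t, ev_trV' t, rfl, by
    show meet (qI 1) (ev (t.pull 0)) = _
    rw [← TT_meet_dm, ← p_zero, meet_comm (ev t), ev_pull, q_one, meet_comm]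
    exact (TT_inv .c _).symm]

/-- `t` is decided on `G` as at the point `x` -/
def Dec (G : ID) (x : X) (t : Tm) : Prop := (t.sh x → Le G (ev t)) ∧ (¬ t.sh x → Perp G (ev t))
lemma Dec.nt {G x t} (h : Dec G x t) : Dec G x (.nt t) :=
  ⟨fun e => perp_iff_le.1 (h.2 e), fun e => h.1 (not_not.1 e)⟩
lemma Dec.an {G x s t} (h : Dec G x s) (h' : Dec G x t) : Dec G x (.an s t) :=
  ⟨fun e => (ev_compat s t).le_meet (h.1 e.1) (h'.1 e.2), fun e => by
    by_cases q : s.sh x
    · exact (h'.2 fun q' => e ⟨q, q'⟩).mono (meet_le_right _ _)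
    · exact (h.2 q).mono (meet_le_left _ _)⟩
def mu : Tm → ℕ
  | .Q 0 => 0 | .Q (_ + 1) => 1 | .J _ => 2 | .K _ => 3
  | .nt t => mu t | .an s t => max (mu s) (mu t) | .W _ t => mu t + 1
lemma mu_pull (k : ℕ) (t : Tm) : mu (t.pull k) ≤ mu t - 1 := by
  induction t with
  | Q l => simp only [Tm.pull]; split_ifs <;> simp [mu, Tm.tt, Tm.ff]
  | J i => rw [Tm.pull, show k + 1 + i = (k + i) + 1 by omega]; simp [mu]
  | K j => simp [Tm.pull, mu]
  | nt t ih => exact ih
  | an s t ih1 ih2 => simp only [Tm.pull, mu]; omega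
  | W l s _ => simp only [Tm.pull]; split_ifs <;> simp [mu, Tm.ff]
lemma dec_mu0 (x : X) (t : Tm) (h : mu t = 0) : Dec (top FF) x t := by
  induction t with
  | Q l =>
    cases l
    · exact ⟨fun _ => le_refl _, fun e => absurd (by simp [Tm.sh]) e⟩
    · simp [mu] at h
  | nt t ih => exact (ih h).nt
  | an s t ih1 ih2 => simp only [mu] at h; exact (ih1 (by omega)).an (ih2 (by omega))
  | _ => simp [mu] at h
def bd : Tm → ℕ
  | .Q k => k | .J k => k | .K k => k | .nt t => bd t | .an s t => max (bd s) (bd t) | .W k _ => k + 1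
/-- position of `G` in a chain -/
def CPos (R : ℕ → ID) (N : ℕ) (G : ID) (a : ℕ) : Prop :=
  ∀ l ≤ N, (l ≤ a → Le G (R l)) ∧ (a < l → Perp G (R l))
lemma dec_grid {G N a b} (h0 : Le G (qI N)) (h1 : CPos jI N G a) (h2 : CPos kI N G b) (t : Tm)
    (h : bd t ≤ N) : Dec G (cons ⊤ (cons a fun _ => b)) t := by
  induction t with
  | Q l => exact ⟨fun _ => h0.trans (q_le h), fun e => absurd (by simp [Tm.sh]) e⟩
  | J l => exact ⟨fun e => (h1 l h).1 (by simpa [Tm.sh] using e), fun e => (h1 l h).2 (by
      simpa [Tm.sh] using e)⟩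
  | K l => exact ⟨fun e => (h2 l h).1 (by simpa [Tm.sh] using e), fun e => (h2 l h).2 (by
      simpa [Tm.sh] using e)⟩
  | nt t ih => exact (ih h).nt
  | an s t ih1 ih2 => simp only [bd] at h; exact (ih1 (by omega)).an (ih2 (by omega))
  | W k t _ => exact ⟨fun e => absurd e.1 (by simp), fun _ =>
      (((p_perp_q (l := N) h).symm.mono_left h0).mono ((wH k).le_p (ev_gq t)))⟩
lemma chain_split {R : ℕ → Tm} (h0 : ev (R 0) = top FF) (hR : ∀ {k l}, k ≤ l → Le (ev (R l)) (ev (R k)))
    (N : ℕ) (s : ID) (r : Tm)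
    (h : ∀ a (G : Tm), Le (ev G) (ev r) → CPos (fun l => ev (R l)) N (ev G) a → Perp s (ev G)) :
    Perp s (ev r) := by
  have : ∀ d a, a + d = N → Perp s (ev (.an r (R a))) := by
    intro d
    induction d with
    | zero =>
      intro a e
      exact h N _ (meet_le_left _ _) fun l hl =>
        ⟨fun _ => (meet_le_right _ _).trans (hR (by omega)), fun q => by omega⟩
    | succ d ih =>
      intro a e
      refine (ev_compat _ (R (a + 1))).split ((ih (a + 1) (by omega)).mono ?_)
        (h a (.an (.an r (R a)) (.nt (R (a + 1)))) ((meet_le_left _ _).trans (meet_le_left _ _))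
          fun l _ => ⟨fun q => ((meet_le_left _ _).trans (meet_le_right _ _)).trans (hR q),
            fun q => (perp_iff_le.2 (meet_le_right _ _)).mono (hR q)⟩)
      exact (ev_compat _ _).le_meet ((meet_le_left _ _).trans (meet_le_left _ _)) (meet_le_right _ _)
  have e := this N 0 (by omega)
  simp only [ev] at e
  rwa [h0, meet_top] at e
lemma ev_empty_aux (n : ℕ) : ∀ (t : Tm) (m : ℕ), mu t ≤ n → (∀ x : X, (m : ℕ∞) ≤ x 0 → ¬ t.sh x) →
    Perp (ev t) (qI m) := by
  induction n with
  | zero =>
    intro t m h e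
    exact ((dec_mu0 (fun _ => ⊤) t (by omega)).2 (e _ le_top)).symm.mono (le_top _)
  | succ n ih =>
    intro t m h e
    refine chain_split (R := .Q) rfl q_le (bd t + m + 1) _ (.Q m) fun a G h1 h2 => ?_
    by_cases q : a ≤ bd t + m
    · have l : Le (ev G) (pI a) := (q_q _ _).compl.le_meet ((h2 a (by omega)).1 le_rfl)
        (perp_iff_le.1 ((h2 (a + 1) (by omega)).2 (by omega)))
      by_cases q' : a < m
      · rw [eq_zero_of_perp (((h2 m (by omega)).2 q').mono h1)]; exact perp_zero _
      have := ih (t.pull a) (a + 1) (by have := mu_pull a t; omega) fun x hx => by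
        rw [Tm.sh_pull a t hx]; exact e _ (by simp [push]; omega)
      have e2 := ev_pull a t
      rw [w_perp (ev_gq _) this] at e2
      exact (perp_of_meet_zero (ev_cp a t) e2).symm.mono l
    · have l : Le (ev G) (qI (bd t + m + 1)) := (h2 _ le_rfl).1 (by omega)
      refine chain_split (R := .J) rfl j_le (bd t + m + 1) _ G fun b G1 h3 h4 => ?_
      refine chain_split (R := .K) rfl k_le (bd t + m + 1) _ G1 fun c G2 h5 h6 => ?_
      exact ((dec_grid ((h5.trans h3).trans l) (fun l hl => ⟨fun q => h5.trans ((h4 l hl).1 q),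
        fun q => ((h4 l hl).2 q).mono_left h5⟩) h6 t (by omega)).2 (e _ (by simp))).symm
lemma ev_empty {t : Tm} (h : ∀ x, ¬ t.sh x) : ev t = zero FF :=
  eq_zero_of_perp ((ev_empty_aux _ t 0 le_rfl fun x _ => h x).mono (le_top _))
lemma ev_perp {s t : Tm} (h : ∀ x, s.sh x → ¬ t.sh x) : Perp (ev s) (ev t) :=
  perp_of_meet_zero (ev_compat s t) (ev_empty (t := .an s t) fun x e => h x e.1 e.2)
lemma ev_le {s t : Tm} (h : ∀ x, s.sh x → t.sh x) : Le (ev s) (ev t) :=
  ev_perp (t := .nt t) fun x e q => q (h x e)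
lemma ev_congr {s t : Tm} (h : ∀ x, s.sh x ↔ t.sh x) : ev s = ev t :=
  le_antisymm (ev_le fun x => (h x).1) (ev_le fun x => (h x).2)
lemma ev_trw {w : Wd} {t : Tm} (h : ∀ x, t.sh x → wdom w x) :
    DomI w (ev t) ∧ T0w w (ev t) = ev (t.trw w) := by
  induction w with
  | nil => exact ⟨trivial, rfl⟩
  | cons a w ih =>
    obtain ⟨h1, h2⟩ := ih fun x hx => (h x hx).1
    have l : Le (T0w w (ev t)) (dmI a) := by
      rw [h2, ← ev_dm]
      refine ev_le fun y hy => ?_
      rw [Tm.sh_trw] at hy
      have := (h _ hy.2).2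
      rwa [wact_inv' hy.1, ← Tm.sh_dm] at this
    exact ⟨⟨h1, l⟩, by rw [T0w, ← TT_of_le l, h2, Tm.trw, ev_tr]⟩

end Vale.Agent.P196
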