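import Vale.Agent.P196.Tw

/-! Transport of idempotents along letters. -/

namespace Vale.Agent.P196
open Equiv Idm

noncomputable def TW (a : Lt) (l s : List Sh) (g : Gam) : Gam := s.foldr (tw a l) g
lemma TW_cons (a l i s g) : TW a l (i :: s) g = tw a l i (TW a l s g) := rfl
lemma TW_mul (a l s g h) : TW a l s (g * h) = TW a l s g * TW a l s h := by
  induction s with
  | nil => rfl
  | cons i s ih => rw [TW_cons, ih, tw_mul]; rfl
lemma TW_inv (a l s g) : TW a l s g⁻¹ = (TW a l s g)⁻¹ := by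
  induction s with
  | nil => rfl
  | cons i s ih => rw [TW_cons, ih, tw_inv]; rfl
lemma TW_commute {a l s g h} (e : Commute g h) : Commute (TW a l s g) (TW a l s h) := by
  show _ = _; rw [← TW_mul, e.eq, TW_mul]
lemma TW_commute_iff {a l s g h} (e : Commute (TW a l s g) (TW a l s h)) : Commute g h := by
  induction s with
  | nil => exact e
  | cons i s ih => exact ih ((Commute.conj_iff _).1 e)

lemma TW_in {a l g} (hg : ∀ i, In g l i (dmI a)) (c : l.length ≤ 36) {s : List Sh} (hs : s.Nodup)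
    (hl : ∀ x ∈ s, x ∈ l) : ∀ j, j ∉ s → ∀ V, In g l j V → In (TW a l s g) l j V := by
  induction s with
  | nil => intro j _ V h; exact h
  | cons i s ih =>
    intro j hj V h
    simp only [List.mem_cons, not_or, List.nodup_cons] at hj hs
    have ih' := ih hs.2 fun x hx => hl x (List.mem_cons_of_mem _ hx)
    exact tw_in_other (ih' i hs.1 _ (hg i)) (hl i List.mem_cons_self) c (ih' j hj.2 V h) hj.1
lemma TW_supp {a l g} (hg : ∀ i, In g l i (dmI a)) (c : l.length ≤ 36) {s : List Sh} (hs : s.Nodup)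
    (hl : ∀ x ∈ s, x ∈ l) : Supp sheets (TW a l s g) l := by
  obtain ⟨j, hj⟩ := fresh l (by omega)
  exact (TW_in hg c hs hl j (fun e => hj (hl _ e)) _ (hg j)).1
lemma TW_filter {a l l0 g} (hg : ∀ i, In g l0 i (dmI a)) (e : ∀ x ∈ l0, x ∈ l) (c0 : l0.length ≤ 36)
    (c : l.length ≤ 36) {s : List Sh} (hs : s.Nodup) :
    TW a l s g = TW a l0 (s.filter (· ∈ l0)) g := by
  induction s with
  | nil => rfl
  | cons i s ih =>
    simp only [List.nodup_cons] at hs
    have n : (s.filter (· ∈ l0)).Nodup := hs.2.filter _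
    have m : ∀ x ∈ s.filter (· ∈ l0), x ∈ l0 := fun x hx => by simpa using (List.mem_filter.1 hx).2
    rw [TW_cons, ih hs.2]
    by_cases h : i ∈ l0
    · rw [List.filter_cons_of_pos (by simpa using h), TW_cons]
      exact tw_mono (TW_in hg c0 n m i (fun q => hs.1 (List.mem_filter.1 q).1) _ (hg i)) e
        (by omega) (by omega)
    · rw [List.filter_cons_of_neg (by simpa using h)]
      exact tw_fix (TW_supp hg c0 n m) h e (by omega) (by omega)
lemma TW_perm {a l g} (hg : ∀ i, In g l i (dmI a)) (c : l.length ≤ 36) {s s' : List Sh}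
    (h : s.Perm s') (hs : s.Nodup) (hl : ∀ x ∈ s, x ∈ l) : TW a l s g = TW a l s' g := by
  induction h with
  | nil => rfl
  | cons x _ ih =>
    rw [TW_cons, TW_cons, ih (List.nodup_cons.1 hs).2 fun y hy => hl y (List.mem_cons_of_mem _ hy)]
  | swap x y s =>
    simp only [List.nodup_cons, List.mem_cons, not_or] at hs
    have m : ∀ z ∈ s, z ∈ l := fun z hz => hl z (by simp [hz])
    exact tw_comm (TW_in hg c hs.2.2 m y hs.1.2 _ (hg y)) (TW_in hg c hs.2.2 m x hs.2.1 _ (hg x))
      (hl y (by simp)) (hl x (by simp)) (Ne.symm hs.1.1) c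
  | trans h1 _ ih1 ih2 =>
    rw [ih1 hs hl, ih2 (h1.nodup_iff.1 hs) fun y hy => hl y (h1.mem_iff.2 hy)]

open Classical in
noncomputable def tr3 (a : Lt) (p : T3 Gam) : T3 Gam := fun i j k =>
  if D3 i j k then TW a [i, j, k] [i, j, k] (p i j k) else 1
lemma nodup3 {i j k : Sh} (d : D3 i j k) : [i, j, k].Nodup := by simp [d.1, d.2.1, d.2.2]
lemma TW_val {a : Lt} {p : ID} (h : Le p (dmI a)) {L s : List Sh} (c : L.length ≤ 36) (hs : s.Nodup)
    {i j k : Sh} (d : D3 i j k) (e : ∀ x ∈ [i, j, k], x ∈ L) (e' : ∀ x ∈ [i, j, k], x ∈ s) :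
    TW a L s (p.p i j k) = tr3 a p.p i j k := by
  simp only [tr3, d, if_true]
  rw [TW_filter (in_val h d) e (by simp) c hs]
  refine TW_perm (in_val h d) (by simp) ?_ (hs.filter _)
    (fun x hx => by simpa using (List.mem_filter.1 hx).2)
  refine (List.perm_ext_iff_of_nodup (hs.filter _) (nodup3 d)).2 fun x => ?_
  simp only [List.mem_filter, decide_eq_true_eq]
  exact ⟨fun q => q.2, fun q => ⟨e' x q, q⟩⟩
lemma TW_val' {a : Lt} {p : ID} (h : Le p (dmI a)) {L : List Sh} (c : L.length ≤ 36)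
    {i j k : Sh} (d : D3 i j k) (hi : i ∈ L) (hj : j ∈ L) (hk : k ∈ L) :
    TW a L L.dedup (p.p i j k) = tr3 a p.p i j k :=
  TW_val h c (List.nodup_dedup _) d (by simp [hi, hj, hk]) (by simp [hi, hj, hk])
lemma c3_mem {a b c x : Sh} {L : List Sh} (d : D3 a b c) (ha : a ∈ L) (hb : b ∈ L) (hc : c ∈ L)
    (hx : x ∈ L) : c3 a b c x ∈ L := by
  rw [c3_apply d]; split_ifs <;> assumption

lemma tr3_pre {a : Lt} {p : ID} (h : Le p (dmI a)) : Pre sheets (tr3 a p.p) where
  junk i j k d := by simp [tr3, d]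
  cyc i j k d := by
    rw [← TW_val' h (L := [i, j, k]) (by simp) d (by simp) (by simp) (by simp),
      ← TW_val' h (L := [i, j, k]) (by simp) d.rot (by simp) (by simp) (by simp), ← p.pre.cyc _ _ _ d]
  inv i j k d := by
    rw [← TW_val' h (L := [i, j, k]) (by simp) d (by simp) (by simp) (by simp),
      ← TW_val' h (L := [i, j, k]) (by simp) d.rev (by simp) (by simp) (by simp), p.pre.inv _ _ _ d,
      TW_inv]
  acts x y z d i j k d' := by
    have m : ∀ r ∈ [x, y, z, i, j, k], c3 x y z r ∈ [x, y, z, i, j, k] := fun r hr =>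
      c3_mem d (by simp) (by simp) (by simp) hr
    rw [← TW_val' h (L := [x, y, z, i, j, k]) (by simp) d (by simp) (by simp) (by simp),
      ← TW_val' h (L := [x, y, z, i, j, k]) (by simp) d' (by simp) (by simp) (by simp),
      ← TW_val' h (L := [x, y, z, i, j, k]) (by simp) (d'.map _) (m _ (by simp)) (m _ (by simp))
        (m _ (by simp)), ← p.pre.acts x y z d i j k d', TW_mul, TW_mul, TW_inv]
  a4 i j k l d h1 h2 h3 := by
    rw [← TW_val' h (L := [i, j, k, l]) (by simp) (D3.swap12 d) (by simp) (by simp) (by simp),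
      ← TW_val' h (L := [i, j, k, l]) (by simp) ⟨d.2.2, h3.symm, h1.symm⟩ (by simp) (by simp) (by simp),
      ← TW_val' h (L := [i, j, k, l]) (by simp) ⟨d.2.1, h3.symm, h2.symm⟩ (by simp) (by simp) (by simp),
      p.pre.a4 i j k l d h1 h2 h3, TW_mul, TW_inv]
  supp i j k d := by
    simp only [tr3, d, if_true]
    exact TW_supp (in_val h d) (by simp) (nodup3 d) fun _ e => e

lemma one_TW {a : Lt} {g g' : Gam} {L : List Sh} {x y z : Sh} (d : D3 x y z) (c : L.length ≤ 36)
    (hx : x ∈ L) (hy : y ∈ L) (hz : z ∈ L) (hg : ∀ i, In g L i (dmI a)) (hg' : ∀ i, In g' L i (dmI a))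
    (e : FF.one x y z * g * (FF.one x y z)⁻¹ = g') {s : List Sh} (hs : s.Nodup) (hl : ∀ r ∈ s, r ∈ L) :
    FF.one x y z * TW a L s g * (FF.one x y z)⁻¹ = TW a L (s.map (c3 x y z)) g' := by
  induction s with
  | nil => exact e
  | cons i s ih =>
    simp only [List.nodup_cons] at hs
    have m : ∀ r ∈ s, r ∈ L := fun r hr => hl r (List.mem_cons_of_mem _ hr)
    have ih' := ih hs.2 m
    rw [List.map_cons, TW_cons, TW_cons, ← ih']
    refine one_tw (TW_in hg c hs.2 m i hs.1 _ (hg i)) d (by omega) hx hy hz ?_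
    rw [ih']
    refine TW_in hg' c (hs.2.map (c3 x y z).injective) ?_ _ ?_ _ (hg' _)
    · intro r hr; obtain ⟨r, hr', rfl⟩ := List.mem_map.1 hr; exact c3_mem d hx hy hz (m r hr')
    · intro q; exact hs.1 ((List.mem_map_of_injective (c3 x y z).injective).1 q)

lemma tr3_eqv {a : Lt} {p : ID} (h : Le p (dmI a)) (x y z : Sh) (d : D3 x y z) :
    Acts (FF.one x y z) (c3 x y z) (tr3 a p.p) := by
  intro i j k d'
  have m : ∀ r ∈ [x, y, z, i, j, k], c3 x y z r ∈ [x, y, z, i, j, k] := fun r hr =>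
    c3_mem d (by simp) (by simp) (by simp) hr
  have m' : ∀ r ∈ [c3 x y z i, c3 x y z j, c3 x y z k], r ∈ [x, y, z, i, j, k] := by
    intro r hr
    simp only [List.mem_cons, List.not_mem_nil, or_false] at hr
    rcases hr with rfl | rfl | rfl <;> exact m _ (by simp)
  rw [← TW_val h (L := [x, y, z, i, j, k]) (by simp) (nodup3 d') d' (by simp) (by simp),
    one_TW d (by simp) (by simp) (by simp) (by simp) (fun r => (in_val h d' r).mono_l (by simp))
      (fun r => (in_val h (d'.map _) r).mono_l m') (p.eqv x y z d i j k d') (nodup3 d') (by simp)]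
  exact TW_val h (by simp) (nodup3 (d'.map _)) (d'.map _) m' fun _ e => e

open Classical in
noncomputable def T0 (a : Lt) (p : ID) : ID :=
  if h : Le p (dmI a) then ⟨tr3 a p.p, tr3_pre h, tr3_eqv h⟩ else zero FF
lemma T0_p {a p} (h : Le p (dmI a)) : (T0 a p).p = tr3 a p.p := by simp [T0, h]
lemma T0_perp_iff {a p q} (hp : Le p (dmI a)) (hq : Le q (dmI a)) :
    Perp (T0 a p) (T0 a q) ↔ Perp p q := by
  refine forall₃_congr fun i j k => forall₃_congr fun x y z => forall₂_congr fun d d' => ?_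
  rw [T0_p hp, T0_p hq,
    ← TW_val' hp (L := [x, y, z, i, j, k]) (by simp) d (by simp) (by simp) (by simp),
    ← TW_val' hq (L := [x, y, z, i, j, k]) (by simp) d' (by simp) (by simp) (by simp)]
  exact ⟨TW_commute_iff, TW_commute⟩
lemma T0_val_sub {a p q} (hp : Le p (dmI a)) (h : Le q p) {i j k} (d : D3 i j k) :
    (T0 a p).p i j k = (T0 a q).p i j k * (T0 a (p.sub q)).p i j k := by
  rw [T0_p hp, T0_p (h.trans hp), T0_p ((sub_le h).trans hp)]
  simp only [tr3, d, if_true, sub_val h i j k, TW_mul]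

lemma pr_tw {a l i} (g : Gam) : pr (tw a l i g) = pr (mvl a l i) * pr g * (pr (mvl a l i))⁻¹ := by
  simp [tw]
lemma pr_mvl_app {a : Lt} {l : List Sh} (i : Sh) (c : l.length ≤ 40) {x : X} (h : a.dom x) :
    pr (mvl a l i) (x, i) = (a.act x, i) := by
  obtain ⟨j, k, d, -, -, e⟩ := mvl_spec a i c
  rw [e, pr_mv_app a d h]
lemma pr_mvl_fix {a : Lt} {l : List Sh} (i : Sh) (c : l.length ≤ 40) {z : Z} (h : z.2 ∈ l)
    (h' : z.2 ≠ i) : pr (mvl a l i) z = z := by
  obtain ⟨j, k, d, h1, h2, e⟩ := mvl_spec a i c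
  rw [e, pr_mv_fix a d]
  simp only [List.mem_cons, List.not_mem_nil, or_false, not_or]
  exact ⟨h', fun q => h1 (q ▸ h), fun q => h2 (q ▸ h)⟩
lemma mvl_short (a l i) : Short 2 (mvl a l i) := by
  unfold mvl; split_ifs; exacts [mv_short _ _ _ _, Short.one _]

/-- the image of `p` in the permutation group is the standard cycle over `S` -/
def Sd (p : ID) (S : X → Prop) : Prop := ∀ i j k, D3 i j k → pr (p.p i j k) = cy0 S i j k
lemma sd_phi {U} (h : IsLoc U) : Sd (phi U) U := fun _ _ _ d => by rw [phi_p h, pr_ph h d]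
lemma sd_T0 {a p S} (h : Le p (dmI a)) (hs : Sd p S) (hS : ∀ x, S x → a.dom x) :
    Sd (T0 a p) fun y => a.inv.dom y ∧ S (a.inv.act y) := by
  intro i j k d
  rw [T0_p h]
  simp only [tr3, d, if_true, TW, List.foldr, pr_tw, hs i j k d]
  have : ∀ A B C g : Perm Z, A * (B * (C * g * C⁻¹) * B⁻¹) * A⁻¹ = (A * B * C) * g * (A * B * C)⁻¹ := by
    intros; group
  rw [this]
  refine cyc_conj (ok0 _ d) (ok0 _ d) _ a.act
    (fun x hx => ⟨Lt.dom_inv (hS x hx), by rw [Lt.act_inv (hS x hx)]; exact hx⟩)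
    (fun y hy => ⟨_, hy.2, by simpa using Lt.act_inv hy.1⟩) ?_ ?_ ?_ <;> intro x hx <;>
    simp only [Perm.mul_apply, Leg.at, wact_nil]
  · rw [pr_mvl_fix k (by simp) (by simp) d.2.2, pr_mvl_fix j (by simp) (by simp) d.1,
      pr_mvl_app i (by simp) (hS x hx)]
  · rw [pr_mvl_fix k (by simp) (by simp) d.2.1, pr_mvl_app j (by simp) (hS x hx),
      pr_mvl_fix i (by simp) (by simp) d.1.symm]
  · rw [pr_mvl_app k (by simp) (hS x hx), pr_mvl_fix j (by simp) (by simp) d.2.1.symm,
      pr_mvl_fix i (by simp) (by simp) d.2.2.symm]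
lemma T0_phi {a U V} (hU : IsLoc U) (hV : IsLoc V) (h : ∀ x, U x → a.dom x)
    (e : ∀ y, V y ↔ a.inv.dom y ∧ U (a.inv.act y)) : T0 a (phi U) = phi V := by
  have l := phi_le hU (isLoc_dom a) h
  refine ext' fun i j k d => ?_
  have s := sd_T0 l (sd_phi hU) h i j k d
  have sh : Short 13 ((T0 a (phi U)).p i j k) := by
    rw [T0_p l]
    simp only [tr3, d, if_true, TW, List.foldr, tw, phi_p hU]
    exact ((mvl_short _ _ _).mul (((mvl_short _ _ _).mul (((mvl_short _ _ _).mul
      (ph_short _ _ _ _)).mul (mvl_short _ _ _).inv)).mul (mvl_short _ _ _).inv)).mul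
      (mvl_short _ _ _).inv
  rw [phi_p hV]
  refine sh.eq (by omega) (ph_short _ _ _ _) (by omega) ?_
  rw [s, pr_ph hV d, show V = _ from funext fun y => propext (e y)]
lemma T0_dm (a : Lt) : T0 a (dmI a) = dmI a.inv :=
  T0_phi (isLoc_dom a) (isLoc_dom _) (fun _ h => h) fun y =>
    ⟨fun h => ⟨h, by simpa using Lt.dom_inv h⟩, fun h => h.1⟩
lemma T0_le_ran {a p} (h : Le p (dmI a)) : Le (T0 a p) (dmI a.inv) := by
  refine perp_of_av fun i j k d x => ?_
  have key : ∀ {i j k}, D3 i j k → Av ((T0 a p).p i j k) [i, j, k] i (dmI a.inv).compl := by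
    intro i j k d
    rw [T0_p h]; simp only [tr3, d, if_true]
    exact (tw_in_ran (TW_in (in_val h d) (by simp) (s := [j, k]) (by simp [d.2.1]) (by simp) i
      (by simp [d.1, d.2.2]) _ (in_val h d i)) (by simp) (by simp)).2
  by_cases h1 : x = i
  · subst h1; exact key d
  by_cases h2 : x = j
  · subst h2; rw [(T0 a p).pre.cyc _ _ _ d]
    exact fun r s hr hs => key d.rot r s (by simp at hr ⊢; tauto) (by simp at hs ⊢; tauto)
  by_cases h3 : x = k
  · subst h3; rw [(T0 a p).pre.cyc _ _ _ d, (T0 a p).pre.cyc _ _ _ d.rot]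
    exact fun r s hr hs => key d.rot.rot r s (by simp at hr ⊢; tauto) (by simp at hs ⊢; tauto)
  exact (in_of_not_mem _ ((T0 a p).pre.supp _ _ _ d) (by simp [h1, h2, h3]) (fun _ e => e) (by simp)).2
lemma T0_mono {a p q} (hp : Le p (dmI a)) (h : Le q p) : Le (T0 a q) (T0 a p) := by
  have l := T0_le_ran hp
  refine perp_compl_of l (T0_le_ran (h.trans hp)) ?_
  have : (dmI a.inv).sub (T0 a p) = T0 a ((dmI a).sub p) := by
    refine ext' fun i j k d => ?_
    have e := T0_val_sub (le_refl _) hp d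
    rw [T0_dm, sub_val l] at e
    exact mul_left_cancel e
  rw [this, T0_perp_iff (h.trans hp) (sub_le hp)]
  exact (perp_sub hp).mono_left h
lemma T0_sub {a p q} (hp : Le p (dmI a)) (h : Le q p) :
    T0 a (p.sub q) = (T0 a p).sub (T0 a q) := by
  refine ext' fun i j k d => ?_
  have e := T0_val_sub hp h d
  rw [sub_val (T0_mono hp h)] at e
  exact (mul_left_cancel e).symm
lemma T0_isMeet {a w p q} (hp : Le p (dmI a)) (hq : Le q (dmI a)) (h : IsMeet w p q) :
    IsMeet (T0 a w) (T0 a p) (T0 a q) :=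
  ⟨T0_mono hp h.1, T0_mono hq h.2.1, by
    rw [← T0_sub hp h.1, T0_perp_iff ((sub_le h.1).trans hp) hq]; exact h.2.2⟩
lemma tw_in_T0 {a g l i p} (hg : In g l i p) (hp : Le p (dmI a)) (hi : i ∈ l) (c : l.length ≤ 30) :
    In (tw a l i g) l i (T0 a p) := by
  have hD := hg.mono (by omega) hp
  have r := tw_in_ran hD hi (by omega)
  refine ⟨r.1, fun x y hx hy d => ?_⟩
  have l0 := T0_le_ran hp
  have : (T0 a p).compl.p i x y = (T0 a ((dmI a).sub p)).p i x y * (dmI a.inv).compl.p i x y := by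
    have e := one_eq (T0 a p) i x y
    rw [one_eq (dmI a.inv), ← T0_dm, T0_val_sub (le_refl _) hp d, mul_assoc] at e
    rw [← T0_dm]; exact (mul_left_cancel e).symm
  rw [this]
  refine Commute.mul_right ?_ (r.2 x y hx hy d)
  have l1 := sub_le hp
  have c0 : Commute g (((dmI a).sub p).p i x y) :=
    Av.mono (F := FF) hg.1 hg.2 (by omega) (perp_iff_le.1 (perp_sub hp).symm) x y hx hy d
  have := TW_commute (a := a) (l := x :: y :: l) (s := [i, x, y]) c0
  rw [TW_val l1 (by simp; omega) (nodup3 d) d (by simp [hi]) (fun _ e => e), ← T0_p l1] at this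
  simp only [TW, List.foldr] at this
  rwa [tw_fix hg.1 hy (by simp +contextual) (by simp; omega) (by omega),
    tw_fix hg.1 hx (by simp +contextual) (by simp; omega) (by omega),
    tw_mono hD (by simp +contextual) (by omega) (by simp; omega)] at this

end Vale.Agent.P196
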