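import Vale.Agent.P196.Gam

/-! Local idempotents, movers, twisting. -/

namespace Vale.Agent.P196
open Equiv Idm

abbrev ID := Idm FF

open Classical in
noncomputable def phi (U : X → Prop) : ID :=
  if h : IsLoc U then ⟨ph U, ph_pre h, ph_acts isLoc_true h fun _ _ => trivial⟩ else zero FF
lemma phi_p {U} (h : IsLoc U) : (phi U).p = ph U := by simp [phi, h]
lemma cy0_commute {U V : X → Prop} (h : ∀ x, U x → ¬ V x) {i j k a b c : Sh} (d : D3 i j k)
    (d' : D3 a b c) : Commute (cy0 U i j k) (cy0 V a b c) := by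
  refine Perm.Disjoint.commute fun ⟨x, s⟩ => ?_
  by_cases e : U x
  · exact Or.inr ((cy0_app d' x s).2 (h x e))
  · exact Or.inl ((cy0_app d x s).2 e)
lemma cy0_split (U V : X → Prop) {i j k : Sh} (d : D3 i j k) :
    cy0 U i j k = cy0 (fun x => U x ∧ V x) i j k * cy0 (fun x => U x ∧ ¬ V x) i j k :=
  cyc_split (ok0 U d) V
lemma phi_perp {U V} (hU : IsLoc U) (hV : IsLoc V) (h : ∀ x, U x → ¬ V x) : Perp (phi U) (phi V) := by
  intro i j k a b c d d'
  rw [phi_p hU, phi_p hV]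
  exact ((ph_short _ _ _ _).mul (ph_short _ _ _ _)).eq (by omega) ((ph_short _ _ _ _).mul (ph_short _ _ _ _)) (by omega) (by
    simp only [map_mul, pr_ph hU d, pr_ph hV d']; exact cy0_commute h d d')
lemma ph_split {U V} (hU : IsLoc U) (hV : IsLoc V) {i j k : Sh} (d : D3 i j k) :
    ph U i j k = ph (fun x => U x ∧ V x) i j k * ph (fun x => U x ∧ ¬ V x) i j k :=
  (ph_short _ _ _ _).eq (by omega) ((ph_short _ _ _ _).mul (ph_short _ _ _ _)) (by omega) (by
    simp only [map_mul, pr_ph hU d, pr_ph (hU.and hV) d, pr_ph (hU.and hV.not) d]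
    exact cy0_split U V d)
lemma phi_compl {U} (hU : IsLoc U) : (phi U).compl = phi fun x => ¬ U x := by
  refine ext' fun i j k d => ?_
  show ((phi U).p i j k)⁻¹ * ph (fun _ => True) i j k = _
  have := ph_split isLoc_true hU d
  simp only [true_and] at this
  rw [phi_p hU, phi_p hU.not, this]; simp
lemma phi_le {U V} (hU : IsLoc U) (hV : IsLoc V) (h : ∀ x, U x → V x) : Le (phi U) (phi V) := by
  unfold Le; rw [phi_compl hV]; exact phi_perp hU hV.not fun x e q => q (h x e)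
lemma phi_isMeet {U V} (hU : IsLoc U) (hV : IsLoc V) :
    IsMeet (phi fun x => U x ∧ V x) (phi U) (phi V) := by
  have l1 := phi_le (hU.and hV) hU fun _ e => e.1
  refine ⟨l1, phi_le (hU.and hV) hV fun _ e => e.2, ?_⟩
  have : (phi U).sub (phi fun x => U x ∧ V x) = phi fun x => U x ∧ ¬ V x := by
    refine ext' fun i j k d => ?_
    have := sub_val l1 i j k
    rw [phi_p hU, phi_p (hU.and hV), ph_split hU hV d] at this
    rw [phi_p (hU.and hV.not)]; exact (mul_left_cancel this).symm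
  rw [this]; exact phi_perp (hU.and hV.not) hV fun _ e => e.2
lemma phi_compat {U V} (hU : IsLoc U) (hV : IsLoc V) : Compat (phi U) (phi V) := ⟨_, phi_isMeet hU hV⟩
lemma phi_meet {U V} (hU : IsLoc U) (hV : IsLoc V) :
    meet (phi U) (phi V) = phi fun x => U x ∧ V x := (phi_isMeet hU hV).eq
lemma phi_true : phi (fun _ => True) = top FF := ext' fun i j k _ => by rw [phi_p isLoc_true]; rfl

/-- `g` lives, on sheet `i`, inside `V` -/
def In (g : Gam) (l : List Sh) (i : Sh) (V : ID) : Prop := Supp sheets g l ∧ Av g l i V.compl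
lemma In.mono {g l i V W} (h : In g l i V) (hl : l.length ≤ 40) (e : Le V W) : In g l i W :=
  ⟨h.1, Av.mono (F := FF) h.1 h.2 hl (compl_le_compl e)⟩
lemma In.mono_l {g l l' i V} (h : In g l i V) (e : ∀ x ∈ l, x ∈ l') : In g l' i V :=
  ⟨h.1.mono e, fun a b ha hb d => h.2 a b (fun q => ha (e _ q)) (fun q => hb (e _ q)) d⟩
lemma In.mul {g h l i V} (h1 : In g l i V) (h2 : In h l i V) : In (g * h) l i V :=
  ⟨h1.1.mul h2.1, fun a b ha hb d => (h1.2 a b ha hb d).mul_left (h2.2 a b ha hb d)⟩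
lemma In.inv {g l i V} (h1 : In g l i V) : In g⁻¹ l i V :=
  ⟨h1.1.inv, fun a b ha hb d => (h1.2 a b ha hb d).inv_left⟩
lemma in_val {p V : ID} (h : Le p V) {i j k : Sh} (d : D3 i j k) (x : Sh) :
    In (p.p i j k) [i, j, k] x V := ⟨p.pre.supp _ _ _ d, av_of_perp h d _ _⟩
lemma in_of_not_mem {g l l0 i} (V : ID) (h : Supp sheets g l0) (hi : i ∉ l0) (e : ∀ x ∈ l0, x ∈ l)
    (hl : l0.length ≤ 40) : In g l i V := by
  refine ⟨h.mono e, fun a b ha hb d => h.commute (V.compl.pre.supp _ _ _ d) ?_ hl (by simp)⟩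
  intro x hx hx'
  simp at hx'
  rcases hx' with rfl | rfl | rfl
  exacts [hi hx, ha (e _ hx), hb (e _ hx)]
lemma In.commute {g g' l l' i} {V : ID} (h : In g l i V) (h' : In g' l' i V.compl)
    (hd : ∀ x ∈ l, x ∈ l' → x = i) (c1 : l.length ≤ 40) (c2 : l'.length ≤ 140) : Commute g g' :=
  sep (F := FF) V.compl h.1 h'.1 hd h.2 h'.2 c1 c2

lemma lemS {D : X → Prop} (hD : IsLoc D) {n g : Gam} {l J : List Sh} {i : Sh} (hn : Short 20 n)
    (h1 : ∀ x, D x → pr n (x, i) = (x, i)) (h2 : ∀ z : Z, z.2 ∉ i :: J → pr n z = z)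
    (hg : In g l i (phi D)) (hJ : ∀ x ∈ J, x ∉ l) (hiJ : i ∉ J) (c1 : l.length ≤ 40)
    (c2 : J.length ≤ 30) : Commute g n := by
  obtain ⟨a, b, ha, hb, hab⟩ := fresh2 (i :: l ++ J) (by simp; omega)
  simp only [List.cons_append, List.mem_cons, List.mem_append, not_or] at ha hb
  have d : D3 i a b := ⟨Ne.symm ha.1, hab, Ne.symm hb.1⟩
  have e1 := hg.2 a b ha.2.1 hb.2.1 d
  have s1 := Supp.conj (F := FF) hg.1 d
  rw [one_eq (phi D), phi_p hD] at s1
  set y := (phi D).compl.p i a b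
  set x := ph D i a b with hx
  have e : x * y * g * (x * y)⁻¹ = x * g * x⁻¹ := by rw [mul_assoc x y g, ← e1.eq]; group
  rw [e] at s1
  have s2 : Supp sheets (x * n * x⁻¹) (i :: b :: J) := by
    refine supp_short ((((ph_short _ _ _ _).mul hn).mul (ph_short _ _ _ _).inv).mono (by omega)) ?_
    rintro ⟨z, s⟩ hz
    simp only [List.mem_cons, not_or] at hz
    simp only [map_mul, map_inv, Perm.mul_apply, hx, pr_ph hD d]
    rw [← Perm.eq_inv_iff_eq]
    by_cases q : D z ∧ s = a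
    · have : (cy0 D i a b)⁻¹ (z, s) = (z, i) := by
        rw [Perm.inv_eq_iff_eq, (cy0_app d z i).1 q.1, c3_1 d, q.2]
      rw [this, h1 z q.1]
    · have : (cy0 D i a b)⁻¹ (z, s) = (z, s) := by
        rw [Perm.inv_eq_iff_eq]
        by_cases q' : D z
        · rw [(cy0_app d z s).1 q', c3_fix hz.1 (fun e => q ⟨q', e⟩) hz.2.1]
        · rw [(cy0_app d z s).2 q']
      rw [this, h2 _ (by simp [hz.1, hz.2.2])]
  have := s1.commute s2 (by
    intro s hs hs'
    obtain ⟨r, hr, rfl⟩ := List.mem_map.1 hs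
    by_cases q : r = i
    · subst q; rw [c3_1 d] at hs'; simp [ha.1, hab, ha.2.2] at hs'
    · rw [c3_fix q (show r ≠ a by rintro rfl; exact ha.2.1 hr)
        (show r ≠ b by rintro rfl; exact hb.2.1 hr)] at hs'
      simp only [List.mem_cons] at hs'
      rcases hs' with h | h | h
      exacts [q h, hb.2.1 (h ▸ hr), hJ _ h hr]) (by simpa using c1) (by simp; omega)
  exact (Commute.conj_iff x).1 this

noncomputable def mv (a : Lt) (i j k : Sh) : Gam :=
  PresentedGroup.of (code '' {x | a.dom x}, some a, i, k, j) * ph a.dom i j k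
lemma mv_short (a i j k) : Short 2 (mv a i j k) := (Short.of _).mul (ph_short _ _ _ _)
lemma ok1 (a : Lt) {i j k : Sh} (d : D3 i j k) : Ok a.dom ([a], i) ([], k) ([], j) :=
  ⟨fun _ h => ⟨trivial, h⟩, fun _ _ => trivial, fun _ _ => trivial, dj_of_ne d.2.2,
    dj_of_ne d.2.1.symm, dj_of_ne d.1⟩
lemma pr_mv (a : Lt) {i j k : Sh} (d : D3 i j k) :
    pr (mv a i j k) = cyc a.dom ([a], i) ([], k) ([], j) * cy0 a.dom i j k := by
  simp only [mv, map_mul, pr_of, gen, (isLoc_dom a).eq, pr_ph (isLoc_dom a) d]; rfl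
lemma pr_mv_app (a : Lt) {i j k : Sh} (d : D3 i j k) {x : X} (h : a.dom x) :
    pr (mv a i j k) (x, i) = (a.act x, i) := by
  rw [pr_mv a d, Perm.mul_apply, (cy0_app d x i).1 h, c3_1 d]; exact cyc_C (ok1 a d) h
lemma pr_mv_fix (a : Lt) {i j k : Sh} (d : D3 i j k) {z : Z} (h : z.2 ∉ [i, j, k]) :
    pr (mv a i j k) z = z := by
  rw [pr_mv a d, Perm.mul_apply, cy0, cyc_fix (z := z) h, cyc_fix (by simp at h ⊢; tauto)]
lemma pr_mv_inv_fix (a : Lt) {i j k : Sh} (d : D3 i j k) {z : Z} (h : z.2 ∉ [i, j, k]) :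
    (pr (mv a i j k))⁻¹ z = z := by rw [Perm.inv_eq_iff_eq, pr_mv_fix a d h]
lemma mv_supp (a : Lt) {i j k : Sh} (d : D3 i j k) : Supp sheets (mv a i j k) [i, j, k] :=
  supp_short ((mv_short _ _ _ _).mono (by omega)) fun _ h => pr_mv_fix a d h
lemma one_mv (a : Lt) {i j k p q r : Sh} (d : D3 i j k) (d' : D3 p q r) :
    FF.one p q r * mv a i j k * (FF.one p q r)⁻¹ = mv a (c3 p q r i) (c3 p q r j) (c3 p q r k) := by
  have e1 := one_conj_of d' (code '' {x | a.dom x}, some a, i, k, j)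
  have e2 := ph_acts isLoc_true (isLoc_dom a) (fun _ _ => trivial) p q r d' i j k d
  simp only [mv]; rw [← e1, ← e2]
  show ph _ p q r * _ * (ph _ p q r)⁻¹ = _
  group

noncomputable def dmI (a : Lt) : ID := phi a.dom

lemma mv_indep {a : Lt} {g l i j k j' k'} (hg : In g l i (dmI a)) (c : l.length ≤ 40)
    (d : D3 i j k) (d' : D3 i j' k') (h1 : j ∉ l) (h2 : k ∉ l) (h3 : j' ∉ l) (h4 : k' ∉ l) :
    mv a i j k * g * (mv a i j k)⁻¹ = mv a i j' k' * g * (mv a i j' k')⁻¹ := by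
  have := lemS (isLoc_dom a) (J := [j, k, j', k']) (((mv_short a i j' k').inv.mul (mv_short a i j k)).mono
    (by omega)) (fun x hx => by
      simp only [map_mul, map_inv, Perm.mul_apply, pr_mv_app a d hx]
      rw [Perm.inv_eq_iff_eq, pr_mv_app a d' hx]) (fun z hz => by
      simp only [map_mul, map_inv, Perm.mul_apply]
      rw [pr_mv_fix a d (by simp at hz ⊢; tauto), pr_mv_inv_fix a d' (by simp at hz ⊢; tauto)])
    hg (by simp [h1, h2, h3, h4]) (by simp [d.1, d.2.2, d'.1, d'.2.2]) c (by simp)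
  calc _ = mv a i j' k' * ((mv a i j' k')⁻¹ * mv a i j k * g) * (mv a i j k)⁻¹ := by group
    _ = _ := by rw [← this.eq]; group

open Classical in
noncomputable def mvl (a : Lt) (l : List Sh) (i : Sh) : Gam :=
  if h : (i :: l).length < 190 then mv a i (fresh2 _ h).choose (fresh2 _ h).choose_spec.choose else 1
lemma mvl_spec (a : Lt) {l : List Sh} (i : Sh) (c : l.length ≤ 40) :
    ∃ j k, D3 i j k ∧ j ∉ l ∧ k ∉ l ∧ mvl a l i = mv a i j k := by
  have h : (i :: l).length < 190 := by simp; omega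
  obtain ⟨h1, h2, h3⟩ := (fresh2 _ h).choose_spec.choose_spec
  exact ⟨_, _, ⟨fun e => h1 (List.mem_cons.2 (Or.inl e.symm)), h3,
      fun e => h2 (List.mem_cons.2 (Or.inl e.symm))⟩,
    fun e => h1 (List.mem_cons_of_mem _ e), fun e => h2 (List.mem_cons_of_mem _ e),
    by simp only [mvl, h, dif_pos]⟩
noncomputable def tw (a : Lt) (l : List Sh) (i : Sh) (g : Gam) : Gam := mvl a l i * g * (mvl a l i)⁻¹
lemma tw_mul (a l i g h) : tw a l i (g * h) = tw a l i g * tw a l i h := by simp only [tw]; group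
lemma tw_inv (a l i g) : tw a l i g⁻¹ = (tw a l i g)⁻¹ := by simp only [tw]; group
lemma tw_one (a l i) : tw a l i 1 = 1 := by simp [tw]
lemma tw_eq {a g l i j k} (hg : In g l i (dmI a)) (c : l.length ≤ 40) (d : D3 i j k) (h1 : j ∉ l)
    (h2 : k ∉ l) : tw a l i g = mv a i j k * g * (mv a i j k)⁻¹ := by
  obtain ⟨j', k', d', h3, h4, e⟩ := mvl_spec a i c
  rw [tw, e]; exact mv_indep hg c d' d h3 h4 h1 h2
lemma ex_d3 (i : Sh) (l : List Sh) (c : l.length ≤ 180) : ∃ j k, D3 i j k ∧ j ∉ l ∧ k ∉ l := by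
  obtain ⟨a, b, ha, hb, hab⟩ := fresh2 (i :: l) (by simp; omega)
  simp only [List.mem_cons, not_or] at ha hb
  exact ⟨a, b, ⟨Ne.symm ha.1, hab, Ne.symm hb.1⟩, ha.2, hb.2⟩
lemma tw_mono {a g l l' i} (hg : In g l i (dmI a)) (e : ∀ x ∈ l, x ∈ l') (c : l.length ≤ 40)
    (c' : l'.length ≤ 40) : tw a l' i g = tw a l i g := by
  obtain ⟨j, k, d, h1, h2⟩ := ex_d3 i l' (by omega)
  rw [tw_eq (hg.mono_l e) c' d h1 h2, tw_eq hg c d (fun q => h1 (e _ q)) (fun q => h2 (e _ q))]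
lemma tw_fix {a g l l0 i} (h : Supp sheets g l0) (hi : i ∉ l0) (e : ∀ x ∈ l0, x ∈ l)
    (c : l.length ≤ 40) (c0 : l0.length ≤ 40) : tw a l i g = g := by
  obtain ⟨j, k, d, h1, h2, e'⟩ := mvl_spec a i c
  have := (mv_supp a d).commute h (by
    simp only [List.mem_cons, List.not_mem_nil, or_false, forall_eq_or_imp, forall_eq]
    exact ⟨hi, fun q => h1 (e _ q), fun q => h2 (e _ q)⟩) (by simp) (by omega)
  rw [tw, e', this.eq]; group
lemma tw_supp {a g l i} (hg : In g l i (dmI a)) (hi : i ∈ l) (c : l.length ≤ 36) :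
    Supp sheets (tw a l i g) l := by
  refine supp_of_aux2 c fun j k h1 h2 hjk => ?_
  have d : D3 i j k := ⟨fun e => h1 (e ▸ hi), hjk, fun e => h2 (e ▸ hi)⟩
  rw [tw_eq hg (by omega) d h1 h2]
  have := (mv_supp a d).mono (l' := j :: k :: l) (by simp [hi])
  exact (this.mul (hg.1.mono (by simp +contextual))).mul this.inv
lemma tw_in_other {a g l i i'} {V : ID} (hg : In g l i (dmI a)) (hi : i ∈ l) (c : l.length ≤ 36)
    (h : In g l i' V) (hne : i' ≠ i) : In (tw a l i g) l i' V := by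
  refine ⟨tw_supp hg hi c, fun p q hp hq d => ?_⟩
  obtain ⟨j, k, d', h1, h2⟩ := ex_d3 i (i' :: p :: q :: l) (by simp; omega)
  simp only [List.mem_cons, not_or] at h1 h2
  rw [tw_eq hg (by omega) d' h1.2.2.2 h2.2.2.2]
  have := (mv_supp a d').commute (V.compl.pre.supp _ _ _ d) (by
    have e1 : i ≠ p := fun e => hp (e ▸ hi)
    have e2 : i ≠ q := fun e => hq (e ▸ hi)
    simp [hne.symm, e1, e2, h1, h2]) (by simp) (by simp)
  exact (this.mul_left (h.2 p q hp hq d)).mul_left this.inv_left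
lemma tw_in_ran {a g l i} (hg : In g l i (dmI a)) (hi : i ∈ l) (c : l.length ≤ 36) :
    In (tw a l i g) l i (dmI a.inv) := by
  refine ⟨tw_supp hg hi c, fun p q hp hq d => ?_⟩
  obtain ⟨j, k, d', h1, h2⟩ := ex_d3 i (p :: q :: l) (by simp; omega)
  simp only [List.mem_cons, not_or] at h1 h2
  rw [tw_eq hg (by omega) d' h1.2.2 h2.2.2, dmI, phi_compl (isLoc_dom _), phi_p (isLoc_dom _).not]
  have := lemS (isLoc_dom a) (J := [j, k, p, q]) ((((mv_short a i j k).inv.mul
    (ph_short (fun x => ¬ a.inv.dom x) i p q)).mul (mv_short a i j k)).mono (by omega))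
    (fun x hx => by
      simp only [map_mul, map_inv, Perm.mul_apply, pr_mv_app a d' hx, pr_ph (isLoc_dom _).not d]
      rw [(cy0_app d _ i).2 (not_not.2 (Lt.dom_inv hx)), Perm.inv_eq_iff_eq, pr_mv_app a d' hx])
    (fun z hz => by
      simp only [map_mul, map_inv, Perm.mul_apply, pr_ph (isLoc_dom _).not d]
      rw [pr_mv_fix a d' (by simp at hz ⊢; tauto), cy0, cyc_fix (by simp at hz ⊢; tauto),
        pr_mv_inv_fix a d' (by simp at hz ⊢; tauto)])
    hg (by simp [h1, h2, hp, hq]) (by simp [d.1, d.2.2, d'.1, d'.2.2]) (by omega) (by simp)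
  have := (Commute.conj_iff (mv a i j k)).2 this
  simpa [mul_assoc] using this
lemma tw_comm {a b g l i i'} (hg : In g l i (dmI a)) (hg' : In g l i' (dmI b)) (hi : i ∈ l)
    (hi' : i' ∈ l) (hne : i' ≠ i) (c : l.length ≤ 36) :
    tw a l i (tw b l i' g) = tw b l i' (tw a l i g) := by
  obtain ⟨j, k, d, h1, h2⟩ := ex_d3 i l (by omega)
  obtain ⟨j', k', d', h3, h4⟩ := ex_d3 i' (j :: k :: l) (by simp; omega)
  simp only [List.mem_cons, not_or] at h3 h4
  rw [tw_eq (tw_in_other hg' hi' c hg hne.symm) (by omega) d h1 h2,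
    tw_eq (tw_in_other hg hi c hg' hne) (by omega) d' h3.2.2 h4.2.2,
    tw_eq hg (by omega) d h1 h2, tw_eq hg' (by omega) d' h3.2.2 h4.2.2]
  have := (mv_supp a d).commute (mv_supp b d') (by
    have e1 : i ≠ j' := fun e => h3.2.2 (e ▸ hi)
    have e2 : i ≠ k' := fun e => h4.2.2 (e ▸ hi)
    have e3 : j ≠ i' := fun e => h1 (e ▸ hi')
    have e4 : k ≠ i' := fun e => h2 (e ▸ hi')
    simp [hne.symm, e1, e2, e3, e4, Ne.symm h3.1, Ne.symm h3.2.1, Ne.symm h4.1, Ne.symm h4.2.1])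
    (by simp) (by simp)
  calc _ = (mv a i j k * mv b i' j' k') * g * (mv a i j k * mv b i' j' k')⁻¹ := by group
    _ = _ := by rw [this.eq]; group
lemma one_tw {a g l i p q r} (hg : In g l i (dmI a)) (d : D3 p q r) (c : l.length ≤ 40)
    (hp : p ∈ l) (hq : q ∈ l) (hr : r ∈ l)
    (hg' : In (FF.one p q r * g * (FF.one p q r)⁻¹) l (c3 p q r i) (dmI a)) :
    FF.one p q r * tw a l i g * (FF.one p q r)⁻¹ =
      tw a l (c3 p q r i) (FF.one p q r * g * (FF.one p q r)⁻¹) := by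
  obtain ⟨j, k, d', h1, h2⟩ := ex_d3 i l (by omega)
  have f : ∀ x, x ∉ l → c3 p q r x = x := fun x hx =>
    c3_fix (fun e => hx (e ▸ hp)) (fun e => hx (e ▸ hq)) (fun e => hx (e ▸ hr))
  have d2 := d'.map (c3 p q r)
  have e := one_mv a d' d
  rw [f j h1, f k h2] at d2 e
  rw [tw_eq hg c d' h1 h2, tw_eq hg' c d2 h1 h2, ← e]; group

end Vale.Agent.P196
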