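import Vale.Agent.P196.Trans

/-! Twisting along words; local relations. -/

namespace Vale.Agent.P196
open Equiv Idm

noncomputable def tww (w : Wd) (l : List Sh) (i : Sh) (g : Gam) : Gam :=
  w.foldr (fun a h => tw a l i h) g
@[simp] lemma tww_nil (l i g) : tww [] l i g = g := rfl
lemma tww_cons (a w l i g) : tww (a :: w) l i g = tw a l i (tww w l i g) := rfl
lemma tww_append (w w' l i g) : tww (w ++ w') l i g = tww w l i (tww w' l i g) := by
  simp [tww, List.foldr_append]
lemma tww_mul (w l i g h) : tww w l i (g * h) = tww w l i g * tww w l i h := by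
  induction w with
  | nil => rfl
  | cons a w ih => rw [tww_cons, ih, tw_mul]; rfl
lemma tww_inv (w l i g) : tww w l i g⁻¹ = (tww w l i g)⁻¹ := by
  induction w with
  | nil => rfl
  | cons a w ih => rw [tww_cons, ih, tw_inv]; rfl
lemma tww_one (w l i) : tww w l i 1 = 1 := by
  induction w with
  | nil => rfl
  | cons a w ih => rw [tww_cons, ih, tw_one]
noncomputable def T0w : Wd → ID → ID
  | [], p => p
  | a :: w, p => T0 a (T0w w p)
def DomI : Wd → ID → Prop
  | [], _ => True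
  | a :: w, p => DomI w p ∧ Le (T0w w p) (dmI a)
noncomputable def MW (w : Wd) (i j k : Sh) : Gam := (w.map fun a => mv a i j k).prod
lemma MW_cons (a w i j k) : MW (a :: w) i j k = mv a i j k * MW w i j k := by simp [MW]
lemma MW_supp (w) {i j k} (d : D3 i j k) : Supp sheets (MW w i j k) [i, j, k] := by
  induction w with
  | nil => exact Supp.one
  | cons a w ih => rw [MW_cons]; exact (mv_supp a d).mul ih
lemma MW_short (w i j k) : Short (2 * w.length) (MW w i j k) := by
  induction w with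
  | nil => exact Short.one _
  | cons a w ih => rw [MW_cons]; exact ((mv_short a i j k).mul ih).mono (by simp; omega)
lemma pr_MW_app {w i j k} (d : D3 i j k) {x} (h : wdom w x) :
    pr (MW w i j k) (x, i) = (wact w x, i) := by
  induction w with
  | nil => simp [MW]
  | cons a w ih => rw [MW_cons, map_mul, Perm.mul_apply, ih h.1, pr_mv_app a d h.2]; rfl
lemma pr_MW_fix {w i j k} (d : D3 i j k) {z : Z} (h : z.2 ∉ [i, j, k]) : pr (MW w i j k) z = z := by
  induction w with
  | nil => simp [MW]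
  | cons a w ih => rw [MW_cons, map_mul, Perm.mul_apply, ih, pr_mv_fix a d h]

lemma tww_spec {w p g l i} (hw : DomI w p) (hg : In g l i p) (hi : i ∈ l) (c : l.length ≤ 30) :
    In (tww w l i g) l i (T0w w p) ∧
    (∀ j k, D3 i j k → j ∉ l → k ∉ l → tww w l i g = MW w i j k * g * (MW w i j k)⁻¹) ∧
    ∀ i' V, i' ≠ i → In g l i' V → In (tww w l i g) l i' V := by
  induction w with
  | nil => exact ⟨hg, fun _ _ _ _ _ => by simp [MW], fun _ _ _ h => h⟩
  | cons a w ih =>
    obtain ⟨h1, h2, h3⟩ := ih hw.1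
    have hD := h1.mono (by omega) hw.2
    refine ⟨tw_in_T0 h1 hw.2 hi c, fun j k d hj hk => ?_, fun i' V e h => ?_⟩
    · rw [tww_cons, tw_eq hD (by omega) d hj hk, h2 j k d hj hk, MW_cons]; group
    · exact tw_in_other hD hi (by omega) (h3 i' V e h) e
lemma tww_in {w p g l i} (hw : DomI w p) (hg : In g l i p) (hi : i ∈ l) (c : l.length ≤ 30) :
    In (tww w l i g) l i (T0w w p) := (tww_spec hw hg hi c).1
lemma tww_eq {w p g l i j k} (hw : DomI w p) (hg : In g l i p) (hi : i ∈ l) (c : l.length ≤ 30)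
    (d : D3 i j k) (hj : j ∉ l) (hk : k ∉ l) : tww w l i g = MW w i j k * g * (MW w i j k)⁻¹ :=
  (tww_spec hw hg hi c).2.1 j k d hj hk
lemma tww_other {w p g l i i' V} (hw : DomI w p) (hg : In g l i p) (hi : i ∈ l) (c : l.length ≤ 30)
    (e : i' ≠ i) (h : In g l i' V) : In (tww w l i g) l i' V := (tww_spec hw hg hi c).2.2 i' V e h
lemma tww_mono {w p g l l' i} (hw : DomI w p) (hg : In g l i p) (hi : i ∈ l) (e : ∀ x ∈ l, x ∈ l')
    (c : l.length ≤ 30) (c' : l'.length ≤ 30) : tww w l' i g = tww w l i g := by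
  obtain ⟨j, k, d, h1, h2⟩ := ex_d3 i l' (by omega)
  rw [tww_eq hw (hg.mono_l e) (e _ hi) c' d h1 h2,
    tww_eq hw hg hi c d (fun q => h1 (e _ q)) (fun q => h2 (e _ q))]
lemma tww_fix {w g l l0 i} (h : Supp sheets g l0) (hi : i ∉ l0) (e : ∀ x ∈ l0, x ∈ l)
    (c : l.length ≤ 40) (c0 : l0.length ≤ 40) : tww w l i g = g := by
  induction w with
  | nil => rfl
  | cons a w ih => rw [tww_cons, ih, tw_fix h hi e c c0]
lemma tww_comm {w w' p p' g l i i'} (hw : DomI w p) (hw' : DomI w' p') (hg : In g l i p)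
    (hg' : In g l i' p') (hi : i ∈ l) (hi' : i' ∈ l) (hne : i' ≠ i) (c : l.length ≤ 30) :
    tww w l i (tww w' l i' g) = tww w' l i' (tww w l i g) := by
  obtain ⟨j, k, d, h1, h2⟩ := ex_d3 i l (by omega)
  obtain ⟨j', k', d', h3, h4⟩ := ex_d3 i' (j :: k :: l) (by simp; omega)
  simp only [List.mem_cons, not_or] at h3 h4
  rw [tww_eq hw (tww_other hw' hg' hi' c hne.symm hg) hi c d h1 h2,
    tww_eq hw' (tww_other hw hg hi c hne hg') hi' c d' h3.2.2 h4.2.2,
    tww_eq hw hg hi c d h1 h2, tww_eq hw' hg' hi' c d' h3.2.2 h4.2.2]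
  have := (MW_supp w d).commute (MW_supp w' d') (by
    have e1 : i ≠ j' := fun e => h3.2.2 (e ▸ hi)
    have e2 : i ≠ k' := fun e => h4.2.2 (e ▸ hi)
    have e3 : j ≠ i' := fun e => h1 (e ▸ hi')
    have e4 : k ≠ i' := fun e => h2 (e ▸ hi')
    simp [hne.symm, e1, e2, e3, e4, Ne.symm h3.1, Ne.symm h3.2.1, Ne.symm h4.1, Ne.symm h4.2.1])
    (by simp) (by simp)
  calc _ = (MW w i j k * MW w' i' j' k') * g * (MW w i j k * MW w' i' j' k')⁻¹ := by group
    _ = _ := by rw [this.eq]; group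

/-- twisting a standard cycle along three words -/
noncomputable def tw3 (p : ID) (A B C : Leg) : Gam :=
  tww A.1 [A.2, B.2, C.2] A.2 (tww B.1 [A.2, B.2, C.2] B.2 (tww C.1 [A.2, B.2, C.2] C.2
    (p.p A.2 B.2 C.2)))
lemma T0w_val {w p} (hw : DomI w p) {i j k} (d : D3 i j k) :
    (T0w w p).p i j k = tw3 p (w, i) (w, j) (w, k) := by
  induction w with
  | nil => rfl
  | cons a w ih =>
    have iv := in_val (le_refl p) d
    have da : DomI [a] (T0w w p) := ⟨trivial, hw.2⟩
    have c : [i, j, k].length ≤ 30 := by simp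
    have mi : i ∈ [i, j, k] := by simp
    have mj : j ∈ [i, j, k] := by simp
    have mk : k ∈ [i, j, k] := by simp
    have k1 := tww_in hw.1 (iv k) mk c
    have k2 := fun x (e : x ≠ k) => tww_other hw.1 (iv k) mk c e (iv x)
    have k3 := fun x (e : x ≠ k) => tww_other da k1 mk c e (k2 x e)
    have j1 := tww_in hw.1 (k3 j d.2.1) mj c
    have j2 := tww_other hw.1 (k3 j d.2.1) mj c d.1 (k3 i d.2.2)
    show (T0 a (T0w w p)).p i j k = _
    rw [T0_p hw.2]
    simp only [tr3, d, if_true, TW, List.foldr, ih hw.1, tw3, tww_cons]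
    congr 1
    change tww [a] _ j (tww [a] _ k (tww w [i, j, k] i (tww w [i, j, k] j (tww w [i, j, k] k
      (p.p i j k))))) = tww w _ i (tww [a] _ j (tww w _ j (tww [a] _ k (tww w [i, j, k] k (p.p i j k)))))
    rw [tww_comm da hw.1 (tww_other hw.1 (k2 j d.2.1) mj c d.2.1.symm k1)
        (tww_other hw.1 (k2 j d.2.1) mj c d.1 (k2 i d.2.2)) mk mi d.2.2 c,
      tww_comm da hw.1 k1 (k2 j d.2.1) mk mj d.2.1 c, tww_comm da hw.1 j1 j2 mj mi d.1 c]

lemma tww_local {C} (hC : IsLoc C) {w w' : Wd} (hl : w.length + w'.length ≤ 10)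
    (h : ∀ x, C x → wdom w x ∧ wdom w' x ∧ wact w x = wact w' x) {p g l i} (hp : Le p (phi C))
    (hw : DomI w p) (hw' : DomI w' p) (hg : In g l i p) (hi : i ∈ l) (c : l.length ≤ 30) :
    tww w l i g = tww w' l i g := by
  obtain ⟨j, k, d, h1, h2⟩ := ex_d3 i l (by omega)
  rw [tww_eq hw hg hi c d h1 h2, tww_eq hw' hg hi c d h1 h2]
  have := lemS hC (J := [j, k]) (((MW_short w' i j k).inv.mul (MW_short w i j k)).mono (by omega))
    (fun x hx => by
      simp only [map_mul, map_inv, Perm.mul_apply, pr_MW_app d (h x hx).1]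
      rw [Perm.inv_eq_iff_eq, pr_MW_app d (h x hx).2.1, (h x hx).2.2]) (fun z hz => by
      simp only [map_mul, map_inv, Perm.mul_apply]
      rw [pr_MW_fix d hz, Perm.inv_eq_iff_eq, pr_MW_fix d hz])
    (hg.mono (by omega) hp) (by simp [h1, h2]) (by simp [d.1, d.2.2]) (by omega) (by simp)
  calc _ = MW w' i j k * ((MW w' i j k)⁻¹ * MW w i j k * g) * (MW w i j k)⁻¹ := by group
    _ = _ := by rw [← this.eq]; group

/-- internal equivalence of two words over `p` -/
def WE (p : ID) (w w' : Wd) : Prop := DomI w p ∧ DomI w' p ∧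
  ∀ g l i, In g l i p → i ∈ l → l.length ≤ 30 → tww w l i g = tww w' l i g
lemma tw3_congr {p} {A B C A' B' C' : Wd} {i j k} (d : D3 i j k) (h1 : WE p A A') (h2 : WE p B B')
    (h3 : WE p C C') : tw3 p (A, i) (B, j) (C, k) = tw3 p (A', i) (B', j) (C', k) := by
  have iv := in_val (le_refl p) d
  have c : [i, j, k].length ≤ 30 := by simp
  have mj : j ∈ [i, j, k] := by simp
  have mk : k ∈ [i, j, k] := by simp
  have k2 := fun x (e : x ≠ k) => tww_other h3.2.1 (iv k) mk c e (iv x)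
  simp only [tw3]
  rw [h3.2.2 _ _ _ (iv k) mk c, h2.2.2 _ _ _ (k2 j d.2.1) mj c,
    h1.2.2 _ _ _ (tww_other h2.2.1 (k2 j d.2.1) mj c d.1 (k2 i d.2.2)) (by simp) c]
lemma WE.T0w {p w w'} (h : WE p w w') : T0w w p = T0w w' p :=
  ext' fun _ _ _ d => by rw [T0w_val h.1 d, T0w_val h.2.1 d, tw3_congr d h h h]
lemma WE.refl {p w} (h : DomI w p) : WE p w w := ⟨h, h, fun _ _ _ _ _ _ => rfl⟩
lemma WE.symm {p w w'} (h : WE p w w') : WE p w' w :=
  ⟨h.2.1, h.1, fun g l i a b c => (h.2.2 g l i a b c).symm⟩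
lemma WE.trans {p w w' w''} (h : WE p w w') (h' : WE p w' w'') : WE p w w'' :=
  ⟨h.1, h'.2.1, fun g l i a b c => (h.2.2 g l i a b c).trans (h'.2.2 g l i a b c)⟩
lemma T0w_append (w w' p) : T0w (w ++ w') p = T0w w (T0w w' p) := by
  induction w with
  | nil => rfl
  | cons a w ih => simp [T0w, ih]
lemma domI_append (w w' p) : DomI (w ++ w') p ↔ DomI w' p ∧ DomI w (T0w w' p) := by
  induction w with
  | nil => simp [DomI]
  | cons a w ih => simp [DomI, ih, T0w_append, and_assoc]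
lemma WE.append {p w w' u u'} (h : WE p w w') (h' : WE (P196.T0w w p) u u') :
    WE p (u ++ w) (u' ++ w') :=
  ⟨(domI_append _ _ _).2 ⟨h.1, h'.1⟩, (domI_append _ _ _).2 ⟨h.2.1, h.T0w ▸ h'.2.1⟩,
    fun g l i a b c => by
      rw [tww_append, tww_append, ← h.2.2 g l i a b c, h'.2.2 _ _ _ (tww_in h.1 a b c) b c]⟩
lemma we_local {C} (hC : IsLoc C) {w w' : Wd} (hl : w.length + w'.length ≤ 10)
    (h : ∀ x, C x → wdom w x ∧ wdom w' x ∧ wact w x = wact w' x) {p} (hp : Le p (phi C))
    (hw : DomI w p) (hw' : DomI w' p) : WE p w w' :=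
  ⟨hw, hw', fun _ _ _ a b c => tww_local hC hl h hp hw hw' a b c⟩
lemma T0_inv {a p} (h : Le p (dmI a)) : T0 a.inv (T0 a p) = p :=
  (we_local (isLoc_dom a) (w := [a.inv, a]) (w' := []) (by simp)
    (fun x hx => by simp [hx, Lt.dom_inv hx, Lt.act_inv hx]) h ⟨⟨trivial, h⟩, T0_le_ran h⟩ trivial).T0w
lemma domI_mono {w p q} (h : DomI w p) (e : Le q p) : DomI w q ∧ Le (T0w w q) (T0w w p) := by
  induction w with
  | nil => exact ⟨trivial, e⟩
  | cons a w ih => exact ⟨⟨(ih h.1).1, (ih h.1).2.trans h.2⟩, T0_mono h.2 (ih h.1).2⟩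

/-- total transport -/
noncomputable def TT (a : Lt) (p : ID) : ID := T0 a (meet p (dmI a))
lemma TT_le (a p) : Le (TT a p) (dmI a.inv) := T0_le_ran (meet_le_right _ _)
lemma TT_of_le {a p} (h : Le p (dmI a)) : TT a p = T0 a p := by rw [TT, meet_of_le h]
lemma compat_meet_meet {p q D : ID} (h : Compat p q) (hp : Compat p D) (hq : Compat q D) :
    Compat (meet p D) (meet q D) :=
  (hq.meet_left (hp.meet_left h hq.symm).symm (compat_of_le (meet_le_right _ _)).symm).symm
lemma meet_meet {p q D : ID} (h : Compat p q) (hp : Compat p D) (hq : Compat q D) :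
    meet (meet p q) D = meet (meet p D) (meet q D) := by
  have c1 := h.meet_left hp hq
  have c2 := compat_meet_meet h hp hq
  refine le_antisymm (c2.le_meet (hp.le_meet ((meet_le_left _ _).trans (meet_le_left _ _))
    (meet_le_right _ _)) (hq.le_meet ((meet_le_left _ _).trans (meet_le_right _ _))
    (meet_le_right _ _))) (c1.le_meet (h.le_meet ((meet_le_left _ _).trans (meet_le_left _ _))
    ((meet_le_right _ _).trans (meet_le_left _ _))) ((meet_le_left _ _).trans (meet_le_right _ _)))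
lemma TT_isMeet {a} {p q : ID} (h : Compat p q) (hp : Compat p (dmI a)) (hq : Compat q (dmI a)) :
    IsMeet (TT a (meet p q)) (TT a p) (TT a q) := by
  rw [TT, meet_meet h hp hq]
  exact T0_isMeet (meet_le_right _ _) (meet_le_right _ _) (compat_meet_meet h hp hq).isMeet
lemma TT_compat {a} {p q : ID} (h : Compat p q) (hp : Compat p (dmI a)) (hq : Compat q (dmI a)) :
    Compat (TT a p) (TT a q) := ⟨_, TT_isMeet h hp hq⟩
lemma TT_meet {a} {p q : ID} (h : Compat p q) (hp : Compat p (dmI a)) (hq : Compat q (dmI a)) :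
    TT a (meet p q) = meet (TT a p) (TT a q) := (TT_isMeet h hp hq).eq.symm
lemma TT_compl {a} {p : ID} (hp : Compat p (dmI a)) :
    TT a p.compl = meet (dmI a.inv) (TT a p).compl := by
  rw [TT, meet_comm, hp.symm.meet_compl, T0_sub (le_refl _) (meet_le_left _ _), T0_dm,
    sub_eq_meet (T0_le_ran (meet_le_left _ _)), TT, meet_comm p]
lemma TT_inv (a p) : TT a.inv (TT a p) = meet p (dmI a) := by
  rw [TT_of_le (TT_le a p), TT, T0_inv (meet_le_right _ _)]
lemma TT_top (a) : TT a (top FF) = dmI a.inv := by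
  rw [TT, meet_comm, meet_of_le (le_top _), T0_dm]
lemma TT_mono {a p q} (hp : Compat p (dmI a)) (h : Le q p) : Le (TT a q) (TT a p) :=
  T0_mono (meet_le_right _ _) (hp.le_meet ((meet_le_left _ _).trans h) (meet_le_right _ _))
lemma TT_perp {a p q} (h : Perp p q) : Perp (TT a p) (TT a q) :=
  (T0_perp_iff (meet_le_right _ _) (meet_le_right _ _)).2
    ((h.mono (meet_le_left _ _)).mono_left (meet_le_left _ _))
lemma TT_meet_dm {a p} : TT a (meet p (dmI a)) = TT a p := TT_of_le (meet_le_right _ _)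
lemma TT_phi {a U V} (hU : IsLoc U) (hV : IsLoc V) (e : ∀ y, V y ↔ a.inv.dom y ∧ U (a.inv.act y)) :
    TT a (phi U) = phi V := by
  rw [TT, dmI, phi_meet hU (isLoc_dom a)]
  refine T0_phi (hU.and (isLoc_dom a)) hV (fun _ h => h.2) fun y => ?_
  rw [e]
  exact ⟨fun h => ⟨h.1, h.2, by simpa using Lt.dom_inv h.1⟩, fun h => ⟨h.1, h.2.1⟩⟩

end Vale.Agent.P196
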